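import Vale.Agent.P300.Basic

/-! Topology of the projectivisation of a cone. -/

namespace Vale.Agent.P300

open Topology Filter Set Complex

variable {N : ℕ} {C : Set (Fin N → ℂ)}

theorem Par.refl {ι : Type} (v : ι → ℂ) : Par v v := ⟨1, one_ne_zero, (one_smul _ _).symm⟩

theorem Par.symm {ι : Type} {v w : ι → ℂ} (h : Par v w) : Par w v := by
  obtain ⟨c, hc, h⟩ := h
  exact ⟨c⁻¹, inv_ne_zero hc, by rw [h, inv_smul_smul₀ hc]⟩

theorem Par.trans {ι : Type} {u v w : ι → ℂ} (h : Par u v) (h' : Par v w) : Par u w := by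
  obtain ⟨c, hc, h⟩ := h
  obtain ⟨d, hd, h'⟩ := h'
  exact ⟨d * c, mul_ne_zero hd hc, by rw [h', h, mul_smul]⟩

theorem pt_eq_iff {v w : Fin N → ℂ} (hv : v ∈ C) (hw : w ∈ C) : pt v hv = pt w hw ↔ Par v w :=
  Quotient.eq

theorem rep_pt {v : Fin N → ℂ} (hv : v ∈ C) : Rep (pt v hv) v := ⟨hv, rfl⟩

theorem exists_rep (ξ : Pj C) : ∃ v, Rep ξ v := by
  obtain ⟨⟨v, hv⟩, rfl⟩ := Quotient.exists_rep ξ
  exact ⟨v, hv, rfl⟩

theorem Rep.mem {ξ : Pj C} {v : Fin N → ℂ} (h : Rep ξ v) : v ∈ C := h.1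

theorem Rep.par {ξ : Pj C} {v w : Fin N → ℂ} (h : Rep ξ v) (h' : Rep ξ w) : Par v w :=
  (pt_eq_iff h.1 h'.1).1 (h.2.symm.trans h'.2)

theorem Rep.eq {ξ η : Pj C} {v : Fin N → ℂ} (h : Rep ξ v) (h' : Rep η v) : ξ = η :=
  h.2.trans h'.2.symm

theorem Rep.of_par_mem {ξ : Pj C} {v w : Fin N → ℂ} (h : Rep ξ v) (hw : w ∈ C)
    (hp : Par v w) : Rep ξ w :=
  ⟨hw, h.2.trans ((pt_eq_iff h.1 hw).2 hp)⟩

theorem Rep.of_par (hC : IsCone C) {ξ : Pj C} {v w : Fin N → ℂ} (h : Rep ξ v)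
    (hp : Par v w) : Rep ξ w := by
  obtain ⟨c, hc, rfl⟩ := hp
  exact h.of_par_mem (hC.smul v h.1 c hc) ⟨c, hc, rfl⟩

theorem Rep.eq_of_par {ξ η : Pj C} {v w : Fin N → ℂ} (h : Rep ξ v) (h' : Rep η w)
    (hp : Par v w) : ξ = η :=
  (h.of_par_mem h'.1 hp).eq h'

theorem Rep.rat_eq {ξ : Pj C} {v : Fin N → ℂ} (h : Rep ξ v) (i j : Fin N) :
    rat i j ξ = v i / v j := by
  obtain ⟨hv, rfl⟩ := h
  rfl

theorem Rep.nrm_eq {ξ : Pj C} {v : Fin N → ℂ} (h : Rep ξ v) (j : Fin N) :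
    nrm j ξ = (v j)⁻¹ • v := by
  funext i
  simp [nrm, h.rat_eq, div_eq_inv_mul]

theorem Rep.rep_nrm (hC : IsCone C) {ξ : Pj C} {v : Fin N → ℂ} (h : Rep ξ v) {j : Fin N}
    (hj : v j ≠ 0) : Rep ξ (nrm j ξ) :=
  h.of_par hC ⟨(v j)⁻¹, inv_ne_zero hj, h.nrm_eq j⟩

theorem continuous_mkPj : Continuous (fun v : C => (Quotient.mk (propSetoid C) v : Pj C)) :=
  continuous_quotient_mk'

theorem isOpenMap_mkPj (hC : IsCone C) :
    IsOpenMap (fun v : C => (Quotient.mk (propSetoid C) v : Pj C)) := by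
  intro V hV
  rw [← (isQuotientMap_quotient_mk' (s := propSetoid C)).isOpen_preimage]
  change IsOpen ((fun v : C => (Quotient.mk (propSetoid C) v : Pj C)) ⁻¹' _)
  have : ((fun v : C => (Quotient.mk (propSetoid C) v : Pj C)) ⁻¹'
      ((fun v : C => (Quotient.mk (propSetoid C) v : Pj C)) '' V) : Set C) =
      ⋃ c : {c : ℂ // c ≠ 0}, (fun v : C => (⟨c.1 • v.1, hC.smul _ v.2 _ c.2⟩ : C)) ⁻¹' V := by
    ext v
    simp only [mem_preimage, mem_image, mem_iUnion]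
    constructor
    · rintro ⟨w, hw, h⟩
      obtain ⟨c, hc, h⟩ := Quotient.exact h.symm
      exact ⟨⟨c, hc⟩, by simpa only [← h] using hw⟩
    · rintro ⟨c, hc⟩
      exact ⟨_, hc, (Quotient.sound ⟨c.1, c.2, rfl⟩ : Quotient.mk (propSetoid C) v = _).symm⟩
  rw [this]
  exact isOpen_iUnion fun c => hV.preimage (by fun_prop)

theorem proj_oq (hC : IsCone C) :
    IsOpenQuotientMap (fun v : C => (Quotient.mk (propSetoid C) v : Pj C)) :=
  ⟨Quotient.mk_surjective, continuous_mkPj, isOpenMap_mkPj hC⟩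

theorem proj_co (i : Fin N) : Continuous fun v : C => v.1 i :=
  (continuous_apply i).comp continuous_subtype_val

theorem proj_ne {ξ : Pj C} {v : Fin N → ℂ} (h : Rep ξ v) {j : Fin N} (hξ : rat j j ξ ≠ 0) :
    v j ≠ 0 := fun h0 => hξ (by rw [h.rat_eq, h0, div_zero])

theorem t2_Pj (hC : IsCone C) : T2Space (Pj C) := by
  rw [t2Space_iff_of_isOpenQuotientMap (proj_oq hC)]
  have : {q : C × C | (Quotient.mk (propSetoid C) q.1 : Pj C) = Quotient.mk (propSetoid C) q.2} =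
      ⋂ i, ⋂ j, {q : C × C | q.1.1 i * q.2.1 j = q.1.1 j * q.2.1 i} := by
    ext ⟨v, w⟩
    simp only [mem_iInter, mem_ofPred_eq]
    constructor
    · intro h i j
      obtain ⟨c, -, h⟩ := Quotient.exact h
      simp only [h, Pi.smul_apply, smul_eq_mul]
      ring
    · intro h
      obtain ⟨j, hj⟩ := Function.ne_iff.1 (hC.ne_zero _ v.2)
      have hj' : v.1 j ≠ 0 := hj
      have e : w.1 = (w.1 j / v.1 j) • v.1 := by
        funext i
        simp only [Pi.smul_apply, smul_eq_mul]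
        field_simp
        linear_combination h j i
      refine Quotient.sound ⟨w.1 j / v.1 j, fun h0 => hC.ne_zero _ w.2 ?_, e⟩
      rw [e, h0, zero_smul]
  rw [this]
  exact isClosed_iInter fun i => isClosed_iInter fun j => isClosed_eq
    (((proj_co i).comp continuous_fst).mul ((proj_co j).comp continuous_snd))
    (((proj_co j).comp continuous_fst).mul ((proj_co i).comp continuous_snd))

theorem compact_Pj (hC : IsCone C) : CompactSpace (Pj C) := by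
  have h1 : IsCompact {v : C | ‖v.1‖ = 1} := by
    rw [Subtype.isCompact_iff]
    have : Subtype.val '' {v : C | ‖v.1‖ = 1} = Metric.sphere 0 1 ∩ insert 0 C := by
      ext v
      simp only [mem_image, mem_ofPred_eq, Subtype.exists, exists_and_right, exists_eq_right,
        mem_inter_iff, mem_sphere_zero_iff_norm, mem_insert_iff]
      constructor
      · rintro ⟨h, h'⟩
        exact ⟨h', Or.inr h⟩
      · rintro ⟨h, rfl | h'⟩
        · simp at h
        · exact ⟨h', h⟩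
    rw [this]
    exact (isCompact_sphere 0 1).inter_right hC.closed
  refine ⟨(h1.image continuous_mkPj).of_isClosed_subset ?_ fun ξ _ => ?_⟩
  · exact isClosed_univ
  · obtain ⟨v, hv, rfl⟩ := exists_rep ξ
    have h0 : ‖v‖ ≠ 0 := norm_ne_zero_iff.2 (hC.ne_zero v hv)
    have h2 : ((‖v‖ : ℂ))⁻¹ ≠ 0 := inv_ne_zero (by exact_mod_cast h0)
    refine ⟨⟨((‖v‖ : ℂ))⁻¹ • v, hC.smul v hv _ h2⟩, ?_, ((pt_eq_iff hv _).2 ⟨_, h2, rfl⟩).symm⟩
    simp [norm_smul, h0]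

theorem Rep.continuousAt_rat (hC : IsCone C) {ξ : Pj C} {v : Fin N → ℂ} (h : Rep ξ v)
    (i : Fin N) {j : Fin N} (hj : v j ≠ 0) : ContinuousAt (rat i j : Pj C → ℂ) ξ := by
  obtain ⟨hv, rfl⟩ := h
  refine ((proj_oq hC).continuousAt_comp_iff (x := ⟨v, hv⟩)).1 ?_
  exact ContinuousAt.div (proj_co i).continuousAt (proj_co j).continuousAt hj

theorem Rep.continuousAt_nrm (hC : IsCone C) {ξ : Pj C} {v : Fin N → ℂ} (h : Rep ξ v)
    {j : Fin N} (hj : v j ≠ 0) : ContinuousAt (nrm j : Pj C → Fin N → ℂ) ξ := by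
  exact continuousAt_pi.2 fun i => h.continuousAt_rat hC i hj

/-- The set where the coordinate `j` does not vanish is open. -/
theorem isOpen_rat_ne (hC : IsCone C) (j : Fin N) : IsOpen {ξ : Pj C | rat j j ξ ≠ 0} := by
  refine isOpen_iff_mem_nhds.2 fun ξ hξ => ?_
  obtain ⟨v, hv⟩ := exists_rep ξ
  exact (hv.continuousAt_rat hC j (proj_ne hv hξ)).eventually_ne hξ

theorem proj_ev (hC : IsCone C) {ξ : Pj C} {v : Fin N → ℂ} (h : Rep ξ v) {j : Fin N}
    (hj : v j ≠ 0) : ∀ᶠ η in 𝓝 ξ, ∃ w, Rep η w ∧ w j ≠ 0 := by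
  have h1 : rat j j ξ ≠ 0 := by
    rw [h.rat_eq, div_self hj]
    exact one_ne_zero
  filter_upwards [(isOpen_rat_ne hC j).mem_nhds h1] with η hη
  obtain ⟨w, hw⟩ := exists_rep η
  exact ⟨w, hw, proj_ne hw hη⟩

theorem Rep.eventually_rep_nrm (hC : IsCone C) {ξ : Pj C} {v : Fin N → ℂ} (h : Rep ξ v)
    {j : Fin N} (hj : v j ≠ 0) : ∀ᶠ η in 𝓝 ξ, Rep η (nrm j η) ∧ nrm j η j = 1 := by
  filter_upwards [proj_ev hC h hj] with η ⟨w, hw, hwj⟩
  exact ⟨hw.rep_nrm hC hwj, by rw [nrm, hw.rat_eq, div_self hwj]⟩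

/-- A local continuous choice of coordinates through a given coordinate vector. -/
theorem Rep.exists_sec (hC : IsCone C) {ξ : Pj C} {v : Fin N → ℂ} (h : Rep ξ v) :
    ∃ j, v j ≠ 0 ∧ CNear (fun η : Pj C => v j • nrm j η) ξ ∧ v j • nrm j ξ = v ∧
      ∀ᶠ η in 𝓝 ξ, Rep η (v j • nrm j η) := by
  obtain ⟨j, hj⟩ := Function.ne_iff.1 (hC.ne_zero v h.1)
  have hj' : v j ≠ 0 := hj
  refine ⟨j, hj', ?_, by rw [h.nrm_eq, smul_inv_smul₀ hj'], ?_⟩
  · filter_upwards [proj_ev hC h hj'] with η ⟨w, hw, hwj⟩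
    exact (hw.continuousAt_nrm hC hwj).const_smul (v j)
  · filter_upwards [h.eventually_rep_nrm hC hj'] with η hη
    exact hη.1.of_par hC ⟨_, hj', rfl⟩

/-- A map to `Pj C` given locally by continuous coordinates is continuous. -/
theorem continuousAt_of_rep {Z : Type} [TopologicalSpace Z] {g : Z → Pj C} {f : Z → Fin N → ℂ}
    {z : Z} (hf : ContinuousAt f z) (hg : ∀ᶠ y in 𝓝 z, Rep (g y) (f y)) : ContinuousAt g z := by
  classical
  have h0 := hg.self_of_nhds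
  let f' : Z → C := fun y => if h : f y ∈ C then ⟨f y, h⟩ else ⟨f z, h0.1⟩
  have h1 : ContinuousAt f' z := by
    rw [ContinuousAt, tendsto_subtype_rng]
    have e : (f' z).1 = f z := by simp only [f', dif_pos h0.1]
    rw [e]
    refine Tendsto.congr' ?_ hf
    filter_upwards [hg] with y hy
    simp only [f', dif_pos hy.1]
  refine (continuous_mkPj.continuousAt.comp h1).congr ?_
  filter_upwards [hg] with y hy
  simp only [Function.comp, f', dif_pos hy.1]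
  exact hy.2.symm

/-- A homogeneous continuous map of cones descends. -/
theorem exists_pmap (hC : IsCone C) {n : ℕ} {C' : Set (Fin n → ℂ)}
    (F : (Fin N → ℂ) → (Fin n → ℂ)) (hF : Continuous F) (hm : MapsTo F C C')
    (hp : ∀ v ∈ C, ∀ w, Par v w → Par (F v) (F w)) :
    ∃ f : Pj C → Pj C', Continuous f ∧ ∀ ξ v, Rep ξ v → Rep (f ξ) (F v) := by
  refine ⟨Quotient.lift (fun v : C => pt (F v) (hm v.2)) fun v w h =>
    (pt_eq_iff _ _).2 (hp v v.2 w h), ?_, ?_⟩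
  · exact Continuous.quotient_lift (continuous_mkPj.comp
      ((hF.comp continuous_subtype_val).subtype_mk _)) _
  · rintro _ v ⟨hv, rfl⟩
    exact ⟨hm hv, rfl⟩

theorem isCone_CF : IsCone CF := by
  refine ⟨fun v hv => hv.1, fun v hv c hc => ⟨smul_ne_zero hc hv.1, ?_⟩, ?_⟩
  · simp only [Pi.smul_apply, smul_eq_mul]
    linear_combination c ^ 4 * hv.2
  · have : insert 0 CF = {v : Fin 3 → ℂ | v 0 ^ 4 = v 1 ^ 4 + v 2 ^ 4} := by
      ext v
      by_cases h : v = 0 <;> simp [CF, h]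
    rw [this]
    exact isClosed_eq (by fun_prop) (by fun_prop)

theorem isCone_CB : IsCone CB := by
  refine ⟨fun v hv => hv.1, fun v hv c hc => ⟨smul_ne_zero hc hv.1, ?_, ?_⟩, ?_⟩
  · have := hv.2.1
    simp only [Pi.smul_apply, smul_eq_mul, mm, mz] at this ⊢
    linear_combination c ^ 4 * this
  · have := hv.2.2
    simp only [Pi.smul_apply, smul_eq_mul, mm, mz] at this ⊢
    linear_combination c ^ 4 * this
  · have : insert 0 CB = {p : Fin 4 → ℂ | p 1 ^ 4 = mm p - I * mz p} ∩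
        {p | p 3 ^ 4 = mm p + I * mz p} := by
      ext v
      by_cases h : v = 0 <;> simp [CB, h, mm, mz]
    rw [this]
    unfold mm mz
    exact (isClosed_eq (by fun_prop) (by fun_prop)).inter (isClosed_eq (by fun_prop) (by fun_prop))

/-- Maps from a presented cone descend. -/
theorem Pres.desc {V : Type} [Fintype V] {M : Set (V → ℂ)} {Orb : (V → ℂ) → (V → ℂ) → Prop}
    {Ψ : (V → ℂ) → (Fin N → ℂ)} (h : Pres M Orb C Ψ) {n : ℕ} {C' : Set (Fin n → ℂ)}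
    (F : (V → ℂ) → (Fin n → ℂ)) (hF : Continuous F) (hm : MapsTo F M C')
    (hp : ∀ z ∈ M, ∀ z', Orb z z' → Par (F z) (F z')) :
    ∃ f : Pj C → Pj C', Continuous f ∧ ∀ ξ, ∀ z ∈ M, Rep ξ (Ψ z) → Rep (f ξ) (F z) := by
  have h0 : ∀ ξ : Pj C, ∃ z ∈ M, Rep ξ (Ψ z) := fun ξ => by
    obtain ⟨v, hv⟩ := Vale.Agent.P300.exists_rep ξ
    obtain ⟨z, hz, hp⟩ := h.surj v hv.1
    exact ⟨z, hz, hv.of_par h.cone hp.symm⟩
  choose z hz hr using h0
  have key : ∀ ξ, ∀ y ∈ M, Rep ξ (Ψ y) → Rep (pt (F (z ξ)) (hm (hz ξ))) (F y) := fun ξ y hy hξ =>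
    (rep_pt _).of_par_mem (hm hy) (hp _ (hz ξ) _ (h.fib _ (hz ξ) _ hy ((hr ξ).par hξ)))
  refine ⟨fun ξ => pt (F (z ξ)) (hm (hz ξ)), continuous_iff_continuousAt.2 fun ξ => ?_, key⟩
  obtain ⟨σ, s1, -, s3⟩ := h.sec _ (hz ξ)
  obtain ⟨j, -, c1, c2, c3⟩ := (hr ξ).exists_sec h.cone
  have c4 := c1.self_of_nhds
  rw [← c2] at s1 s3
  refine continuousAt_of_rep (f := fun η => F (σ (Ψ (z ξ) j • nrm j η)))
    (hF.continuousAt.comp (s1.continuousAt.comp (f := fun η => Ψ (z ξ) j • nrm j η) c4)) ?_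
  filter_upwards [c3, c4.tendsto.eventually s3] with η e1 e2
  obtain ⟨e3, e4⟩ := e2 e1.1
  exact key η _ e3 (e1.of_par h.cone e4.symm)

theorem Pres.exists_rep {V : Type} [Fintype V] {M : Set (V → ℂ)}
    {Orb : (V → ℂ) → (V → ℂ) → Prop} {Ψ : (V → ℂ) → (Fin N → ℂ)} (h : Pres M Orb C Ψ)
    (ξ : Pj C) : ∃ z ∈ M, Rep ξ (Ψ z) := by
  obtain ⟨v, hv⟩ := Vale.Agent.P300.exists_rep ξ
  obtain ⟨z, hz, hp⟩ := h.surj v hv.1
  exact ⟨z, hz, hv.of_par h.cone hp.symm⟩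

end Vale.Agent.P300
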