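import Vale.Agent.P300.Basic

/-! Local holomorphic retracts and submanifolds. -/

namespace Vale.Agent.P300

open Topology Filter Set Complex

/-- The analytic inverse function theorem for a map tangent to the identity. -/
theorem retr_inv {F : Type} [NormedAddCommGroup F] [NormedSpace ℂ F] [FiniteDimensional ℂ F]
    {H : F → F} {v : F} (h : AnalyticAt ℂ H v)
    (h' : HasFDerivAt H (ContinuousLinearMap.id ℂ F) v) (hv : H v = v) :
    ∃ G : F → F, AnalyticAt ℂ G v ∧ G v = v ∧ (∀ᶠ u in 𝓝 v, G (H u) = u) ∧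
      ∀ᶠ w in 𝓝 v, H (G w) = w := by
  have := FiniteDimensional.complete ℂ F
  have h1 : fderiv ℂ H v = (ContinuousLinearEquiv.refl ℂ F : F →L[ℂ] F) := h'.fderiv
  have h2 : HasStrictFDerivAt H (ContinuousLinearEquiv.refl ℂ F : F →L[ℂ] F) v :=
    h1 ▸ h.hasStrictFDerivAt
  refine ⟨h2.localInverse H _ v, ?_, ?_, h2.eventually_left_inverse, ?_⟩
  · have h3 := (h2.toOpenPartialHomeomorph H).analyticAt_symm'
      h2.mem_toOpenPartialHomeomorph_source h h1
    rwa [h2.toOpenPartialHomeomorph_coe, hv] at h3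
  · have h3 := h2.localInverse_apply_image
    rwa [hv] at h3
  · have h3 := h2.eventually_right_inverse
    rwa [hv] at h3

/-- The zero set of a submersion is a local holomorphic retract. -/
theorem retr_of_submersion {F G : Type} [NormedAddCommGroup F] [NormedSpace ℂ F]
    [FiniteDimensional ℂ F] [NormedAddCommGroup G] [NormedSpace ℂ G] [FiniteDimensional ℂ G]
    {C : Set F} {v : F} {f : F → G} (hf : AnalyticAt ℂ f v)
    (hs : Function.Surjective (fderiv ℂ f v)) (hv : f v = 0)
    (hC : ∀ᶠ u in 𝓝 v, (u ∈ C ↔ f u = 0)) : Retr C v := by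
  have hd := hf.differentiableAt.hasFDerivAt
  generalize fderiv ℂ f v = A at hs hd
  obtain ⟨s₀, hs₀⟩ := (A : F →ₗ[ℂ] G).exists_rightInverse_of_surjective
    (LinearMap.range_eq_top.2 hs)
  obtain ⟨s, hAs⟩ : ∃ s : G →L[ℂ] F, ∀ x, A (s x) = x :=
    ⟨LinearMap.toContinuousLinearMap s₀, fun x => LinearMap.congr_fun hs₀ x⟩
  let H : F → F := fun u => u + s (f u - A (u - v))
  have h1 : AnalyticAt ℂ H v := analyticAt_id.add ((s.analyticAt _).comp
    (hf.sub ((A.analyticAt _).comp (analyticAt_id.sub analyticAt_const))))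
  have h2 : HasFDerivAt H (ContinuousLinearMap.id ℂ F) v := by
    have h3 := (hasFDerivAt_id v).add (s.hasFDerivAt.comp v
      (hd.sub (A.hasFDerivAt.comp v ((hasFDerivAt_id v).sub_const v))))
    exact h3.congr_fderiv (by simp)
  have h3 : H v = v := by simp [H, hv]
  have h4 : ∀ u, A (H u - v) = f u := fun u => by
    rw [show H u - v = u - v + s (f u - A (u - v)) by simp only [H]; abel, map_add, hAs,
      add_sub_cancel]
  obtain ⟨K, k1, k2, k3, k4⟩ := retr_inv h1 h2 h3
  have h5 : AnalyticAt ℂ (fun u => H u - s (f u)) v := h1.sub ((s.analyticAt _).comp hf)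
  have h6 : H v - s (f v) = v := by rw [hv, map_zero, sub_zero, h3]
  have h7 : Tendsto (fun u => H u - s (f u)) (𝓝 v) (𝓝 v) := by
    have := h5.continuousAt.tendsto
    rwa [h6] at this
  have h8 : Tendsto K (𝓝 v) (𝓝 v) := by
    have := k1.continuousAt.tendsto
    rwa [k2] at this
  refine ⟨fun u => K (H u - s (f u)), k1.comp_of_eq h5 h6, ?_, ?_⟩
  · filter_upwards [h7.eventually k4, (h8.comp h7).eventually hC] with u a1 a2
    refine a2.2 ?_
    rw [Function.comp_apply, ← h4, a1, sub_right_comm, map_sub, h4, hAs, sub_self]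
  · filter_upwards [k3, hC] with u a1 a2 a3
    rw [a2.1 a3, map_zero, sub_zero, a1]

/-- A local holomorphic retract is a submanifold. -/
theorem submanifold_of_retr {N : ℕ} {C : Set (Fin N → ℂ)} {v : Fin N → ℂ} (hv : v ∈ C)
    (h : Retr C v) : IsSubmanifoldAt C v := by
  obtain ⟨R, hR, h1, h2⟩ := h
  have hRv : R v = v := h2.self_of_nhds hv
  have hT : Tendsto R (𝓝 v) (𝓝 v) := by
    have := hR.continuousAt.tendsto
    rwa [hRv] at this
  have hRR : ∀ᶠ u in 𝓝 v, R (R u) = R u := by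
    filter_upwards [h1, hT.eventually h2] with u a1 a2 using a2 a1
  have hd := hR.differentiableAt.hasFDerivAt
  generalize fderiv ℂ R v = A at hd
  have hAA : ∀ x, A (A x) = A x := by
    have h3 : HasFDerivAt R A (R v) := by rwa [hRv]
    have h4 := ((h3.comp v hd).congr_of_eventuallyEq (EventuallyEq.symm hRR)).unique hd
    exact fun x => DFunLike.congr_fun h4 x
  let B : (Fin N → ℂ) →L[ℂ] (Fin N → ℂ) := A + A - ContinuousLinearMap.id ℂ _
  have hB : ∀ x, B x = A x + A x - x := fun _ => rfl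
  let H : (Fin N → ℂ) → (Fin N → ℂ) := fun u => u + B (R u - v - A (u - v))
  have h3 : AnalyticAt ℂ H v := analyticAt_id.add ((B.analyticAt _).comp
    ((hR.sub analyticAt_const).sub ((A.analyticAt _).comp (analyticAt_id.sub analyticAt_const))))
  have h4 : HasFDerivAt H (ContinuousLinearMap.id ℂ _) v := by
    have h5 := (hasFDerivAt_id v).add (B.hasFDerivAt.comp v
      ((hd.sub_const v).sub (A.hasFDerivAt.comp v ((hasFDerivAt_id v).sub_const v))))
    exact h5.congr_fderiv (by simp)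
  have h5 : H v = v := by simp [H, hRv]
  have h6 : ∀ u, R (R u) = R u → H (R u) - v = A (H u - v) := fun u hu => by
    have e1 : H (R u) - v = R u - v + B (R u - v - A (R u - v)) := by simp only [H, hu]; abel
    have e2 : H u - v = u - v + B (R u - v - A (u - v)) := by simp only [H]; abel
    rw [e1, e2]
    generalize R u - v = w
    generalize u - v = w'
    simp only [hB, map_add, map_sub, hAA]
    abel
  obtain ⟨K, -, -, k3, -⟩ := retr_inv h3 h4 h5
  let D : (Fin N → ℂ) →ₗ[ℂ] (Fin N → ℂ) := LinearMap.id - (A : (Fin N → ℂ) →ₗ[ℂ] (Fin N → ℂ))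
  obtain ⟨k, L, l1, l2⟩ : ∃ (k : ℕ) (L : (Fin N → ℂ) →L[ℂ] (Fin k → ℂ)), Function.Surjective L ∧
      ∀ x, L x = 0 ↔ x = A x := by
    refine ⟨_, LinearMap.toContinuousLinearMap
      ((Module.finBasis ℂ (LinearMap.range D)).equivFun.toLinearMap ∘ₗ D.rangeRestrict),
      (Module.finBasis ℂ (LinearMap.range D)).equivFun.surjective.comp
        D.surjective_rangeRestrict, fun x => ?_⟩
    rw [← sub_eq_zero (a := x)]
    exact ((Module.finBasis ℂ (LinearMap.range D)).equivFun.map_eq_zero_iff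
      (x := D.rangeRestrict x)).trans Subtype.ext_iff
  refine ⟨k, fun u => L (H u - v), (L.analyticAt _).comp (h3.sub analyticAt_const), ?_, ?_⟩
  · have h7 : HasFDerivAt (fun u => L (H u - v)) L v := by
      simpa using L.hasFDerivAt.comp v (h4.sub_const v)
    rwa [h7.fderiv]
  · filter_upwards [h1, h2, hRR, k3, hT.eventually k3] with u a1 a2 a3 a4 a5
    rw [l2, ← h6 u a3, sub_left_inj]
    constructor
    · intro a6
      rw [a2 a6]
    · intro a6
      rwa [← a4, a6, a5]

/-- A linear map to `ℂ ^ k` that is injective on a coordinate subspace of dimension `k` is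
surjective. -/
theorem surj_of_support {V : Type} [Fintype V] [DecidableEq V] {k : ℕ}
    (L : (V → ℂ) →L[ℂ] (Fin k → ℂ)) (J : Finset V) (hJ : J.card = k)
    (h : ∀ δ : V → ℂ, (∀ i, i ∉ J → δ i = 0) → L δ = 0 → δ = 0) : Function.Surjective L := by
  let e : (J → ℂ) →ₗ[ℂ] (V → ℂ) :=
    LinearMap.pi fun i => if hi : i ∈ J then LinearMap.proj ⟨i, hi⟩ else 0
  have h1 : Function.Injective ((L : (V → ℂ) →ₗ[ℂ] (Fin k → ℂ)) ∘ₗ e) := by
    rw [injective_iff_map_eq_zero]
    intro x hx
    have h2 := h (e x) (fun i hi => by simp [e, hi]) hx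
    funext j
    simpa [e] using congrFun h2 j.1
  rw [LinearMap.injective_iff_surjective_of_finrank_eq_finrank (by simp [hJ])] at h1
  exact Function.Surjective.of_comp h1

/-- The divided difference of an analytic function. -/
theorem exists_divdiff {Ξ : ℂ → ℂ} {a : ℂ} (h : AnalyticAt ℂ Ξ a) :
    ∃ Δ : ℂ × ℂ → ℂ, CNear Δ (a, a) ∧ Δ (a, a) = deriv Ξ a ∧
      ∀ᶠ q : ℂ × ℂ in 𝓝 (a, a), Ξ q.1 - Ξ q.2 = Δ q * (q.1 - q.2) := by
  classical
  refine ⟨fun q => if q.1 = q.2 then deriv Ξ q.1 else (Ξ q.1 - Ξ q.2) / (q.1 - q.2), ?_, by simp,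
    Eventually.of_forall fun q => ?_⟩
  · filter_upwards [(continuousAt_fst (p := (a, a))).tendsto.eventually h.eventually_analyticAt,
      (continuousAt_snd (p := (a, a))).tendsto.eventually h.eventually_analyticAt] with q h1 h2
    obtain ⟨b, c⟩ := q
    rcases eq_or_ne b c with rfl | hbc
    · rw [ContinuousAt, if_pos rfl, Metric.tendsto_nhds]
      intro ε hε
      have h3 := h1.hasStrictDerivAt.hasStrictFDerivAt.isLittleO.def (half_pos hε)
      have h4 := Metric.tendsto_nhds.1
        (h1.deriv.continuousAt.tendsto.comp (continuousAt_fst (p := (b, b))).tendsto) ε hε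
      filter_upwards [h3, h4] with q h5 h6
      split_ifs with h7
      · exact h6
      · have h8 : q.1 - q.2 ≠ 0 := sub_ne_zero.2 h7
        rw [dist_eq_norm, div_sub' h8, norm_div, div_lt_iff₀ (norm_pos_iff.2 h8)]
        refine lt_of_le_of_lt ?_ (mul_lt_mul_of_pos_right (half_lt_self hε) (norm_pos_iff.2 h8))
        simpa using h5
    · have h3 : ContinuousAt (fun q : ℂ × ℂ => (Ξ q.1 - Ξ q.2) / (q.1 - q.2)) (b, c) :=
        ((h1.continuousAt.comp continuousAt_fst).sub (h2.continuousAt.comp continuousAt_snd)).div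
          (continuousAt_fst.sub continuousAt_snd) (sub_ne_zero.2 hbc)
      refine h3.congr ?_
      filter_upwards [(isOpen_ne_fun continuous_fst continuous_snd).mem_nhds
        (show ((b, c) : ℂ × ℂ) ∈ {q : ℂ × ℂ | q.1 ≠ q.2} from hbc)] with q hq
      rw [if_neg hq]
  · beta_reduce
    split_ifs with h1
    · rw [h1, sub_self, sub_self, mul_zero]
    · rw [div_mul_cancel₀ _ (sub_ne_zero.2 h1)]

/-- Continuous extension of a nonzero root. -/
theorem exists_root_near {Z : Type} [TopologicalSpace Z] {f : Z → ℂ} {z : Z} (hf : CNear f z)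
    {n : ℕ} (hn : n ≠ 0) {a : ℂ} (ha : a ≠ 0) (haf : a ^ n = f z) :
    ∃ r : Z → ℂ, CNear r z ∧ r z = a ∧ ∀ᶠ y in 𝓝 z, r y ^ n = f y := by
  have h0 : f z ≠ 0 := haf ▸ pow_ne_zero n ha
  have h1 : ∀ᶠ y in 𝓝 z, f y / f z ∈ slitPlane :=
    (hf.self_of_nhds.div_const (f z)).eventually
      (isOpen_slitPlane.mem_nhds (by simp only [div_self h0]; exact one_mem_slitPlane))
  refine ⟨fun y => a * exp (log (f y / f z) / n), ?_, by simp [div_self h0], ?_⟩
  · filter_upwards [hf, h1] with y h2 h3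
    exact continuousAt_const.mul (((h2.div_const _).clog h3).div_const _).cexp
  · filter_upwards [h1] with y h3
    rw [mul_pow, ← exp_nat_mul, mul_div_cancel₀ _ (Nat.cast_ne_zero.2 hn),
      exp_log (slitPlane_ne_zero h3), haf, mul_div_cancel₀ _ h0]

/-- A unit times a square has a local square root. -/
theorem locSq_of_unit {Z : Type} [TopologicalSpace Z] {f c g : Z → ℂ} {z : Z} (hc : CNear c z)
    (hg : CNear g z) (h0 : c z ≠ 0) (h : ∀ᶠ y in 𝓝 z, f y = c y * g y ^ 2) :
    ∃ a : Z → ℂ, CNear a z ∧ a z ≠ 0 ∧ (∀ᶠ y in 𝓝 z, a y ^ 2 = c y) ∧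
      CNear (fun y => a y * g y) z ∧ ∀ᶠ y in 𝓝 z, (a y * g y) ^ 2 = f y := by
  obtain ⟨b, hb⟩ := IsAlgClosed.exists_pow_nat_eq (c z) two_pos
  have hb0 : b ≠ 0 := by
    rintro rfl
    exact h0 (by rw [← hb, zero_pow two_ne_zero])
  obtain ⟨a, h1, h2, h3⟩ := exists_root_near hc two_ne_zero hb0 hb
  refine ⟨a, h1, h2 ▸ hb0, h3, ?_, ?_⟩
  · filter_upwards [h1, hg] with y h4 h5 using h4.mul h5
  · filter_upwards [h, h3] with y h4 h5
    rw [mul_pow, h5, h4]

/-- A continuous nonvanishing root of an analytic function is analytic. -/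
theorem analyticAt_of_pow {F : Type} [NormedAddCommGroup F] [NormedSpace ℂ F] {r f : F → ℂ}
    {z : F} {n : ℕ} (hn : n ≠ 0) (hr : ContinuousAt r z) (h0 : r z ≠ 0) (hf : AnalyticAt ℂ f z)
    (h : ∀ᶠ y in 𝓝 z, r y ^ n = f y) : AnalyticAt ℂ r z := by
  have h1 : AnalyticAt ℂ (fun w : ℂ => w ^ n) (r z) := analyticAt_id.pow n
  have h2 : deriv (fun w : ℂ => w ^ n) (r z) ≠ 0 := by
    rw [deriv_fun_pow differentiableAt_fun_id]
    simp [hn, h0]
  have h3 := (h1.analyticAt_localInverse h2).comp_of_eq hf h.self_of_nhds.symm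
  refine h3.congr ?_
  filter_upwards [h, hr.tendsto.eventually (h1.hasStrictDerivAt.eventually_left_inverse h2)]
    with y h4 h5
  rw [Function.comp_apply, ← h4, h5]

end Vale.Agent.P300
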