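import Vale.Agent.P300.OdeDefs
import Vale.Agent.P300.Proj
import Vale.Agent.P300.Retr

/-! Six charts on the Fermat quartic. -/

namespace Vale.Agent.P300

open Topology Filter Set Complex

namespace AT

/-- The principal root of `(1 + t) / 2`. -/
noncomputable def hr (t : ℂ) : ℂ := ((1 + t) / 2) ^ (2⁻¹ : ℂ)

theorem hr_sq (t : ℂ) : hr t ^ 2 = (1 + t) / 2 := cpow_ofNat_inv_pow _ 2

theorem slit {t : ℂ} (h : ‖t‖ < 1) : (1 + t) / 2 ∈ slitPlane := by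
  rw [show (1 + t) / 2 = 1 + (t - 1) / 2 by ring]
  apply mem_slitPlane_of_norm_lt_one
  have := norm_sub_le t 1
  rw [norm_one] at this
  rw [norm_div, Complex.norm_two]
  linarith

theorem one_add_ne {t : ℂ} (h : ‖t‖ < 1) : 1 + t ≠ 0 :=
  slitPlane_ne_zero (mem_slitPlane_of_norm_lt_one h)

theorem hr_ne {t : ℂ} (h : ‖t‖ < 1) : hr t ≠ 0 := fun h0 => by
  have := hr_sq t
  rw [h0] at this
  exact one_add_ne h (by linear_combination -2 * this)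

theorem an_hr {E : Type} [NormedAddCommGroup E] [NormedSpace ℂ E] {f : E → ℂ} {x : E}
    (hf : AnalyticAt ℂ f x) (h : ‖f x‖ < 1) : AnalyticAt ℂ (fun y => hr (f y)) x :=
  ((analyticAt_const.add hf).div analyticAt_const two_ne_zero).cpow analyticAt_const (slit h)

noncomputable def zf (v : Fin 3 → ℂ) : ℂ := v 1 ^ 2 / (v 0 ^ 2 + v 2 ^ 2)

def In (v : Fin 3 → ℂ) : Prop := ‖v 1 ^ 2‖ < 3 / 5 * ‖v 0 ^ 2 + v 2 ^ 2‖

noncomputable def wf (v : Fin 3 → ℂ) : ℂ := v 1 / v 0 * hr (zf v ^ 2)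

noncomputable def ef (v : Fin 3 → ℂ) : ℂ := v 2 / v 0 * (hr (zf v ^ 2) / hr (-zf v ^ 2))

noncomputable def ka (ε a : ℂ) : Fin 3 → ℂ :=
  ![1, a / hr (a ^ 4), ε * (hr (-a ^ 4) / hr (a ^ 4))]

variable {v : Fin 3 → ℂ} {c : ℂ}

theorem zf_smul (hc : c ≠ 0) : zf (c • v) = zf v := by
  simp only [zf, Pi.smul_apply, smul_eq_mul, mul_pow, ← mul_add]
  exact mul_div_mul_left _ _ (pow_ne_zero _ hc)

theorem wf_smul (hc : c ≠ 0) : wf (c • v) = wf v := by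
  simp only [wf, zf_smul hc, Pi.smul_apply, smul_eq_mul, mul_div_mul_left _ _ hc]

theorem ef_smul (hc : c ≠ 0) : ef (c • v) = ef v := by
  simp only [ef, zf_smul hc, Pi.smul_apply, smul_eq_mul, mul_div_mul_left _ _ hc]

theorem in_smul (hc : c ≠ 0) : In (c • v) ↔ In v := by
  simp only [In, Pi.smul_apply, smul_eq_mul, mul_pow, ← mul_add, norm_mul]
  rw [mul_left_comm]
  exact mul_lt_mul_iff_right₀ (norm_pos_iff.2 (pow_ne_zero _ hc))

theorem In.ne (h : In v) : v 0 ^ 2 + v 2 ^ 2 ≠ 0 := fun h0 => by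
  unfold In at h
  rw [h0, norm_zero, mul_zero] at h
  exact (norm_nonneg _).not_gt h

theorem In.lt (h : In v) : ‖zf v‖ < 3 / 5 := by
  rw [zf, norm_div, div_lt_iff₀ (norm_pos_iff.2 h.ne)]
  exact h

theorem In.lt' (h : In v) : ‖zf v ^ 2‖ < 1 := by
  rw [norm_pow]
  nlinarith [h.lt, norm_nonneg (zf v)]

theorem In.add (h : In v) (hv : v ∈ CF) :
    (1 + zf v ^ 2) * (v 0 ^ 2 + v 2 ^ 2) = 2 * v 0 ^ 2 := by
  have := h.ne
  unfold zf
  field_simp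
  linear_combination -hv.2

theorem In.ne0 (h : In v) (hv : v ∈ CF) : v 0 ≠ 0 := fun h0 =>
  mul_ne_zero (one_add_ne h.lt') h.ne (by rw [h.add hv, h0]; ring)

theorem In.sq (h : In v) (hv : v ∈ CF) : wf v ^ 2 = zf v := by
  have h1 := h.add hv
  have h2 := h.ne0 hv
  have h3 := h.ne
  rw [wf, mul_pow, hr_sq, eq_div_of_mul_eq h3 h1, zf]
  field_simp

theorem In.pow4 (h : In v) (hv : v ∈ CF) : wf v ^ 4 = zf v ^ 2 := by
  rw [← h.sq hv]
  ring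

theorem In.ef_sq (h : In v) (hv : v ∈ CF) : ef v ^ 2 = 1 := by
  have h1 := h.add hv
  have h2 := h.ne0 hv
  have h3 : 1 + -zf v ^ 2 ≠ 0 := one_add_ne (by rw [norm_neg]; exact h.lt')
  rw [ef, mul_pow, div_pow, div_pow, hr_sq, hr_sq]
  field_simp
  linear_combination h1

theorem In.rep (h : In v) (hv : v ∈ CF) : ka (ef v) (wf v) = (v 0)⁻¹ • v := by
  have h2 := h.ne0 hv
  have h3 := hr_ne h.lt'
  have h4 : hr (-zf v ^ 2) ≠ 0 := hr_ne (by rw [norm_neg]; exact h.lt')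
  rw [ka, h.pow4 hv]
  funext i
  fin_cases i
  · exact (inv_mul_cancel₀ h2).symm
  · show wf v / hr (zf v ^ 2) = (v 0)⁻¹ * v 1
    unfold wf
    field_simp
  · show ef v * (hr (-zf v ^ 2) / hr (zf v ^ 2)) = (v 0)⁻¹ * v 2
    unfold ef
    field_simp

theorem an_co (i : Fin 3) : AnalyticAt ℂ (fun u : Fin 3 → ℂ => u i) v :=
  (ContinuousLinearMap.proj (R := ℂ) (φ := fun _ : Fin 3 => ℂ) i).analyticAt v

theorem In.an_zf (h : In v) : AnalyticAt ℂ zf v :=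
  ((an_co 1).pow 2).div (((an_co 0).pow 2).add ((an_co 2).pow 2)) h.ne

theorem In.an_wf (h : In v) (hv : v ∈ CF) : AnalyticAt ℂ wf v :=
  ((an_co 1).div (an_co 0) (h.ne0 hv)).mul (an_hr (h.an_zf.pow 2) h.lt')

theorem In.an_ef (h : In v) (hv : v ∈ CF) : AnalyticAt ℂ ef v :=
  have h1 : ‖-zf v ^ 2‖ < 1 := by rw [norm_neg]; exact h.lt'
  ((an_co 2).div (an_co 0) (h.ne0 hv)).mul ((an_hr (h.an_zf.pow 2) h.lt').div
    (an_hr (h.an_zf.pow 2).neg h1) (hr_ne h1))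

theorem an_ka (ε : ℂ) {a : ℂ} (h : ‖a ^ 4‖ < 1) : AnalyticAt ℂ (ka ε) a := by
  have h0 : AnalyticAt ℂ (fun a : ℂ => a ^ 4) a := analyticAt_id.pow 4
  refine analyticAt_pi_iff.2 fun i => ?_
  fin_cases i
  · exact analyticAt_const
  · exact analyticAt_id.div (an_hr h0 h) (hr_ne h)
  · exact analyticAt_const.mul ((an_hr h0.neg (by rw [Pi.neg_apply, norm_neg]; exact h)).div
      (an_hr h0 h) (hr_ne h))

theorem ka_spec {ε a : ℂ} (hε : ε ^ 2 = 1) (h : ‖a ^ 4‖ < 1) : ka ε a ∈ CF ∧ wf (ka ε a) = a := by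
  have h1 := one_add_ne h
  have h2 := hr_ne h
  have e1 : (a / hr (a ^ 4)) ^ 2 = 2 * a ^ 2 / (1 + a ^ 4) := by
    rw [div_pow, hr_sq]
    field_simp
  have e2 : (ε * (hr (-a ^ 4) / hr (a ^ 4))) ^ 2 = (1 - a ^ 4) / (1 + a ^ 4) := by
    rw [mul_pow, div_pow, hr_sq, hr_sq, hε]
    field_simp
    ring
  have e3 : zf (ka ε a) = a ^ 2 := by
    show (a / hr (a ^ 4)) ^ 2 / (1 ^ 2 + (ε * (hr (-a ^ 4) / hr (a ^ 4))) ^ 2) = a ^ 2
    rw [e1, e2, show 1 ^ 2 + (1 - a ^ 4) / (1 + a ^ 4) = 2 / (1 + a ^ 4) by field_simp; ring]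
    field_simp
  refine ⟨⟨fun h0 => one_ne_zero (congrFun h0 0), ?_⟩, ?_⟩
  · show 1 ^ 4 = (a / hr (a ^ 4)) ^ 4 + (ε * (hr (-a ^ 4) / hr (a ^ 4))) ^ 4
    rw [show ∀ t : ℂ, t ^ 4 = (t ^ 2) ^ 2 from fun t => by ring, pow_mul (a / hr (a ^ 4)) 2 2,
      pow_mul (ε * _) 2 2, e1, e2]
    field_simp
    ring
  · unfold wf
    rw [e3, ← pow_mul]
    show a / hr (a ^ 4) / 1 * hr (a ^ 4) = a
    field_simp

/-- A chosen coordinate vector. -/
noncomputable def rp (b : Pj CF) : Fin 3 → ℂ := (exists_rep b).choose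

theorem rp_rep (b : Pj CF) : Rep b (rp b) := (exists_rep b).choose_spec

theorem rp_eq {α : Type} {F : (Fin 3 → ℂ) → α} (hF : ∀ c v, c ≠ (0 : ℂ) → F (c • v) = F v)
    {b : Pj CF} (h : Rep b v) : F (rp b) = F v := by
  obtain ⟨c, hc, e⟩ := h.par (rp_rep b)
  rw [e, hF c v hc]

theorem cont_rp {F : (Fin 3 → ℂ) → ℂ} (hF : ∀ c v, c ≠ (0 : ℂ) → F (c • v) = F v) {b : Pj CF}
    (hc : ContinuousAt F (rp b)) : ContinuousAt (fun b => F (rp b)) b := by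
  obtain ⟨j, -, h1, h2, h3⟩ := (rp_rep b).exists_sec isCone_CF
  refine (ContinuousAt.comp_of_eq hc h1.self_of_nhds h2).congr ?_
  filter_upwards [h3] with η hη
  exact (rp_eq hF hη).symm

/-- A homogeneous automorphism of the cone. -/
structure Aut (A B : (Fin 3 → ℂ) → Fin 3 → ℂ) : Prop where
  anA : ∀ v, AnalyticAt ℂ A v
  anB : ∀ v, AnalyticAt ℂ B v
  smul : ∀ (c : ℂ) v, A (c • v) = c • A v
  AB : ∀ v, A (B v) = v
  BA : ∀ v, B (A v) = v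
  mem : ∀ v, A v ∈ CF ↔ v ∈ CF

def UA (A : (Fin 3 → ℂ) → Fin 3 → ℂ) : Set (Pj CF) := {b | In (A (rp b))}

noncomputable def wA (A : (Fin 3 → ℂ) → Fin 3 → ℂ) (b : Pj CF) : ℂ := wf (A (rp b))

variable {A B : (Fin 3 → ℂ) → Fin 3 → ℂ} {b : Pj CF}

theorem Aut.mem_iff (h : Aut A B) (hb : Rep b v) : b ∈ UA A ↔ In (A v) :=
  (rp_eq (F := fun v => In (A v)) (fun c v hc => by rw [h.smul, in_smul hc]) hb).to_iff

theorem Aut.w_eq (h : Aut A B) (hb : Rep b v) : wA A b = wf (A v) :=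
  rp_eq (F := fun v => wf (A v)) (fun c v hc => by rw [h.smul, wf_smul hc]) hb

theorem Aut.isOpen (h : Aut A B) : IsOpen (UA A) := by
  rw [← isQuotientMap_quotient_mk'.isOpen_preimage]
  have e : Quotient.mk' (s := propSetoid CF) ⁻¹' UA A = {v : CF | In (A v)} :=
    Set.ext fun v => h.mem_iff (rep_pt v.2)
  have hc : Continuous A := continuous_iff_continuousAt.2 fun v => (h.anA v).continuousAt
  rw [e]
  exact isOpen_lt (by fun_prop) (by fun_prop)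

theorem Aut.cf (h : Aut A B) (b : Pj CF) : A (rp b) ∈ CF := (h.mem _).2 (rp_rep b).mem

theorem Aut.sq (h : Aut A B) (hb : b ∈ UA A) : wA A b ^ 2 = zf (A (rp b)) := In.sq hb (h.cf b)

theorem Aut.lt (h : Aut A B) (hb : b ∈ UA A) : ‖wA A b‖ ^ 2 < 3 / 5 := by
  rw [← norm_pow, h.sq hb]
  exact In.lt hb

theorem Aut.amb (h : Aut A B) (hb : b ∈ UA A) (hv : Rep b v) :
    ∃ G : (Fin 3 → ℂ) → ℂ, AnalyticAt ℂ G v ∧ ∀ᶠ v' in 𝓝 v, ∀ b', Rep b' v' → wA A b' = G v' :=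
  ⟨fun v => wf (A v), (((h.mem_iff hv).1 hb).an_wf ((h.mem v).2 hv.mem)).comp (h.anA v),
    Eventually.of_forall fun _ _ h' => h.w_eq h'⟩

theorem Aut.inv (h : Aut A B) (hb : b ∈ UA A) :
    ∃ κ : ℂ → Fin 3 → ℂ, AnalyticAt ℂ κ (wA A b) ∧
      (∀ᶠ a in 𝓝 (wA A b), ∃ h : κ a ∈ CF, wA A (pt (κ a) h) = a) ∧
      ∀ᶠ b' in 𝓝 b, Rep b' (κ (wA A b')) := by
  have h4 : ‖wA A b ^ 4‖ < 1 := by
    unfold wA
    rw [In.pow4 hb (h.cf b)]
    exact In.lt' hb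
  have hε := In.ef_sq hb (h.cf b)
  refine ⟨fun a => B (ka (ef (A (rp b))) a), (h.anB _).comp (an_ka _ h4), ?_, ?_⟩
  · have ho : IsOpen {a : ℂ | ‖a ^ 4‖ < 1} := isOpen_lt (by fun_prop) continuous_const
    filter_upwards [ho.mem_nhds h4] with a ha
    obtain ⟨h1, h2⟩ := ka_spec hε ha
    have h3 : B (ka (ef (A (rp b))) a) ∈ CF := (h.mem _).1 (by rwa [h.AB])
    exact ⟨h3, by rw [h.w_eq (rep_pt h3), h.AB, h2]⟩
  · have hc : ContinuousAt (fun b => ef (A (rp b))) b :=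
      cont_rp (F := fun v => ef (A v)) (fun c v hc => by rw [h.smul, ef_smul hc])
        ((In.an_ef hb (h.cf b)).comp (h.anA _)).continuousAt
    have hne : ef (A (rp b)) + ef (A (rp b)) ≠ 0 := fun h0 => by
      have h1 : ef (A (rp b)) = 0 := by linear_combination h0 / 2
      rw [h1] at hε
      exact absurd hε (by norm_num)
    filter_upwards [h.isOpen.mem_nhds hb,
      (hc.add (continuousAt_const (y := ef (A (rp b))))).eventually_ne hne] with b' h1 h2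
    have h3 : ef (A (rp b)) = ef (A (rp b')) := by
      apply mul_left_cancel₀ h2
      have := In.ef_sq h1 (h.cf b')
      simp only [Pi.add_apply]
      linear_combination hε - this
    rw [h3, wA, In.rep h1 (h.cf b'), ← h.smul, h.BA]
    exact (rp_rep b').of_par isCone_CF ⟨_, inv_ne_zero (In.ne0 h1 (h.cf b')), rfl⟩

/-- A monomial map. -/
def mo (σ : Fin 3 → Fin 3) (t : ℂ) (v : Fin 3 → ℂ) : Fin 3 → ℂ := ![v (σ 0), v (σ 1), t * v (σ 2)]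

theorem aut_mo (σ : Equiv.Perm (Fin 3)) {t : ℂ} (ht : t ≠ 0)
    (h : ∀ v : Fin 3 → ℂ, v (σ 0) ^ 4 = v (σ 1) ^ 4 + (t * v (σ 2)) ^ 4 ↔
      v 0 ^ 4 = v 1 ^ 4 + v 2 ^ 4) : ∃ B, Aut (mo σ t) B := by
  have an : ∀ (τ : Fin 3 → Fin 3) (s : ℂ) v, AnalyticAt ℂ (mo τ s) v := fun τ s v => by
    refine analyticAt_pi_iff.2 fun i => ?_
    fin_cases i
    exacts [an_co _, an_co _, analyticAt_const.mul (an_co _)]
  have BA : ∀ v, (fun i => mo id t⁻¹ (mo σ t v) (σ.symm i)) = v := fun v => by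
    funext i
    obtain ⟨i, rfl⟩ := σ.surjective i
    rw [σ.symm_apply_apply]
    fin_cases i
    exacts [rfl, rfl, inv_mul_cancel_left₀ ht _]
  have sm : ∀ (c : ℂ) v, mo σ t (c • v) = c • mo σ t v := fun c v => by
    funext i
    fin_cases i
    exacts [rfl, rfl, mul_left_comm _ _ _]
  refine ⟨fun v i => mo id t⁻¹ v (σ.symm i), an _ _,
    fun v => analyticAt_pi_iff.2 fun i => analyticAt_pi_iff.1 (an _ _ v) _, sm, fun v => ?_, BA,
    fun v => and_congr (not_congr ⟨fun h0 => ?_, fun h0 => ?_⟩) (h v)⟩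
  · unfold mo
    simp only [σ.symm_apply_apply]
    funext i
    fin_cases i
    exacts [rfl, rfl, mul_inv_cancel_left₀ ht _]
  · rw [← BA v, h0]
    funext i
    generalize σ.symm i = j
    fin_cases j
    exacts [rfl, rfl, mul_zero _]
  · rw [h0, ← zero_smul ℂ (0 : Fin 3 → ℂ), sm, zero_smul, zero_smul]

/-- The six automorphisms. -/
noncomputable def AA : Fin 6 → (Fin 3 → ℂ) → Fin 3 → ℂ :=
  ![mo ![0, 1, 2] 1, mo ![0, 1, 2] I, mo ![0, 2, 1] 1, mo ![0, 2, 1] I, mo ![2, 0, 1] z8,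
    mo ![2, 0, 1] (z8 ^ 3)]

def p1 : Equiv.Perm (Fin 3) := ⟨![0, 1, 2], ![0, 1, 2], by decide, by decide⟩
def p2 : Equiv.Perm (Fin 3) := ⟨![0, 2, 1], ![0, 2, 1], by decide, by decide⟩
def p3 : Equiv.Perm (Fin 3) := ⟨![2, 0, 1], ![1, 2, 0], by decide, by decide⟩

theorem aut_AA (i : Fin 6) : ∃ B, Aut (AA i) B := by
  have e3 : (z8 ^ 3) ^ 4 = -1 := by
    rw [← pow_mul, mul_comm, pow_mul, z8_pow4]
    norm_num
  have k1 : ∀ {t : ℂ}, t ^ 4 = 1 → ∀ v : Fin 3 → ℂ,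
      v 0 ^ 4 = v 1 ^ 4 + (t * v 2) ^ 4 ↔ v 0 ^ 4 = v 1 ^ 4 + v 2 ^ 4 := fun ht v => by
    rw [mul_pow, ht, one_mul]
  have k2 : ∀ {t : ℂ}, t ^ 4 = 1 → ∀ v : Fin 3 → ℂ,
      v 0 ^ 4 = v 2 ^ 4 + (t * v 1) ^ 4 ↔ v 0 ^ 4 = v 1 ^ 4 + v 2 ^ 4 := fun ht v => by
    rw [mul_pow, ht, one_mul, add_comm]
  have k3 : ∀ {t : ℂ}, t ^ 4 = -1 → ∀ v : Fin 3 → ℂ,
      v 2 ^ 4 = v 0 ^ 4 + (t * v 1) ^ 4 ↔ v 0 ^ 4 = v 1 ^ 4 + v 2 ^ 4 := fun ht v => by
    rw [mul_pow, ht]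
    exact ⟨fun h => by linear_combination -h, fun h => by linear_combination -h⟩
  fin_cases i
  exacts [aut_mo p1 one_ne_zero (k1 (one_pow 4)), aut_mo p1 I_ne_zero (k1 I_pow_four),
    aut_mo p2 one_ne_zero (k2 (one_pow 4)), aut_mo p2 I_ne_zero (k2 I_pow_four),
    aut_mo p3 z8_ne (k3 z8_pow4), aut_mo p3 (pow_ne_zero 3 z8_ne) (k3 e3)]

def ll (x y c : ℂ) : Fin 6 → ℂ := ![y, y, c, c, x, x]

noncomputable def NN (x y c : ℂ) : Fin 6 → ℂ :=
  ![x + c, x - c, x + y, x - y, c + I * y, c - I * y]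

theorem AA_ll (i : Fin 6) (v : Fin 3 → ℂ) : AA i v 1 ^ 2 = ll (v 0 ^ 2) (v 1 ^ 2) (v 2 ^ 2) i := by
  fin_cases i <;> rfl

theorem AA_NN (i : Fin 6) (v : Fin 3 → ℂ) :
    AA i v 0 ^ 2 + AA i v 2 ^ 2 = NN (v 0 ^ 2) (v 1 ^ 2) (v 2 ^ 2) i := by
  fin_cases i
  · show v 0 ^ 2 + (1 * v 2) ^ 2 = v 0 ^ 2 + v 2 ^ 2
    ring
  · show v 0 ^ 2 + (I * v 2) ^ 2 = v 0 ^ 2 - v 2 ^ 2
    linear_combination v 2 ^ 2 * I_sq
  · show v 0 ^ 2 + (1 * v 1) ^ 2 = v 0 ^ 2 + v 1 ^ 2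
    ring
  · show v 0 ^ 2 + (I * v 1) ^ 2 = v 0 ^ 2 - v 1 ^ 2
    linear_combination v 1 ^ 2 * I_sq
  · show v 2 ^ 2 + (z8 * v 1) ^ 2 = v 2 ^ 2 + I * v 1 ^ 2
    linear_combination v 1 ^ 2 * z8_sq
  · show v 2 ^ 2 + (z8 ^ 3 * v 1) ^ 2 = v 2 ^ 2 - I * v 1 ^ 2
    linear_combination v 1 ^ 2 * z8 ^ 2 * z8_pow4 - v 1 ^ 2 * z8_sq

theorem pairs (i j : Fin 6) (hij : i ≠ j) :
    (∀ x y c : ℂ, x ^ 2 = y ^ 2 + c ^ 2 → ll x y c i * ll x y c j = NN x y c i * NN x y c j) ∨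
    ∃ k l : ℕ, ∀ x y c : ℂ, x ^ 2 = y ^ 2 + c ^ 2 →
      ll x y c j * (NN x y c i + I ^ k * ll x y c i)
        = I ^ l * (NN x y c i - I ^ k * ll x y c i) * NN x y c j := by
  fin_cases i <;> fin_cases j
  · exact absurd rfl hij
  · exact Or.inl fun x y c h => by
      show y * y = (x + c) * (x - c)
      linear_combination ((-1)) * h + (0) * I_sq
  · exact Or.inr ⟨0, 0, fun x y c h => by
      show c * ((x + c) + I ^ 0 * y) = I ^ 0 * ((x + c) - I ^ 0 * y) * (x + y)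
      linear_combination ((-1)) * h
        + (0) * I_sq⟩
  · exact Or.inr ⟨2, 0, fun x y c h => by
      show c * ((x + c) + I ^ 2 * y) = I ^ 0 * ((x + c) - I ^ 2 * y) * (x - y)
      linear_combination ((-1)) * h
        + (y * c + (-1 * y ^ 2) + x * y) * I_sq⟩
  · exact Or.inr ⟨1, 0, fun x y c h => by
      show x * ((x + c) + I ^ 1 * y) = I ^ 0 * ((x + c) - I ^ 1 * y) * (c + I * y)
      linear_combination (1) * h
        + (y ^ 2) * I_sq⟩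
  · exact Or.inr ⟨3, 0, fun x y c h => by
      show x * ((x + c) + I ^ 3 * y) = I ^ 0 * ((x + c) - I ^ 3 * y) * (c - I * y)
      linear_combination (1) * h
        + (y * c * I + y ^ 2 + (-1 * y ^ 2 * I ^ 2) + x * y * I) * I_sq⟩
  · exact Or.inl fun x y c h => by
      show y * y = (x - c) * (x + c)
      linear_combination ((-1)) * h + (0) * I_sq
  · exact absurd rfl hij
  · exact Or.inr ⟨0, 2, fun x y c h => by
      show c * ((x - c) + I ^ 0 * y) = I ^ 2 * ((x - c) - I ^ 0 * y) * (x + y)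
      linear_combination (1) * h
        + (y * c + y ^ 2 + x * c + (-1 * x ^ 2)) * I_sq⟩
  · exact Or.inr ⟨2, 2, fun x y c h => by
      show c * ((x - c) + I ^ 2 * y) = I ^ 2 * ((x - c) - I ^ 2 * y) * (x - y)
      linear_combination (1) * h
        + (y ^ 2 + (-1 * y ^ 2 * I ^ 2) + x * c + x * y * I ^ 2 + (-1 * x ^ 2)) * I_sq⟩
  · exact Or.inr ⟨3, 2, fun x y c h => by
      show x * ((x - c) + I ^ 3 * y) = I ^ 2 * ((x - c) - I ^ 3 * y) * (c + I * y)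
      linear_combination (1) * h
        + (c ^ 2 + y * c * I ^ 3 + y ^ 2 + (-1 * y ^ 2 * I ^ 2) + y ^ 2 * I ^ 4 + (-1 * x * c)) * I_sq⟩
  · exact Or.inr ⟨1, 2, fun x y c h => by
      show x * ((x - c) + I ^ 1 * y) = I ^ 2 * ((x - c) - I ^ 1 * y) * (c - I * y)
      linear_combination (1) * h
        + (c ^ 2 + y ^ 2 + (-1 * y ^ 2 * I ^ 2) + (-1 * x * c) + x * y * I) * I_sq⟩
  · exact Or.inr ⟨0, 0, fun x y c h => by
      show y * ((x + y) + I ^ 0 * c) = I ^ 0 * ((x + y) - I ^ 0 * c) * (x + c)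
      linear_combination ((-1)) * h
        + (0) * I_sq⟩
  · exact Or.inr ⟨2, 0, fun x y c h => by
      show y * ((x + y) + I ^ 2 * c) = I ^ 0 * ((x + y) - I ^ 2 * c) * (x - c)
      linear_combination ((-1)) * h
        + ((-1 * c ^ 2) + y * c + x * c) * I_sq⟩
  · exact absurd rfl hij
  · exact Or.inl fun x y c h => by
      show c * c = (x + y) * (x - y)
      linear_combination ((-1)) * h + (0) * I_sq
  · exact Or.inr ⟨3, 3, fun x y c h => by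
      show x * ((x + y) + I ^ 3 * c) = I ^ 3 * ((x + y) - I ^ 3 * c) * (c + I * y)
      linear_combination (1) * h
        + (c ^ 2 + (-1 * c ^ 2 * I ^ 2) + c ^ 2 * I ^ 4 + (-1 * y * c * I ^ 3) + y * c * I ^ 5 + y ^ 2 + (-1 * y ^ 2 * I ^ 2) + x * y + (-1 * x * y * I ^ 2)) * I_sq⟩
  · exact Or.inr ⟨1, 1, fun x y c h => by
      show x * ((x + y) + I ^ 1 * c) = I ^ 1 * ((x + y) - I ^ 1 * c) * (c - I * y)
      linear_combination (1) * h
        + (c ^ 2 + (-1 * y * c * I) + y ^ 2 + x * y) * I_sq⟩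
  · exact Or.inr ⟨0, 2, fun x y c h => by
      show y * ((x - y) + I ^ 0 * c) = I ^ 2 * ((x - y) - I ^ 0 * c) * (x + c)
      linear_combination (1) * h
        + (c ^ 2 + y * c + x * y + (-1 * x ^ 2)) * I_sq⟩
  · exact Or.inr ⟨2, 2, fun x y c h => by
      show y * ((x - y) + I ^ 2 * c) = I ^ 2 * ((x - y) - I ^ 2 * c) * (x - c)
      linear_combination (1) * h
        + (c ^ 2 + (-1 * c ^ 2 * I ^ 2) + x * c * I ^ 2 + x * y + (-1 * x ^ 2)) * I_sq⟩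
  · exact Or.inl fun x y c h => by
      show c * c = (x - y) * (x + y)
      linear_combination ((-1)) * h + (0) * I_sq
  · exact absurd rfl hij
  · exact Or.inr ⟨1, 1, fun x y c h => by
      show x * ((x - y) + I ^ 1 * c) = I ^ 1 * ((x - y) - I ^ 1 * c) * (c + I * y)
      linear_combination (1) * h
        + (c ^ 2 + y * c * I + y ^ 2 + (-1 * x * y)) * I_sq⟩
  · exact Or.inr ⟨3, 3, fun x y c h => by
      show x * ((x - y) + I ^ 3 * c) = I ^ 3 * ((x - y) - I ^ 3 * c) * (c - I * y)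
      linear_combination (1) * h
        + (c ^ 2 + (-1 * c ^ 2 * I ^ 2) + c ^ 2 * I ^ 4 + y * c * I ^ 3 + (-1 * y * c * I ^ 5) + y ^ 2 + (-1 * y ^ 2 * I ^ 2) + (-1 * x * y) + x * y * I ^ 2) * I_sq⟩
  · exact Or.inr ⟨0, 3, fun x y c h => by
      show y * ((c + I * y) + I ^ 0 * x) = I ^ 3 * ((c + I * y) - I ^ 0 * x) * (x + c)
      linear_combination ((-1 * I)) * h
        + ((-1 * c ^ 2 * I) + y * c + (-1 * y * c * I ^ 2) + x * y + (-1 * x * y * I ^ 2) + x ^ 2 * I) * I_sq⟩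
  · exact Or.inr ⟨2, 1, fun x y c h => by
      show y * ((c + I * y) + I ^ 2 * x) = I ^ 1 * ((c + I * y) - I ^ 2 * x) * (x - c)
      linear_combination ((-1 * I)) * h
        + (y * c + (-1 * x * c * I) + x ^ 2 * I) * I_sq⟩
  · exact Or.inr ⟨1, 1, fun x y c h => by
      show c * ((c + I * y) + I ^ 1 * x) = I ^ 1 * ((c + I * y) - I ^ 1 * x) * (x + y)
      linear_combination ((-1)) * h
        + ((-1 * y ^ 2) + x ^ 2) * I_sq⟩
  · exact Or.inr ⟨3, 3, fun x y c h => by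
      show c * ((c + I * y) + I ^ 3 * x) = I ^ 3 * ((c + I * y) - I ^ 3 * x) * (x - y)
      linear_combination ((-1)) * h
        + (y * c * I + (-1 * y ^ 2) + y ^ 2 * I ^ 2 + (-1 * x * y * I ^ 4) + x ^ 2 + (-1 * x ^ 2 * I ^ 2) + x ^ 2 * I ^ 4) * I_sq⟩
  · exact absurd rfl hij
  · exact Or.inl fun x y c h => by
      show x * x = (c + I * y) * (c - I * y)
      linear_combination (1) * h + (y ^ 2) * I_sq
  · exact Or.inr ⟨0, 1, fun x y c h => by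
      show y * ((c - I * y) + I ^ 0 * x) = I ^ 1 * ((c - I * y) - I ^ 0 * x) * (x + c)
      linear_combination (I) * h
        + (y * c + x * y) * I_sq⟩
  · exact Or.inr ⟨2, 3, fun x y c h => by
      show y * ((c - I * y) + I ^ 2 * x) = I ^ 3 * ((c - I * y) - I ^ 2 * x) * (x - c)
      linear_combination (I) * h
        + (c ^ 2 * I + y * c + (-1 * y * c * I ^ 2) + (-1 * x * c * I ^ 3) + x * y * I ^ 2 + (-1 * x ^ 2 * I) + x ^ 2 * I ^ 3) * I_sq⟩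
  · exact Or.inr ⟨3, 3, fun x y c h => by
      show c * ((c - I * y) + I ^ 3 * x) = I ^ 3 * ((c - I * y) - I ^ 3 * x) * (x + y)
      linear_combination ((-1)) * h
        + ((-1 * y * c * I) + (-1 * y ^ 2) + y ^ 2 * I ^ 2 + x * y * I ^ 4 + x ^ 2 + (-1 * x ^ 2 * I ^ 2) + x ^ 2 * I ^ 4) * I_sq⟩
  · exact Or.inr ⟨1, 1, fun x y c h => by
      show c * ((c - I * y) + I ^ 1 * x) = I ^ 1 * ((c - I * y) - I ^ 1 * x) * (x - y)
      linear_combination ((-1)) * h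
        + ((-1 * y ^ 2) + x ^ 2) * I_sq⟩
  · exact Or.inl fun x y c h => by
      show x * x = (c - I * y) * (c + I * y)
      linear_combination (1) * h + (y ^ 2) * I_sq
  · exact absurd rfl hij

theorem sq_rel (b : Pj CF) : (rp b 0 ^ 2) ^ 2 = (rp b 1 ^ 2) ^ 2 + (rp b 2 ^ 2) ^ 2 := by
  linear_combination (rp_rep b).mem.2

theorem mem_UA {i : Fin 6} : b ∈ UA (AA i) ↔ ‖ll (rp b 0 ^ 2) (rp b 1 ^ 2) (rp b 2 ^ 2) i‖
    < 3 / 5 * ‖NN (rp b 0 ^ 2) (rp b 1 ^ 2) (rp b 2 ^ 2) i‖ := by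
  rw [← AA_ll, ← AA_NN]
  rfl

theorem rel (i j : Fin 6) (hij : i ≠ j) (hne : (UA (AA i) ∩ UA (AA j)).Nonempty) :
    ∃ k l : ℕ, ∀ b ∈ UA (AA i) ∩ UA (AA j),
      wA (AA j) b ^ 2 = I ^ l * jm (I ^ k * wA (AA i) b ^ 2) := by
  rcases pairs i j hij with h | ⟨k, l, h⟩
  · obtain ⟨b, h1, h2⟩ := hne
    have h3 := congrArg norm (h _ _ _ (sq_rel b))
    rw [norm_mul, norm_mul] at h3
    rw [mem_UA] at h1 h2
    have h4 := mul_lt_mul'' h1 h2 (norm_nonneg _) (norm_nonneg _)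
    have h5 := mul_nonneg (norm_nonneg (NN (rp b 0 ^ 2) (rp b 1 ^ 2) (rp b 2 ^ 2) i))
      (norm_nonneg (NN (rp b 0 ^ 2) (rp b 1 ^ 2) (rp b 2 ^ 2) j))
    exact absurd h4 (by linarith)
  · refine ⟨k, l, fun b hb => ?_⟩
    obtain ⟨Bi, hi⟩ := aut_AA i
    obtain ⟨Bj, hj⟩ := aut_AA j
    have h1 : 1 + I ^ k * zf (AA i (rp b)) ≠ 0 := one_add_ne (by
      rw [norm_mul, norm_pow, norm_I, one_pow, one_mul]
      exact (In.lt hb.1).trans (by norm_num))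
    have h2 := In.ne hb.1
    have h3 := In.ne hb.2
    have h4 := h _ _ _ (sq_rel b)
    rw [hi.sq hb.1, hj.sq hb.2, jm, ← mul_div_assoc, eq_div_iff h1]
    unfold zf
    rw [AA_NN] at h2 h3
    rw [AA_ll, AA_ll, AA_NN, AA_NN]
    generalize ll _ _ _ i = s at h4 ⊢
    generalize ll _ _ _ j = t at h4 ⊢
    generalize NN _ _ _ i = m at h2 h4 ⊢
    generalize NN _ _ _ j = n at h3 h4 ⊢
    field_simp
    linear_combination h4

theorem cov_aux {p q r : ℝ} (hp : 0 ≤ p) (hq : 0 ≤ q) (h : r * r = p * q) (h1 : 3 / 5 * p ≤ r)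
    (h2 : 3 / 5 * q ≤ r) : p * p + q * q ≤ 16 / 5 * (r * r) := by
  have hr : 0 ≤ r := by linarith
  rcases hr.eq_or_lt with rfl | hr
  · nlinarith
  have h3 : (p + q) * r ≤ 34 / 15 * r * r := by
    nlinarith [mul_nonneg (sub_nonneg.2 h1) (sub_nonneg.2 h2)]
  have h4 : p + q ≤ 34 / 15 * r := le_of_mul_le_mul_right h3 hr
  nlinarith [mul_self_le_mul_self (add_nonneg hp hq) h4]

theorem cov (b : Pj CF) : ∃ i, b ∈ UA (AA i) := by
  by_contra hn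
  simp only [not_exists, mem_UA, not_lt] at hn
  have hs := sq_rel b
  have h0 := (rp_rep b).mem.1
  have key : ∀ {s m n : ℂ}, s * s = m * n → 3 / 5 * ‖m‖ ≤ ‖s‖ → 3 / 5 * ‖n‖ ≤ ‖s‖ →
      ‖m‖ * ‖m‖ + ‖n‖ * ‖n‖ ≤ 16 / 5 * (‖s‖ * ‖s‖) := fun h =>
    cov_aux (norm_nonneg _) (norm_nonneg _) (by rw [← norm_mul, ← norm_mul, h])
  have hx : ‖rp b 0 ^ 2‖ = 0 ∧ ‖rp b 1 ^ 2‖ = 0 ∧ ‖rp b 2 ^ 2‖ = 0 := by
    generalize rp b 0 ^ 2 = x at hs hn
    generalize rp b 1 ^ 2 = y at hs hn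
    generalize rp b 2 ^ 2 = c at hs hn
    have l1 := key (show y * y = (x + c) * (x - c) by linear_combination -hs) (hn 0) (hn 1)
    have l2 := key (show c * c = (x + y) * (x - y) by linear_combination -hs) (hn 2) (hn 3)
    have l3 := key (show x * x = (c + I * y) * (c - I * y) by
      linear_combination hs + y ^ 2 * I_sq) (hn 4) (hn 5)
    rw [parallelogram_law_with_norm_mul ℂ] at l1 l2 l3
    rw [norm_mul, norm_I, one_mul] at l3
    have a1 := mul_self_nonneg ‖x‖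
    have a2 := mul_self_nonneg ‖y‖
    have a3 := mul_self_nonneg ‖c‖
    exact ⟨mul_self_eq_zero.1 (by linarith), mul_self_eq_zero.1 (by linarith),
      mul_self_eq_zero.1 (by linarith)⟩
  apply h0
  funext i
  fin_cases i
  exacts [eq_zero_of_pow_eq_zero (norm_eq_zero.1 hx.1), eq_zero_of_pow_eq_zero (norm_eq_zero.1 hx.2.1),
    eq_zero_of_pow_eq_zero (norm_eq_zero.1 hx.2.2)]

end AT

theorem exists_atlas : ∃ (U : Fin 6 → Set (Pj CF)) (w : Fin 6 → Pj CF → ℂ), Atl U w := by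
  choose B hB using AT.aut_AA
  refine ⟨fun i => AT.UA (AT.AA i), fun i => AT.wA (AT.AA i), fun i => (hB i).isOpen, AT.cov,
    fun i _ hb => (hB i).lt hb, ⟨?_, ?_⟩, AT.rel, fun i _ hb _ hv => (hB i).amb hb hv,
    fun i _ hb => (hB i).inv hb⟩
  · rw [(hB 0).mem_iff (rep_pt y0_mem)]
    show ‖(0 : ℂ) ^ 2‖ < 3 / 5 * ‖(1 : ℂ) ^ 2 + (1 * 1) ^ 2‖
    norm_num
  · rw [(hB 0).w_eq (rep_pt y0_mem)]
    show (0 : ℂ) / 1 * _ = 0
    rw [zero_div, zero_mul]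

end Vale.Agent.P300
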