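import Vale.Agent.P300.Proj

/-! The unramified map between the two curves is a covering map. -/

namespace Vale.Agent.P300

open Topology Filter Set Complex

theorem p0_pow (p : Fin 4 → ℂ) : p 0 ^ 4 = mm p - mz p := by
  simp only [mm, mz]
  ring

theorem p2_pow (p : Fin 4 → ℂ) : p 2 ^ 4 = mm p + mz p := by
  simp only [mm, mz]
  ring

theorem CB_not_both {p : Fin 4 → ℂ} (hp : p ∈ CB) (h1 : mm p = 0) (h2 : mz p = 0) : False := by
  obtain ⟨h0, ha, hb⟩ := hp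
  apply h0
  have e0 := p0_pow p
  have e2 := p2_pow p
  rw [h1, h2] at ha hb e0 e2
  funext k
  fin_cases k
  · exact pow_eq_zero_iff (by norm_num : (4 : ℕ) ≠ 0) |>.1 (by simpa using e0)
  · exact pow_eq_zero_iff (by norm_num : (4 : ℕ) ≠ 0) |>.1 (by simpa using ha)
  · exact pow_eq_zero_iff (by norm_num : (4 : ℕ) ≠ 0) |>.1 (by simpa using e2)
  · exact pow_eq_zero_iff (by norm_num : (4 : ℕ) ≠ 0) |>.1 (by simpa using hb)

theorem CB_pow {p : Fin 4 → ℂ} (hp : p ∈ CB) (k : Fin 4) :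
    p k ^ 4 = mm p - I ^ (k : ℕ) * mz p := by
  fin_cases k
  · simpa using p0_pow p
  · simpa using hp.2.1
  · simpa using p2_pow p
  · simpa using hp.2.2

theorem I_pow_inj {j k : Fin 4} (h : j ≠ k) : I ^ (j : ℕ) ≠ I ^ (k : ℕ) := by
  fin_cases j <;> fin_cases k <;> simp [Complex.ext_iff] at h ⊢ <;> norm_num

/-- At most one coordinate vanishes on the second curve. -/
theorem CB_two {p : Fin 4 → ℂ} (hp : p ∈ CB) {j k : Fin 4} (h : j ≠ k) (hj : p j = 0)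
    (hk : p k = 0) : False := by
  have h1 := CB_pow hp j
  have h2 := CB_pow hp k
  rw [hj] at h1
  rw [hk] at h2
  have h3 : (I ^ (j : ℕ) - I ^ (k : ℕ)) * mz p = 0 := by linear_combination h1 - h2
  have h4 : mz p = 0 := (mul_eq_zero.1 h3).resolve_left (sub_ne_zero.2 (I_pow_inj h))
  exact CB_not_both hp (by rw [h4] at h1; linear_combination -h1) h4

theorem aV_mem {p : Fin 4 → ℂ} (hp : p ∈ CB) : aV p ∈ CF := by
  refine ⟨fun h => CB_not_both hp (by simpa [aV] using congrFun h 0)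
    (by simpa [aV] using congrFun h 2), ?_⟩
  have e0 := p0_pow p
  have e2 := p2_pow p
  obtain ⟨-, e1, e3⟩ := hp
  show mm p ^ 4 = (p 0 * p 1 * p 2 * p 3) ^ 4 + mz p ^ 4
  rw [mul_pow, mul_pow, mul_pow, e0, e1, e2, e3]
  linear_combination (mm p ^ 2 - mz p ^ 2) * mz p ^ 2 * I_sq

theorem cV_mem {p : Fin 4 → ℂ} (hp : p ∈ CB) : cV p ∈ CF := by
  refine ⟨fun h => CB_two hp (j := 0) (k := 2) (by decide) (by simpa [cV] using congrFun h 1)
    (by simpa [cV] using congrFun h 2), ?_⟩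
  obtain ⟨-, e1, e3⟩ := hp
  show (g4 * p 1 * p 3) ^ 4 = (p 0 ^ 2) ^ 4 + (p 2 ^ 2) ^ 4
  rw [mul_pow, mul_pow, g4_pow4, e1, e3]
  simp only [mm, mz]
  linear_combination (-2 * ((p 2 ^ 4 - p 0 ^ 4) / 2) ^ 2) * I_sq

theorem continuous_aV : Continuous aV := by
  unfold aV mm mz
  fun_prop

theorem continuous_cV : Continuous cV := by
  unfold cV
  fun_prop

theorem aV_smul (c : ℂ) (p : Fin 4 → ℂ) : aV (c • p) = c ^ 4 • aV p := by
  funext i
  fin_cases i <;> simp [aV, mm, mz] <;> ring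

theorem cV_smul (c : ℂ) (p : Fin 4 → ℂ) : cV (c • p) = c ^ 2 • cV p := by
  funext i
  fin_cases i <;> simp [cV] <;> ring

theorem exists_cmap : ∃ c : Pj CB → Pj CF, Continuous c ∧
    ∀ ξ p, Rep ξ p → Rep (c ξ) (cV p) :=
  exists_pmap isCone_CB cV continuous_cV (fun _ hp => cV_mem hp) (by
    rintro v - w ⟨c, hc, rfl⟩
    exact ⟨c ^ 2, pow_ne_zero _ hc, cV_smul c v⟩)

theorem exists_root4 {x y : ℂ} (h : x ^ 4 = y ^ 4) : ∃ ε : ℂ, ε ^ 4 = 1 ∧ x = ε * y := by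
  by_cases hy : y = 0
  · subst hy
    exact ⟨1, by simp, by simpa using h⟩
  · exact ⟨x / y, by rw [div_pow, h, div_self (pow_ne_zero _ hy)], by field_simp⟩

theorem exists_eps {p q : Fin 4 → ℂ} (h : ∀ k, p k ^ 4 = q k ^ 4) (hp : ∏ k, p k = ∏ k, q k) :
    ∃ ε : Fin 4 → ℂ, (∀ k, ε k ^ 4 = 1) ∧ ∏ k, ε k = 1 ∧ ∀ k, p k = ε k * q k := by
  choose ε hε hpq using fun k => exists_root4 (h k)
  have h4 : (∏ k, ε k) ^ 4 = 1 := by simp [← Finset.prod_pow, hε]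
  by_cases hq : ∏ k, q k = 0
  · obtain ⟨j, -, hj⟩ := Finset.prod_eq_zero_iff.1 hq
    refine ⟨fun k => ε k * (Pi.mulSingle j ((∏ k, ε k) ^ 3) : Fin 4 → ℂ) k, fun k => ?_, ?_,
      fun k => ?_⟩
    · beta_reduce
      by_cases hk : k = j
      · subst hk
        rw [Pi.mulSingle_eq_same, mul_pow, hε, ← pow_mul, mul_comm 3 4, pow_mul, h4]
        simp
      · rw [Pi.mulSingle_eq_of_ne hk, mul_one, hε]
    · rw [Finset.prod_mul_distrib, Finset.prod_pi_mulSingle', if_pos (Finset.mem_univ _)]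
      linear_combination h4
    · beta_reduce
      by_cases hk : k = j
      · subst hk
        rw [hpq, hj]
        simp
      · rw [Pi.mulSingle_eq_of_ne hk, mul_one, hpq]
  · refine ⟨ε, hε, ?_, hpq⟩
    have : ∏ k, p k = (∏ k, ε k) * ∏ k, q k := by
      rw [← Finset.prod_mul_distrib]
      exact Finset.prod_congr rfl fun k _ => hpq k
    apply mul_right_cancel₀ hq
    rw [← this, hp, one_mul]

/-- The diagonal deck transformations. -/
noncomputable def dg (a b : ℂ) (p : Fin 4 → ℂ) : Fin 4 → ℂ :=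
  ![p 0, a * p 1, b * p 2, (a * b) ^ 3 * p 3]

theorem mm_dg {a b : ℂ} (hb : b ^ 4 = 1) (p : Fin 4 → ℂ) : mm (dg a b p) = mm p := by
  show ((b * p 2) ^ 4 + p 0 ^ 4) / 2 = (p 2 ^ 4 + p 0 ^ 4) / 2
  rw [mul_pow, hb, one_mul]

theorem mz_dg {a b : ℂ} (hb : b ^ 4 = 1) (p : Fin 4 → ℂ) : mz (dg a b p) = mz p := by
  show ((b * p 2) ^ 4 - p 0 ^ 4) / 2 = (p 2 ^ 4 - p 0 ^ 4) / 2
  rw [mul_pow, hb, one_mul]

theorem aV_dg {a b : ℂ} (ha : a ^ 4 = 1) (hb : b ^ 4 = 1) (p : Fin 4 → ℂ) :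
    aV (dg a b p) = aV p := by
  have h : p 0 * (a * p 1) * (b * p 2) * ((a * b) ^ 3 * p 3) = p 0 * p 1 * p 2 * p 3 := by
    linear_combination p 0 * p 1 * p 2 * p 3 * b ^ 4 * ha + p 0 * p 1 * p 2 * p 3 * hb
  unfold aV
  rw [mm_dg hb, mz_dg hb]
  exact congrArg (fun t => ![mm p, t, mz p]) h

theorem dg_mem {a b : ℂ} (ha : a ^ 4 = 1) (hb : b ^ 4 = 1) {p : Fin 4 → ℂ} (hp : p ∈ CB) :
    dg a b p ∈ CB := by
  refine ⟨fun h => ?_, ?_, ?_⟩
  · apply CB_not_both hp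
    · rw [← mm_dg (a := a) hb, h]
      simp [mm]
    · rw [← mz_dg (a := a) hb, h]
      simp [mz]
  · rw [mm_dg hb, mz_dg hb, ← hp.2.1]
    show (a * p 1) ^ 4 = _
    rw [mul_pow, ha, one_mul]
  · rw [mm_dg hb, mz_dg hb, ← hp.2.2]
    show ((a * b) ^ 3 * p 3) ^ 4 = _
    rw [mul_pow, ← pow_mul, mul_comm 3 4, pow_mul, mul_pow, ha, hb]
    simp

theorem dg_smul (a b c : ℂ) (p : Fin 4 → ℂ) : dg a b (c • p) = c • dg a b p := by
  funext i
  fin_cases i <;> simp [dg] <;> ring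

theorem dg_one (p : Fin 4 → ℂ) : dg 1 1 p = p := by
  funext i
  fin_cases i <;> simp [dg]

theorem dg_mul (a b a' b' : ℂ) (p : Fin 4 → ℂ) :
    dg (a * a') (b * b') p = dg a b (dg a' b' p) := by
  funext i
  fin_cases i <;> simp [dg] <;> ring

theorem dg_free {a b : ℂ} (ha : a ^ 4 = 1) (hb : b ^ 4 = 1) {p : Fin 4 → ℂ} (hp : p ∈ CB)
    (h : Par p (dg a b p)) : a = 1 ∧ b = 1 := by
  obtain ⟨c, hc, h⟩ := h
  have e0 : p 0 = c * p 0 := congrFun h 0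
  have e1 : a * p 1 = c * p 1 := congrFun h 1
  have e2 : b * p 2 = c * p 2 := congrFun h 2
  have e3 : (a * b) ^ 3 * p 3 = c * p 3 := congrFun h 3
  by_cases h0 : p 0 = 0
  · have f1 := mul_right_cancel₀ (fun h' => CB_two hp (j := 0) (k := 1) (by decide) h0 h') e1
    have f2 := mul_right_cancel₀ (fun h' => CB_two hp (j := 0) (k := 2) (by decide) h0 h') e2
    have f3 := mul_right_cancel₀ (fun h' => CB_two hp (j := 0) (k := 3) (by decide) h0 h') e3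
    subst f1
    subst f2
    have f4 : b * b = b * 1 := by linear_combination f3 - b ^ 2 * hb
    have f5 := mul_left_cancel₀ hc f4
    exact ⟨f5, f5⟩
  · have f0 : c = 1 := mul_right_cancel₀ h0 (by rw [← e0, one_mul])
    subst f0
    by_cases h1 : p 1 = 0
    · have f2 := mul_right_cancel₀ (fun h' => CB_two hp (j := 1) (k := 2) (by decide) h1 h') e2
      have f3 := mul_right_cancel₀ (fun h' => CB_two hp (j := 1) (k := 3) (by decide) h1 h') e3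
      subst f2
      exact ⟨by linear_combination ha - a * f3, rfl⟩
    · have f1 := mul_right_cancel₀ h1 e1
      subst f1
      by_cases h2 : p 2 = 0
      · have f3 := mul_right_cancel₀ (fun h' => CB_two hp (j := 2) (k := 3) (by decide) h2 h') e3
        exact ⟨rfl, by linear_combination hb - b * f3⟩
      · exact ⟨rfl, mul_right_cancel₀ h2 e2⟩

theorem dg_fibre {p q : Fin 4 → ℂ} (hp : p ∈ CB) (hq : q ∈ CB) (h : Par (aV q) (aV p)) :
    ∃ a b : ℂ, a ^ 4 = 1 ∧ b ^ 4 = 1 ∧ Par (dg a b q) p := by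
  obtain ⟨c, hc, h⟩ := h
  obtain ⟨d, hd⟩ := IsAlgClosed.exists_pow_nat_eq c (by norm_num : 0 < 4)
  have hd0 : d ≠ 0 := by
    rintro rfl
    exact hc (by simpa using hd.symm)
  have e0 : mm p = c * mm q := congrFun h 0
  have e1 : p 0 * p 1 * p 2 * p 3 = c * (q 0 * q 1 * q 2 * q 3) := congrFun h 1
  have e2 : mz p = c * mz q := congrFun h 2
  obtain ⟨ε, hε, hprod, hpq⟩ := exists_eps (p := p) (q := fun k => d * q k)
    (fun k => by rw [mul_pow, hd, CB_pow hp, CB_pow hq, e0, e2]; ring)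
    (by simp only [Fin.prod_univ_four]; rw [e1, ← hd]; ring)
  rw [Fin.prod_univ_four] at hprod
  have h0 := hε 0
  have h1 := hε 1
  have h2 := hε 2
  have h3 := hε 3
  have hε0 : ε 0 ≠ 0 := by
    intro h'
    rw [h'] at h0
    norm_num at h0
  refine ⟨ε 1 * ε 0 ^ 3, ε 2 * ε 0 ^ 3, ?_, ?_, ε 0 * d, mul_ne_zero hε0 hd0, ?_⟩
  · rw [mul_pow, ← pow_mul, mul_comm 3 4, pow_mul, h0, h1]
    simp
  · rw [mul_pow, ← pow_mul, mul_comm 3 4, pow_mul, h0, h2]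
    simp
  · have k1 : ε 0 * (ε 1 * ε 0 ^ 3) = ε 1 := by linear_combination ε 1 * h0
    have k2 : ε 0 * (ε 2 * ε 0 ^ 3) = ε 2 := by linear_combination ε 2 * h0
    have k3 : ε 0 * (ε 1 * ε 0 ^ 3 * (ε 2 * ε 0 ^ 3)) ^ 3 = ε 3 := by
      have k4 : (ε 0 * ε 1 * ε 2) ^ 4 = 1 := by rw [mul_pow, mul_pow, h0, h1, h2]; simp
      have k5 : (ε 0 * ε 1 * ε 2) ^ 3 = ε 3 := by
        linear_combination (-(ε 0 * ε 1 * ε 2) ^ 3) * hprod + ε 3 * k4
      have k6 : (ε 0 ^ 4) ^ 4 = 1 := by rw [h0]; simp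
      linear_combination (ε 0 * ε 1 * ε 2) ^ 3 * k6 + k5
    funext i
    fin_cases i
    · show p 0 = ε 0 * d * q 0
      rw [hpq]; ring
    · show p 1 = ε 0 * d * (ε 1 * ε 0 ^ 3 * q 1)
      rw [hpq]; linear_combination (-d * q 1) * k1
    · show p 2 = ε 0 * d * (ε 2 * ε 0 ^ 3 * q 2)
      rw [hpq]; linear_combination (-d * q 2) * k2
    · show p 3 = ε 0 * d * ((ε 1 * ε 0 ^ 3 * (ε 2 * ε 0 ^ 3)) ^ 3 * q 3)
      rw [hpq]; linear_combination (-d * q 3) * k3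

theorem aV_surj {v : Fin 3 → ℂ} (hv : v ∈ CF) : ∃ p ∈ CB, aV p = v := by
  obtain ⟨h0, hv⟩ := hv
  obtain ⟨a, ha⟩ := IsAlgClosed.exists_pow_nat_eq (v 0 - v 2) (by norm_num : 0 < 4)
  obtain ⟨b, hb⟩ := IsAlgClosed.exists_pow_nat_eq (v 0 - I * v 2) (by norm_num : 0 < 4)
  obtain ⟨c, hc⟩ := IsAlgClosed.exists_pow_nat_eq (v 0 + v 2) (by norm_num : 0 < 4)
  obtain ⟨d, hd⟩ := IsAlgClosed.exists_pow_nat_eq (v 0 + I * v 2) (by norm_num : 0 < 4)
  obtain ⟨ε, hε, hy⟩ := exists_root4 (x := v 1) (y := a * b * c * d) (by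
    rw [mul_pow, mul_pow, mul_pow, ha, hb, hc, hd]
    linear_combination -hv + (v 0 ^ 2 - v 2 ^ 2) * v 2 ^ 2 * I_sq)
  have hm : mm ![ε * a, b, c, d] = v 0 := by
    show (c ^ 4 + (ε * a) ^ 4) / 2 = v 0
    rw [mul_pow, hε, ha, hc]; ring
  have hz : mz ![ε * a, b, c, d] = v 2 := by
    show (c ^ 4 - (ε * a) ^ 4) / 2 = v 2
    rw [mul_pow, hε, ha, hc]; ring
  have haV : aV ![ε * a, b, c, d] = v := by
    unfold aV
    rw [hm, hz]
    funext i
    fin_cases i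
    · rfl
    · show ε * a * b * c * d = v 1
      rw [hy]; ring
    · rfl
  refine ⟨![ε * a, b, c, d], ⟨fun h => h0 ?_, ?_, ?_⟩, haV⟩
  · rw [← haV, h]
    funext i
    fin_cases i <;> simp [aV, mm, mz]
  · rw [hm, hz]; exact hb
  · rw [hm, hz]; exact hd

theorem exists_amap : ∃ a : Pj CB → Pj CF, IsCoveringMap a ∧
    ∀ ξ p, Rep ξ p → Rep (a ξ) (aV p) := by
  obtain ⟨a, hac, ha⟩ := exists_pmap isCone_CB aV continuous_aV (fun _ hp => aV_mem hp) (by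
    rintro v - w ⟨c, hc, rfl⟩
    exact ⟨c ^ 4, pow_ne_zero _ hc, aV_smul c v⟩)
  refine ⟨a, ?_, ha⟩
  have := t2_Pj isCone_CB
  have := t2_Pj isCone_CF
  have := compact_Pj isCone_CB
  let G := rootsOfUnity 4 ℂ × rootsOfUnity 4 ℂ
  have hr : ∀ x : rootsOfUnity 4 ℂ, ((x : ℂˣ) : ℂ) ^ 4 = 1 := fun x =>
    (mem_rootsOfUnity' 4 _).1 x.2
  choose f hfc hf using fun g : G => exists_pmap isCone_CB (dg ((g.1 : ℂˣ) : ℂ) ((g.2 : ℂˣ) : ℂ))
    (by unfold dg; fun_prop) (fun _ hp => dg_mem (hr g.1) (hr g.2) hp) (by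
      rintro v - w ⟨c, hc, rfl⟩
      exact ⟨c, hc, dg_smul _ _ c v⟩)
  let : MulAction G (Pj CB) :=
    { smul := f
      one_smul := fun ξ => by
        obtain ⟨p, hp⟩ := exists_rep ξ
        have h1 := hf 1 ξ p hp
        have h2 : dg (((1 : G).1 : ℂˣ) : ℂ) (((1 : G).2 : ℂˣ) : ℂ) p = p := dg_one p
        rw [h2] at h1
        exact h1.eq hp
      mul_smul := fun g g' ξ => by
        obtain ⟨p, hp⟩ := exists_rep ξ
        have h1 := hf (g * g') ξ p hp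
        have h2 := hf g _ _ (hf g' ξ p hp)
        rw [← dg_mul] at h2
        exact h1.eq h2 }
  have : ContinuousConstSMul G (Pj CB) := ⟨hfc⟩
  have : IsCancelSMul G (Pj CB) := by
    rw [isCancelSMul_iff_eq_one_of_smul_eq]
    intro g ξ hg
    obtain ⟨p, hp⟩ := exists_rep ξ
    have h1 := hf g ξ p hp
    have h2 : f g ξ = ξ := hg
    rw [h2] at h1
    obtain ⟨h3, h4⟩ := dg_free (hr g.1) (hr g.2) hp.1 (hp.par h1)
    exact Prod.ext (Subtype.ext (Units.ext h3)) (Subtype.ext (Units.ext h4))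
  have hsurj : Function.Surjective a := by
    intro η
    obtain ⟨v, hv⟩ := exists_rep η
    obtain ⟨p, hp, rfl⟩ := aV_surj hv.1
    exact ⟨pt p hp, (ha _ _ (rep_pt hp)).eq hv⟩
  have hq : IsQuotientMap a := hac.isClosedMap.isQuotientMap hac hsurj
  refine (hq.isQuotientCoveringMap_of_properlyDiscontinuousSMul (G := G) ?_).isCoveringMap
  intro ξ η
  obtain ⟨p, hp⟩ := exists_rep ξ
  obtain ⟨q, hq⟩ := exists_rep η
  constructor
  · intro h
    have h1 := ha η q hq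
    rw [← h] at h1
    obtain ⟨x, y, hx, hy, hpar⟩ := dg_fibre hp.1 hq.1 (h1.par (ha ξ p hp))
    exact ⟨(rootsOfUnity.mkOfPowEq x hx, rootsOfUnity.mkOfPowEq y hy),
      (hf _ η q hq).eq_of_par hp hpar⟩
  · rintro ⟨g, rfl⟩
    have h1 := ha _ _ (hf g η q hq)
    rw [aV_dg (hr g.1) (hr g.2)] at h1
    exact h1.eq (ha η q hq)

/-- The base point. -/
theorem exists_x0 : ∃ p₁ p₃ : ℂ, g4 * p₁ * p₃ = 1 ∧ p₁ ^ 4 = (1 - I) / 2 ∧ p₃ ^ 4 = (1 + I) / 2 := by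
  obtain ⟨a, ha⟩ := IsAlgClosed.exists_pow_nat_eq ((1 - I) / 2) (by norm_num : 0 < 4)
  have h1 : (1 - I) * ((1 + I) / 2) = 1 := by linear_combination (-1 / 2) * I_sq
  have ha0 : a ≠ 0 := by
    rintro rfl
    have : (1 - I) = 0 := by linear_combination -2 * ha
    rw [this] at h1
    simp at h1
  have h2 : g4 * a * (g4 * a)⁻¹ = 1 := mul_inv_cancel₀ (mul_ne_zero g4_ne ha0)
  refine ⟨a, (g4 * a)⁻¹, h2, ha, ?_⟩
  have h3 : (g4 * a) ^ 4 = 1 - I := by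
    rw [mul_pow, g4_pow4, ha]; ring
  rw [inv_pow, h3]
  exact inv_eq_of_mul_eq_one_right h1

end Vale.Agent.P300
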