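import Vale.Agent.P300.Defs

/-! Internal definitions shared by all files of the counterexample. -/

namespace Vale.Agent.P300

open Topology Filter Set Complex

/-- The point of `Pj C` with homogeneous coordinates `v`. -/
abbrev pt {N : ℕ} {C : Set (Fin N → ℂ)} (v : Fin N → ℂ) (h : v ∈ C) : Pj C :=
  Quotient.mk (propSetoid C) ⟨v, h⟩

/-- `ξ` has homogeneous coordinates `v`. -/
def Rep {N : ℕ} {C : Set (Fin N → ℂ)} (ξ : Pj C) (v : Fin N → ℂ) : Prop :=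
  ∃ h : v ∈ C, ξ = pt v h

/-- `w` is a nonzero multiple of `v`. -/
def Par {ι : Type} (v w : ι → ℂ) : Prop := ∃ c : ℂ, c ≠ 0 ∧ w = c • v

/-- A closed cone with the origin removed. -/
structure IsCone {N : ℕ} (C : Set (Fin N → ℂ)) : Prop where
  ne_zero : ∀ v ∈ C, v ≠ 0
  smul : ∀ v ∈ C, ∀ c : ℂ, c ≠ 0 → c • v ∈ C
  closed : IsClosed (insert 0 C)

/-- The ratio `v i / v j` of homogeneous coordinates. -/
noncomputable def rat {N : ℕ} {C : Set (Fin N → ℂ)} (i j : Fin N) : Pj C → ℂ :=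
  Quotient.lift (fun v : C => v.1 i / v.1 j) (by
    rintro v w ⟨c, hc, h⟩
    simp only [h, Pi.smul_apply, smul_eq_mul]
    rw [mul_div_mul_left _ _ hc])

/-- The coordinate vector normalised by `v j = 1`. -/
noncomputable def nrm {N : ℕ} {C : Set (Fin N → ℂ)} (j : Fin N) (ξ : Pj C) : Fin N → ℂ :=
  fun i => rat i j ξ

/-- `C` is locally a holomorphic retract at `v`. -/
def Retr {F : Type} [NormedAddCommGroup F] [NormedSpace ℂ F] (C : Set F) (v : F) : Prop :=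
  ∃ R : F → F, AnalyticAt ℂ R v ∧ (∀ᶠ u in 𝓝 v, R u ∈ C) ∧ ∀ᶠ u in 𝓝 v, u ∈ C → R u = u

/-- The pointwise form of `IsHol`. -/
def HolAt {N : ℕ} {C : Set (Fin N → ℂ)} {E : Type} [TopologicalSpace E] (p : E → Pj C)
    (g : E → ℂ) (e : E) : Prop :=
  ∃ (v : C) (G : (Fin N → ℂ) → ℂ), p e = Quotient.mk (propSetoid C) v ∧
    AnalyticAt ℂ G v ∧
    ∀ᶠ q : E × C in 𝓝 (e, v), p q.1 = Quotient.mk (propSetoid C) q.2 → g q.1 = G q.2

/-- `f` is continuous on a neighbourhood of `e`. -/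
def CNear {E F : Type} [TopologicalSpace E] [TopologicalSpace F] (f : E → F) (e : E) : Prop :=
  ∀ᶠ e' in 𝓝 e, ContinuousAt f e'

/-- `f` has a continuous square root near `e`. -/
def LocSq {E : Type} [TopologicalSpace E] (f : E → ℂ) (e : E) : Prop :=
  ∃ r : E → ℂ, CNear r e ∧ ∀ᶠ e' in 𝓝 e, r e' ^ 2 = f e'

/-- Continuous square roots of `f` near `e` agree up to one sign, and `f` is not zero near `e`. -/
def SqUnique {E : Type} [TopologicalSpace E] (f : E → ℂ) (e : E) : Prop :=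
  (∃ᶠ e' in 𝓝 e, f e' ≠ 0) ∧ ∀ r r' : E → ℂ, CNear r e → CNear r' e →
    (∀ᶠ e' in 𝓝 e, r e' ^ 2 = f e') → (∀ᶠ e' in 𝓝 e, r' e' ^ 2 = f e') →
    r =ᶠ[𝓝 e] r' ∨ r =ᶠ[𝓝 e] -r'

/-- The unit disc. -/
abbrev Dsc : Type := Metric.ball (0 : ℂ) 1

/-- The centre of the unit disc. -/
def Dsc.o : Dsc := ⟨0, by simp⟩

/-- The pseudo-hyperbolic distance. -/
noncomputable def phd (z w : ℂ) : ℝ := ‖(z - w) / (1 - (starRingEnd ℂ) w * z)‖

/-- `f` is a holomorphic automorphism of the disc with inverse `g`. -/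
structure DAut (f g : ℂ → ℂ) : Prop where
  df : DifferentiableOn ℂ f (Metric.ball 0 1)
  dg : DifferentiableOn ℂ g (Metric.ball 0 1)
  mf : MapsTo f (Metric.ball 0 1) (Metric.ball 0 1)
  mg : MapsTo g (Metric.ball 0 1) (Metric.ball 0 1)
  gf : ∀ z ∈ Metric.ball (0 : ℂ) 1, g (f z) = z
  fg : ∀ z ∈ Metric.ball (0 : ℂ) 1, f (g z) = z
  iso : ∀ z ∈ Metric.ball (0 : ℂ) 1, ∀ w ∈ Metric.ball (0 : ℂ) 1, phd (f z) (f w) = phd z w

/-- The lifting property of a map from the disc. -/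
def Lifts {B : Type} [TopologicalSpace B] (u : Dsc → B) : Prop :=
  ∀ (Z : Type) [TopologicalSpace Z] [SimplyConnectedSpace Z] [LocallyPathConnectedSpace Z]
    (f : Z → B), Continuous f → ∀ (z₀ : Z) (ζ₀ : Dsc), u ζ₀ = f z₀ →
    ∃ g : Z → Dsc, Continuous g ∧ g z₀ = ζ₀ ∧ ∀ z, u (g z) = f z

/-- The involution `z ↦ (1 - z) / (1 + z)`. -/
noncomputable def jm (z : ℂ) : ℂ := (1 - z) / (1 + z)

/-- The cone over the Fermat quartic. -/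
def CF : Set (Fin 3 → ℂ) := {v | v ≠ 0 ∧ v 0 ^ 4 = v 1 ^ 4 + v 2 ^ 4}

theorem y0_mem : (![1, 0, 1] : Fin 3 → ℂ) ∈ CF :=
  ⟨fun h => by simpa using congrFun h 0, by simp⟩

/-- The uniformisation of the Fermat quartic. -/
structure Unif (u : Dsc → Pj CF) : Prop where
  cont : Continuous u
  zero : u Dsc.o = pt ![1, 0, 1] y0_mem
  lifts : Lifts u
  loc : ∀ (ζ₀ : Dsc) (i j k : Fin 3), i ≠ j → j ≠ k → i ≠ k → ∀ v : Fin 3 → ℂ, Rep (u ζ₀) v →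
    v j ≠ 0 → v k ≠ 0 → ∃ Ξ : ℂ → ℂ, AnalyticAt ℂ Ξ (v i / v j) ∧ deriv Ξ (v i / v j) ≠ 0 ∧
      ∀ᶠ ζ in 𝓝 ζ₀, Ξ (rat i j (u ζ)) = (ζ : ℂ)

/-- A primitive eighth root of unity. -/
noncomputable def z8 : ℂ := exp (Real.pi * I / 4)

/-- A fourth root of two. -/
noncomputable def g4 : ℂ := exp (Real.log 2 / 4)

theorem z8_sq : z8 ^ 2 = I := by
  rw [z8, ← exp_nat_mul, show ((2 : ℕ) : ℂ) * (Real.pi * I / 4) = Real.pi / 2 * I by
    push_cast; ring, exp_pi_div_two_mul_I]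

theorem z8_pow4 : z8 ^ 4 = -1 := by
  rw [show z8 ^ 4 = (z8 ^ 2) ^ 2 by ring, z8_sq, I_sq]

theorem z8_ne : z8 ≠ 0 := exp_ne_zero _

theorem g4_pow4 : g4 ^ 4 = 2 := by
  rw [g4, ← exp_nat_mul, show ((4 : ℕ) : ℂ) * (Real.log 2 / 4) = (Real.log 2 : ℝ) by
    push_cast; ring, ← ofReal_exp, Real.exp_log (by norm_num)]
  norm_num

theorem g4_ne : g4 ≠ 0 := exp_ne_zero _

/-- The quartic forms `m` and `m₀` on the second curve. -/
noncomputable def mm (p : Fin 4 → ℂ) : ℂ := (p 2 ^ 4 + p 0 ^ 4) / 2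

noncomputable def mz (p : Fin 4 → ℂ) : ℂ := (p 2 ^ 4 - p 0 ^ 4) / 2

/-- The cone over the curve `p k ^ 4 = m - i ^ k m₀`. -/
def CB : Set (Fin 4 → ℂ) :=
  {p | p ≠ 0 ∧ p 1 ^ 4 = mm p - I * mz p ∧ p 3 ^ 4 = mm p + I * mz p}

/-- The unramified map to the Fermat quartic. -/
noncomputable def aV (p : Fin 4 → ℂ) : Fin 3 → ℂ := ![mm p, p 0 * p 1 * p 2 * p 3, mz p]

/-- The ramified map to the Fermat quartic. -/
noncomputable def cV (p : Fin 4 → ℂ) : Fin 3 → ℂ := ![g4 * p 1 * p 3, p 0 ^ 2, p 2 ^ 2]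

/-- A presentation of the cone `C` by a set `M` of coordinate vectors modulo a relation `Orb`. -/
structure Pres {V : Type} [Fintype V] (M : Set (V → ℂ)) (Orb : (V → ℂ) → (V → ℂ) → Prop)
    {N : ℕ} (C : Set (Fin N → ℂ)) (Ψ : (V → ℂ) → (Fin N → ℂ)) : Prop where
  cone : IsCone C
  retr : ∀ v ∈ C, Retr C v
  anal : ∀ z, AnalyticAt ℂ Ψ z
  mem : ∀ z ∈ M, Ψ z ∈ C
  surj : ∀ v ∈ C, ∃ z ∈ M, Par (Ψ z) v
  sec : ∀ z ∈ M, ∃ σ : (Fin N → ℂ) → (V → ℂ), AnalyticAt ℂ σ (Ψ z) ∧ σ (Ψ z) = z ∧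
    ∀ᶠ v in 𝓝 (Ψ z), v ∈ C → σ v ∈ M ∧ Par (Ψ (σ v)) v
  fib : ∀ z ∈ M, ∀ z' ∈ M, Par (Ψ z) (Ψ z') → Orb z z'
  orb : ∀ z ∈ M, ∀ z', Orb z z' → z' ∈ M ∧ Par (Ψ z) (Ψ z')

end Vale.Agent.P300
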