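import Vale.Agent.P300.Basic

/-! Polynomial and rational functions, and the Zariski closure. -/

namespace Vale.Agent.P300

open Topology Filter Set Complex

/-- Polynomial functions. -/
@[fun_prop] def IsPoly {ι : Type} (f : (ι → ℂ) → ℂ) : Prop :=
  ∃ P : MvPolynomial ι ℂ, ∀ v, MvPolynomial.eval v P = f v

section
variable {ι : Type} {f g : (ι → ℂ) → ℂ}

@[fun_prop] theorem IsPoly.const (c : ℂ) : IsPoly (fun _ : ι → ℂ => c) :=
  ⟨MvPolynomial.C c, by simp⟩

@[fun_prop] theorem IsPoly.coord (i : ι) : IsPoly (fun v : ι → ℂ => v i) :=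
  ⟨MvPolynomial.X i, by simp⟩

@[fun_prop] theorem IsPoly.add (hf : IsPoly f) (hg : IsPoly g) : IsPoly (fun v => f v + g v) := by
  obtain ⟨P, hP⟩ := hf
  obtain ⟨Q, hQ⟩ := hg
  exact ⟨P + Q, by simp [hP, hQ]⟩

@[fun_prop] theorem IsPoly.sub (hf : IsPoly f) (hg : IsPoly g) : IsPoly (fun v => f v - g v) := by
  obtain ⟨P, hP⟩ := hf
  obtain ⟨Q, hQ⟩ := hg
  exact ⟨P - Q, by simp [hP, hQ]⟩

@[fun_prop] theorem IsPoly.neg (hf : IsPoly f) : IsPoly (fun v => -f v) := by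
  obtain ⟨P, hP⟩ := hf
  exact ⟨-P, by simp [hP]⟩

@[fun_prop] theorem IsPoly.mul (hf : IsPoly f) (hg : IsPoly g) : IsPoly (fun v => f v * g v) := by
  obtain ⟨P, hP⟩ := hf
  obtain ⟨Q, hQ⟩ := hg
  exact ⟨P * Q, by simp [hP, hQ]⟩

@[fun_prop] theorem IsPoly.pow (hf : IsPoly f) (n : ℕ) : IsPoly (fun v => f v ^ n) := by
  obtain ⟨P, hP⟩ := hf
  exact ⟨P ^ n, by simp [hP]⟩

@[fun_prop] theorem IsPoly.div_const (hf : IsPoly f) (c : ℂ) : IsPoly (fun v => f v / c) := by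
  obtain ⟨P, hP⟩ := hf
  exact ⟨P * MvPolynomial.C c⁻¹, by simp [hP, div_eq_mul_inv]⟩

end

/-- The Zariski closure. -/
def Zar {ι : Type} (A : Set (ι → ℂ)) : Set (ι → ℂ) :=
  {v | ∀ f, IsPoly f → (∀ u ∈ A, f u = 0) → f v = 0}

/-- Rational functions regular on `S`. -/
def IsRat {ι : Type} (S : Set (ι → ℂ)) (f : (ι → ℂ) → ℂ) : Prop :=
  ∃ P Q, IsPoly P ∧ IsPoly Q ∧ ∀ v ∈ S, Q v ≠ 0 ∧ f v = P v / Q v

theorem IsRat.of_div {ι : Type} {S : Set (ι → ℂ)} {P Q : (ι → ℂ) → ℂ} (hP : IsPoly P)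
    (hQ : IsPoly Q) (h : ∀ v ∈ S, Q v ≠ 0) : IsRat S (fun v => P v / Q v) :=
  ⟨P, Q, hP, hQ, fun v hv => ⟨h v hv, rfl⟩⟩

theorem IsRat.of_poly {ι : Type} {S : Set (ι → ℂ)} {P : (ι → ℂ) → ℂ} (hP : IsPoly P) :
    IsRat S P :=
  ⟨P, fun _ => 1, hP, IsPoly.const 1, fun v _ => ⟨one_ne_zero, by simp⟩⟩

/-- The multicone over the image of `M`. -/
def MC {V K J : Type} (M : Set (V → ℂ)) (Φ : (V → ℂ) → (K × J → ℂ)) : Set (K × J → ℂ) :=
  {v | ∃ z ∈ M, ∃ l : K → ℂ, (∀ k, l k ≠ 0) ∧ v = fun a => l a.1 * Φ z a}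

/-- A chart of the multicone: a rational section on the set where `h` does not vanish. -/
structure Chart {V K J : Type} (M O : Set (V → ℂ)) (Orb : (V → ℂ) → (V → ℂ) → Prop)
    (Φ : (V → ℂ) → (K × J → ℂ)) (h : (K × J → ℂ) → ℂ) (σ : (K × J → ℂ) → (V → ℂ)) : Prop where
  poly : IsPoly h
  rat : ∀ i, IsRat {v | h v ≠ 0} (fun v => σ v i)
  orb : ∀ z ∈ M, ∀ l : K → ℂ, (∀ k, l k ≠ 0) → h (fun a => l a.1 * Φ z a) ≠ 0 →
    Orb z (σ (fun a => l a.1 * Φ z a))
  op : ∀ v, h v ≠ 0 → σ v ∈ O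

theorem IsPoly.analyticAt {ι : Type} [Fintype ι] {f : (ι → ℂ) → ℂ} (hf : IsPoly f) (v : ι → ℂ) :
    AnalyticAt ℂ f v := by
  obtain ⟨P, hP⟩ := hf
  have hfe : f = fun v => MvPolynomial.eval v P := funext fun v => (hP v).symm
  subst hfe
  clear hP
  induction P using MvPolynomial.induction_on with
  | C a => simpa using analyticAt_const
  | add p q hp hq =>
    simp only [map_add]
    exact hp.add hq
  | mul_X p i hp =>
    have hi : AnalyticAt ℂ (fun v : ι → ℂ => v i) v :=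
      (ContinuousLinearMap.proj (R := ℂ) (φ := fun _ : ι => ℂ) i).analyticAt v
    simp only [map_mul, MvPolynomial.eval_X]
    exact hp.mul hi

theorem IsPoly.comp {ι κ : Type} {f : (κ → ℂ) → ℂ} (hf : IsPoly f) {F : (ι → ℂ) → (κ → ℂ)}
    (hF : ∀ k, IsPoly (fun v => F v k)) : IsPoly (fun v => f (F v)) := by
  obtain ⟨P, hP⟩ := hf
  have hfe : f = fun v => MvPolynomial.eval v P := funext fun v => (hP v).symm
  subst hfe
  clear hP
  induction P using MvPolynomial.induction_on with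
  | C a => simpa using IsPoly.const a
  | add p q hp hq => simpa using hp.add hq
  | mul_X p i hp => simpa using hp.mul (hF i)

theorem IsRat.add' {ι : Type} {S : Set (ι → ℂ)} {f g : (ι → ℂ) → ℂ} (hf : IsRat S f)
    (hg : IsRat S g) : IsRat S (fun v => f v + g v) := by
  obtain ⟨P, Q, hP, hQ, h⟩ := hf
  obtain ⟨P', Q', hP', hQ', h'⟩ := hg
  refine ⟨fun v => P v * Q' v + P' v * Q v, fun v => Q v * Q' v, (hP.mul hQ').add (hP'.mul hQ),
    hQ.mul hQ', fun v hv => ?_⟩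
  obtain ⟨h1, h2⟩ := h v hv
  obtain ⟨h3, h4⟩ := h' v hv
  refine ⟨mul_ne_zero h1 h3, ?_⟩
  simp only [h2, h4]
  field_simp

theorem IsRat.mul' {ι : Type} {S : Set (ι → ℂ)} {f g : (ι → ℂ) → ℂ} (hf : IsRat S f)
    (hg : IsRat S g) : IsRat S (fun v => f v * g v) := by
  obtain ⟨P, Q, hP, hQ, h⟩ := hf
  obtain ⟨P', Q', hP', hQ', h'⟩ := hg
  refine ⟨fun v => P v * P' v, fun v => Q v * Q' v, hP.mul hP', hQ.mul hQ', fun v hv => ?_⟩
  obtain ⟨h1, h2⟩ := h v hv
  obtain ⟨h3, h4⟩ := h' v hv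
  refine ⟨mul_ne_zero h1 h3, ?_⟩
  simp only [h2, h4]
  field_simp

theorem IsRat.comp {ι κ : Type} {S : Set (ι → ℂ)} {f : (κ → ℂ) → ℂ} (hf : IsPoly f)
    {F : (ι → ℂ) → (κ → ℂ)} (hF : ∀ k, IsRat S (fun v => F v k)) :
    IsRat S (fun v => f (F v)) := by
  obtain ⟨P, hP⟩ := hf
  have hfe : f = fun v => MvPolynomial.eval v P := funext fun v => (hP v).symm
  subst hfe
  clear hP
  induction P using MvPolynomial.induction_on with
  | C a => simpa using IsRat.of_poly (S := S) (IsPoly.const a)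
  | add p q hp hq => simpa using hp.add' hq
  | mul_X p i hp => simpa using hp.mul' (hF i)

theorem IsRat.analyticAt {ι : Type} [Fintype ι] {h f : (ι → ℂ) → ℂ} (hh : IsPoly h)
    (hf : IsRat {v | h v ≠ 0} f) {v : ι → ℂ} (hv : h v ≠ 0) : AnalyticAt ℂ f v := by
  obtain ⟨P, Q, hP, hQ, H⟩ := hf
  have h1 : AnalyticAt ℂ (fun u => P u / Q u) v :=
    (hP.analyticAt v).div (hQ.analyticAt v) (H v hv).1
  refine h1.congr ?_
  have h2 : ∀ᶠ u in 𝓝 v, h u ≠ 0 := (hh.analyticAt v).continuousAt.eventually_ne hv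
  filter_upwards [h2] with u hu
  exact (H u hu).2.symm

theorem IsRat.zar {ι : Type} {A : Set (ι → ℂ)} {h f : (ι → ℂ) → ℂ} (hh : IsPoly h)
    (hf : IsRat {v | h v ≠ 0} f) (hA : ∀ u ∈ A, h u ≠ 0 → f u = 0) {v : ι → ℂ} (hv : v ∈ Zar A)
    (h0 : h v ≠ 0) : f v = 0 := by
  obtain ⟨P, Q, hP, hQ, H⟩ := hf
  have key : P v * h v = 0 := by
    refine hv (fun u => P u * h u) (hP.mul hh) fun u hu => ?_
    by_cases hu0 : h u = 0
    · simp [hu0]
    · obtain ⟨h1, h2⟩ := H u hu0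
      have h3 := hA u hu hu0
      rw [h2, div_eq_zero_iff] at h3
      simp [h3.resolve_right h1]
  have hP0 : P v = 0 := (mul_eq_zero.1 key).resolve_right h0
  rw [(H v h0).2, hP0, zero_div]

theorem zar_eval_smul {N d : ℕ} {P : MvPolynomial (Fin N) ℂ} (hP : P.IsHomogeneous d) (c : ℂ)
    (v : Fin N → ℂ) : MvPolynomial.eval (c • v) P = c ^ d * MvPolynomial.eval v P := by
  rw [MvPolynomial.eval_eq, MvPolynomial.eval_eq, Finset.mul_sum]
  refine Finset.sum_congr rfl fun s hs => ?_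
  rw [hP.degree_eq_sum_deg_support hs]
  simp only [Pi.smul_apply, smul_eq_mul, mul_pow, Finset.prod_mul_distrib,
    Finset.prod_pow_eq_pow_sum]
  ring

theorem zar_component {N : ℕ} {P : MvPolynomial (Fin N) ℂ} {v : Fin N → ℂ}
    (h : ∀ c : ℂ, c ≠ 0 → MvPolynomial.eval (c • v) P = 0) (d : ℕ) :
    MvPolynomial.eval v (MvPolynomial.homogeneousComponent d P) = 0 := by
  classical
  by_cases hd : P.totalDegree < d
  · rw [MvPolynomial.homogeneousComponent_eq_zero d P hd, map_zero]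
  have hq : (∑ i ∈ Finset.range (P.totalDegree + 1),
      Polynomial.monomial i (MvPolynomial.eval v (MvPolynomial.homogeneousComponent i P))) = 0 := by
    apply Polynomial.eq_zero_of_infinite_isRoot
    refine Set.Infinite.mono (s := {c : ℂ | c ≠ 0}) (fun c hc => ?_) ?_
    · have h1 := h c hc
      rw [← MvPolynomial.sum_homogeneousComponent P, map_sum] at h1
      simp only [Set.mem_ofPred_eq, Polynomial.IsRoot, Polynomial.eval_finsetSum,
        Polynomial.eval_monomial]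
      rw [← h1]
      refine Finset.sum_congr rfl fun i _ => ?_
      rw [zar_eval_smul (MvPolynomial.homogeneousComponent_isHomogeneous i P), mul_comm]
    · exact (Set.finite_singleton (0 : ℂ)).infinite_compl
  have h2 := congrArg (fun q => Polynomial.coeff q d) hq
  simp only [Polynomial.finsetSum_coeff, Polynomial.coeff_monomial, Polynomial.coeff_zero,
    Finset.sum_ite_eq', Finset.mem_range] at h2
  rwa [if_pos (by omega)] at h2

/-- A Zariski closed cone is cut out by homogeneous polynomials. -/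
theorem exists_homogeneous {N : ℕ} {C : Set (Fin N → ℂ)} (h0 : ∀ v ∈ C, v ≠ 0)
    (hs : ∀ v ∈ C, ∀ c : ℂ, c ≠ 0 → c • v ∈ C) (hz : ∀ v ∈ Zar C, v ≠ 0 → v ∈ C) :
    ∃ S : Set (MvPolynomial (Fin N) ℂ), (∀ f ∈ S, ∃ d, f.IsHomogeneous d) ∧ cone S = C ∧
      IsCone C := by
  refine ⟨{P | (∃ d, P.IsHomogeneous d) ∧ ∀ v ∈ C, MvPolynomial.eval v P = 0},
    fun f hf => hf.1, ?_, h0, hs, ?_⟩
  · ext v
    constructor
    · rintro ⟨hv, H⟩
      refine hz v ?_ hv
      rintro f ⟨P, hP⟩ hf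
      rw [← hP v, ← MvPolynomial.sum_homogeneousComponent P, map_sum]
      refine Finset.sum_eq_zero fun i _ => H _
        ⟨⟨i, MvPolynomial.homogeneousComponent_isHomogeneous i P⟩, fun u hu => ?_⟩
      exact zar_component (fun c hc => by rw [hP]; exact hf _ (hs u hu c hc)) i
    · intro hv
      exact ⟨h0 v hv, fun f hf => hf.2 v hv⟩
  · refine isClosed_of_closure_subset fun v hv => ?_
    by_cases hv0 : v = 0
    · exact Or.inl hv0
    · refine Or.inr (hz v ?_ hv0)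
      intro f hf hC
      rw [Set.insert_eq, closure_union, closure_singleton] at hv
      have hv' : v ∈ closure C := hv.resolve_left hv0
      have hc : Continuous f := continuous_iff_continuousAt.2 fun u => (hf.analyticAt u).continuousAt
      exact closure_minimal (s := C) (t := {u | f u = 0}) hC (isClosed_eq hc continuous_const) hv'

end Vale.Agent.P300
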