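import Vale.Agent.P300.Facts
import Vale.Agent.P300.Zar

/-! Charts of the multicone. -/

set_option linter.unusedSimpArgs false

namespace Vale.Agent.P300

open Topology Filter Set Complex

namespace Chart1Aux

theorem ph00 (z : W → ℂ) : Phi z (0, 0) = sb z ^ 2 := rfl
theorem ph01 (z : W → ℂ) : Phi z (0, 1) = sb z * z .t := rfl
theorem ph02 (z : W → ℂ) : Phi z (0, 2) = z .t ^ 2 := rfl
theorem ph03 (z : W → ℂ) : Phi z (0, 3) = z .p1 := rfl
theorem ph04 (z : W → ℂ) : Phi z (0, 4) = z .p3 := rfl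
theorem ph11 (z : W → ℂ) : Phi z (1, 1) = bb z * kb z := rfl
theorem ph12 (z : W → ℂ) : Phi z (1, 2) = kb z ^ 2 := rfl
theorem ph13 (z : W → ℂ) : Phi z (1, 3) = z .X := rfl
theorem ph20 (z : W → ℂ) : Phi z (2, 0) = z .eA * z .mu := rfl
theorem ph21 (z : W → ℂ) : Phi z (2, 1) = sb z ^ 4 := rfl
theorem ph22 (z : W → ℂ) : Phi z (2, 2) = z .t ^ 4 := rfl
theorem ph30 (z : W → ℂ) : Phi z (3, 0) = z .eA ^ 4 * z .w1 := rfl
theorem ph31 (z : W → ℂ) : Phi z (3, 1) = z .s * z .t ^ 3 * kb z := rfl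
theorem ph32 (z : W → ℂ) : Phi z (3, 2) = z .e2 * z .be * z .t ^ 4 := rfl
theorem ph34 (z : W → ℂ) : Phi z (3, 4) = z .s * sb z ^ 3 * kb z := rfl
theorem ph40 (z : W → ℂ) : Phi z (4, 0) = z .eB ^ 4 * z .w2 := rfl
theorem ph41 (z : W → ℂ) : Phi z (4, 1) = z .be * z .t ^ 2 := rfl
theorem ph43 (z : W → ℂ) : Phi z (4, 3) = z .e1 * z .s ^ 2 * kb z := rfl

theorem eq_q {z : W → ℂ} (hz : z ∈ MM) : z .t ^ 2 + z8 * (z .e1 * z .e2 * z .s) ^ 2 = z .eB * z .q :=
  (sub_eq_zero.1 hz.1.h0).symm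

/-- The section on the chart `S1`. -/
noncomputable def sgS1 (v : Fin 7 × Fin 6 → ℂ) : W → ℂ
  | .e1 => v (4, 3) / v (4, 1)
  | .e2 => v (3, 2) / v (3, 1)
  | .eA => 1
  | .eB => 1
  | .s => 1
  | .t => 1
  | .p1 => v (0, 3) / v (0, 2)
  | .p3 => v (0, 4) / v (0, 2)
  | .mu => v (2, 0) / v (2, 2)
  | .q => Pa v / v (0, 2)
  | .be => 1
  | .ka => 1
  | .X => v (1, 3) / v (1, 2)
  | .w1 => v (3, 0) / v (3, 1)
  | .w2 => v (4, 0) / v (4, 1)

/-- The section on the chart `S2`. -/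
noncomputable def sgS2 (v : Fin 7 × Fin 6 → ℂ) : W → ℂ
  | .e1 => 1
  | .e2 => v (0, 1) / v (0, 2)
  | .eA => 1
  | .eB => 1
  | .s => 1
  | .t => 1
  | .p1 => v (0, 3) / v (0, 2)
  | .p3 => v (0, 4) / v (0, 2)
  | .mu => v (2, 0) / v (2, 2)
  | .q => Pa v / v (0, 2)
  | .be => v (4, 1) / v (4, 3)
  | .ka => 1
  | .X => v (1, 3) / v (1, 2)
  | .w1 => v (3, 0) / v (3, 1)
  | .w2 => v (4, 0) / v (4, 3)

/-- The section on the chart `S3`. -/
noncomputable def sgS3 (v : Fin 7 × Fin 6 → ℂ) : W → ℂ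
  | .e1 => v (1, 1) / v (1, 2)
  | .e2 => 1
  | .eA => 1
  | .eB => 1
  | .s => v (3, 1) / v (3, 2)
  | .t => 1
  | .p1 => v (0, 3) / v (0, 2)
  | .p3 => v (0, 4) / v (0, 2)
  | .mu => v (2, 0) / v (2, 2)
  | .q => Pa v / v (0, 2)
  | .be => 1
  | .ka => 1
  | .X => v (1, 3) / v (1, 2)
  | .w1 => v (3, 0) / v (3, 2)
  | .w2 => v (4, 0) / v (4, 1)

/-- The section on the chart `SK`. -/
noncomputable def sgSK (v : Fin 7 × Fin 6 → ℂ) : W → ℂ
  | .e1 => 1
  | .e2 => 1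
  | .eA => 1
  | .eB => 1
  | .s => 1
  | .t => v (0, 1) / v (0, 0)
  | .p1 => v (0, 3) / v (0, 0)
  | .p3 => v (0, 4) / v (0, 0)
  | .mu => v (2, 0) / v (2, 1)
  | .q => Pa v / v (0, 0)
  | .be => v (1, 1) / v (1, 2)
  | .ka => 1
  | .X => v (1, 3) / v (1, 2)
  | .w1 => v (3, 0) / v (3, 4)
  | .w2 => v (4, 0) / v (4, 3)

end Chart1Aux

open Chart1Aux

theorem chart_S1 : ∃ σ, Chart MM {z | Op z} Orb Phi hS1 σ := by
  refine ⟨sgS1, by unfold hS1; fun_prop, fun i => ?_, fun z hz l hl h => ?_, fun v _ => ?_⟩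
  · cases i <;> first
      | exact IsRat.of_poly (IsPoly.const 1)
      | exact IsRat.of_div (by (try unfold Pa); fun_prop) (IsPoly.coord _) fun v hv => by
          simp only [mem_ofPred_eq, hS1, ne_eq, mul_eq_zero, not_or] at hv
          tauto
  · obtain ⟨nt, nka, neA, neB, ns, nbe⟩ : z .t ≠ 0 ∧ z .ka ≠ 0 ∧ z .eA ≠ 0 ∧ z .eB ≠ 0 ∧ z .s ≠ 0 ∧ z .be ≠ 0 := by
      simp only [hS1, ph00, ph01, ph02, ph03, ph04, ph11, ph12, ph13, ph20, ph21, ph22, ph30, ph31, ph32, ph34, ph40, ph41, ph43, sb, bb, kb, ne_eq, mul_eq_zero, not_or,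
        pow_eq_zero_iff, OfNat.ofNat_ne_zero, not_false_eq_true] at h
      tauto
    have hq := eq_q hz
    have l0 := hl 0
    have l1 := hl 1
    have l2 := hl 2
    have l3 := hl 3
    have l4 := hl 4
    refine ⟨(z .t)⁻¹, (z .eA * z .eB * z .ka)⁻¹, z .t ^ 2 * z .be / (z .s ^ 2 * (z .eA * z .eB * z .ka)),
      z .eA * z .eB * z .ka * z .s / (z .t * z .be), z .eA, z .eB, by positivity, by positivity, by positivity, by positivity,
      by positivity, by positivity, fun i => ?_⟩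
    cases i <;> simp only [sgS1, wt, Pa, ph00, ph01, ph02, ph03, ph04, ph11, ph12, ph13, ph20, ph21, ph22, ph30, ph31, ph32, ph34, ph40, ph41, ph43, sb, bb, kb] <;> field_simp
    linear_combination hq
  · constructor <;> simp [sgS1, sb, bb, kb]

theorem chart_S2 : ∃ σ, Chart MM {z | Op z} Orb Phi hS2 σ := by
  refine ⟨sgS2, by unfold hS2; fun_prop, fun i => ?_, fun z hz l hl h => ?_, fun v _ => ?_⟩
  · cases i <;> first
      | exact IsRat.of_poly (IsPoly.const 1)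
      | exact IsRat.of_div (by (try unfold Pa); fun_prop) (IsPoly.coord _) fun v hv => by
          simp only [mem_ofPred_eq, hS2, ne_eq, mul_eq_zero, not_or] at hv
          tauto
  · obtain ⟨nt, nka, neA, neB, ns, ne1⟩ : z .t ≠ 0 ∧ z .ka ≠ 0 ∧ z .eA ≠ 0 ∧ z .eB ≠ 0 ∧ z .s ≠ 0 ∧ z .e1 ≠ 0 := by
      simp only [hS2, ph00, ph01, ph02, ph03, ph04, ph11, ph12, ph13, ph20, ph21, ph22, ph30, ph31, ph32, ph34, ph40, ph41, ph43, sb, bb, kb, ne_eq, mul_eq_zero, not_or,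
        pow_eq_zero_iff, OfNat.ofNat_ne_zero, not_false_eq_true] at h
      tauto
    have hq := eq_q hz
    have l0 := hl 0
    have l1 := hl 1
    have l2 := hl 2
    have l3 := hl 3
    have l4 := hl 4
    refine ⟨(z .t)⁻¹, (z .eA * z .eB * z .ka)⁻¹, z .e1, z .t / (z .s * z .e1), z .eA, z .eB, by positivity, by positivity, by positivity, by positivity,
      by positivity, by positivity, fun i => ?_⟩
    cases i <;> simp only [sgS2, wt, Pa, ph00, ph01, ph02, ph03, ph04, ph11, ph12, ph13, ph20, ph21, ph22, ph30, ph31, ph32, ph34, ph40, ph41, ph43, sb, bb, kb] <;> field_simp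
    linear_combination hq
  · constructor <;> simp [sgS2, sb, bb, kb]

theorem chart_S3 : ∃ σ, Chart MM {z | Op z} Orb Phi hS3 σ := by
  refine ⟨sgS3, by unfold hS3; fun_prop, fun i => ?_, fun z hz l hl h => ?_, fun v _ => ?_⟩
  · cases i <;> first
      | exact IsRat.of_poly (IsPoly.const 1)
      | exact IsRat.of_div (by (try unfold Pa); fun_prop) (IsPoly.coord _) fun v hv => by
          simp only [mem_ofPred_eq, hS3, ne_eq, mul_eq_zero, not_or] at hv
          tauto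
  · obtain ⟨nt, nka, neA, neB, nbe, ne2⟩ : z .t ≠ 0 ∧ z .ka ≠ 0 ∧ z .eA ≠ 0 ∧ z .eB ≠ 0 ∧ z .be ≠ 0 ∧ z .e2 ≠ 0 := by
      simp only [hS3, ph00, ph01, ph02, ph03, ph04, ph11, ph12, ph13, ph20, ph21, ph22, ph30, ph31, ph32, ph34, ph40, ph41, ph43, sb, bb, kb, ne_eq, mul_eq_zero, not_or,
        pow_eq_zero_iff, OfNat.ofNat_ne_zero, not_false_eq_true] at h
      tauto
    have hq := eq_q hz
    have l0 := hl 0
    have l1 := hl 1
    have l2 := hl 2
    have l3 := hl 3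
    have l4 := hl 4
    refine ⟨(z .t)⁻¹, (z .eA * z .eB * z .ka)⁻¹, z .eA * z .eB * z .ka / (z .e2 ^ 2 * z .be), z .e2,
      z .eA, z .eB, by positivity, by positivity, by positivity, by positivity,
      by positivity, by positivity, fun i => ?_⟩
    cases i <;> simp only [sgS3, wt, Pa, ph00, ph01, ph02, ph03, ph04, ph11, ph12, ph13, ph20, ph21, ph22, ph30, ph31, ph32, ph34, ph40, ph41, ph43, sb, bb, kb] <;> field_simp
    linear_combination hq
  · constructor <;> simp [sgS3, sb, bb, kb]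

theorem chart_SK : ∃ σ, Chart MM {z | Op z} Orb Phi hSK σ := by
  refine ⟨sgSK, by unfold hSK; fun_prop, fun i => ?_, fun z hz l hl h => ?_, fun v _ => ?_⟩
  · cases i <;> first
      | exact IsRat.of_poly (IsPoly.const 1)
      | exact IsRat.of_div (by (try unfold Pa); fun_prop) (IsPoly.coord _) fun v hv => by
          simp only [mem_ofPred_eq, hSK, ne_eq, mul_eq_zero, not_or] at hv
          tauto
  · obtain ⟨ne1, ne2, neA, neB, ns, nka⟩ : z .e1 ≠ 0 ∧ z .e2 ≠ 0 ∧ z .eA ≠ 0 ∧ z .eB ≠ 0 ∧ z .s ≠ 0 ∧ z .ka ≠ 0 := by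
      simp only [hSK, ph00, ph01, ph02, ph03, ph04, ph11, ph12, ph13, ph20, ph21, ph22, ph30, ph31, ph32, ph34, ph40, ph41, ph43, sb, bb, kb, ne_eq, mul_eq_zero, not_or,
        pow_eq_zero_iff, OfNat.ofNat_ne_zero, not_false_eq_true] at h
      tauto
    have hq := eq_q hz
    have l0 := hl 0
    have l1 := hl 1
    have l2 := hl 2
    have l3 := hl 3
    have l4 := hl 4
    refine ⟨(z .e1 * z .e2 * z .s)⁻¹, (z .eA * z .eB * z .ka)⁻¹, z .e1, z .e2, z .eA, z .eB, by positivity, by positivity, by positivity, by positivity,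
      by positivity, by positivity, fun i => ?_⟩
    cases i <;> simp only [sgSK, wt, Pa, ph00, ph01, ph02, ph03, ph04, ph11, ph12, ph13, ph20, ph21, ph22, ph30, ph31, ph32, ph34, ph40, ph41, ph43, sb, bb, kb] <;> field_simp
    linear_combination hq
  · constructor <;> simp [sgSK, sb, bb, kb]

end Vale.Agent.P300
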