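import Vale.Agent.P300.Facts
import Vale.Agent.P300.Zar

/-! Charts of the multicone. -/

namespace Vale.Agent.P300

open Topology Filter Set Complex

/-- The section on the chart `TB`. -/
noncomputable def c2TB (v : Fin 7 × Fin 6 → ℂ) : W → ℂ
  | .s => v (0, 1) / v (0, 2)
  | .p1 => v (0, 3) / v (0, 2)
  | .p3 => v (0, 4) / v (0, 2)
  | .mu => v (2, 0) / v (2, 2)
  | .q => (v (0, 2) + z8 * v (0, 0)) / v (0, 2)
  | .ka => v (1, 1) / v (1, 0)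
  | .X => v (1, 3) / v (1, 0)
  | .w1 => v (3, 0) / v (3, 2)
  | .w2 => v (4, 0) / v (4, 1)
  | _ => 1

/-- The section on the charts `G1` and `G2`. -/
noncomputable def c2G (v : Fin 7 × Fin 6 → ℂ) : W → ℂ
  | .t => v (0, 1) / v (0, 0)
  | .p1 => v (0, 3) / v (0, 0)
  | .p3 => v (0, 4) / v (0, 0)
  | .mu => v (2, 0) / v (2, 1)
  | .q => (v (0, 2) + z8 * v (0, 0)) / v (0, 0)
  | .ka => v (1, 1) / v (1, 0)
  | .X => v (1, 3) / v (1, 0)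
  | .w1 => v (3, 0) / v (3, 3)
  | .w2 => v (4, 0) / v (4, 2)
  | _ => 1

theorem c2_phi (z : W → ℂ) : Phi z (0, 0) = sb z ^ 2 ∧ Phi z (0, 1) = sb z * z .t ∧
    Phi z (0, 2) = z .t ^ 2 ∧ Phi z (0, 3) = z .p1 ∧ Phi z (0, 4) = z .p3 ∧
    Phi z (1, 0) = bb z ^ 2 ∧ Phi z (1, 1) = bb z * kb z ∧ Phi z (1, 3) = z .X ∧
    Phi z (2, 0) = z .eA * z .mu ∧ Phi z (2, 1) = sb z ^ 4 ∧ Phi z (2, 2) = z .t ^ 4 ∧
    Phi z (3, 0) = z .eA ^ 4 * z .w1 ∧ Phi z (3, 2) = z .e2 * z .be * z .t ^ 4 ∧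
    Phi z (3, 3) = z .e2 * z .be * sb z ^ 4 ∧ Phi z (4, 0) = z .eB ^ 4 * z .w2 ∧
    Phi z (4, 1) = z .be * z .t ^ 2 ∧ Phi z (4, 2) = z .be * sb z ^ 2 :=
  ⟨rfl, rfl, rfl, rfl, rfl, rfl, rfl, rfl, rfl, rfl, rfl, rfl, rfl, rfl, rfl, rfl, rfl⟩

theorem c2_eB {z : W → ℂ} (hz : z ∈ MM) {l : Fin 7 → ℂ} (h : Pa (fun a => l a.1 * Phi z a) ≠ 0) :
    z .eB ≠ 0 := by
  intro h0
  have h1 := hz.1.h0
  simp only [Eq0, PP, h0] at h1
  apply h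
  simp only [Pa, c2_phi]
  linear_combination (-l 0) * h1

theorem c2_orbG {z : W → ℂ} (hz : z ∈ MM) {l : Fin 7 → ℂ} (hl : ∀ k, l k ≠ 0) (h1 : sb z ≠ 0)
    (h2 : bb z ≠ 0) (hA : z .eA ≠ 0) (hB : z .eB ≠ 0) :
    Orb z (c2G fun a => l a.1 * Phi z a) := by
  have h0 := hz.1.h0
  have a1 := h1
  have a2 := h2
  simp only [sb, bb, ne_eq, mul_eq_zero, not_or, pow_eq_zero_iff, OfNat.ofNat_ne_zero,
    not_false_eq_true] at a1 a2
  obtain ⟨⟨b1, b2⟩, b3⟩ := a1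
  have b4 := a2.2
  have := hl 0
  have := hl 1
  have := hl 2
  have := hl 3
  have := hl 4
  refine ⟨(sb z)⁻¹, (bb z)⁻¹, z .e1, z .e2, z .eA, z .eB, inv_ne_zero h1, inv_ne_zero h2, b1, b2,
    hA, hB, fun i => ?_⟩
  simp only [Eq0, PP, sb] at h0
  cases i <;> simp only [c2G, wt, c2_phi, sb, bb, kb] <;> field_simp
  linear_combination -h0

theorem c2_ratG {h : (Fin 7 × Fin 6 → ℂ) → ℂ} (hh : ∀ v, h v ≠ 0 → v (0, 0) ≠ 0 ∧ v (1, 0) ≠ 0 ∧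
    v (2, 1) ≠ 0 ∧ v (3, 3) ≠ 0 ∧ v (4, 2) ≠ 0) (i : W) :
    IsRat {v | h v ≠ 0} (fun v => c2G v i) := by
  cases i <;> first
    | exact IsRat.of_poly (IsPoly.const 1)
    | exact IsRat.of_div (by fun_prop) (by fun_prop) fun v hv => by simp only [hh v hv, ne_eq,
        not_false_eq_true]

theorem chart_TB : ∃ σ, Chart MM {z | Op z} Orb Phi hTB σ := by
  have hh : ∀ v, hTB v ≠ 0 → v (0, 2) ≠ 0 ∧ v (1, 0) ≠ 0 ∧ v (2, 2) ≠ 0 ∧ v (3, 2) ≠ 0 ∧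
      v (4, 1) ≠ 0 ∧ v (2, 0) ≠ 0 ∧ Pa v ≠ 0 := fun v hv => by
    simpa only [hTB, ne_eq, mul_eq_zero, not_or, and_assoc] using hv
  refine ⟨c2TB, by unfold hTB Pa; fun_prop, fun i => ?_, fun z hz l hl h => ?_, fun v hv => ?_⟩
  · cases i <;> first
      | exact IsRat.of_poly (IsPoly.const 1)
      | exact IsRat.of_div (by fun_prop) (by fun_prop) fun v hv => by simp only [hh v hv, ne_eq,
          not_false_eq_true]
  · obtain ⟨a1, a2, -, -, -, a3, a4⟩ := hh _ h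
    have hB := c2_eB hz a4
    have h0 := hz.1.h0
    simp only [c2_phi] at a1 a2 a3
    have h1 : z .t ≠ 0 := fun e => a1 (by simp [e])
    have h2 : bb z ≠ 0 := fun e => a2 (by simp [e])
    have hA : z .eA ≠ 0 := fun e => a3 (by simp [e])
    have b1 : z .e1 ≠ 0 := fun e => h2 (by simp [bb, e])
    have b2 : z .e2 ≠ 0 := fun e => h2 (by simp [bb, e])
    have b3 : z .be ≠ 0 := fun e => h2 (by simp [bb, e])
    have := hl 0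
    have := hl 1
    have := hl 2
    have := hl 3
    have := hl 4
    refine ⟨(z .t)⁻¹, (bb z)⁻¹, z .e1, z .e2, z .eA, z .eB, inv_ne_zero h1, inv_ne_zero h2, b1, b2,
      hA, hB, fun i => ?_⟩
    simp only [Eq0, PP, sb] at h0
    cases i <;> simp only [c2TB, wt, c2_phi, sb, bb, kb] <;> field_simp
    linear_combination -h0
  · obtain ⟨a1, -, a2, -, -, a3, a4⟩ := hh _ hv
    exact ⟨Or.inr one_ne_zero, Or.inl (by simp [bb, c2TB]), Or.inr (Or.inr (by simp [c2TB])),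
      Or.inl (div_ne_zero a3 a2), Or.inl (div_ne_zero a4 a1)⟩

theorem chart_G1 : ∃ σ, Chart MM {z | Op z} Orb Phi hG1 σ := by
  have hh : ∀ v, hG1 v ≠ 0 → (v (0, 0) ≠ 0 ∧ v (1, 0) ≠ 0 ∧ v (2, 1) ≠ 0 ∧ v (3, 3) ≠ 0 ∧
      v (4, 2) ≠ 0) ∧ v (3, 0) ≠ 0 ∧ Pa v ≠ 0 := fun v hv => by
    simpa only [hG1, ne_eq, mul_eq_zero, not_or, and_assoc] using hv
  refine ⟨c2G, by unfold hG1 Pa; fun_prop, c2_ratG fun v hv => (hh v hv).1,
    fun z hz l hl h => ?_, fun v hv => ?_⟩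
  · obtain ⟨⟨a1, a2, -⟩, a3, a4⟩ := hh _ h
    simp only [c2_phi] at a1 a2 a3
    exact c2_orbG hz hl (fun e => a1 (by simp [e])) (fun e => a2 (by simp [e]))
      (fun e => a3 (by simp [e])) (c2_eB hz a4)
  · obtain ⟨⟨a1, -, -, a2, -⟩, a3, a4⟩ := hh _ hv
    exact ⟨Or.inl (by simp [sb, c2G]), Or.inl (by simp [bb, c2G]), Or.inl (by simp [c2G]),
      Or.inr (Or.inr (mul_ne_zero (div_ne_zero a3 a2) one_ne_zero)), Or.inl (div_ne_zero a4 a1)⟩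

theorem chart_G2 : ∃ σ, Chart MM {z | Op z} Orb Phi hG2 σ := by
  have hh : ∀ v, hG2 v ≠ 0 → (v (0, 0) ≠ 0 ∧ v (1, 0) ≠ 0 ∧ v (2, 1) ≠ 0 ∧ v (3, 3) ≠ 0 ∧
      v (4, 2) ≠ 0) ∧ v (4, 0) ≠ 0 ∧ v (2, 0) ≠ 0 := fun v hv => by
    simpa only [hG2, ne_eq, mul_eq_zero, not_or, and_assoc] using hv
  refine ⟨c2G, by unfold hG2; fun_prop, c2_ratG fun v hv => (hh v hv).1,
    fun z hz l hl h => ?_, fun v hv => ?_⟩
  · obtain ⟨⟨a1, a2, -⟩, a3, a4⟩ := hh _ h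
    simp only [c2_phi] at a1 a2 a3 a4
    exact c2_orbG hz hl (fun e => a1 (by simp [e])) (fun e => a2 (by simp [e]))
      (fun e => a4 (by simp [e])) (fun e => a3 (by simp [e]))
  · obtain ⟨⟨-, -, a1, -, a2⟩, a3, a4⟩ := hh _ hv
    exact ⟨Or.inl (by simp [sb, c2G]), Or.inl (by simp [bb, c2G]), Or.inl (by simp [c2G]),
      Or.inl (div_ne_zero a4 a1), Or.inr (Or.inr (mul_ne_zero (div_ne_zero a3 a2) one_ne_zero))⟩

end Vale.Agent.P300
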