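import Vale.Agent.P300.Facts
import Vale.Agent.P300.Zar

/-! Charts of the multicone. -/

namespace Vale.Agent.P300

open Topology Filter Set Complex

namespace Chart3

theorem ph00 (z : W → ℂ) : Phi z (0, 0) = sb z ^ 2 := rfl
theorem ph01 (z : W → ℂ) : Phi z (0, 1) = sb z * z .t := rfl
theorem ph02 (z : W → ℂ) : Phi z (0, 2) = z .t ^ 2 := rfl
theorem ph03 (z : W → ℂ) : Phi z (0, 3) = z .p1 := rfl
theorem ph04 (z : W → ℂ) : Phi z (0, 4) = z .p3 := rfl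
theorem ph10 (z : W → ℂ) : Phi z (1, 0) = bb z ^ 2 := rfl
theorem ph11 (z : W → ℂ) : Phi z (1, 1) = bb z * kb z := rfl
theorem ph13 (z : W → ℂ) : Phi z (1, 3) = z .X := rfl
theorem ph20 (z : W → ℂ) : Phi z (2, 0) = z .eA * z .mu := rfl
theorem ph21 (z : W → ℂ) : Phi z (2, 1) = sb z ^ 4 := rfl
theorem ph30 (z : W → ℂ) : Phi z (3, 0) = z .eA ^ 4 * z .w1 := rfl
theorem ph33 (z : W → ℂ) : Phi z (3, 3) = z .e2 * z .be * sb z ^ 4 := rfl
theorem ph40 (z : W → ℂ) : Phi z (4, 0) = z .eB ^ 4 * z .w2 := rfl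
theorem ph42 (z : W → ℂ) : Phi z (4, 2) = z .be * sb z ^ 2 := rfl
theorem ph50 (z : W → ℂ) : Phi z (5, 0) = z .e1 * z .e2 * z .w1 * sb z ^ 12 * bb z ^ 3 := rfl
theorem ph51 (z : W → ℂ) : Phi z (5, 1) = (z .mu * bb z) ^ 4 := rfl
theorem ph52 (z : W → ℂ) : Phi z (5, 2) = (z .mu * bb z) ^ 3 * (z .eB * z .ka * sb z ^ 4) := rfl
theorem ph53 (z : W → ℂ) : Phi z (5, 3) = (z .mu * bb z) * (z .eB * z .ka * sb z ^ 4) ^ 3 := rfl
theorem ph54 (z : W → ℂ) : Phi z (5, 4) = (z .eB * z .ka * sb z ^ 4) ^ 4 := rfl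
theorem ph60 (z : W → ℂ) : Phi z (6, 0) = z .e1 * z .e2 ^ 2 * z .w2 * sb z ^ 6 * bb z ^ 3 := rfl
theorem ph61 (z : W → ℂ) : Phi z (6, 1) = (z .q * bb z) ^ 4 := rfl
theorem ph62 (z : W → ℂ) : Phi z (6, 2) = (z .q * bb z) ^ 3 * (z .eA * z .ka * sb z ^ 2) := rfl
theorem ph63 (z : W → ℂ) : Phi z (6, 3) = (z .q * bb z) * (z .eA * z .ka * sb z ^ 2) ^ 3 := rfl
theorem ph64 (z : W → ℂ) : Phi z (6, 4) = (z .eA * z .ka * sb z ^ 2) ^ 4 := rfl

theorem pa_eq {z : W → ℂ} (hz : z ∈ MM) (l : Fin 7 → ℂ) :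
    Pa (fun a => l a.1 * Phi z a) = l 0 * (z .eB * z .q) := by
  have h : z .eB * z .q = PP z := sub_eq_zero.1 hz.1.h0
  rw [h]
  simp only [Pa, ph00, ph02, PP]
  ring

/-- The common shape of the four sections. -/
noncomputable def sg (v : Fin 7 × Fin 6 → ℂ) (xA xB xm xq xk x1 x2 : ℂ) : W → ℂ
  | .e1 => 1
  | .e2 => 1
  | .eA => xA
  | .eB => xB
  | .s => 1
  | .t => v (0, 1) / v (0, 0)
  | .p1 => v (0, 3) / v (0, 0)
  | .p3 => v (0, 4) / v (0, 0)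
  | .mu => xm
  | .q => xq
  | .be => 1
  | .ka => xk
  | .X => v (1, 3) / v (1, 0)
  | .w1 => x1
  | .w2 => x2

theorem sg_rat {S : Set (Fin 7 × Fin 6 → ℂ)} {xA xB xm xq xk x1 x2 : (Fin 7 × Fin 6 → ℂ) → ℂ}
    (h0 : ∀ v ∈ S, v (0, 0) ≠ 0) (h1 : ∀ v ∈ S, v (1, 0) ≠ 0) (rA : IsRat S xA) (rB : IsRat S xB)
    (rm : IsRat S xm) (rq : IsRat S xq) (rk : IsRat S xk) (r1 : IsRat S x1) (r2 : IsRat S x2)
    (i : W) : IsRat S fun v => sg v (xA v) (xB v) (xm v) (xq v) (xk v) (x1 v) (x2 v) i := by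
  have o : IsRat S fun _ => 1 := IsRat.of_poly (IsPoly.const 1)
  cases i
  exacts [o, o, rA, rB, o, IsRat.of_div (IsPoly.coord _) (IsPoly.coord _) h0,
    IsRat.of_div (IsPoly.coord _) (IsPoly.coord _) h0,
    IsRat.of_div (IsPoly.coord _) (IsPoly.coord _) h0, rm, rq, o, rk,
    IsRat.of_div (IsPoly.coord _) (IsPoly.coord _) h1, r1, r2]

theorem sg_op (v : Fin 7 × Fin 6 → ℂ) {xA xB xm xq xk x1 x2 : ℂ} (ha : xm ≠ 0 ∨ xk ≠ 0)
    (hb : xq ≠ 0 ∨ xk ≠ 0) : Op (sg v xA xB xm xq xk x1 x2) :=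
  ⟨Or.inl (by simp [sb, sg]), Or.inl (by simp [bb, sg]), Or.inl (by simp [sg]),
    ha.imp_right Or.inl, hb.imp_right Or.inl⟩

theorem sg_orb {z : W → ℂ} {l : Fin 7 → ℂ} (hl : ∀ k, l k ≠ 0) (hs : sb z ≠ 0) (hb : bb z ≠ 0)
    {f g xA xB xm xq xk x1 x2 : ℂ} (hf : f ≠ 0) (hg : g ≠ 0) (eA : xA = f⁻¹ * z .eA)
    (eB : xB = g⁻¹ * z .eB) (em : xm = (sb z)⁻¹ ^ 4 * f * z .mu)
    (eq : xq = (sb z)⁻¹ ^ 2 * g * z .q) (ek : xk = (bb z)⁻¹ * f * g * z .ka)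
    (e1 : x1 = (sb z)⁻¹ ^ 4 * (bb z)⁻¹ * z .e1 * z .e2 * f ^ 4 * z .w1)
    (e2 : x2 = (sb z)⁻¹ ^ 2 * (bb z)⁻¹ * z .e1 * z .e2 ^ 2 * g ^ 4 * z .w2) :
    Orb z (sg (fun a => l a.1 * Phi z a) xA xB xm xq xk x1 x2) := by
  have n1 : z .e1 ≠ 0 := left_ne_zero_of_mul (left_ne_zero_of_mul hs)
  have n2 : z .e2 ≠ 0 := right_ne_zero_of_mul (left_ne_zero_of_mul hs)
  have l0 := hl 0
  have l1 := hl 1
  refine ⟨(sb z)⁻¹, (bb z)⁻¹, z .e1, z .e2, f, g, inv_ne_zero hs, inv_ne_zero hb, n1, n2, hf, hg,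
    fun i => ?_⟩
  cases i
  · exact (inv_mul_cancel₀ n1).symm
  · exact (inv_mul_cancel₀ n2).symm
  · exact eA
  · exact eB
  · simp only [sg, wt]
    rw [mul_assoc, mul_assoc, ← mul_assoc (z .e1)]
    exact (inv_mul_cancel₀ hs).symm
  · simp only [sg, wt, ph00, ph01]
    field_simp
  · simp only [sg, wt, ph00, ph03]
    field_simp
  · simp only [sg, wt, ph00, ph04]
    field_simp
  · exact em
  · exact eq
  · simp only [sg, wt]
    rw [mul_assoc, mul_assoc, ← mul_assoc (z .e1)]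
    exact (inv_mul_cancel₀ hb).symm
  · exact ek
  · simp only [sg, wt, ph10, ph13]
    field_simp
  · exact e1
  · exact e2

theorem poly_Pa : IsPoly Pa := by
  unfold Pa
  fun_prop

theorem rat_one {S : Set (Fin 7 × Fin 6 → ℂ)} : IsRat S fun _ => 1 :=
  IsRat.of_poly (IsPoly.const 1)

theorem rat_cc {S : Set (Fin 7 × Fin 6 → ℂ)} (a b : Fin 7 × Fin 6) (h : ∀ v ∈ S, v b ≠ 0) :
    IsRat S fun v => v a / v b := IsRat.of_div (IsPoly.coord a) (IsPoly.coord b) h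

theorem rat_Pa {S : Set (Fin 7 × Fin 6 → ℂ)} (h : ∀ v ∈ S, v (0, 0) ≠ 0) :
    IsRat S fun v => Pa v / v (0, 0) := IsRat.of_div poly_Pa (IsPoly.coord _) h

theorem w1_eq {z : W → ℂ} {c : ℂ} (hc : c ≠ 0) (hs : sb z ≠ 0) (hb : bb z ≠ 0) :
    c * Phi z (3, 0) / (c * Phi z (3, 3)) =
      (sb z)⁻¹ ^ 4 * (bb z)⁻¹ * z .e1 * z .e2 * z .eA ^ 4 * z .w1 := by
  have n1 : z .e1 ≠ 0 := left_ne_zero_of_mul (left_ne_zero_of_mul hb)
  have n2 : z .e2 ≠ 0 := right_ne_zero_of_mul (left_ne_zero_of_mul hs)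
  have n3 : z .be ≠ 0 := right_ne_zero_of_mul hb
  rw [ph30, ph33, bb]
  field_simp

theorem w2_eq {z : W → ℂ} {c : ℂ} (hc : c ≠ 0) (hs : sb z ≠ 0) (hb : bb z ≠ 0) :
    c * Phi z (4, 0) / (c * Phi z (4, 2)) =
      (sb z)⁻¹ ^ 2 * (bb z)⁻¹ * z .e1 * z .e2 ^ 2 * z .eB ^ 4 * z .w2 := by
  have n1 : z .e1 ≠ 0 := left_ne_zero_of_mul (left_ne_zero_of_mul hb)
  have n2 : z .e2 ≠ 0 := right_ne_zero_of_mul (left_ne_zero_of_mul hs)
  have n3 : z .be ≠ 0 := right_ne_zero_of_mul hb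
  rw [ph40, ph42, bb]
  field_simp

theorem ne_of_pow {c x : ℂ} {n : ℕ} (h : c * x ^ (n + 1) ≠ 0) : x ≠ 0 :=
  ne_zero_pow n.succ_ne_zero (right_ne_zero_of_mul h)

end Chart3

open Chart3

theorem chart_Am : ∃ σ, Chart MM {z | Op z} Orb Phi hAm σ := by
  have F : ∀ v, hAm v ≠ 0 →
      v (0, 0) ≠ 0 ∧ v (1, 0) ≠ 0 ∧ v (2, 1) ≠ 0 ∧ v (4, 2) ≠ 0 ∧ Pa v ≠ 0 ∧ v (5, 1) ≠ 0 := by
    intro v h
    simpa only [hAm, mul_ne_zero_iff, and_assoc] using h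
  refine ⟨fun v => sg v (v (2, 0) / v (2, 1)) 1 1 (Pa v / v (0, 0)) (v (5, 2) / v (5, 1))
    (v (5, 0) / v (5, 1)) (v (4, 0) / v (4, 2)),
    by unfold hAm Pa; fun_prop, ?_, fun z hz l hl h => ?_, fun v h => ?_⟩
  · exact sg_rat (fun v h => (F v h).1) (fun v h => (F v h).2.1)
      (rat_cc _ _ fun v h => (F v h).2.2.1) rat_one rat_one (rat_Pa fun v h => (F v h).1)
      (rat_cc _ _ fun v h => (F v h).2.2.2.2.2) (rat_cc _ _ fun v h => (F v h).2.2.2.2.2)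
      (rat_cc _ _ fun v h => (F v h).2.2.2.1)
  · have hs : sb z ≠ 0 := ne_of_pow (F _ h).1
    have hb : bb z ≠ 0 := ne_of_pow (F _ h).2.1
    have hP := (F _ h).2.2.2.2.1
    rw [pa_eq hz] at hP
    have nB : z .eB ≠ 0 := left_ne_zero_of_mul (right_ne_zero_of_mul hP)
    have nm : z .mu ≠ 0 := left_ne_zero_of_mul (ne_of_pow (F _ h).2.2.2.2.2)
    have l0 := hl 0
    have l2 := hl 2
    have l5 := hl 5
    refine sg_orb hl hs hb (f := sb z ^ 4 / z .mu) (g := z .eB)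
      (div_ne_zero (pow_ne_zero _ hs) nm) nB ?_ ?_ ?_ ?_ ?_ ?_ (w2_eq (hl 4) hs hb)
    · simp only [ph20, ph21]
      field_simp
    · field_simp
    · field_simp
    · simp only [pa_eq hz, ph00]
      field_simp
    · simp only [ph52, ph51]
      field_simp
    · simp only [ph50, ph51]
      field_simp
  · exact sg_op v (Or.inl one_ne_zero) (Or.inl (div_ne_zero (F v h).2.2.2.2.1 (F v h).1))

theorem chart_Ak : ∃ σ, Chart MM {z | Op z} Orb Phi hAk σ := by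
  have F : ∀ v, hAk v ≠ 0 →
      v (0, 0) ≠ 0 ∧ v (1, 0) ≠ 0 ∧ v (4, 2) ≠ 0 ∧ Pa v ≠ 0 ∧ v (5, 4) ≠ 0 := by
    intro v h
    simpa only [hAk, mul_ne_zero_iff, and_assoc] using h
  refine ⟨fun v => sg v (v (1, 1) / v (1, 0)) 1 (v (5, 3) / v (5, 4)) (Pa v / v (0, 0)) 1
    (v (5, 0) / v (5, 4)) (v (4, 0) / v (4, 2)),
    by unfold hAk Pa; fun_prop, ?_, fun z hz l hl h => ?_, fun v h => ?_⟩
  · exact sg_rat (fun v h => (F v h).1) (fun v h => (F v h).2.1)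
      (rat_cc _ _ fun v h => (F v h).2.1) rat_one (rat_cc _ _ fun v h => (F v h).2.2.2.2)
      (rat_Pa fun v h => (F v h).1) rat_one (rat_cc _ _ fun v h => (F v h).2.2.2.2)
      (rat_cc _ _ fun v h => (F v h).2.2.1)
  · have hs : sb z ≠ 0 := ne_of_pow (F _ h).1
    have hb : bb z ≠ 0 := ne_of_pow (F _ h).2.1
    have hP : z .eB * z .ka ≠ 0 := left_ne_zero_of_mul (ne_of_pow (F _ h).2.2.2.2)
    have nB := left_ne_zero_of_mul hP
    have nk := right_ne_zero_of_mul hP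
    have l0 := hl 0
    have l1 := hl 1
    have l5 := hl 5
    refine sg_orb hl hs hb (f := bb z / (z .eB * z .ka)) (g := z .eB)
      (div_ne_zero hb hP) nB ?_ ?_ ?_ ?_ ?_ ?_ (w2_eq (hl 4) hs hb)
    · simp only [ph11, ph10, kb]
      field_simp
    · field_simp
    · simp only [ph53, ph54]
      field_simp
    · simp only [pa_eq hz, ph00]
      field_simp
    · field_simp
    · simp only [ph50, ph54]
      field_simp
  · exact sg_op v (Or.inr one_ne_zero) (Or.inr one_ne_zero)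

theorem chart_Bq : ∃ σ, Chart MM {z | Op z} Orb Phi hBq σ := by
  have F : ∀ v, hBq v ≠ 0 →
      v (0, 0) ≠ 0 ∧ v (1, 0) ≠ 0 ∧ v (2, 1) ≠ 0 ∧ v (3, 3) ≠ 0 ∧ v (2, 0) ≠ 0 ∧ v (6, 1) ≠ 0 := by
    intro v h
    simpa only [hBq, mul_ne_zero_iff, and_assoc] using h
  refine ⟨fun v => sg v 1 (Pa v / v (0, 0)) (v (2, 0) / v (2, 1)) 1 (v (6, 2) / v (6, 1))
    (v (3, 0) / v (3, 3)) (v (6, 0) / v (6, 1)),
    by unfold hBq; fun_prop, ?_, fun z hz l hl h => ?_, fun v h => ?_⟩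
  · exact sg_rat (fun v h => (F v h).1) (fun v h => (F v h).2.1) rat_one
      (rat_Pa fun v h => (F v h).1) (rat_cc _ _ fun v h => (F v h).2.2.1) rat_one
      (rat_cc _ _ fun v h => (F v h).2.2.2.2.2) (rat_cc _ _ fun v h => (F v h).2.2.2.1)
      (rat_cc _ _ fun v h => (F v h).2.2.2.2.2)
  · have hs : sb z ≠ 0 := ne_of_pow (F _ h).1
    have hb : bb z ≠ 0 := ne_of_pow (F _ h).2.1
    have nA : z .eA ≠ 0 := left_ne_zero_of_mul (right_ne_zero_of_mul (F _ h).2.2.2.2.1)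
    have nq : z .q ≠ 0 := left_ne_zero_of_mul (ne_of_pow (F _ h).2.2.2.2.2)
    have l0 := hl 0
    have l2 := hl 2
    have l6 := hl 6
    refine sg_orb hl hs hb (f := z .eA) (g := sb z ^ 2 / z .q)
      nA (div_ne_zero (pow_ne_zero _ hs) nq) ?_ ?_ ?_ ?_ ?_ (w1_eq (hl 3) hs hb) ?_
    · field_simp
    · simp only [pa_eq hz, ph00]
      field_simp
    · simp only [ph20, ph21]
      field_simp
    · field_simp
    · simp only [ph62, ph61]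
      field_simp
    · simp only [ph60, ph61]
      field_simp
  · exact sg_op v (Or.inl (div_ne_zero (F v h).2.2.2.2.1 (F v h).2.2.1)) (Or.inl one_ne_zero)

theorem chart_Bk : ∃ σ, Chart MM {z | Op z} Orb Phi hBk σ := by
  have F : ∀ v, hBk v ≠ 0 →
      v (0, 0) ≠ 0 ∧ v (1, 0) ≠ 0 ∧ v (2, 1) ≠ 0 ∧ v (3, 3) ≠ 0 ∧ v (2, 0) ≠ 0 ∧ v (6, 4) ≠ 0 := by
    intro v h
    simpa only [hBk, mul_ne_zero_iff, and_assoc] using h
  refine ⟨fun v => sg v 1 (v (1, 1) / v (1, 0)) (v (2, 0) / v (2, 1)) (v (6, 3) / v (6, 4)) 1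
    (v (3, 0) / v (3, 3)) (v (6, 0) / v (6, 4)),
    by unfold hBk; fun_prop, ?_, fun z hz l hl h => ?_, fun v h => ?_⟩
  · exact sg_rat (fun v h => (F v h).1) (fun v h => (F v h).2.1) rat_one
      (rat_cc _ _ fun v h => (F v h).2.1) (rat_cc _ _ fun v h => (F v h).2.2.1)
      (rat_cc _ _ fun v h => (F v h).2.2.2.2.2) rat_one (rat_cc _ _ fun v h => (F v h).2.2.2.1)
      (rat_cc _ _ fun v h => (F v h).2.2.2.2.2)
  · have hs : sb z ≠ 0 := ne_of_pow (F _ h).1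
    have hb : bb z ≠ 0 := ne_of_pow (F _ h).2.1
    have hP : z .eA * z .ka ≠ 0 := left_ne_zero_of_mul (ne_of_pow (F _ h).2.2.2.2.2)
    have nA := left_ne_zero_of_mul hP
    have nk := right_ne_zero_of_mul hP
    have l1 := hl 1
    have l2 := hl 2
    have l6 := hl 6
    refine sg_orb hl hs hb (f := z .eA) (g := bb z / (z .eA * z .ka))
      nA (div_ne_zero hb hP) ?_ ?_ ?_ ?_ ?_ (w1_eq (hl 3) hs hb) ?_
    · field_simp
    · simp only [ph11, ph10, kb]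
      field_simp
    · simp only [ph20, ph21]
      field_simp
    · simp only [ph63, ph64]
      field_simp
    · field_simp
    · simp only [ph60, ph64]
      field_simp
  · exact sg_op v (Or.inr one_ne_zero) (Or.inr one_ne_zero)

end Vale.Agent.P300
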