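import Vale.Agent.P300.Basic

/-! The covering space of a locally constant cocycle, and global square roots. -/

namespace Vale.Agent.P300

open Topology Filter Set Complex

/-- The principal covering with locally constant transition functions `g`. -/
theorem exists_cocycle_cover {B ι G : Type} [TopologicalSpace B] [Group G] (U : ι → Set B)
    (hU : ∀ i, IsOpen (U i)) (hcov : ∀ b, ∃ i, b ∈ U i) (g : ι → ι → B → G)
    (hlc : ∀ i j b, b ∈ U i → b ∈ U j → ∀ᶠ b' in 𝓝 b, g i j b' = g i j b)
    (hcoc : ∀ i j k b, b ∈ U i → b ∈ U j → b ∈ U k → g i j b * g j k b = g i k b) :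
    ∃ (P : Type) (_ : TopologicalSpace P) (pr : P → B) (t : ι → P → G) (s : ι → G → B → P),
      IsCoveringMap pr ∧
      (∀ i e, pr e ∈ U i → ∀ᶠ e' in 𝓝 e, t i e' = t i e) ∧
      (∀ i j e, pr e ∈ U i → pr e ∈ U j → t j e = t i e * g i j (pr e)) ∧
      (∀ i γ, ContinuousOn (s i γ) (U i)) ∧
      (∀ i γ b, b ∈ U i → pr (s i γ b) = b ∧ t i (s i γ b) = γ) ∧
      (∀ i e, pr e ∈ U i → s i (t i e) (pr e) = e) := by
  letI : TopologicalSpace G := ⊥
  haveI : DiscreteTopology G := ⟨rfl⟩
  choose ix hix using hcov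
  have hself : ∀ i b, b ∈ U i → g i i b = 1 := fun i b h => by
    simpa using hcoc i i i b h h h
  let Z : FiberBundleCore ι B G :=
    { baseSet := U
      isOpen_baseSet := hU
      indexAt := ix
      mem_baseSet_at := hix
      coordChange := fun i j b γ => γ * g i j b
      coordChange_self := fun i b h γ => by rw [hself i b h, mul_one]
      continuousOn_coordChange := fun i j => by
        refine continuousOn_prod_of_discrete_right.2 fun γ b hb => ?_
        have hb' : b ∈ U i ∩ U j := hb.1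
        refine ContinuousAt.continuousWithinAt ?_
        refine (continuousAt_const (y := γ * g i j b)).congr ?_
        exact (hlc i j b hb'.1 hb'.2).mono fun b' h => by simp only [h]
      coordChange_comp := fun i j k b h γ => by
        rw [mul_assoc, hcoc i j k b h.1.1 h.1.2 h.2] }
  refine ⟨Z.TotalSpace, inferInstance, Z.proj, fun i e => (Z.localTriv i e).2,
    fun i γ b => (Z.localTriv i).toOpenPartialHomeomorph.symm (b, γ),
    FiberBundle.isCoveringMap, fun i e he => ?_, fun i j e hi hj => ?_, fun i γ => ?_,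
    fun i γ b hb => ⟨rfl, ?_⟩, fun i e he => ?_⟩
  · have h1 : ContinuousAt (Z.localTriv i) e :=
      (Z.localTriv i).continuousOn.continuousAt ((Z.localTriv i).open_source.mem_nhds he)
    exact (continuous_snd.continuousAt.comp h1).eventually
      (p := fun γ => γ = (Z.localTriv i e).2) ((isOpen_discrete _).mem_nhds rfl)
  · have h : ∀ γ : G, γ * g (ix e.1) j e.1 = γ * g (ix e.1) i e.1 * g i j e.1 := fun γ => by
      rw [mul_assoc, hcoc _ i j e.1 (hix _) hi hj]
    exact h e.2
  · exact (Z.localTriv i).toOpenPartialHomeomorph.continuousOn_symm.comp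
      (continuous_id.prodMk continuous_const).continuousOn fun b hb => ⟨hb, trivial⟩
  · change γ * g i (ix b) b * g (ix b) i b = γ
    rw [mul_assoc, hcoc i _ i b hb (hix b) hb, hself i b hb, mul_one]
  · exact (Z.localTriv i).toOpenPartialHomeomorph.left_inv he

/-- Global square roots on a simply connected space. -/
theorem exists_global_sqrt {E : Type} [TopologicalSpace E] [SimplyConnectedSpace E]
    [LocallyPathConnectedSpace E] {f : E → ℂ} (hl : ∀ e, LocSq f e) (hu : ∀ e, SqUnique f e) :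
    ∃ r : E → ℂ, Continuous r ∧ ∀ e, r e ^ 2 = f e := by
  classical
  choose r hr1 hr2 using hl
  obtain ⟨U, hUe⟩ : ∃ U : E → Set E,
      ∀ e, U e = interior {x | ContinuousAt (r e) x ∧ r e x ^ 2 = f x} := ⟨_, fun _ => rfl⟩
  have hU : ∀ e, IsOpen (U e) := fun e => hUe e ▸ isOpen_interior
  have hmem : ∀ e, e ∈ U e := fun e => by
    rw [hUe, mem_interior_iff_mem_nhds]
    exact (hr1 e).and (hr2 e)
  have hnear : ∀ i b, b ∈ U i → CNear (r i) b ∧ ∀ᶠ x in 𝓝 b, r i x ^ 2 = f x := fun i b h => by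
    rw [hUe, mem_interior_iff_mem_nhds] at h
    exact eventually_and.1 h
  obtain ⟨g, hg⟩ : ∃ g : E → E → E → ℤˣ,
      ∀ i j b, g i j b = if r j =ᶠ[𝓝 b] r i then 1 else -1 := ⟨_, fun _ _ _ => rfl⟩
  have hex : ∀ i j b, b ∈ U i → b ∈ U j →
      ∀ᶠ x in 𝓝 b, r j x = ((g i j b : ℤ) : ℂ) * r i x := by
    intro i j b hi hj
    rw [hg]
    split_ifs with h
    · exact h.mono fun x hx => by simpa using hx
    · exact (((hu b).2 _ _ (hnear j b hj).1 (hnear i b hi).1 (hnear j b hj).2
        (hnear i b hi).2).resolve_left h).mono fun x hx => by simpa using hx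
  have huniq : ∀ i j b, b ∈ U i → b ∈ U j → ∀ c : ℤˣ,
      (∀ᶠ x in 𝓝 b, r j x = ((c : ℤ) : ℂ) * r i x) → g i j b = c := by
    intro i j b hi hj c hc
    obtain ⟨x, h1, h2, h3, h4⟩ :=
      ((hu b).1.and_eventually ((hnear i b hi).2.and (hc.and (hex i j b hi hj)))).exists
    have h5 : r i x ≠ 0 := fun h => h1 (by rw [← h2, h]; simp)
    have h6 := mul_right_cancel₀ h5 (h4.symm.trans h3)
    exact Units.ext (by exact_mod_cast h6)
  obtain ⟨P, _, pr, t, s, hcov, ht, htg, -, hs, -⟩ := exists_cocycle_cover U hU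
    (fun b => ⟨b, hmem b⟩) g
    (fun i j b hi hj => by
      filter_upwards [(hex i j b hi hj).eventually_nhds, (hU i).mem_nhds hi, (hU j).mem_nhds hj]
        with b' h1 h2 h3 using huniq i j b' h2 h3 _ h1)
    (fun i j k b hi hj hk => (huniq i k b hi hk _ (by
      filter_upwards [hex i j b hi hj, hex j k b hj hk] with x h1 h2
      rw [h2, h1]
      push_cast
      ring)).symm)
  obtain ⟨e₀⟩ : Nonempty E := inferInstance
  obtain ⟨σ, ⟨-, hσ⟩, -⟩ := hcov.existsUnique_continuousMap_lifts (ContinuousMap.id E) e₀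
    (s e₀ 1 e₀) (hs e₀ 1 e₀ (hmem e₀)).1
  have hσ' : ∀ b, pr (σ b) = b := fun b => congrFun hσ b
  have hsq : ∀ c : ℤˣ, ((c : ℤ) : ℂ) ^ 2 = 1 := fun c => by
    rcases Int.units_eq_one_or c with h | h <;> simp [h]
  refine ⟨fun b => ((t b (σ b) : ℤ) : ℂ) * r b b, continuous_iff_continuousAt.2 fun b => ?_,
    fun b => by rw [mul_pow, hsq, one_mul, (hr2 b).self_of_nhds]⟩
  refine ((continuousAt_const (y := ((t b (σ b) : ℤ) : ℂ))).mul (hr1 b).self_of_nhds).congr ?_
  filter_upwards [σ.continuous.continuousAt.eventually (ht b (σ b) (by rw [hσ']; exact hmem b)),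
    (hU b).mem_nhds (hmem b)] with x h1 h2
  rw [htg b x (σ x) (by rwa [hσ']) (by rw [hσ']; exact hmem x), hσ', h1,
    (hex b x x h2 (hmem x)).self_of_nhds]
  have := hsq (g b x x)
  simp only [Pi.mul_apply]
  push_cast
  linear_combination (-((t b (σ b) : ℤ) : ℂ) * r b x) * this

/-- Continuous extension from a dense open set. -/
theorem exists_extension {E : Type} [TopologicalSpace E] {D : Set E}
    (hD : ∀ e, ∃ᶠ e' in 𝓝 e, e' ∈ D) {f : E → ℂ}
    (h : ∀ e, ∃ g : E → ℂ, CNear g e ∧ ∀ᶠ e' in 𝓝 e, e' ∈ D → g e' = f e') :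
    ∃ F : E → ℂ, Continuous F ∧ ∀ e (g : E → ℂ), ContinuousAt g e →
      (∀ᶠ e' in 𝓝 e, e' ∈ D → g e' = f e') → F e = g e := by
  choose G hG1 hG2 using h
  have key : ∀ e (g : E → ℂ), ContinuousAt g e → (∀ᶠ e' in 𝓝 e, e' ∈ D → g e' = f e') →
      G e e = g e := fun e g hg hg' =>
    tendsto_nhds_unique_of_frequently_eq (hG1 e).self_of_nhds hg
      (((hD e).and_eventually ((hG2 e).and hg')).mono fun x hx => by
        rw [hx.2.1 hx.1, hx.2.2 hx.1])
  refine ⟨fun e => G e e, continuous_iff_continuousAt.2 fun e => ?_, key⟩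
  refine (hG1 e).self_of_nhds.congr ?_
  filter_upwards [hG1 e, (hG2 e).eventually_nhds] with x h1 h2 using (key x _ h1 h2).symm

end Vale.Agent.P300
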