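import Vale.Agent.P300.Loc3

/-! The two families of conics through a node. -/

namespace Vale.Agent.P300

open Topology Filter Set Complex

/-- A rational curve in the total space joining two nodes, along which `F` is the square of a
nonvanishing function that changes sign. -/
structure Arc (z : W → ℂ) (c c' : ℂ → W → ℂ) (i : W) (F : (W → ℂ) → ℂ) (b : ℝ → ℂ) : Prop where
  an : ∀ τ, AnalyticAt ℂ c τ
  an' : ∀ τ, AnalyticAt ℂ c' τ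
  mem : ∀ τ, c τ ∈ MM
  mem' : ∀ τ, c' τ ∈ MM
  orb : ∀ τ, τ ≠ 0 → Orb (c τ) (c' τ⁻¹)
  start : c 0 = z
  stop : c 1 .e1 = 0 ∧ c 1 .e2 = 0
  zero : ∀ τ, c τ i = 0
  cont : ContinuousOn b (Icc 0 1)
  ne : ∀ τ ∈ Icc (0 : ℝ) 1, b τ ≠ 0
  sq : ∀ τ ∈ Icc (0 : ℝ) 1, F (c τ) = b τ ^ 2
  b0 : b 0 = 1
  b1 : b 1 = -1

namespace ConicAux

/-- The two conjugate quadratic polynomials. -/
noncomputable def kp (τ : ℂ) : ℂ := (1 - τ) ^ 2 + I * τ ^ 2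
noncomputable def km (τ : ℂ) : ℂ := (1 - τ) ^ 2 - I * τ ^ 2

theorem k_rel (τ : ℂ) : kp τ ^ 2 - km τ ^ 2 = 4 * I * (τ * (1 - τ)) ^ 2 := by
  simp only [kp, km]; ring

theorem k_or (τ : ℂ) : kp τ ≠ 0 ∨ τ * (1 - τ) ≠ 0 := by
  by_contra h
  push Not at h
  rcases mul_eq_zero.1 h.2 with h0 | h0
  · simp [kp, h0] at h
  · have : τ = 1 := (sub_eq_zero.1 h0).symm
    simp [kp, this] at h

theorem k_or' (σ : ℂ) : (σ - 1) ^ 2 + I ≠ 0 ∨ σ - 1 ≠ 0 := by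
  by_cases h : σ - 1 = 0
  · left; simp [h]
  · exact Or.inr h

theorem k_ne (τ : ℝ) : kp τ ≠ 0 ∧ km τ ≠ 0 := by
  have key : ∀ ε : ℝ, ε ≠ 0 → (((1 - τ) ^ 2 : ℝ) : ℂ) + ((ε * τ ^ 2 : ℝ) : ℂ) * I ≠ 0 := by
    intro ε hε h
    have h1 := congrArg re h
    have h2 := congrArg im h
    simp only [add_re, ofReal_re, mul_re, I_re, mul_zero, ofReal_im, I_im, mul_one, sub_self,
      add_zero, zero_re, add_im, mul_im, zero_add, zero_im] at h1 h2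
    have h3 : τ = 0 := pow_eq_zero_iff two_ne_zero |>.1 ((mul_eq_zero.1 h2).resolve_left hε)
    rw [h3] at h1
    norm_num at h1
  constructor
  · have := key 1 one_ne_zero
    refine fun h => this ?_
    rw [← h, kp]; push_cast; ring
  · have := key (-1) (by norm_num)
    refine fun h => this ?_
    rw [← h, km]; push_cast; ring

theorem exists_b {a : ℂ} (ha : a ≠ 0) {R : ℝ → ℝ} (hc : Continuous R) (hR : ∀ τ, 0 ≤ R τ)
    (h0 : R 0 = 0) (h1 : R 1 = 0) : ∃ b : ℝ → ℂ, ContinuousOn b (Icc 0 1) ∧ (∀ τ, b τ ≠ 0) ∧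
      (∀ τ : ℝ, a * km τ ^ 2 * (starRingEnd ℂ) (a * kp τ ^ 2) /
        ((‖a * kp τ ^ 2‖ + R τ : ℝ) : ℂ) ^ 2 = b τ ^ 2) ∧ b 0 = 1 ∧ b 1 = -1 := by
  have hN : ∀ τ : ℝ, ((‖a * kp τ ^ 2‖ + R τ : ℝ) : ℂ) ≠ 0 := fun τ => by
    have := norm_pos_iff.2 (mul_ne_zero ha (pow_ne_zero 2 (k_ne τ).1))
    exact ofReal_ne_zero.2 (by linarith [hR τ])
  have hn : ((‖a‖ : ℝ) : ℂ) ≠ 0 := ofReal_ne_zero.2 (norm_ne_zero_iff.2 ha)
  refine ⟨fun τ => (‖a‖ : ℝ) * km τ * (starRingEnd ℂ) (kp τ) / ((‖a * kp τ ^ 2‖ + R τ : ℝ) : ℂ),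
    Continuous.continuousOn (Continuous.div ?_ ?_ hN), fun τ => div_ne_zero (mul_ne_zero
      (mul_ne_zero hn (k_ne τ).2) ((_root_.map_ne_zero _).2 (k_ne τ).1)) (hN τ), fun τ => ?_, ?_, ?_⟩
  · unfold kp km; fun_prop
  · unfold kp; fun_prop
  · rw [div_pow, map_mul, map_pow]
    congr 1
    have := mul_conj' a
    linear_combination (km τ ^ 2 * (starRingEnd ℂ) (kp τ) ^ 2) * this
  · simp [kp, km, h0, ha]
  · have e : ((‖a‖ : ℝ) : ℂ) * -I * -I = -((‖a‖ : ℝ) : ℂ) := by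
      linear_combination ((‖a‖ : ℝ) : ℂ) * I_sq
    simp only [kp, km, h1, ofReal_one, sub_self, ne_eq, OfNat.ofNat_ne_zero, not_false_eq_true,
      zero_pow, one_pow, mul_one, zero_add, zero_sub, conj_I, I_sq, mul_neg, norm_neg, add_zero,
      neg_mul, neg_neg] at e ⊢
    rw [e, neg_div, div_self hn]

/-- The first family. -/
def cz1 (z : W → ℂ) (e α β γ : ℂ) : W → ℂ
  | .s => z .s * α
  | .w1 => z .w1 * β
  | .e2 => e * γ
  | i => z i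

/-- The second family. -/
def cz2 (z : W → ℂ) (e α β γ : ℂ) : W → ℂ
  | .be => z .be * α
  | .w2 => z .w2 * β
  | .e1 => e * γ
  | i => z i

theorem an1 (z : W → ℂ) (e : ℂ) {α β γ : ℂ → ℂ} {τ : ℂ} (h1 : AnalyticAt ℂ α τ)
    (h2 : AnalyticAt ℂ β τ) (h3 : AnalyticAt ℂ γ τ) :
    AnalyticAt ℂ (fun τ => cz1 z e (α τ) (β τ) (γ τ)) τ := by
  refine AnalyticAt.pi fun i => ?_
  cases i <;> simp only [cz1] <;> fun_prop

theorem an2 (z : W → ℂ) (e : ℂ) {α β γ : ℂ → ℂ} {τ : ℂ} (h1 : AnalyticAt ℂ α τ)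
    (h2 : AnalyticAt ℂ β τ) (h3 : AnalyticAt ℂ γ τ) :
    AnalyticAt ℂ (fun τ => cz2 z e (α τ) (β τ) (γ τ)) τ := by
  refine AnalyticAt.pi fun i => ?_
  cases i <;> simp only [cz2] <;> fun_prop

variable {z : W → ℂ} {e α β γ : ℂ}

theorem sb0 (h1 : z .e1 * z .e2 = 0) : sb z = 0 := by rw [sb, h1, zero_mul]

theorem bb0 (h1 : z .e1 * z .e2 = 0) : bb z = 0 := by
  rw [bb]; linear_combination z .e2 * z .be * h1

/-- Membership for a point that differs from a node only in the conic coordinates. -/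
theorem mem_of {y : W → ℂ} (hz : z ∈ MM) (h1 : z .e1 * z .e2 = 0) (h2 : y .e1 * y .e2 = 0)
    (hA : y .eA = z .eA) (hB : y .eB = z .eB) (ht : y .t = z .t) (hp1 : y .p1 = z .p1)
    (hp3 : y .p3 = z .p3) (hmu : y .mu = z .mu) (hq : y .q = z .q) (hk : y .ka = z .ka)
    (hX : y .X = z .X) (hw1 : Ew1 y = 0) (hw2 : Ew2 y = 0)
    (hs : y .s * y .be ≠ 0 ∨ y .s * y .e1 ≠ 0 ∨ y .be * y .e2 ≠ 0) : y ∈ MM := by
  have hP : PP y = PP z := by rw [PP, PP, sb0 h1, sb0 h2, ht]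
  have hC : mC y = mC z := by rw [mC, mC, sb0 h1, sb0 h2, hP]
  have hm : m0 y = m0 z := by rw [m0, m0, sb0 h1, sb0 h2, hP]
  have hkb : kb y = kb z := by rw [kb, kb, hA, hB, hk]
  have a0 : Eq0 y = 0 := by rw [← hz.1.h0, Eq0, Eq0, hB, hq, hP]
  have a1 : Eq1 y = 0 := by rw [← hz.1.h1, Eq1, Eq1, hp1, hC, hm]
  have a3 : Eq3 y = 0 := by rw [← hz.1.h3, Eq3, Eq3, hp3, hC, hm]
  have aM : EqM y = 0 := by rw [← hz.1.hM, EqM, EqM, hA, hmu, hm]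
  have aX : EqX y = 0 := by rw [← hz.1.hX, EqX, EqX, hX, bb0 h1, bb0 h2, hkb]
  obtain ⟨f1, -, -, -, -, f2, f3, f4, f5⟩ := facts_sb hz (sb0 h1)
  have rA := rel_A a1 a3 aM aX
  have rB := rel_B a0 a1 a3 aX
  rw [hw1, zero_mul, hA] at rA
  rw [hw2, zero_mul, hB] at rB
  refine ⟨⟨a0, a1, a3, aM, aX, hw1, hw2, (mul_eq_zero.1 rA).resolve_left (pow_ne_zero 8 f2),
    (mul_eq_zero.1 rB).resolve_left (pow_ne_zero 8 f4)⟩, Or.inr (ht ▸ f1), Or.inr ?_, hs,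
    Or.inl (hmu ▸ f3), Or.inl (hq ▸ f5)⟩
  rw [hkb]
  exact hz.2.bk.resolve_left (not_not.2 (bb0 h1))

theorem PP1 (h1 : z .e1 = 0) : PP (cz1 z e α β γ) = PP z := by simp [PP, sb, cz1, h1]

theorem mC1 (h1 : z .e1 = 0) : mC (cz1 z e α β γ) = mC z := by
  rw [mC, mC, PP1 h1]; simp [sb, cz1, h1]

theorem PP2 (h2 : z .e2 = 0) : PP (cz2 z e α β γ) = PP z := by simp [PP, sb, cz2, h2]

theorem mC2 (h2 : z .e2 = 0) : mC (cz2 z e α β γ) = mC z := by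
  rw [mC, mC, PP2 h2]; simp [sb, cz2, h2]

theorem mem1 (hz : z ∈ MM) (h1 : z .e1 = 0) (h2 : z .e2 = 0) (he0 : e ≠ 0)
    (he : e ^ 2 * (z .be ^ 2 * mC z) = 4 * I * (nn z * z .X)) (h : α ^ 2 - β ^ 2 = 4 * I * γ ^ 2)
    (h' : α ≠ 0 ∨ γ ≠ 0) : cz1 z e α β γ ∈ MM := by
  have h0 : z .e1 * z .e2 = 0 := by rw [h1, zero_mul]
  obtain ⟨-, f1, f2⟩ := facts_S hz (sb0 h0) (bb0 h0)
  refine mem_of hz h0 (by simp [cz1, h1]) rfl rfl rfl rfl rfl rfl rfl rfl rfl ?_ ?_ ?_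
  · have a := hz.1.hw1
    rw [Ew1, A1, B1, nn, mC1 h1, PP1 h1]
    rw [Ew1, A1, B1, h2] at a
    rw [nn] at a he
    simp only [cz1]
    linear_combination β ^ 2 * a - γ ^ 2 * he + (z .s ^ 2 * z .p1 * PP z * z .p3 * z .X) * h
  · have a := hz.1.hw2
    simp only [Ew2, A2, B2, cz1, h1] at a ⊢
    linear_combination a
  · exact h'.imp (fun a => mul_ne_zero (mul_ne_zero (f2 h2).1 a) (f1 h1).1)
      fun a => Or.inr (mul_ne_zero (f1 h1).1 (mul_ne_zero he0 a))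

theorem mem2 (hz : z ∈ MM) (h1 : z .e1 = 0) (h2 : z .e2 = 0) (he0 : e ≠ 0)
    (he : e ^ 2 * (z .s ^ 4 * z .X) = 4 * I * A2 z) (h : α ^ 2 - β ^ 2 = 4 * I * γ ^ 2)
    (h' : α ≠ 0 ∨ γ ≠ 0) : cz2 z e α β γ ∈ MM := by
  have h0 : z .e1 * z .e2 = 0 := by rw [h1, zero_mul]
  obtain ⟨-, f1, f2⟩ := facts_S hz (sb0 h0) (bb0 h0)
  refine mem_of hz h0 (by simp [cz2, h2]) rfl rfl rfl rfl rfl rfl rfl rfl rfl ?_ ?_ ?_
  · have a := hz.1.hw1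
    rw [Ew1, A1, B1, nn, mC2 h2, PP2 h2]
    rw [Ew1, A1, B1, nn] at a
    simp only [cz2, h2] at a ⊢
    linear_combination a
  · have a := hz.1.hw2
    simp only [Ew2, A2, B2, cz2, h1] at a he ⊢
    linear_combination β ^ 2 * a + γ ^ 2 * he - (z .be ^ 2 * (g4 * z .p1 * z .p3)) * h
  · exact h'.imp (fun a => mul_ne_zero (f2 h2).1 (mul_ne_zero (f1 h1).1 a))
      fun a => Or.inl (mul_ne_zero (f2 h2).1 (mul_ne_zero he0 a))

theorem exists_e {u v : ℂ} (hu : u ≠ 0) (hv : v ≠ 0) : ∃ e : ℂ, e ≠ 0 ∧ e ^ 2 * u = 4 * I * v := by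
  obtain ⟨e, he⟩ := IsAlgClosed.exists_pow_nat_eq (4 * I * v / u) two_pos
  refine ⟨e, fun h => ?_, by rw [he, div_mul_cancel₀ _ hu]⟩
  rw [h, zero_pow two_ne_zero] at he
  exact div_ne_zero (mul_ne_zero (mul_ne_zero (by norm_num) I_ne_zero) hv) hu he.symm

end ConicAux

open ConicAux

theorem exists_arc1 {D : ℂ} (hD : D ≠ 0) {z : W → ℂ} (hz : z ∈ MM) (h1 : z .e1 = 0)
    (h2 : z .e2 = 0) : ∃ c c' b, Arc z c c' .e1 (FB D) b := by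
  have h0 : z .e1 * z .e2 = 0 := by rw [h1, zero_mul]
  obtain ⟨-, f1, f2⟩ := facts_S hz (sb0 h0) (bb0 h0)
  obtain ⟨-, g1, g2, g3, g4', -⟩ := facts_sb hz (sb0 h0)
  obtain ⟨e, he0, he⟩ := exists_e (mul_ne_zero (pow_ne_zero 2 (f1 h1).1) g2)
    (show nn z * z .X ≠ 0 from mul_ne_zero (mul_ne_zero (mul_ne_zero (mul_ne_zero
      (pow_ne_zero 2 (f2 h2).1) g3) g1) g4') (facts_bb hz (bb0 h0)).2.2.2)
  obtain ⟨b, b1, b2, b3, b4, b5⟩ := exists_b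
    (mul_ne_zero (units_ne hD hz (sb0 h0) (bb0 h0)).1 (pow_ne_zero 2 (f2 h2).1))
    (R := fun τ : ℝ => ‖uy D z * (e * ((τ : ℂ) * (1 - τ))) ^ 2 * z .be ^ 2‖) (by fun_prop)
    (fun _ => norm_nonneg _) (by simp) (by simp)
  refine ⟨fun τ => cz1 z e (kp τ) (km τ) (τ * (1 - τ)),
    fun σ => cz1 z e ((σ - 1) ^ 2 + I) ((σ - 1) ^ 2 - I) (σ - 1), b,
    fun τ => an1 z e (by unfold kp; fun_prop) (by unfold km; fun_prop) (by fun_prop),
    fun τ => an1 z e (by fun_prop) (by fun_prop) (by fun_prop),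
    fun τ => mem1 hz h1 h2 he0 he (k_rel τ) (k_or τ),
    fun τ => mem1 hz h1 h2 he0 he (by ring) (k_or' τ), fun τ hτ => ?_, ?_, ⟨h1, by simp [cz1]⟩,
    fun _ => h1, b1, fun τ _ => b2 τ, fun τ _ => ?_, b4, b5⟩
  · refine ⟨1, 1, (τ ^ 4)⁻¹, τ ^ 2, 1, 1, one_ne_zero, one_ne_zero,
      inv_ne_zero (pow_ne_zero 4 hτ), pow_ne_zero 2 hτ, one_ne_zero, one_ne_zero, fun i => ?_⟩
    cases i <;> simp only [cz1, wt, kp, km, h1] <;> field_simp <;> ring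
  · funext i
    cases i <;> simp [cz1, kp, km, h2]
  · have r := (units_rel (D := D) hz (sb0 h0) (bb0 h0)).1
    rw [h2] at r
    rw [← b3 τ, FB, u1, ux, uy, mC1 h1, PP1 h1]
    simp only [cz1]
    rw [← u1, ← ux, ← uy, show ux D z * (z .s * kp τ) ^ 2 = ux D z * z .s ^ 2 * kp τ ^ 2 by ring]
    congr 2
    linear_combination km τ ^ 2 * r

theorem exists_arc2 {D : ℂ} (hD : D ≠ 0) {z : W → ℂ} (hz : z ∈ MM) (h1 : z .e1 = 0)
    (h2 : z .e2 = 0) : ∃ c c' b, Arc z c c' .e2 (FA D) b := by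
  have h0 : z .e1 * z .e2 = 0 := by rw [h1, zero_mul]
  obtain ⟨-, f1, f2⟩ := facts_S hz (sb0 h0) (bb0 h0)
  obtain ⟨-, -, -, g3, g4', -⟩ := facts_sb hz (sb0 h0)
  obtain ⟨e, he0, he⟩ := exists_e
    (mul_ne_zero (pow_ne_zero 4 (f2 h2).1) (facts_bb hz (bb0 h0)).2.2.2)
    (show A2 z ≠ 0 from mul_ne_zero (pow_ne_zero 2 (f1 h1).1)
      (mul_ne_zero (mul_ne_zero g4_ne g3) g4'))
  obtain ⟨b, b1, b2, b3, b4, b5⟩ := exists_b
    (mul_ne_zero (units_ne hD hz (sb0 h0) (bb0 h0)).2.1 (pow_ne_zero 2 (f1 h1).1))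
    (R := fun τ : ℝ => ‖e * ((τ : ℂ) * (1 - τ)) * ux D z * z .s ^ 2‖ ^ 2) (by fun_prop)
    (fun _ => sq_nonneg _) (by simp) (by simp)
  refine ⟨fun τ => cz2 z e (kp τ) (km τ) (τ * (1 - τ)),
    fun σ => cz2 z e ((σ - 1) ^ 2 + I) ((σ - 1) ^ 2 - I) (σ - 1), b,
    fun τ => an2 z e (by unfold kp; fun_prop) (by unfold km; fun_prop) (by fun_prop),
    fun τ => an2 z e (by fun_prop) (by fun_prop) (by fun_prop),
    fun τ => mem2 hz h1 h2 he0 he (k_rel τ) (k_or τ),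
    fun τ => mem2 hz h1 h2 he0 he (by ring) (k_or' τ), fun τ hτ => ?_, ?_, ⟨by simp [cz2], h2⟩,
    fun _ => h2, b1, fun τ _ => b2 τ, fun τ _ => ?_, b4, b5⟩
  · refine ⟨1, 1, τ ^ 2, (τ ^ 2)⁻¹, 1, 1, one_ne_zero, one_ne_zero, pow_ne_zero 2 hτ,
      inv_ne_zero (pow_ne_zero 2 hτ), one_ne_zero, one_ne_zero, fun i => ?_⟩
    cases i <;> simp only [cz2, wt, kp, km, h2] <;> field_simp <;> ring
  · funext i
    cases i <;> simp [cz2, kp, km, h1]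
  · have r := (units_rel (D := D) hz (sb0 h0) (bb0 h0)).2
    rw [h1] at r
    rw [← b3 τ, FA, u2, ux, uy, mC2 h2, PP2 h2]
    simp only [cz2]
    rw [← u2, ← ux, ← uy, show uy D z * (z .be * kp τ) ^ 2 = uy D z * z .be ^ 2 * kp τ ^ 2 by ring]
    congr 2
    linear_combination km τ ^ 2 * r

/-- The base node. -/
theorem exists_node : ∃ z ∈ MM, ∃ p₁ p₃ : ℂ, g4 * p₁ * p₃ = 1 ∧ pB z = ![0, p₁, 1, p₃] ∧
    yF z = ![1, 0, 1] ∧ z .e1 = 0 ∧ z .e2 = 0 := by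
  obtain ⟨p, hp⟩ := IsAlgClosed.exists_pow_nat_eq ((1 - I) / 2) four_pos
  have hp0 : p ≠ 0 := by
    rintro rfl
    have := congrArg re hp
    norm_num at this
  obtain ⟨p', hp'⟩ : ∃ p' : ℂ, g4 * p * p' = 1 := ⟨_, mul_inv_cancel₀ (mul_ne_zero g4_ne hp0)⟩
  have h3 : p' ^ 4 = (1 + I) / 2 := by
    have := congrArg (· ^ 4) hp'
    simp only [mul_pow, g4_pow4, hp, one_pow] at this
    linear_combination (1 + I) / 2 * this + p' ^ 4 / 2 * I_sq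
  obtain ⟨m, hm⟩ := IsAlgClosed.exists_pow_nat_eq (1 / 2 : ℂ) two_pos
  obtain ⟨w, hw⟩ := IsAlgClosed.exists_pow_nat_eq (-(p * p')) two_pos
  let z : W → ℂ := fun i => match i with
    | .e1 => 0
    | .e2 => 0
    | .p1 => p
    | .p3 => p'
    | .mu => m
    | .w1 => w
    | _ => 1
  have a0 : Eq0 z = 0 := by simp [Eq0, PP, sb, z]
  have a1 : Eq1 z = 0 := by simp only [Eq1, mC, m0, PP, sb, z]; linear_combination hp
  have a3 : Eq3 z = 0 := by simp only [Eq3, mC, m0, PP, sb, z]; linear_combination h3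
  have aM : EqM z = 0 := by simp only [EqM, m0, PP, sb, z]; linear_combination hm
  have aX : EqX z = 0 := by simp [EqX, bb, kb, z]
  have w1 : Ew1 z = 0 := by simp only [Ew1, A1, B1, nn, PP, sb, z]; linear_combination hw
  have w2 : Ew2 z = 0 := by simp only [Ew2, A2, B2, z]; linear_combination -hp'
  have rA := rel_A a1 a3 aM aX
  have rB := rel_B a0 a1 a3 aX
  rw [w1, zero_mul, show z .eA = 1 from rfl, one_pow, one_mul] at rA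
  rw [w2, zero_mul, show z .eB = 1 from rfl, one_pow, one_mul] at rB
  refine ⟨z, ⟨⟨a0, a1, a3, aM, aX, w1, w2, rA, rB⟩, Or.inr one_ne_zero, Or.inr (by simp [kb, z]),
    Or.inl (by simp [z]), Or.inr (Or.inl one_ne_zero), Or.inl one_ne_zero⟩, p, p', hp', ?_, ?_,
    rfl, rfl⟩
  · simp [pB, PP, sb, z]
  · simp [yF, bb, kb, z]

end Vale.Agent.P300
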