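import Vale.Agent.P300.Facts

/-! A dense slice of the total space is connected. -/

namespace Vale.Agent.P300

open Topology Filter Set Complex

/-- A root can be chosen continuously at one point. -/
theorem exists_root_at {Z : Type} [TopologicalSpace Z] {f : Z → ℂ} {z : Z}
    (hf : ContinuousAt f z) {n : ℕ} (hn : n ≠ 0) {a : ℂ} (haf : a ^ n = f z) :
    ∃ r : Z → ℂ, ContinuousAt r z ∧ r z = a ∧ ∀ y, r y ^ n = f y := by
  classical
  have hroot : ∀ c : ℂ, ∃ b : ℂ, b ^ n = c := fun c =>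
    IsAlgClosed.exists_pow_nat_eq c (Nat.pos_of_ne_zero hn)
  by_cases ha : a = 0
  · subst ha
    have h0 : f z = 0 := by rw [← haf, zero_pow hn]
    choose g hg using hroot
    have hg0 : g 0 = 0 := pow_eq_zero_iff hn |>.1 (hg 0)
    refine ⟨fun y => g (f y), ?_, by simp [h0, hg0], fun y => hg _⟩
    have h1 : Tendsto (fun y => ‖f y‖ ^ ((n : ℝ)⁻¹)) (𝓝 z) (𝓝 0) := by
      have h2 : ContinuousAt (fun x : ℝ => x ^ ((n : ℝ)⁻¹)) 0 :=
        Real.continuousAt_rpow_const _ _ (Or.inr (by positivity))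
      have h3 : Tendsto (fun y => ‖f y‖) (𝓝 z) (𝓝 0) := by simpa [h0] using hf.norm.tendsto
      have := h2.tendsto.comp h3
      rwa [Real.zero_rpow (inv_ne_zero (Nat.cast_ne_zero.2 hn))] at this
    rw [ContinuousAt, h0, hg0, tendsto_zero_iff_norm_tendsto_zero]
    refine h1.congr fun y => ?_
    rw [← hg (f y), norm_pow, hg, Real.pow_rpow_inv_natCast (norm_nonneg _) hn]
  · have hz : f z ≠ 0 := haf ▸ pow_ne_zero n ha
    refine ⟨fun y => a * (f y / f z) ^ ((n : ℂ)⁻¹), ?_, by simp [hz], fun y => ?_⟩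
    · refine continuousAt_const.mul (ContinuousAt.cpow (hf.div_const _) continuousAt_const ?_)
      simp [hz]
    · rw [mul_pow, cpow_nat_inv_pow _ hn, haf, mul_div_cancel₀ _ hz]

theorem kummer_conn {Y : Type} [TopologicalSpace Y] {S : Set Y} (hS : IsPreconnected S)
    {f : Y → ℂ} (hf : Continuous f) {n : ℕ} (hn : n ≠ 0) {y₀ : Y} (h0 : y₀ ∈ S)
    (hf0 : f y₀ = 0) : IsPreconnected {q : Y × ℂ | q.1 ∈ S ∧ q.2 ^ n = f q.1} := by
  set T : Set (Y × ℂ) := {q | q.1 ∈ S ∧ q.2 ^ n = f q.1} with hT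
  have hq0 : (y₀, (0 : ℂ)) ∈ T := ⟨h0, by simp [hf0, hn]⟩
  rw [isPreconnected_iff_preconnectedSpace]
  haveI : PreconnectedSpace S := isPreconnected_iff_preconnectedSpace.1 hS
  have key : ∀ U : Set T, IsClopen U → (⟨_, hq0⟩ : T) ∈ U → U = univ := by
    intro U hU hU0
    let A : Set S := {y | ∀ r (h : ((y : Y), r) ∈ T), (⟨_, h⟩ : T) ∈ U}
    have hnear : ∀ (V : Set T), IsOpen V → ∀ (y : S) r (h : ((y : Y), r) ∈ T), (⟨_, h⟩ : T) ∈ V →
        ∃ ρ : S → ℂ, ∃ hρ : ∀ y' : S, ρ y' ^ n = f y', ρ y = r ∧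
          ∀ᶠ y' : S in 𝓝 y, (⟨((y' : Y), ρ y'), y'.2, hρ y'⟩ : T) ∈ V := by
      intro V hV y r h hr
      obtain ⟨ρ, hc, hρ0, hρ⟩ := exists_root_at (f := fun y' : S => f y') (z := y)
        (hf.comp continuous_subtype_val).continuousAt hn (a := r) h.2
      refine ⟨ρ, hρ, hρ0, ?_⟩
      have hcont : ContinuousAt (fun y' : S => (⟨((y' : Y), ρ y'), y'.2, hρ y'⟩ : T)) y :=
        tendsto_subtype_rng.2 (continuous_subtype_val.continuousAt.prodMk hc)
      exact hcont.preimage_mem_nhds (hV.mem_nhds (by simpa only [hρ0] using hr))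
    have hA : IsClopen A := by
      constructor
      · rw [← isOpen_compl_iff, isOpen_iff_mem_nhds]
        intro y hy
        simp only [A, mem_compl_iff, mem_setOf_eq, not_forall] at hy
        obtain ⟨r, h, hr⟩ := hy
        obtain ⟨ρ, hρ, -, hev⟩ := hnear Uᶜ hU.1.isOpen_compl y r h hr
        filter_upwards [hev] with y' hy' hall
        exact hy' (hall _ _)
      · rw [isOpen_iff_mem_nhds]
        intro y hy
        obtain ⟨r, hr⟩ := IsAlgClosed.exists_pow_nat_eq (f y) (Nat.pos_of_ne_zero hn)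
        have hall : ∀ ζ : rootsOfUnity n ℂ, ∀ᶠ q : T in 𝓝 ⟨((y : Y), r), y.2, hr⟩,
            ∀ h : (q.1.1, ((ζ : ℂˣ) : ℂ) * q.1.2) ∈ T, (⟨_, h⟩ : T) ∈ U := by
          intro ζ
          have hζ : ((ζ : ℂˣ) : ℂ) ^ n = 1 := by
            have := ζ.2
            rw [_root_.mem_rootsOfUnity] at this
            rw [← Units.val_pow_eq_pow_val, this, Units.val_one]
          have hm : ∀ q : T, (q.1.1, ((ζ : ℂˣ) : ℂ) * q.1.2) ∈ T := fun q =>
            ⟨q.2.1, by simp only [mul_pow, hζ, one_mul]; exact q.2.2⟩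
          have hc : Continuous fun q : T => (⟨_, hm q⟩ : T) := by fun_prop
          filter_upwards [hc.continuousAt.preimage_mem_nhds (hU.2.mem_nhds
            (hy _ (hm ⟨((y : Y), r), y.2, hr⟩)))]
            with q hq h
          exact hq
        haveI : NeZero n := ⟨hn⟩
        obtain ⟨V, hVU, hV, hVm⟩ := mem_nhds_iff.1 (eventually_all.2 hall)
        obtain ⟨ρ, hρ, -, hev⟩ := hnear V hV y r ⟨y.2, hr⟩ hVm
        filter_upwards [hev] with y' hy' r' h'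
        by_cases hρ0 : ρ y' = 0
        · have : r' = 0 := pow_eq_zero_iff hn |>.1 (by
            rw [show r' ^ n = f y' from h'.2, ← hρ y', hρ0, zero_pow hn])
          have h1 := hVU hy' 1
          simp only [OneMemClass.coe_one, Units.val_one, one_mul, hρ0] at h1
          subst this
          exact h1 h'
        · have hq : (r' / ρ y') ^ n = 1 := by
            rw [div_pow, show r' ^ n = f y' from h'.2, ← hρ y', div_self (pow_ne_zero n hρ0)]
          have h1 := hVU hy' (rootsOfUnity.mkOfPowEq _ hq)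
          simp only [rootsOfUnity.val_mkOfPowEq_coe, div_mul_cancel₀ _ hρ0] at h1
          exact h1 h'
    have hA0 : (⟨y₀, h0⟩ : S) ∈ A := fun r h => by
      have : r = 0 := pow_eq_zero_iff hn |>.1 (h.2.trans hf0)
      subst this
      exact hU0
    have := hA.eq_univ ⟨_, hA0⟩
    refine eq_univ_of_forall fun q => ?_
    exact (this ▸ mem_univ (⟨q.1.1, q.2.1⟩ : S) : (⟨q.1.1, q.2.1⟩ : S) ∈ A) q.1.2 q.2
  refine ⟨isPreconnected_of_forall_constant fun g hg a _ b _ => ?_⟩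
  have hg' : Continuous g := continuousOn_univ.1 hg
  have := key (g ⁻¹' {g ⟨_, hq0⟩}) ((isClopen_discrete _).preimage hg') rfl
  exact ((this ▸ mem_univ a : a ∈ g ⁻¹' {g ⟨_, hq0⟩}) : g a = _).trans
    ((this ▸ mem_univ b : b ∈ g ⁻¹' {g ⟨_, hq0⟩}) : g b = _).symm

/-- The slice of the total space over the affine plane. -/
def Slice : Set (W → ℂ) :=
  {z | z ∈ MM ∧ z .e1 = 1 ∧ z .e2 = 1 ∧ z .eA = 1 ∧ z .eB = 1 ∧ z .s = 1 ∧ z .ka = 1}

noncomputable def slP (t : ℂ) : ℂ := t ^ 2 + z8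
noncomputable def slm (t : ℂ) : ℂ := (slP t ^ 4 + 1) / 2
noncomputable def sln (t : ℂ) : ℂ := (slP t ^ 4 - 1) / 2

noncomputable def slE (q : (((((((ℂ × ℂ) × ℂ) × ℂ) × ℂ) × ℂ) × ℂ) × ℂ)) : W → ℂ
  | .e1 => 1
  | .e2 => 1
  | .eA => 1
  | .eB => 1
  | .s => 1
  | .t => q.1.1.1.1.1.1.1
  | .p1 => q.1.1.1.1.1.2
  | .p3 => q.1.1.1.1.2
  | .mu => q.1.1.1.2
  | .q => slP q.1.1.1.1.1.1.1
  | .be => q.1.1.1.1.1.1.2
  | .ka => 1
  | .X => q.1.1.2
  | .w1 => q.1.2
  | .w2 => q.2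

theorem exists_slP (c : ℂ) : ∃ t, slP t ^ 4 = c := by
  obtain ⟨P, hP⟩ := IsAlgClosed.exists_pow_nat_eq c (n := 4) (by norm_num)
  obtain ⟨t, ht⟩ := IsAlgClosed.exists_pow_nat_eq (P - z8) (n := 2) (by norm_num)
  exact ⟨t, by rw [slP, ht, sub_add_cancel, hP]⟩

theorem slice_conn : IsPreconnected Slice := by
  have rt : ∀ (c : ℂ) (n : ℕ), n ≠ 0 → ∃ b : ℂ, b ^ n = c := fun c n hn =>
    IsAlgClosed.exists_pow_nat_eq c (Nat.pos_of_ne_zero hn)
  have cP : Continuous slP := by unfold slP; fun_prop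
  have cm : Continuous slm := by unfold slm; fun_prop
  have cn : Continuous sln := by unfold sln; fun_prop
  obtain ⟨t1, ht1⟩ := exists_slP (-I)
  have e1 : slm t1 - I * sln t1 = 0 := by
    simp only [slm, sln, ht1]; linear_combination (1 / 2 : ℂ) * I_sq
  obtain ⟨t3, ht3⟩ := exists_slP I
  have e3 : slm t3 + I * sln t3 = 0 := by
    simp only [slm, sln, ht3]; linear_combination (1 / 2 : ℂ) * I_sq
  obtain ⟨t0, ht0⟩ := exists_slP 1
  have e0 : sln t0 = 0 := by simp [sln, ht0]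
  have h1 := kummer_conn (isPreconnected_univ (α := ℂ × ℂ))
    (f := fun y => slm y.1 - I * sln y.1) (by fun_prop) (n := 4) (by norm_num)
    (y₀ := (t1, 0)) trivial e1
  obtain ⟨a, ha⟩ := rt (slm t3 - I * sln t3) 4 (by norm_num)
  have h2 := kummer_conn h1 (f := fun y => slm y.1.1 + I * sln y.1.1) (by fun_prop) (n := 4)
    (by norm_num) (y₀ := ((t3, 0), a)) ⟨trivial, ha⟩ e3
  obtain ⟨a1, ha1⟩ := rt (slm t0 - I * sln t0) 4 (by norm_num)
  obtain ⟨a3, ha3⟩ := rt (slm t0 + I * sln t0) 4 (by norm_num)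
  have h3 := kummer_conn h2 (f := fun y => sln y.1.1.1) (by fun_prop) (n := 2)
    (by norm_num) (y₀ := (((t0, 0), a1), a3)) ⟨⟨trivial, ha1⟩, ha3⟩ e0
  obtain ⟨β, hβ⟩ := rt (-1) 8 (by norm_num)
  obtain ⟨b3, hb3⟩ := rt (slm t1 + I * sln t1) 4 (by norm_num)
  obtain ⟨bm, hbm⟩ := rt (sln t1) 2 (by norm_num)
  have hp1 : (0 : ℂ) ^ 4 = slm t1 - I * sln t1 := by rw [e1]; norm_num
  have h4 := kummer_conn h3 (f := fun y => y.1.1.1.2 ^ 8 + 1) (by fun_prop) (n := 4)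
    (by norm_num) (y₀ := ((((t1, β), 0), b3), bm)) ⟨⟨⟨trivial, hp1⟩, hb3⟩, hbm⟩ (by simp [hβ])
  have h5 := kummer_conn h4 (f := fun y => y.1.1.1.1.2 ^ 2 * slm y.1.1.1.1.1 -
      y.1.1.1.2 * slP y.1.1.1.1.1 * y.1.1.2 * y.2) (by fun_prop) (n := 2)
    (by norm_num) (y₀ := (((((t1, 0), 0), b3), bm), 1))
    ⟨⟨⟨⟨trivial, hp1⟩, hb3⟩, hbm⟩, by simp⟩ (by simp)
  obtain ⟨w, hw⟩ := rt (β ^ 2 * slm t1 - 0 * slP t1 * b3 * 0) 2 (by norm_num)
  have h6 := kummer_conn h5 (f := fun y => y.1.1.1.1.1.2 ^ 2 * (g4 * y.1.1.1.1.2 * y.1.1.1.2) -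
      y.1.2) (by fun_prop) (n := 2) (by norm_num) (y₀ := ((((((t1, β), 0), b3), bm), 0), w))
    ⟨⟨⟨⟨⟨trivial, hp1⟩, hb3⟩, hbm⟩, by simp [hβ]⟩, hw⟩ (by simp)
  have cE : Continuous slE := continuous_pi fun i => by
    cases i <;> simp only [slE] <;> fun_prop
  convert h6.image slE cE.continuousOn using 1
  ext z
  constructor
  · rintro ⟨⟨hz, -⟩, a1, a2, a3, a4, a5, a6⟩
    have hP : PP z = slP (z .t) := by simp [PP, sb, slP, a1, a2, a5]
    have hs : sb z = 1 := by simp [sb, a1, a2, a5]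
    have hm : mC z = slm (z .t) := by simp [mC, slm, hP, hs]
    have hn : m0 z = sln (z .t) := by simp [m0, sln, hP, hs]
    obtain ⟨b0, b1, b3, bM, bX, bw1, bw2, -, -⟩ := hz
    simp only [Eq0, Eq1, Eq3, EqM, EqX, Ew1, Ew2, A1, B1, A2, B2, nn, bb, kb, hP, hm, hn, a1, a2,
      a3, a4, a5, a6] at b0 b1 b3 bM bX bw1 bw2
    refine ⟨(((((((z .t, z .be), z .p1), z .p3), z .mu), z .X), z .w1), z .w2),
      ⟨⟨⟨⟨⟨⟨trivial, ?_⟩, ?_⟩, ?_⟩, ?_⟩, ?_⟩, ?_⟩, ?_⟩
    · linear_combination b1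
    · linear_combination b3
    · linear_combination bM
    · linear_combination bX
    · linear_combination bw1
    · linear_combination bw2
    · funext i
      cases i <;> simp only [slE, a1, a2, a3, a4, a5, a6]
      linear_combination -b0
  · rintro ⟨⟨⟨⟨⟨⟨⟨⟨t, β⟩, p1⟩, p3⟩, mu⟩, X⟩, w1⟩, w2⟩,
      ⟨⟨⟨⟨⟨⟨-, b1⟩, b3⟩, bM⟩, bX⟩, bw1⟩, bw2⟩, rfl⟩
    simp only at b1 b3 bM bX bw1 bw2
    set z := slE (((((((t, β), p1), p3), mu), X), w1), w2) with hz
    have hP : PP z = slP t := by simp [PP, sb, slP, hz, slE]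
    have hs : sb z = 1 := by simp [sb, hz, slE]
    have hm : mC z = slm t := by simp [mC, slm, hP, hs]
    have hn : m0 z = sln t := by simp [m0, sln, hP, hs]
    have c0 : Eq0 z = 0 := by rw [Eq0, hP]; simp [hz, slE]
    have c1 : Eq1 z = 0 := by rw [Eq1, hm, hn]; simp only [hz, slE]; linear_combination b1
    have c3 : Eq3 z = 0 := by rw [Eq3, hm, hn]; simp only [hz, slE]; linear_combination b3
    have cM : EqM z = 0 := by rw [EqM, hn]; simp only [hz, slE]; linear_combination bM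
    have cX : EqX z = 0 := by simp only [EqX, bb, kb, hz, slE]; linear_combination bX
    have d1 : Ew1 z = 0 := by
      rw [Ew1, A1, B1, nn, hm, hP]; simp only [hz, slE]; linear_combination bw1
    have d2 : Ew2 z = 0 := by simp only [Ew2, A2, B2, hz, slE]; linear_combination bw2
    have dA := rel_A c1 c3 cM cX
    have dB := rel_B c0 c1 c3 cX
    rw [d1, zero_mul, show z .eA = 1 from rfl, one_pow, one_mul] at dA
    rw [d2, zero_mul, show z .eB = 1 from rfl, one_pow, one_mul] at dB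
    refine ⟨⟨⟨c0, c1, c3, cM, cX, d1, d2, dA, dB⟩, ⟨Or.inl (by simp [hs]), Or.inr ?_,
      Or.inr (Or.inl ?_), Or.inr (Or.inl ?_), Or.inr (Or.inl ?_)⟩⟩, rfl, rfl, rfl, rfl, rfl, rfl⟩ <;>
    simp [kb, hz, slE]

end Vale.Agent.P300
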