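import Vale.Agent.P300.Facts
import Vale.Agent.P300.Zar

/-! The torus action. -/

namespace Vale.Agent.P300

open Topology Filter Set Complex

@[fun_prop] theorem sb_poly : IsPoly sb := by unfold sb; fun_prop
@[fun_prop] theorem bb_poly : IsPoly bb := by unfold bb; fun_prop
@[fun_prop] theorem kb_poly : IsPoly kb := by unfold kb; fun_prop
@[fun_prop] theorem PP_poly : IsPoly PP := by unfold PP; fun_prop
@[fun_prop] theorem mC_poly : IsPoly mC := by unfold mC; fun_prop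
@[fun_prop] theorem m0_poly : IsPoly m0 := by unfold m0; fun_prop
@[fun_prop] theorem nn_poly : IsPoly nn := by unfold nn; fun_prop
@[fun_prop] theorem A1_poly : IsPoly A1 := by unfold A1; fun_prop
@[fun_prop] theorem B1_poly : IsPoly B1 := by unfold B1; fun_prop
@[fun_prop] theorem A2_poly : IsPoly A2 := by unfold A2; fun_prop
@[fun_prop] theorem B2_poly : IsPoly B2 := by unfold B2; fun_prop
@[fun_prop] theorem U1_poly : IsPoly U1 := by unfold U1; fun_prop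
@[fun_prop] theorem U2_poly : IsPoly U2 := by unfold U2; fun_prop

theorem eqs_poly (i : Fin 9) : IsPoly (eqs i) := by
  fin_cases i
  · show IsPoly Eq0; unfold Eq0; fun_prop
  · show IsPoly Eq1; unfold Eq1; fun_prop
  · show IsPoly Eq3; unfold Eq3; fun_prop
  · show IsPoly EqM; unfold EqM; fun_prop
  · show IsPoly EqX; unfold EqX; fun_prop
  · show IsPoly Ew1; unfold Ew1; fun_prop
  · show IsPoly Ew2; unfold Ew2; fun_prop
  · show IsPoly EqA; unfold EqA; fun_prop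
  · show IsPoly EqB; unfold EqB; fun_prop

theorem Phi_poly (a : Fin 7 × Fin 6) : IsPoly (fun z => Phi z a) := by
  obtain ⟨k, j⟩ := a
  fin_cases k <;> fin_cases j <;>
    simp only [Phi, Ph, Fin.zero_eta, Fin.mk_one, Fin.reduceFinMk, Matrix.cons_val_zero,
      Matrix.cons_val_one, Matrix.cons_val, Fin.isValue] <;> fun_prop

theorem MM_iff (z : W → ℂ) : z ∈ MM ↔ (∀ i, eqs i z = 0) ∧ z ∈ {z | Op z} := by
  rw [eqs_iff]; rfl

theorem Phi_ne {z : W → ℂ} (hz : z ∈ MM) (k : Fin 7) : ∃ j, Phi z (k, j) ≠ 0 := by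
  have hst := hz.2.st
  have hbk := hz.2.bk
  have hsp := hz.2.sp
  fin_cases k
  · rcases hst with h | h
    · exact ⟨0, show sb z ^ 2 ≠ 0 from pow_ne_zero _ h⟩
    · exact ⟨2, show z .t ^ 2 ≠ 0 from pow_ne_zero _ h⟩
  · rcases hbk with h | h
    · exact ⟨0, show bb z ^ 2 ≠ 0 from pow_ne_zero _ h⟩
    · exact ⟨2, show kb z ^ 2 ≠ 0 from pow_ne_zero _ h⟩
  · rcases hst with h | h
    · exact ⟨1, show sb z ^ 4 ≠ 0 from pow_ne_zero _ h⟩
    · exact ⟨2, show z .t ^ 4 ≠ 0 from pow_ne_zero _ h⟩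
  · by_cases h1 : z .e2 * z .be = 0
    · have hb : bb z = 0 := by
        simp only [bb]; linear_combination (z .e1 * z .e2) * h1
      have hk : kb z ≠ 0 := hbk.resolve_left (not_not.2 hb)
      have hs : z .s ≠ 0 := by
        intro hs
        rcases hsp with h | h | h
        · exact h (by rw [hs, zero_mul])
        · exact h (by rw [hs, zero_mul])
        · exact h (by rw [mul_comm, h1])
      rcases hst with h | h
      · exact ⟨4, show z .s * sb z ^ 3 * kb z ≠ 0 from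
          mul_ne_zero (mul_ne_zero hs (pow_ne_zero _ h)) hk⟩
      · exact ⟨1, show z .s * z .t ^ 3 * kb z ≠ 0 from
          mul_ne_zero (mul_ne_zero hs (pow_ne_zero _ h)) hk⟩
    · rcases hst with h | h
      · exact ⟨3, show z .e2 * z .be * sb z ^ 4 ≠ 0 from mul_ne_zero h1 (pow_ne_zero _ h)⟩
      · exact ⟨2, show z .e2 * z .be * z .t ^ 4 ≠ 0 from mul_ne_zero h1 (pow_ne_zero _ h)⟩
  · by_cases h1 : z .be = 0
    · have hb : bb z = 0 := by simp only [bb, h1, mul_zero]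
      have hk : kb z ≠ 0 := hbk.resolve_left (not_not.2 hb)
      have hs : z .s * z .e1 ≠ 0 := by
        rcases hsp with h | h | h
        · exact absurd (by rw [h1, mul_zero]) h
        · exact h
        · exact absurd (by rw [h1, zero_mul]) h
      exact ⟨3, show z .e1 * z .s ^ 2 * kb z ≠ 0 from
        mul_ne_zero (mul_ne_zero (right_ne_zero_of_mul hs)
          (pow_ne_zero _ (left_ne_zero_of_mul hs))) hk⟩
    · rcases hst with h | h
      · exact ⟨2, show z .be * sb z ^ 2 ≠ 0 from mul_ne_zero h1 (pow_ne_zero _ h)⟩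
      · exact ⟨1, show z .be * z .t ^ 2 ≠ 0 from mul_ne_zero h1 (pow_ne_zero _ h)⟩
  · by_cases h1 : z .eB * z .ka = 0
    · have hk : kb z = 0 := by
        simp only [kb]; linear_combination (z .eA) * h1
      have hb : bb z ≠ 0 := hbk.resolve_right (not_not.2 hk)
      by_cases hm : z .mu = 0
      · have hm0 : m0 z = 0 := by
          have := hz.1.hM
          simp only [EqM, hm] at this
          linear_combination -this
        obtain ⟨hs, -, -, -, -, -, hB, -⟩ := facts_m0 hz hm0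
        have hka : z .ka = 0 := (mul_eq_zero.1 h1).resolve_left hB
        have hw : z .w1 ≠ 0 := by
          rcases hz.2.oa with h | h | h
          · exact absurd hm h
          · exact absurd hka h
          · exact left_ne_zero_of_mul h
        have he : z .e1 * z .e2 ≠ 0 := left_ne_zero_of_mul (show z .e1 * z .e2 * z .s ≠ 0 from hs)
        exact ⟨0, show z .e1 * z .e2 * z .w1 * sb z ^ 12 * bb z ^ 3 ≠ 0 from
          mul_ne_zero (mul_ne_zero (mul_ne_zero he hw) (pow_ne_zero _ hs)) (pow_ne_zero _ hb)⟩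
      · exact ⟨1, show (z .mu * bb z) ^ 4 ≠ 0 from pow_ne_zero _ (mul_ne_zero hm hb)⟩
    · rcases hst with h | h
      · exact ⟨4, show (z .eB * z .ka * sb z ^ 4) ^ 4 ≠ 0 from
          pow_ne_zero _ (mul_ne_zero h1 (pow_ne_zero _ h))⟩
      · exact ⟨5, show (z .eB * z .ka * z .t ^ 4) ^ 4 ≠ 0 from
          pow_ne_zero _ (mul_ne_zero h1 (pow_ne_zero _ h))⟩
  · by_cases h1 : z .eA * z .ka = 0
    · have hk : kb z = 0 := by
        simp only [kb]; linear_combination (z .eB) * h1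
      have hb : bb z ≠ 0 := hbk.resolve_right (not_not.2 hk)
      by_cases hq : z .q = 0
      · have hP : PP z = 0 := by
          have := hz.1.h0
          simp only [Eq0, hq] at this
          linear_combination -this
        obtain ⟨hs, -, -, -, -, hA, -⟩ := facts_PP hz hP
        have hka : z .ka = 0 := (mul_eq_zero.1 h1).resolve_left hA
        have hw : z .w2 ≠ 0 := by
          rcases hz.2.ob with h | h | h
          · exact absurd hq h
          · exact absurd hka h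
          · exact left_ne_zero_of_mul h
        have he : z .e1 * z .e2 ≠ 0 := left_ne_zero_of_mul (show z .e1 * z .e2 * z .s ≠ 0 from hs)
        exact ⟨0, show z .e1 * z .e2 ^ 2 * z .w2 * sb z ^ 6 * bb z ^ 3 ≠ 0 from
          mul_ne_zero (mul_ne_zero (mul_ne_zero (mul_ne_zero (left_ne_zero_of_mul he)
            (pow_ne_zero _ (right_ne_zero_of_mul he))) hw) (pow_ne_zero _ hs)) (pow_ne_zero _ hb)⟩
      · exact ⟨1, show (z .q * bb z) ^ 4 ≠ 0 from pow_ne_zero _ (mul_ne_zero hq hb)⟩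
    · rcases hst with h | h
      · exact ⟨4, show (z .eA * z .ka * sb z ^ 2) ^ 4 ≠ 0 from
          pow_ne_zero _ (mul_ne_zero h1 (pow_ne_zero _ h))⟩
      · exact ⟨5, show (z .eA * z .ka * z .t ^ 2) ^ 4 ≠ 0 from
          pow_ne_zero _ (mul_ne_zero h1 (pow_ne_zero _ h))⟩

theorem wt_ne {a b c d f g : ℂ} (ha : a ≠ 0) (hb : b ≠ 0) (hc : c ≠ 0) (hd : d ≠ 0) (hf : f ≠ 0)
    (hg : g ≠ 0) (i : W) : wt a b c d f g i ≠ 0 := by
  cases i <;> simp [wt, ha, hb, hc, hd, hf, hg]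

theorem wt_mul (a b c d f g a' b' c' d' f' g' : ℂ) (i : W) :
    wt (a' * a) (b' * b) (c' * c) (d' * d) (f' * f) (g' * g) i =
      wt a' b' c' d' f' g' i * wt a b c d f g i := by
  cases i <;> simp only [wt, mul_inv] <;> ring

theorem wt_one (i : W) : wt 1 1 1 1 1 1 i = 1 := by
  cases i <;> simp [wt]

theorem Orb.symm {z z' : W → ℂ} (h : Orb z z') : Orb z' z := by
  obtain ⟨a, b, c, d, f, g, ha, hb, hc, hd, hf, hg, h⟩ := h
  refine ⟨a⁻¹, b⁻¹, c⁻¹, d⁻¹, f⁻¹, g⁻¹, inv_ne_zero ha, inv_ne_zero hb, inv_ne_zero hc,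
    inv_ne_zero hd, inv_ne_zero hf, inv_ne_zero hg, fun i => ?_⟩
  rw [h i, ← mul_assoc, ← wt_mul, inv_mul_cancel₀ ha, inv_mul_cancel₀ hb, inv_mul_cancel₀ hc,
    inv_mul_cancel₀ hd, inv_mul_cancel₀ hf, inv_mul_cancel₀ hg, wt_one, one_mul]

theorem Orb.trans {z z' z'' : W → ℂ} (h : Orb z z') (h' : Orb z' z'') : Orb z z'' := by
  obtain ⟨a, b, c, d, f, g, ha, hb, hc, hd, hf, hg, h⟩ := h
  obtain ⟨a', b', c', d', f', g', ha', hb', hc', hd', hf', hg', h'⟩ := h'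
  refine ⟨a' * a, b' * b, c' * c, d' * d, f' * f, g' * g, mul_ne_zero ha' ha, mul_ne_zero hb' hb,
    mul_ne_zero hc' hc, mul_ne_zero hd' hd, mul_ne_zero hf' hf, mul_ne_zero hg' hg, fun i => ?_⟩
  rw [h' i, h i, wt_mul, mul_assoc]

theorem Orb.lin {z z' : W → ℂ} (h : Orb z z') :
    ∃ L : (W → ℂ) →L[ℂ] (W → ℂ), L z = z' ∧ ∀ y, Orb y (L y) := by
  obtain ⟨a, b, c, d, f, g, ha, hb, hc, hd, hf, hg, h⟩ := h
  refine ⟨ContinuousLinearMap.pi fun i => wt a b c d f g i • ContinuousLinearMap.proj i, ?_,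
    fun y => ⟨a, b, c, d, f, g, ha, hb, hc, hd, hf, hg, fun i => by simp⟩⟩
  funext i
  simp [h i]

theorem Orb.ne_iff {z z' : W → ℂ} (h : Orb z z') (i : W) : z' i ≠ 0 ↔ z i ≠ 0 := by
  obtain ⟨a, b, c, d, f, g, ha, hb, hc, hd, hf, hg, h⟩ := h
  rw [h i, mul_ne_zero_iff]
  exact ⟨fun h => h.2, fun h => ⟨wt_ne ha hb hc hd hf hg i, h⟩⟩

/-- The coordinates of two points in one orbit. -/
structure Scl (a b c d f g : ℂ) (z z' : W → ℂ) : Prop where
  e1 : z' .e1 = c⁻¹ * z .e1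
  e2 : z' .e2 = d⁻¹ * z .e2
  eA : z' .eA = f⁻¹ * z .eA
  eB : z' .eB = g⁻¹ * z .eB
  s : z' .s = a * c * d * z .s
  t : z' .t = a * z .t
  p1 : z' .p1 = a ^ 2 * z .p1
  p3 : z' .p3 = a ^ 2 * z .p3
  mu : z' .mu = a ^ 4 * f * z .mu
  q : z' .q = a ^ 2 * g * z .q
  be : z' .be = b * c * d ^ 2 * z .be
  ka : z' .ka = b * f * g * z .ka
  X : z' .X = b ^ 2 * z .X
  w1 : z' .w1 = a ^ 4 * b * c * d * f ^ 4 * z .w1
  w2 : z' .w2 = a ^ 2 * b * c * d ^ 2 * g ^ 4 * z .w2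
  sb : sb z' = a * sb z
  bb : bb z' = b * bb z
  kb : kb z' = b * kb z
  PP : PP z' = a ^ 2 * PP z
  mC : mC z' = a ^ 8 * mC z
  m0 : m0 z' = a ^ 8 * m0 z
  nn : nn z' = a ^ 8 * c ^ 2 * d ^ 2 * nn z
  A1 : A1 z' = a ^ 8 * b ^ 2 * c ^ 2 * d ^ 2 * A1 z
  B1 : B1 z' = a ^ 8 * b ^ 2 * c ^ 2 * d ^ 2 * B1 z
  A2 : A2 z' = a ^ 4 * b ^ 2 * c ^ 2 * d ^ 4 * A2 z
  B2 : B2 z' = a ^ 4 * b ^ 2 * c ^ 2 * d ^ 4 * B2 z
  U1 : U1 z' = (a ^ 8 * b ^ 2 * c ^ 2 * d ^ 2) ^ 3 * U1 z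
  U2 : U2 z' = (a ^ 4 * b ^ 2 * c ^ 2 * d ^ 4) ^ 3 * U2 z

theorem scl_of {a b c d f g : ℂ} {z z' : W → ℂ} (hc : c ≠ 0) (hd : d ≠ 0) (hf : f ≠ 0)
    (hg : g ≠ 0) (h : ∀ i, z' i = wt a b c d f g i * z i) : Scl a b c d f g z z' := by
  have e1 : z' .e1 = c⁻¹ * z .e1 := h _
  have e2 : z' .e2 = d⁻¹ * z .e2 := h _
  have eA : z' .eA = f⁻¹ * z .eA := h _
  have eB : z' .eB = g⁻¹ * z .eB := h _
  have s : z' .s = a * c * d * z .s := h _
  have t : z' .t = a * z .t := h _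
  have p1 : z' .p1 = a ^ 2 * z .p1 := h _
  have p3 : z' .p3 = a ^ 2 * z .p3 := h _
  have mu : z' .mu = a ^ 4 * f * z .mu := h _
  have q : z' .q = a ^ 2 * g * z .q := h _
  have be : z' .be = b * c * d ^ 2 * z .be := h _
  have ka : z' .ka = b * f * g * z .ka := h _
  have X : z' .X = b ^ 2 * z .X := h _
  have w1 : z' .w1 = a ^ 4 * b * c * d * f ^ 4 * z .w1 := h _
  have w2 : z' .w2 = a ^ 2 * b * c * d ^ 2 * g ^ 4 * z .w2 := h _
  have hsb : sb z' = a * sb z := by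
    simp only [sb, e1, e2, s]; field_simp
  have hbb : bb z' = b * bb z := by
    simp only [bb, e1, e2, be]; field_simp
  have hkb : kb z' = b * kb z := by
    simp only [kb, eA, eB, ka]; field_simp
  have hPP : PP z' = a ^ 2 * PP z := by
    simp only [PP, t, hsb]; ring
  have hmC : mC z' = a ^ 8 * mC z := by
    simp only [mC, hPP, hsb]; ring
  have hm0 : m0 z' = a ^ 8 * m0 z := by
    simp only [m0, hPP, hsb]; ring
  have hnn : nn z' = a ^ 8 * c ^ 2 * d ^ 2 * nn z := by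
    simp only [nn, hPP, s, p1, p3]; ring
  have hA1 : A1 z' = a ^ 8 * b ^ 2 * c ^ 2 * d ^ 2 * A1 z := by
    simp only [A1, hmC, e2, be]; field_simp
  have hB1 : B1 z' = a ^ 8 * b ^ 2 * c ^ 2 * d ^ 2 * B1 z := by
    simp only [B1, hnn, X]; ring
  have hA2 : A2 z' = a ^ 4 * b ^ 2 * c ^ 2 * d ^ 4 * A2 z := by
    simp only [A2, be, p1, p3]; ring
  have hB2 : B2 z' = a ^ 4 * b ^ 2 * c ^ 2 * d ^ 4 * B2 z := by
    simp only [B2, e1, s, X]; field_simp
  have hU1 : U1 z' = (a ^ 8 * b ^ 2 * c ^ 2 * d ^ 2) ^ 3 * U1 z := by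
    simp only [U1, hA1, hB1]; ring
  have hU2 : U2 z' = (a ^ 4 * b ^ 2 * c ^ 2 * d ^ 4) ^ 3 * U2 z := by
    simp only [U2, hA2, hB2]; ring
  exact ⟨e1, e2, eA, eB, s, t, p1, p3, mu, q, be, ka, X, w1, w2, hsb, hbb, hkb, hPP, hmC, hm0, hnn,
    hA1, hB1, hA2, hB2, hU1, hU2⟩

theorem Orb.mem {z z' : W → ℂ} (hz : z ∈ MM) (h : Orb z z') : z' ∈ MM := by
  have hne := h.ne_iff
  obtain ⟨a, b, c, d, f, g, ha, hb, hc, hd, hf, hg, h⟩ := h
  have S := scl_of hc hd hf hg h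
  obtain ⟨E, O⟩ := hz
  refine ⟨⟨?_, ?_, ?_, ?_, ?_, ?_, ?_, ?_, ?_⟩, ⟨?_, ?_, ?_, ?_, ?_⟩⟩
  · have : Eq0 z' = a ^ 2 * Eq0 z := by
      simp only [Eq0, S.eB, S.q, S.PP]; field_simp
    rw [this, E.h0, mul_zero]
  · have : Eq1 z' = a ^ 8 * Eq1 z := by
      simp only [Eq1, S.p1, S.mC, S.m0]; ring
    rw [this, E.h1, mul_zero]
  · have : Eq3 z' = a ^ 8 * Eq3 z := by
      simp only [Eq3, S.p3, S.mC, S.m0]; ring
    rw [this, E.h3, mul_zero]
  · have : EqM z' = a ^ 8 * EqM z := by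
      simp only [EqM, S.eA, S.mu, S.m0]; field_simp
    rw [this, E.hM, mul_zero]
  · have : EqX z' = b ^ 8 * EqX z := by
      simp only [EqX, S.X, S.bb, S.kb]; ring
    rw [this, E.hX, mul_zero]
  · have : Ew1 z' = a ^ 8 * b ^ 2 * c ^ 2 * d ^ 2 * Ew1 z := by
      simp only [Ew1, S.eA, S.w1, S.A1, S.B1]; field_simp
    rw [this, E.hw1, mul_zero]
  · have : Ew2 z' = a ^ 4 * b ^ 2 * c ^ 2 * d ^ 4 * Ew2 z := by
      simp only [Ew2, S.eB, S.w2, S.A2, S.B2]; field_simp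
    rw [this, E.hw2, mul_zero]
  · have : EqA z' = a ^ 32 * b ^ 8 * c ^ 8 * d ^ 8 * f ^ 8 * EqA z := by
      simp only [EqA, S.w1, S.U1, S.e2, S.be, S.mu, S.nn, S.eB, S.ka]; field_simp
    rw [this, E.hA, mul_zero]
  · have : EqB z' = a ^ 16 * b ^ 8 * c ^ 8 * d ^ 16 * g ^ 8 * EqB z := by
      simp only [EqB, S.w2, S.U2, S.e1, S.be, S.q, S.s, S.eA, S.ka]; field_simp
    rw [this, E.hB, mul_zero]
  · rw [S.sb, hne]
    exact O.st.imp_left (mul_ne_zero ha)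
  · rw [S.bb, S.kb]
    exact O.bk.imp (mul_ne_zero hb) (mul_ne_zero hb)
  · simpa only [mul_ne_zero_iff, hne] using O.sp
  · simpa only [mul_ne_zero_iff, hne] using O.oa
  · simpa only [mul_ne_zero_iff, hne] using O.ob

theorem Orb.phi {z z' : W → ℂ} (h : Orb z z') :
    ∃ l : Fin 7 → ℂ, (∀ k, l k ≠ 0) ∧ Phi z' = fun a => l a.1 * Phi z a := by
  obtain ⟨a, b, c, d, f, g, ha, hb, hc, hd, hf, hg, h⟩ := h
  have S := scl_of hc hd hf hg h
  refine ⟨![a ^ 2, b ^ 2, a ^ 4, a ^ 4 * b * c * d, a ^ 2 * b * c * d ^ 2,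
    a ^ 16 * b ^ 4 * f ^ 4, a ^ 8 * b ^ 4 * g ^ 4], fun k => ?_, ?_⟩
  · fin_cases k <;> simp [ha, hb, hc, hd, hf, hg]
  · funext ⟨k, j⟩
    fin_cases k <;> fin_cases j <;>
      simp only [Phi, Ph, Fin.zero_eta, Fin.mk_one, Fin.reduceFinMk, Matrix.cons_val_zero,
        Matrix.cons_val_one, Matrix.cons_val, Fin.isValue, mul_zero, S.e1, S.e2, S.eA, S.eB, S.s,
        S.t, S.p1, S.p3, S.mu, S.q, S.be, S.ka, S.X, S.w1, S.w2, S.sb, S.bb, S.kb] <;>
      field_simp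

theorem Orb.pB {z z' : W → ℂ} (h : Orb z z') : Par (pB z) (pB z') := by
  obtain ⟨a, b, c, d, f, g, ha, hb, hc, hd, hf, hg, h⟩ := h
  have S := scl_of hc hd hf hg h
  refine ⟨a ^ 2, pow_ne_zero _ ha, ?_⟩
  funext i
  fin_cases i <;> simp [P300.pB, S.sb, S.p1, S.p3, S.PP, mul_pow]

theorem Orb.yF {z z' : W → ℂ} (h : Orb z z') : Par (yF z) (yF z') := by
  obtain ⟨a, b, c, d, f, g, ha, hb, hc, hd, hf, hg, h⟩ := h
  have S := scl_of hc hd hf hg h
  refine ⟨b ^ 2, pow_ne_zero _ hb, ?_⟩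
  funext i
  fin_cases i <;> simp [P300.yF, S.X, S.bb, S.kb, mul_pow]

theorem continuous_pB : Continuous pB := by
  refine continuous_pi fun i => ?_
  fin_cases i
  · show Continuous fun z : W → ℂ => sb z ^ 2
    unfold sb; fun_prop
  · show Continuous fun z : W → ℂ => z .p1
    fun_prop
  · show Continuous fun z : W → ℂ => PP z
    unfold PP sb; fun_prop
  · show Continuous fun z : W → ℂ => z .p3
    fun_prop

theorem continuous_yF : Continuous yF := by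
  refine continuous_pi fun i => ?_
  fin_cases i
  · show Continuous fun z : W → ℂ => z .X
    fun_prop
  · show Continuous fun z : W → ℂ => bb z ^ 2
    unfold bb; fun_prop
  · show Continuous fun z : W → ℂ => kb z ^ 2
    unfold kb; fun_prop

end Vale.Agent.P300
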