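import Vale.Agent.P300.Facts

/-! The Jacobian criterion away from the exceptional curves and the first branch curve. -/

namespace Vale.Agent.P300

open Topology Filter Set Complex

variable {z : W → ℂ}

namespace Sm2Aux

theorem cancel {a b : ℂ} (ha : a ≠ 0) (h : a * b = 0) : b = 0 := (mul_eq_zero.1 h).resolve_left ha

/-- The part of the system that cuts out the first curve. -/
theorem curve (hz : z ∈ MM) (hA : z .eA ≠ 0) : ∃ j ∈ ({.t, .p1, .p3, .mu} : Finset W),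
    ∀ δ : W → ℂ, dsb z δ = 0 → δ .eA = 0 → δ j = 0 → dEq1 z δ = 0 → dEq3 z δ = 0 →
      dEqM z δ = 0 → δ .t = 0 ∧ δ .p1 = 0 ∧ δ .p3 = 0 ∧ δ .mu = 0 := by
  have k : ∀ δ : W → ℂ, dsb z δ = 0 → δ .eA = 0 → δ .t = 0 → dEq1 z δ = 0 → dEq3 z δ = 0 →
      dEqM z δ = 0 → (z .p1 ≠ 0 → δ .p1 = 0) ∧ (z .p3 ≠ 0 → δ .p3 = 0) ∧
        (z .mu ≠ 0 → δ .mu = 0) := by
    intro δ b0 a1 ct d1 d3 dM
    rw [dEq1, dmC, dm0, dPP, b0, ct] at d1
    rw [dEq3, dmC, dm0, dPP, b0, ct] at d3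
    rw [dEqM, dm0, dPP, b0, ct, a1] at dM
    exact ⟨fun n => cancel (a := 4 * z .p1 ^ 3) (by simp [n]) (by linear_combination d1),
      fun n => cancel (a := 4 * z .p3 ^ 3) (by simp [n]) (by linear_combination d3),
      fun n => cancel (a := 2 * z .eA ^ 2 * z .mu) (by simp [hA, n]) (by linear_combination dM)⟩
  by_cases h1 : z .p1 = 0
  · obtain ⟨-, nt, nP, -, n3, -, nm⟩ := facts_p1 hz h1
    refine ⟨.p1, by decide, fun δ b0 a1 a2 d1 d3 dM => ?_⟩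
    have ct : δ .t = 0 := by
      rw [dEq1, dmC, dm0, dPP, b0, a2] at d1
      exact cancel (a := 8 * PP z ^ 3 * z .t) (by simp [nP, nt])
        (by linear_combination -(1 + I) * d1 + 4 * PP z ^ 3 * z .t * δ .t * I_sq)
    obtain ⟨-, k3, kM⟩ := k δ b0 a1 ct d1 d3 dM
    exact ⟨ct, a2, k3 n3, kM nm⟩
  by_cases h3 : z .p3 = 0
  · obtain ⟨-, nt, nP, -, -, -, nm⟩ := facts_p3 hz h3
    refine ⟨.p3, by decide, fun δ b0 a1 a2 d1 d3 dM => ?_⟩
    have ct : δ .t = 0 := by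
      rw [dEq3, dmC, dm0, dPP, b0, a2] at d3
      exact cancel (a := 8 * PP z ^ 3 * z .t) (by simp [nP, nt])
        (by linear_combination -(1 - I) * d3 + 4 * PP z ^ 3 * z .t * δ .t * I_sq)
    obtain ⟨k1, -, kM⟩ := k δ b0 a1 ct d1 d3 dM
    exact ⟨ct, k1 h1, a2, kM nm⟩
  by_cases hm : z .mu = 0
  · have hM := hz.1.hM
    rw [EqM, hm] at hM
    obtain ⟨-, nt, nP, -⟩ := facts_m0 hz (by linear_combination -hM)
    refine ⟨.mu, by decide, fun δ b0 a1 a2 d1 d3 dM => ?_⟩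
    have ct : δ .t = 0 := by
      rw [dEqM, dm0, dPP, b0, a1, a2] at dM
      exact cancel (a := 4 * PP z ^ 3 * z .t) (by simp [nP, nt]) (by linear_combination -dM)
    obtain ⟨k1, k3, -⟩ := k δ b0 a1 ct d1 d3 dM
    exact ⟨ct, k1 h1, k3 h3, a2⟩
  · refine ⟨.t, by decide, fun δ b0 a1 a2 d1 d3 dM => ?_⟩
    obtain ⟨k1, k3, kM⟩ := k δ b0 a1 a2 d1 d3 dM
    exact ⟨a2, k1 h1, k3 h3, kM hm⟩

/-- Reduction to the remaining four unknowns. -/
theorem reduce (hz : z ∈ MM) (hA : z .eA ≠ 0) (hB : z .eB ≠ 0) {D1 D2 : (W → ℂ) → ℂ}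
    (K : Finset W) (hK : K.card = 8) (h1 : ({.t, .p1, .p3, .mu} : Finset W) ⊆ K)
    (h2 : ∀ i ∈ ({.e1, .e2, .eA, .eB, .s} : Finset W), i ∉ K)
    (h : ∀ δ : W → ℂ, (∀ i, i ∉ K → δ i = 0) → δ .p1 = 0 → δ .p3 = 0 → dmC z δ = 0 →
      dnn z δ = 0 → dEqX z δ = 0 → D1 δ = 0 → D2 δ = 0 →
      δ .be = 0 ∧ δ .ka = 0 ∧ δ .X = 0 ∧ δ .w1 = 0 ∧ δ .w2 = 0) : Inj z D1 D2 := by
  obtain ⟨j, hj, hc⟩ := curve hz hA
  refine ⟨K.erase j, by rw [Finset.card_erase_of_mem (h1 hj), hK],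
    fun δ hδ d0 d1 d3 dM dX e1 e2 => ?_⟩
  have hδ' : ∀ i, i ∉ K → δ i = 0 := fun i hi => hδ i fun e => hi (Finset.mem_of_mem_erase e)
  have a1 := hδ' .e1 (h2 _ (by decide))
  have a2 := hδ' .e2 (h2 _ (by decide))
  have a3 := hδ' .eA (h2 _ (by decide))
  have a4 := hδ' .eB (h2 _ (by decide))
  have a5 := hδ' .s (h2 _ (by decide))
  have b0 : dsb z δ = 0 := by simp [dsb, a1, a2, a5]
  obtain ⟨c1, c2, c3, c4⟩ := hc δ b0 a3 (hδ j (Finset.notMem_erase j K)) d1 d3 dM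
  have b1 : dPP z δ = 0 := by simp [dPP, c1, b0]
  rw [dEq0, b1, a4] at d0
  have c5 : δ .q = 0 := cancel hB (by linear_combination d0)
  obtain ⟨c6, c7, c8, c9, c10⟩ := h δ hδ' c2 c3 (by simp [dmC, b1, b0])
    (by simp [dnn, a5, c2, c3, b1]) dX e1 e2
  funext i
  cases i <;> assumption

end Sm2Aux

open Sm2Aux

theorem inj_G11 (hz : z ∈ MM) (h : z .e1 * z .e2 ≠ 0) (hA : z .eA ≠ 0) (hB : z .eB ≠ 0)
    (h1 : z .w1 ≠ 0) (h2 : z .w2 ≠ 0) : Inj z (dEw1 z) (dEw2 z) := by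
  have _ := h
  have k : ∀ δ : W → ℂ, δ .e1 = 0 → δ .e2 = 0 → δ .eA = 0 → δ .eB = 0 → δ .s = 0 → δ .be = 0 →
      δ .p1 = 0 → δ .p3 = 0 → dmC z δ = 0 → dnn z δ = 0 → δ .X = 0 → dEw1 z δ = 0 →
      dEw2 z δ = 0 → δ .w1 = 0 ∧ δ .w2 = 0 := by
    intro δ a1 a2 a3 a4 a5 a6 c1 c3 b2 b5 cX D1 D2
    rw [dEw1, dA1, dB1, a2, a3, a6, b2, b5, cX] at D1
    rw [dEw2, dA2, dB2, a1, a4, a5, a6, c1, c3, cX] at D2
    exact ⟨cancel (a := 2 * z .eA ^ 8 * z .w1) (by simp [hA, h1]) (by linear_combination D1),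
      cancel (a := 2 * z .eB ^ 8 * z .w2) (by simp [hB, h2]) (by linear_combination D2)⟩
  by_cases hX : z .X = 0
  · obtain ⟨-, nk⟩ := facts_X hz hX
    refine reduce hz hA hB {.t, .p1, .p3, .mu, .q, .w1, .w2, .ka} (by decide) (by decide)
      (by decide) fun δ hδ c1 c3 b2 b5 dX D1 D2 => ?_
    have a1 := hδ .e1 (by decide)
    have a2 := hδ .e2 (by decide)
    have a3 := hδ .eA (by decide)
    have a4 := hδ .eB (by decide)
    have a6 := hδ .be (by decide)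
    have cX := hδ .X (by decide)
    rw [dEqX, dbb, dkb, a1, a2, a3, a4, a6, cX] at dX
    exact ⟨a6, cancel (a := 8 * kb z ^ 7 * z .eA * z .eB) (by simp [nk, hA, hB])
      (by linear_combination -dX), cX,
      k δ a1 a2 a3 a4 (hδ _ (by decide)) a6 c1 c3 b2 b5 cX D1 D2⟩
  · refine reduce hz hA hB {.t, .p1, .p3, .mu, .q, .w1, .w2, .X} (by decide) (by decide)
      (by decide) fun δ hδ c1 c3 b2 b5 dX D1 D2 => ?_
    have a1 := hδ .e1 (by decide)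
    have a2 := hδ .e2 (by decide)
    have a3 := hδ .eA (by decide)
    have a4 := hδ .eB (by decide)
    have a6 := hδ .be (by decide)
    have a7 := hδ .ka (by decide)
    rw [dEqX, dbb, dkb, a1, a2, a3, a4, a6, a7] at dX
    have cX : δ .X = 0 := cancel (a := 4 * z .X ^ 3) (by simp [hX]) (by linear_combination dX)
    exact ⟨a6, a7, cX, k δ a1 a2 a3 a4 (hδ _ (by decide)) a6 c1 c3 b2 b5 cX D1 D2⟩

theorem inj_G10 (hz : z ∈ MM) (h : z .e1 * z .e2 ≠ 0) (hA : z .eA ≠ 0) (hB : z .eB ≠ 0)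
    (h1 : z .w1 ≠ 0) (h2 : z .w2 = 0) : Inj z (dEw1 z) (dEw2 z) := by
  have _ := h
  obtain ⟨nk, nb, ns, n1⟩ := facts_w2 hz hB h2
  have e2 := hz.1.hw2
  have eX := hz.1.hX
  rw [Ew2, A2, B2, h2] at e2
  rw [EqX, bb] at eX
  refine reduce hz hA hB {.t, .p1, .p3, .mu, .q, .w1, .be, .X} (by decide) (by decide)
    (by decide) fun δ hδ c1 c3 b2 b5 dX D1 D2 => ?_
  have a1 := hδ .e1 (by decide)
  have a2 := hδ .e2 (by decide)
  have a3 := hδ .eA (by decide)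
  have a4 := hδ .eB (by decide)
  have a5 := hδ .s (by decide)
  have a6 := hδ .w2 (by decide)
  have a7 := hδ .ka (by decide)
  rw [dEqX, dbb, dkb, bb, a1, a2, a3, a4, a7] at dX
  rw [dEw2, dA2, dB2, a1, a4, a5, a6, c1, c3] at D2
  have r : 2 * δ .be * z .X - z .be * δ .X = 0 :=
    cancel (a := z .e1 ^ 2 * z .s ^ 4) (by simp [n1, ns])
      (by linear_combination -z .be * D2 + 2 * δ .be * e2)
  have cb : δ .be = 0 := cancel (a := 8 * kb z ^ 8) (by simp [nk])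
    (by linear_combination z .be * dX + 4 * z .X ^ 3 * r - 8 * δ .be * eX)
  have cX : δ .X = 0 := cancel nb (by rw [cb] at r; linear_combination -r)
  rw [dEw1, dA1, dB1, a2, a3, cb, b2, b5, cX] at D1
  exact ⟨cb, a7, cX,
    cancel (a := 2 * z .eA ^ 8 * z .w1) (by simp [hA, h1]) (by linear_combination D1), a6⟩

end Vale.Agent.P300
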