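import Vale.Agent.P300.Facts

/-! The Jacobian criterion along the first branch curve. -/

namespace Vale.Agent.P300

open Topology Filter Set Complex

variable {z : W → ℂ}

namespace Sm3

/-- The differentials in the directions that are used along the first branch curve. -/
structure Red (z δ : W → ℂ) : Prop where
  r1 : z .p1 ^ 3 * δ .p1 = (1 - I) * PP z ^ 3 * (z .t * δ .t)
  r3 : z .p3 ^ 3 * δ .p3 = (1 + I) * PP z ^ 3 * (z .t * δ .t)
  rM : z .eA ^ 2 * z .mu * δ .mu = 2 * PP z ^ 3 * (z .t * δ .t)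
  rX : z .X ^ 3 * δ .X = 2 * bb z ^ 7 * (z .e1 * z .e2 ^ 2 * δ .be)
  rw1 : 2 * z .e2 ^ 2 * z .be * δ .be * mC z + z .e2 ^ 2 * z .be ^ 2 * (4 * PP z ^ 3 * (z .t * δ .t))
    = z .s ^ 2 * (δ .p1 * PP z * z .p3 + 2 * z .p1 * (z .t * δ .t) * z .p3 + z .p1 * PP z * δ .p3)
      * z .X + nn z * δ .X
  rw2 : 2 * z .eB ^ 8 * z .w2 * δ .w2 = 2 * z .be * δ .be * (g4 * z .p1 * z .p3) +
    z .be ^ 2 * (g4 * δ .p1 * z .p3 + g4 * z .p1 * δ .p3) - z .e1 ^ 2 * z .s ^ 4 * δ .X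

theorem inj_of_red (J : Finset W) (hJ : J.card = 7)
    (hn : W.e1 ∉ J ∧ W.e2 ∉ J ∧ W.eA ∉ J ∧ W.eB ∉ J ∧ W.s ∉ J ∧ W.ka ∉ J ∧ W.w1 ∉ J)
    (hB : z .eB ≠ 0)
    (H : ∀ δ : W → ℂ, (∀ i, i ∉ J → δ i = 0) → Red z δ → δ .t = 0 ∧ δ .p1 = 0 ∧ δ .p3 = 0 ∧
      δ .mu = 0 ∧ δ .be = 0 ∧ δ .X = 0 ∧ δ .w2 = 0) : Inj z (dEw1 z) (dEw2 z) := by
  refine ⟨J, hJ, fun δ h d0 d1 d3 dM dX dw1 dw2 => ?_⟩
  have a1 := h _ hn.1
  have a2 := h _ hn.2.1
  have a3 := h _ hn.2.2.1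
  have a4 := h _ hn.2.2.2.1
  have a5 := h _ hn.2.2.2.2.1
  have a6 := h _ hn.2.2.2.2.2.1
  have a7 := h _ hn.2.2.2.2.2.2
  simp only [dEq0, dEq1, dEq3, dEqM, dEqX, dEw1, dEw2, dA1, dB1, dA2, dB2, dnn, dmC, dm0, dPP,
    dsb, dbb, dkb, a1, a2, a3, a4, a5, a6, a7, mul_zero, zero_mul, add_zero, zero_add, sub_zero]
    at d0 d1 d3 dM dX dw1 dw2
  obtain ⟨b1, b2, b3, b4, b5, b6, b7⟩ := H δ h
    ⟨by linear_combination d1 / 4, by linear_combination d3 / 4, by linear_combination dM / 2,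
      by linear_combination dX / 4, by linear_combination -dw1, by linear_combination dw2⟩
  have b8 : δ .q = 0 := by
    rw [b1, mul_zero, sub_zero] at d0
    exact (mul_eq_zero.1 d0).resolve_left hB
  funext i
  cases i <;> assumption

theorem zero_of {a b : ℂ} (ha : a ≠ 0) (h : a * b = 0) : b = 0 := (mul_eq_zero.1 h).resolve_left ha

theorem one_sub_I : (1 : ℂ) - I ≠ 0 := fun h => by simpa using congrArg re h

theorem one_add_I : (1 : ℂ) + I ≠ 0 := fun h => by simpa using congrArg re h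

theorem A1_eq (hz : z ∈ MM) (h1 : z .w1 = 0) :
    z .e2 ^ 2 * z .be ^ 2 * mC z = nn z * z .X := by
  have h := hz.1.hw1
  simp only [Ew1, A1, B1, h1] at h
  linear_combination -h

theorem nn_ne (hz : z ∈ MM) (h : z .e1 * z .e2 ≠ 0) (h1 : z .w1 = 0) (hb : z .be ≠ 0) :
    nn z ≠ 0 := by
  intro hn
  have h2 := A1_eq hz h1
  rw [hn, zero_mul] at h2
  obtain ⟨c1, c2, c3, c4, -⟩ := facts_mC hz (zero_of
    (mul_ne_zero (pow_ne_zero _ (right_ne_zero_of_mul h)) (pow_ne_zero _ hb)) h2)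
  exact mul_ne_zero (mul_ne_zero (mul_ne_zero (pow_ne_zero _ (right_ne_zero_of_mul c1)) c3) c2)
    c4 hn

theorem of_nn (h : nn z ≠ 0) : z .s ≠ 0 ∧ z .p1 ≠ 0 ∧ PP z ≠ 0 ∧ z .p3 ≠ 0 :=
  ⟨fun e => h (by rw [nn, e]; ring), fun e => h (by rw [nn, e]; ring),
    fun e => h (by rw [nn, e]; ring), fun e => h (by rw [nn, e]; ring)⟩

/-- The end of the elimination when `be` does not vanish. -/
theorem finish (hz : z ∈ MM) (h : z .e1 * z .e2 ≠ 0) (hA : z .eA ≠ 0) (h1 : z .w1 = 0)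
    (hb : z .be ≠ 0) {δ : W → ℂ} (r : Red z δ) (ht : δ .t = 0) :
    δ .p1 = 0 ∧ δ .p3 = 0 ∧ z .mu * δ .mu = 0 ∧ δ .be = 0 ∧ δ .X = 0 ∧
      2 * z .eB ^ 8 * z .w2 * δ .w2 = 0 := by
  have hn := nn_ne hz h h1 hb
  obtain ⟨-, c1, -, c3⟩ := of_nn hn
  obtain ⟨r1, r3, rM, rX, rw1, rw2⟩ := r
  rw [ht] at r1 r3 rM rw1
  have b1 : δ .p1 = 0 := zero_of (pow_ne_zero 3 c1) (by linear_combination r1)
  have b3 : δ .p3 = 0 := zero_of (pow_ne_zero 3 c3) (by linear_combination r3)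
  rw [b1, b3] at rw1 rw2
  have e1 := A1_eq hz h1
  have e2 : z .be * δ .X - 2 * z .X * δ .be = 0 :=
    zero_of hn (by linear_combination 2 * δ .be * e1 - z .be * rw1)
  have e3 := hz.1.hX
  rw [EqX] at e3
  have e4 : bb z = z .e1 * z .e2 ^ 2 * z .be := rfl
  have b5 : δ .be = 0 := zero_of (pow_ne_zero 8 (facts_w1 hz hA h1)) (by
    linear_combination z .be / 2 * rX - z .X ^ 3 / 2 * e2 - δ .be * e3 - bb z ^ 7 * δ .be * e4)
  rw [b5] at e2 rw2
  have b6 : δ .X = 0 := zero_of hb (by linear_combination e2)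
  rw [b6] at rw2
  exact ⟨b1, b3, zero_of (pow_ne_zero 2 hA) (by linear_combination rM), b5, b6,
    by linear_combination rw2⟩

/-- The two branch curves are transversal. -/
theorem core {p1 p3 P S m n a1 a3 τ : ℂ} (hS : S ≠ 0) (h1 : p1 ^ 4 = m - I * n)
    (h3 : p3 ^ 4 = m + I * n) (hm : m = (P ^ 4 + S ^ 4) / 2) (hn : n = (P ^ 4 - S ^ 4) / 2)
    (hr : m * S = g4 * p1 ^ 2 * p3 ^ 2 * P) (r1 : p1 ^ 3 * a1 = (1 - I) * P ^ 3 * τ)
    (r3 : p3 ^ 3 * a3 = (1 + I) * P ^ 3 * τ)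
    (rw : 4 * P ^ 4 * τ * p1 * p3 = m * (2 * P * (a1 * p3 + p1 * a3) + 2 * p1 * τ * p3)) :
    τ = 0 := by
  have e1 : p1 ^ 4 * p3 ^ 4 = (P ^ 8 + S ^ 8) / 2 := by
    rw [h1, h3, hm, hn]
    linear_combination (-(P ^ 4 - S ^ 4) ^ 2 / 4) * I_sq
  have e2 : p1 ^ 3 * p3 ^ 3 * (a1 * p3 + p1 * a3) = 2 * P ^ 7 * τ := by
    have e3 : p1 ^ 3 * p3 ^ 3 * (a1 * p3 + p1 * a3)
        = (p1 ^ 3 * a1) * p3 ^ 4 + (p3 ^ 3 * a3) * p1 ^ 4 := by ring
    rw [e3, r1, r3, h1, h3, hm, hn]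
    linear_combination (-(P ^ 4 - S ^ 4) * P ^ 3 * τ) * I_sq
  have e4 : ((P ^ 4) ^ 3 + 5 * (P ^ 4) ^ 2 * S ^ 4 - 3 * P ^ 4 * (S ^ 4) ^ 2 + (S ^ 4) ^ 3) * τ
      = 0 := by
    rw [hm] at rw
    linear_combination (-2 * p1 ^ 3 * p3 ^ 3) * rw - 2 * P * (P ^ 4 + S ^ 4) * e2
      + (8 * P ^ 4 * τ - 2 * τ * (P ^ 4 + S ^ 4)) * e1
  have e5 : (P ^ 4 + S ^ 4) ^ 4 * S ^ 4 = 8 * P ^ 4 * ((P ^ 4) ^ 2 + (S ^ 4) ^ 2) ^ 2 := by
    have e6 : (m * S) ^ 4 = g4 ^ 4 * (p1 ^ 4 * p3 ^ 4) ^ 2 * P ^ 4 := by rw [hr]; ring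
    rw [g4_pow4, e1, hm] at e6
    linear_combination 16 * e6
  have hT := pow_ne_zero 4 hS
  generalize P ^ 4 = u at e4 e5
  generalize S ^ 4 = v at e4 e5 hT
  refine zero_of (mul_ne_zero (by norm_num : (3904 : ℂ) ≠ 0) (pow_ne_zero 7 hT)) ?_
  linear_combination (1931 * u ^ 2 + 10744 * u * v - 73 * v ^ 2) * τ * e5
    + (15448 * u ^ 4 + 6781 * u ^ 3 * v + 24283 * u ^ 2 * v ^ 2 + 895 * u * v ^ 3 + 3977 * v ^ 4)
      * e4

end Sm3

open Sm3

theorem inj_G01 (hz : z ∈ MM) (h : z .e1 * z .e2 ≠ 0) (hA : z .eA ≠ 0) (hB : z .eB ≠ 0)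
    (h1 : z .w1 = 0) (h2 : z .w2 ≠ 0) : Inj z (dEw1 z) (dEw2 z) := by
  have hw : 2 * z .eB ^ 8 * z .w2 ≠ 0 := mul_ne_zero (mul_ne_zero two_ne_zero (pow_ne_zero _ hB)) h2
  by_cases hb : z .be = 0
  · have hX := (facts_bb hz (by rw [bb, hb, mul_zero])).2.2.2
    have hs : z .s ≠ 0 := by
      rcases hz.2.sp with h' | h' | h'
      · exact left_ne_zero_of_mul h'
      · exact left_ne_zero_of_mul h'
      · exact absurd hb (left_ne_zero_of_mul h')
    have e1 := A1_eq hz h1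
    rw [hb, nn] at e1
    have e2 : z .p1 * PP z * z .p3 = 0 :=
      zero_of (mul_ne_zero (pow_ne_zero 2 hs) hX) (by linear_combination -e1)
    refine inj_of_red {.q, .w2, .X, .t, .p1, .p3, .mu} (by decide) (by decide) hB fun δ hδ r => ?_
    obtain ⟨r1, r3, rM, rX, rw1, rw2⟩ := r
    have b5 : δ .be = 0 := hδ _ (by decide)
    rw [b5] at rX
    have b6 : δ .X = 0 := zero_of (pow_ne_zero 3 hX) (by linear_combination rX)
    rw [hb, b6] at rw1 rw2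
    have b7 : δ .w2 = 0 := zero_of hw (by linear_combination rw2)
    have e3 : δ .p1 * PP z * z .p3 + 2 * z .p1 * (z .t * δ .t) * z .p3 + z .p1 * PP z * δ .p3
        = 0 := zero_of (mul_ne_zero (pow_ne_zero 2 hs) hX) (by linear_combination -rw1)
    rcases mul_eq_zero.1 e2 with e4 | e4
    · rcases mul_eq_zero.1 e4 with e5 | e5
      · obtain ⟨-, c1, c2, -, c3, -, c4⟩ := facts_p1 hz e5
        rw [e5] at r1 e3
        have b1 : δ .t = 0 := zero_of (mul_ne_zero (mul_ne_zero one_sub_I (pow_ne_zero 3 c2)) c1)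
          (by linear_combination -r1)
        rw [b1] at r3 rM
        exact ⟨b1, zero_of (mul_ne_zero c2 c3) (by linear_combination e3),
          zero_of (pow_ne_zero 3 c3) (by linear_combination r3),
          zero_of (mul_ne_zero (pow_ne_zero 2 hA) c4) (by linear_combination rM), b5, b6, b7⟩
      · obtain ⟨-, c1, -, c2, c3, -, c4⟩ := facts_PP hz e5
        rw [e5] at r1 r3 rM e3
        exact ⟨zero_of (mul_ne_zero (mul_ne_zero c1 c2) c3) (by linear_combination e3 / 2),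
          zero_of (pow_ne_zero 3 c2) (by linear_combination r1),
          zero_of (pow_ne_zero 3 c3) (by linear_combination r3),
          zero_of (mul_ne_zero (pow_ne_zero 2 hA) c4) (by linear_combination rM), b5, b6, b7⟩
    · obtain ⟨-, c1, c2, -, c3, -, c4⟩ := facts_p3 hz e4
      rw [e4] at r3 e3
      have b1 : δ .t = 0 := zero_of (mul_ne_zero (mul_ne_zero one_add_I (pow_ne_zero 3 c2)) c1)
        (by linear_combination -r3)
      rw [b1] at r1 rM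
      exact ⟨b1, zero_of (pow_ne_zero 3 c3) (by linear_combination r1),
        zero_of (mul_ne_zero c2 c3) (by linear_combination e3),
        zero_of (mul_ne_zero (pow_ne_zero 2 hA) c4) (by linear_combination rM), b5, b6, b7⟩
  · by_cases hm : z .mu = 0
    · have e1 := hz.1.hM
      rw [EqM, hm] at e1
      obtain ⟨-, c1, c2, -⟩ := facts_m0 hz (by linear_combination -e1)
      refine inj_of_red {.q, .w2, .X, .be, .p1, .p3, .t} (by decide) (by decide) hB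
        fun δ hδ r => ?_
      have rM := r.rM
      rw [hm] at rM
      have b1 : δ .t = 0 := zero_of (mul_ne_zero (pow_ne_zero 3 c2) c1)
        (by linear_combination -rM / 2)
      obtain ⟨b2, b3, -, b5, b6, b7⟩ := finish hz h hA h1 hb r b1
      exact ⟨b1, b2, b3, hδ _ (by decide), b5, b6, zero_of hw b7⟩
    · refine inj_of_red {.q, .w2, .X, .be, .p1, .p3, .mu} (by decide) (by decide) hB
        fun δ hδ r => ?_
      have b1 : δ .t = 0 := hδ _ (by decide)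
      obtain ⟨b2, b3, b4, b5, b6, b7⟩ := finish hz h hA h1 hb r b1
      exact ⟨b1, b2, b3, zero_of hm b4, b5, b6, zero_of hw b7⟩

theorem inj_G00 (hz : z ∈ MM) (h : z .e1 * z .e2 ≠ 0) (hA : z .eA ≠ 0) (hB : z .eB ≠ 0)
    (h1 : z .w1 = 0) (h2 : z .w2 = 0) : Inj z (dEw1 z) (dEw2 z) := by
  obtain ⟨hk, hb, hs, he1⟩ := facts_w2 hz hB h2
  have he2 := right_ne_zero_of_mul h
  have hn := nn_ne hz h h1 hb
  obtain ⟨-, c1, c2, c3⟩ := of_nn hn
  have e1 := A1_eq hz h1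
  have e2 : z .be ^ 2 * (g4 * z .p1 * z .p3) = z .e1 ^ 2 * z .s ^ 4 * z .X := by
    have h' := hz.1.hw2
    simp only [Ew2, A2, B2, h2] at h'
    linear_combination -h'
  have hX : z .X ≠ 0 := fun e => by
    rw [e, mul_zero] at e2
    exact mul_ne_zero (pow_ne_zero _ hb) (mul_ne_zero (mul_ne_zero g4_ne c1) c3) e2
  have hm : mC z ≠ 0 := fun e => by
    rw [e, mul_zero] at e1
    exact mul_ne_zero hn hX e1.symm
  have hmu : z .mu ≠ 0 := fun e => by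
    have h' := hz.1.hA
    rw [EqA, h1, e] at h'
    exact mul_ne_zero (mul_ne_zero (pow_ne_zero 4 hn) (pow_ne_zero 8 hB))
      (pow_ne_zero 8 (right_ne_zero_of_mul hk)) (by linear_combination h')
  have ht : z .t ≠ 0 := fun e => hm (by
    rw [mC, PP, e]
    linear_combination sb z ^ 8 / 2 * z8_pow4)
  have e0 : nn z = z .s ^ 2 * z .p1 * PP z * z .p3 := rfl
  rw [e0] at e1
  have hsb : sb z = z .e1 * z .e2 * z .s := rfl
  have hr : mC z * sb z ^ 2 = g4 * z .p1 ^ 2 * z .p3 ^ 2 * PP z := by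
    refine mul_left_cancel₀ (mul_ne_zero (pow_ne_zero 2 hb) (pow_ne_zero 2 hs)) ?_
    rw [hsb]
    linear_combination z .e1 ^ 2 * z .s ^ 4 * e1 - z .s ^ 2 * z .p1 * PP z * z .p3 * e2
  refine inj_of_red {.q, .t, .p1, .p3, .mu, .be, .X} (by decide) (by decide) hB fun δ hδ r => ?_
  have b7 : δ .w2 = 0 := hδ _ (by decide)
  have b1 : δ .t = 0 := by
    have rw1 := r.rw1
    have rw2 := r.rw2
    rw [e0] at rw1
    rw [b7] at rw2
    have k1 : 2 * δ .be * z .X * (PP z * z .p1 * z .p3 * mC z)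
        + z .be * z .X * (4 * PP z ^ 4 * (z .t * δ .t) * z .p1 * z .p3)
        = z .be * z .X * mC z * (PP z * (δ .p1 * z .p3 + z .p1 * δ .p3)
          + 2 * z .p1 * (z .t * δ .t) * z .p3) + z .be * δ .X * (PP z * z .p1 * z .p3 * mC z) := by
      refine mul_left_cancel₀ (pow_ne_zero 2 hs) ?_
      linear_combination z .be * mC z * rw1
        - (2 * δ .be * mC z + z .be * (4 * PP z ^ 3 * (z .t * δ .t))) * e1
    have k2 : 2 * δ .be * z .X * (z .p1 * z .p3) + z .be * z .X * (δ .p1 * z .p3 + z .p1 * δ .p3)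
        = z .be * δ .X * (z .p1 * z .p3) := by
      refine mul_left_cancel₀ (mul_ne_zero hb g4_ne) ?_
      linear_combination -z .X * rw2 - δ .X * e2
    refine zero_of ht (core (S := sb z ^ 2) (m := mC z) (n := m0 z)
      (pow_ne_zero 2 (mul_ne_zero h hs)) (sub_eq_zero.1 hz.1.h1) (sub_eq_zero.1 hz.1.h3)
      (by rw [mC]; ring) (by rw [m0]; ring) hr r.r1 r.r3 ?_)
    refine mul_left_cancel₀ (mul_ne_zero hb hX) ?_
    linear_combination k1 - PP z * mC z * k2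
  obtain ⟨b2, b3, b4, b5, b6, -⟩ := finish hz h hA h1 hb r b1
  exact ⟨b1, b2, b3, zero_of hmu b4, b5, b6, b7⟩

end Vale.Agent.P300
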