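import Vale.Agent.P300.Sm1
import Vale.Agent.P300.Sm2
import Vale.Agent.P300.Sm3
import Vale.Agent.P300.Retr

/-! The total space is smooth. -/

namespace Vale.Agent.P300

open Topology Filter Set Complex

/-- Analytic with a given directional derivative. -/
def SmD (f : (W → ℂ) → ℂ) (z δ : W → ℂ) (d : ℂ) : Prop :=
  AnalyticAt ℂ f z ∧ fderiv ℂ f z δ = d

section

variable {f g : (W → ℂ) → ℂ} {z δ : W → ℂ} {d e : ℂ}

theorem SmD.cg (h : SmD f z δ d) (he : d = e) : SmD f z δ e := he ▸ h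

theorem SmD.co (i : W) : SmD (fun y => y i) z δ (δ i) :=
  ⟨(ContinuousLinearMap.proj (R := ℂ) (φ := fun _ : W => ℂ) i).analyticAt z,
    congrArg (fun L : (W → ℂ) →L[ℂ] ℂ => L δ)
      (ContinuousLinearMap.proj (R := ℂ) (φ := fun _ : W => ℂ) i).fderiv⟩

theorem SmD.add (hf : SmD f z δ d) (hg : SmD g z δ e) :
    SmD (fun y => f y + g y) z δ (d + e) :=
  ⟨hf.1.add hg.1, by
    rw [fderiv_fun_add hf.1.differentiableAt hg.1.differentiableAt,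
      _root_.add_apply, hf.2, hg.2]⟩

theorem SmD.sub (hf : SmD f z δ d) (hg : SmD g z δ e) :
    SmD (fun y => f y - g y) z δ (d - e) :=
  ⟨hf.1.sub hg.1, by
    rw [fderiv_fun_sub hf.1.differentiableAt hg.1.differentiableAt,
      _root_.sub_apply, hf.2, hg.2]⟩

theorem SmD.mul (hf : SmD f z δ d) (hg : SmD g z δ e) :
    SmD (fun y => f y * g y) z δ (f z * e + g z * d) :=
  ⟨hf.1.mul hg.1, by
    rw [fderiv_fun_mul hf.1.differentiableAt hg.1.differentiableAt]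
    simp [hf.2, hg.2]⟩

theorem SmD.c (a : ℂ) : SmD (fun _ => a) z δ 0 := ⟨analyticAt_const, by simp⟩

theorem SmD.cmul (a : ℂ) (hg : SmD g z δ e) : SmD (fun y => a * g y) z δ (a * e) :=
  ((SmD.c a).mul hg).cg (by ring)

theorem SmD.half (hf : SmD f z δ d) : SmD (fun y => f y / 2) z δ (d / 2) := by
  simp only [div_eq_mul_inv]
  exact (hf.mul (SmD.c _)).cg (by ring)

theorem SmD.pow (hf : SmD f z δ d) (n : ℕ) :
    SmD (fun y => f y ^ (n + 1)) z δ ((n + 1) * f z ^ n * d) := by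
  induction n with
  | zero => simpa using hf
  | succ n ih =>
    simp only [pow_succ _ (n + 1)]
    exact (ih.mul hf).cg (by push_cast; ring)

theorem SmD.cp (i : W) (n : ℕ) :
    SmD (fun y => y i ^ (n + 1)) z δ ((n + 1) * z i ^ n * δ i) := (SmD.co i).pow n

theorem sm_sb : SmD sb z δ (dsb z δ) :=
  (((SmD.co .e1).mul (.co .e2)).mul (.co .s)).cg (by simp only [dsb]; ring)

theorem sm_bb : SmD bb z δ (dbb z δ) :=
  (((SmD.co .e1).mul (.cp .e2 1)).mul (.co .be)).cg (by simp only [dbb]; push_cast; ring)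

theorem sm_kb : SmD kb z δ (dkb z δ) :=
  (((SmD.co .eA).mul (.co .eB)).mul (.co .ka)).cg (by simp only [dkb]; ring)

theorem sm_PP : SmD PP z δ (dPP z δ) :=
  ((SmD.cp .t 1).add ((sm_sb.pow 1).cmul z8)).cg (by simp only [dPP]; push_cast; ring)

theorem sm_mC : SmD mC z δ (dmC z δ) :=
  ((sm_PP.pow 3).add (sm_sb.pow 7)).half.cg (by simp only [dmC]; push_cast; ring)

theorem sm_m0 : SmD m0 z δ (dm0 z δ) :=
  ((sm_PP.pow 3).sub (sm_sb.pow 7)).half.cg (by simp only [dm0]; push_cast; ring)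

theorem sm_nn : SmD nn z δ (dnn z δ) :=
  ((((SmD.cp .s 1).mul (.co .p1)).mul sm_PP).mul (.co .p3)).cg
    (by simp only [dnn]; push_cast; ring)

theorem sm_A1 : SmD A1 z δ (dA1 z δ) :=
  (((SmD.cp .e2 1).mul (.cp .be 1)).mul sm_mC).cg (by simp only [dA1]; push_cast; ring)

theorem sm_B1 : SmD B1 z δ (dB1 z δ) :=
  (sm_nn.mul (.co .X)).cg (by simp only [dB1]; ring)

theorem sm_A2 : SmD A2 z δ (dA2 z δ) :=
  ((SmD.cp .be 1).mul (((SmD.co .p1).cmul g4).mul (.co .p3))).cg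
    (by simp only [dA2]; push_cast; ring)

theorem sm_B2 : SmD B2 z δ (dB2 z δ) :=
  (((SmD.cp .e1 1).mul (.cp .s 3)).mul (.co .X)).cg (by simp only [dB2]; push_cast; ring)

theorem sm_U1 : SmD U1 z δ (dU1 z δ) :=
  ((sm_A1.add sm_B1).mul ((sm_A1.pow 1).add (sm_B1.pow 1))).cg
    (by simp only [dU1]; push_cast; ring)

theorem sm_U2 : SmD U2 z δ (dU2 z δ) :=
  ((sm_A2.add sm_B2).mul ((sm_A2.pow 1).add (sm_B2.pow 1))).cg
    (by simp only [dU2]; push_cast; ring)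

end

variable {z : W → ℂ}

theorem fd_Eq0 (z δ : W → ℂ) : AnalyticAt ℂ Eq0 z ∧ fderiv ℂ Eq0 z δ = dEq0 z δ :=
  SmD.cg (f := Eq0) (((SmD.co .eB).mul (.co .q)).sub sm_PP) (by simp only [dEq0]; ring)

theorem fd_Eq1 (z δ : W → ℂ) : AnalyticAt ℂ Eq1 z ∧ fderiv ℂ Eq1 z δ = dEq1 z δ :=
  SmD.cg (f := Eq1) ((SmD.cp .p1 3).sub (sm_mC.sub (sm_m0.cmul I)))
    (by simp only [dEq1]; push_cast; ring)

theorem fd_Eq3 (z δ : W → ℂ) : AnalyticAt ℂ Eq3 z ∧ fderiv ℂ Eq3 z δ = dEq3 z δ :=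
  SmD.cg (f := Eq3) ((SmD.cp .p3 3).sub (sm_mC.add (sm_m0.cmul I)))
    (by simp only [dEq3]; push_cast; ring)

theorem fd_EqM (z δ : W → ℂ) : AnalyticAt ℂ EqM z ∧ fderiv ℂ EqM z δ = dEqM z δ :=
  SmD.cg (f := EqM) (((SmD.cp .eA 1).mul (.cp .mu 1)).sub sm_m0)
    (by simp only [dEqM]; push_cast; ring)

theorem fd_EqX (z δ : W → ℂ) : AnalyticAt ℂ EqX z ∧ fderiv ℂ EqX z δ = dEqX z δ :=
  SmD.cg (f := EqX) (((SmD.cp .X 3).sub (sm_bb.pow 7)).sub (sm_kb.pow 7))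
    (by simp only [dEqX]; push_cast; ring)

theorem fd_Ew1 (z δ : W → ℂ) : AnalyticAt ℂ Ew1 z ∧ fderiv ℂ Ew1 z δ = dEw1 z δ :=
  SmD.cg (f := Ew1) (((SmD.cp .eA 7).mul (.cp .w1 1)).sub (sm_A1.sub sm_B1))
    (by simp only [dEw1]; push_cast; ring)

theorem fd_Ew2 (z δ : W → ℂ) : AnalyticAt ℂ Ew2 z ∧ fderiv ℂ Ew2 z δ = dEw2 z δ :=
  SmD.cg (f := Ew2) (((SmD.cp .eB 7).mul (.cp .w2 1)).sub (sm_A2.sub sm_B2))
    (by simp only [dEw2]; push_cast; ring)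

theorem fd_EqA (z δ : W → ℂ) : AnalyticAt ℂ EqA z ∧ fderiv ℂ EqA z δ = dEqA z δ :=
  SmD.cg (f := EqA) (((SmD.cp .w1 1).mul sm_U1).sub
    ((((SmD.cp .e2 7).mul (.cp .be 7)).mul (.cp .mu 7)).sub
      (((sm_nn.pow 3).mul (.cp .eB 7)).mul (.cp .ka 7))))
    (by simp only [dEqA]; push_cast; ring)

theorem fd_EqB (z δ : W → ℂ) : AnalyticAt ℂ EqB z ∧ fderiv ℂ EqB z δ = dEqB z δ :=
  SmD.cg (f := EqB) (((SmD.cp .w2 1).mul sm_U2).sub
    (((SmD.cp .be 7).mul (.cp .q 7)).sub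
      ((((SmD.cp .e1 7).mul (.cp .s 15)).mul (.cp .eA 7)).mul (.cp .ka 7))))
    (by simp only [dEqB]; push_cast; ring)

theorem sm_ne {f : (W → ℂ) → ℂ} {d : ℂ} (hf : SmD f z 0 d) (h : f z ≠ 0) :
    ∀ᶠ y in 𝓝 z, f y ≠ 0 := hf.1.continuousAt.eventually_ne h

theorem eventually_op (hz : Op z) : ∀ᶠ y in 𝓝 z, Op y := by
  have h1 : ∀ᶠ y in 𝓝 z, sb y ≠ 0 ∨ y .t ≠ 0 := by
    rcases hz.st with h | h
    · exact (sm_ne sm_sb h).mono fun _ => Or.inl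
    · exact (sm_ne (.co .t) h).mono fun _ => Or.inr
  have h2 : ∀ᶠ y in 𝓝 z, bb y ≠ 0 ∨ kb y ≠ 0 := by
    rcases hz.bk with h | h
    · exact (sm_ne sm_bb h).mono fun _ => Or.inl
    · exact (sm_ne sm_kb h).mono fun _ => Or.inr
  have h3 : ∀ᶠ y in 𝓝 z, y .s * y .be ≠ 0 ∨ y .s * y .e1 ≠ 0 ∨ y .be * y .e2 ≠ 0 := by
    rcases hz.sp with h | h | h
    · exact (sm_ne ((SmD.co .s).mul (.co .be)) h).mono fun _ => Or.inl
    · exact (sm_ne ((SmD.co .s).mul (.co .e1)) h).mono fun _ h => Or.inr (Or.inl h)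
    · exact (sm_ne ((SmD.co .be).mul (.co .e2)) h).mono fun _ h => Or.inr (Or.inr h)
  have h4 : ∀ᶠ y in 𝓝 z, y .mu ≠ 0 ∨ y .ka ≠ 0 ∨ y .w1 * y .eA ≠ 0 := by
    rcases hz.oa with h | h | h
    · exact (sm_ne (.co .mu) h).mono fun _ => Or.inl
    · exact (sm_ne (.co .ka) h).mono fun _ h => Or.inr (Or.inl h)
    · exact (sm_ne ((SmD.co .w1).mul (.co .eA)) h).mono fun _ h => Or.inr (Or.inr h)
  have h5 : ∀ᶠ y in 𝓝 z, y .q ≠ 0 ∨ y .ka ≠ 0 ∨ y .w2 * y .eB ≠ 0 := by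
    rcases hz.ob with h | h | h
    · exact (sm_ne (.co .q) h).mono fun _ => Or.inl
    · exact (sm_ne (.co .ka) h).mono fun _ h => Or.inr (Or.inl h)
    · exact (sm_ne ((SmD.co .w2).mul (.co .eB)) h).mono fun _ h => Or.inr (Or.inr h)
  filter_upwards [h1, h2, h3, h4, h5] with y a1 a2 a3 a4 a5 using ⟨a1, a2, a3, a4, a5⟩

theorem sm_retr (hz : z ∈ MM) {E1 E2 D1 D2 : (W → ℂ) → ℂ}
    (h1 : ∀ δ, AnalyticAt ℂ E1 z ∧ fderiv ℂ E1 z δ = D1 δ)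
    (h2 : ∀ δ, AnalyticAt ℂ E2 z ∧ fderiv ℂ E2 z δ = D2 δ) (hI : Inj z D1 D2)
    (hm : ∀ y, Eqs y → E1 y = 0 ∧ E2 y = 0)
    (hl : ∀ᶠ y in 𝓝 z, Eq0 y = 0 → Eq1 y = 0 → Eq3 y = 0 → EqM y = 0 → EqX y = 0 → E1 y = 0 →
      E2 y = 0 → Eqs y) : Retr MM z := by
  obtain ⟨J, hJ, hI⟩ := hI
  let F : Fin 7 → (W → ℂ) → ℂ := ![Eq0, Eq1, Eq3, EqM, EqX, E1, E2]
  have hF : ∀ i, AnalyticAt ℂ (F i) z := by
    intro i
    fin_cases i
    exacts [(fd_Eq0 z 0).1, (fd_Eq1 z 0).1, (fd_Eq3 z 0).1, (fd_EqM z 0).1, (fd_EqX z 0).1,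
      (h1 0).1, (h2 0).1]
  have hE : ∀ y, Eqs y → (fun i => F i y) = 0 := by
    intro y hy
    funext i
    fin_cases i
    exacts [hy.h0, hy.h1, hy.h3, hy.hM, hy.hX, (hm y hy).1, (hm y hy).2]
  refine retr_of_submersion (f := fun y i => F i y) (AnalyticAt.pi hF)
    (surj_of_support _ J hJ fun δ hδ h => ?_) (hE z hz.1) ?_
  · rw [fderiv_pi fun i => (hF i).differentiableAt] at h
    have h' : ∀ i, fderiv ℂ (F i) z δ = 0 := fun i => congrFun h i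
    exact hI δ hδ ((fd_Eq0 z δ).2.symm.trans (h' 0)) ((fd_Eq1 z δ).2.symm.trans (h' 1))
      ((fd_Eq3 z δ).2.symm.trans (h' 2)) ((fd_EqM z δ).2.symm.trans (h' 3))
      ((fd_EqX z δ).2.symm.trans (h' 4)) ((h1 δ).2.symm.trans (h' 5))
      ((h2 δ).2.symm.trans (h' 6))
  · filter_upwards [hl, eventually_op hz.2] with y hy ho
    refine ⟨fun h => hE y h.1, fun h => ⟨?_, ho⟩⟩
    have h' : ∀ i, F i y = 0 := fun i => congrFun h i
    exact hy (h' 0) (h' 1) (h' 2) (h' 3) (h' 4) (h' 5) (h' 6)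

theorem retr_MM (hz : z ∈ MM) : Retr MM z := by
  by_cases hA : z .eA = 0
  · obtain ⟨a1, -, -, -, a2, -⟩ := facts_eA hz hA
    have a3 := (facts_m0 hz a1).2.2.2.2.2.2.1
    refine sm_retr hz (fd_EqA z) (fd_Ew2 z) (inj_A hz hA) (fun y hy => ⟨hy.hA, hy.hw2⟩) ?_
    filter_upwards [sm_ne sm_U1 a2, sm_ne (.co .eB) a3] with y b1 b2 h0 h1 h3 hM hX e1 e2
    have r1 := rel_A h1 h3 hM hX
    have r2 := rel_B h0 h1 h3 hX
    rw [e1, mul_zero] at r1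
    rw [e2, zero_mul] at r2
    exact ⟨h0, h1, h3, hM, hX, (mul_eq_zero.1 r1.symm).resolve_right b1, e2, e1,
      (mul_eq_zero.1 r2).resolve_left (pow_ne_zero _ b2)⟩
  by_cases hB : z .eB = 0
  · obtain ⟨-, -, -, -, a2, -⟩ := facts_eB hz hB
    refine sm_retr hz (fd_Ew1 z) (fd_EqB z) (inj_B hz hB) (fun y hy => ⟨hy.hw1, hy.hB⟩) ?_
    filter_upwards [sm_ne sm_U2 a2, sm_ne (.co .eA) hA] with y b1 b2 h0 h1 h3 hM hX e1 e2
    have r1 := rel_A h1 h3 hM hX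
    have r2 := rel_B h0 h1 h3 hX
    rw [e1, zero_mul] at r1
    rw [e2, mul_zero] at r2
    exact ⟨h0, h1, h3, hM, hX, e1, (mul_eq_zero.1 r2.symm).resolve_right b1,
      (mul_eq_zero.1 r1).resolve_left (pow_ne_zero _ b2), e2⟩
  have hI : Inj z (dEw1 z) (dEw2 z) := by
    by_cases h : z .e1 * z .e2 = 0
    · exact inj_S hz h
    by_cases h1 : z .w1 = 0 <;> by_cases h2 : z .w2 = 0
    exacts [inj_G00 hz h hA hB h1 h2, inj_G01 hz h hA hB h1 h2, inj_G10 hz h hA hB h1 h2,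
      inj_G11 hz h hA hB h1 h2]
  refine sm_retr hz (fd_Ew1 z) (fd_Ew2 z) hI (fun y hy => ⟨hy.hw1, hy.hw2⟩) ?_
  filter_upwards [sm_ne (.co .eA) hA, sm_ne (.co .eB) hB] with y b1 b2 h0 h1 h3 hM hX e1 e2
  have r1 := rel_A h1 h3 hM hX
  have r2 := rel_B h0 h1 h3 hX
  rw [e1, zero_mul] at r1
  rw [e2, zero_mul] at r2
  exact ⟨h0, h1, h3, hM, hX, e1, e2, (mul_eq_zero.1 r1).resolve_left (pow_ne_zero _ b1),
    (mul_eq_zero.1 r2).resolve_left (pow_ne_zero _ b2)⟩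

end Vale.Agent.P300
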