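import Vale.Agent.P300.Conn1
import Vale.Agent.P300.Sm0
import Vale.Agent.P300.Inv
import Vale.Agent.P300.Proj

/-! The surface is connected. -/

namespace Vale.Agent.P300

open Topology Filter Set Complex

/-- Replace five coordinates. -/
def rep5 (b : W → ℂ) (a1 a3 x v1 v2 : ℂ) : W → ℂ
  | .p1 => a1
  | .p3 => a3
  | .X => x
  | .w1 => v1
  | .w2 => v2
  | i => b i

theorem rep5_self (z : W → ℂ) : rep5 z (z .p1) (z .p3) (z .X) (z .w1) (z .w2) = z := by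
  funext i; cases i <;> rfl

theorem continuousAt_rep5 {b : ℂ → W → ℂ} {a1 a3 x v1 v2 : ℂ → ℂ} (hb : ContinuousAt b 0)
    (h1 : ContinuousAt a1 0) (h3 : ContinuousAt a3 0) (hx : ContinuousAt x 0)
    (g1 : ContinuousAt v1 0) (g2 : ContinuousAt v2 0) :
    ContinuousAt (fun ε => rep5 (b ε) (a1 ε) (a3 ε) (x ε) (v1 ε) (v2 ε)) 0 := by
  refine continuousAt_pi.2 fun i => ?_
  cases i <;> first | assumption | exact continuousAt_pi.1 hb _

theorem cont_sb : Continuous sb := by unfold sb; fun_prop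
theorem cont_bb : Continuous bb := by unfold bb; fun_prop
theorem cont_kb : Continuous kb := by unfold kb; fun_prop
theorem cont_PP : Continuous PP := by have := cont_sb; unfold PP; fun_prop
theorem cont_mC : Continuous mC := by have := cont_sb; have := cont_PP; unfold mC; fun_prop
theorem cont_m0 : Continuous m0 := by have := cont_sb; have := cont_PP; unfold m0; fun_prop
theorem cont_nn : Continuous nn := by have := cont_PP; unfold nn; fun_prop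
theorem cont_A1 : Continuous A1 := by have := cont_mC; unfold A1; fun_prop
theorem cont_B1 : Continuous B1 := by have := cont_nn; unfold B1; fun_prop
theorem cont_A2 : Continuous A2 := by unfold A2; fun_prop
theorem cont_B2 : Continuous B2 := by unfold B2; fun_prop
theorem cont_U1 : Continuous U1 := by have := cont_A1; have := cont_B1; unfold U1; fun_prop
theorem cont_U2 : Continuous U2 := by have := cont_A2; have := cont_B2; unfold U2; fun_prop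

theorem solve_w1 {z : W → ℂ} (hz : z ∈ MM) {b : ℂ → W → ℂ} (hb : ContinuousAt b 0)
    (hb0 : b 0 = z) (h : ∀ᶠ ε in 𝓝 (0 : ℂ), Eq1 (b ε) = 0 ∧ Eq3 (b ε) = 0 ∧ EqM (b ε) = 0 ∧
      EqX (b ε) = 0) : ∃ v : ℂ → ℂ, ContinuousAt v 0 ∧ v 0 = z .w1 ∧ ∀ᶠ ε in 𝓝 (0 : ℂ), ∀ v2,
      Ew1 (rep5 (b ε) (b ε .p1) (b ε .p3) (b ε .X) (v ε) v2) = 0 ∧
      EqA (rep5 (b ε) (b ε .p1) (b ε .p3) (b ε .X) (v ε) v2) = 0 := by
  have c1 : ContinuousAt (fun ε => A1 (b ε)) 0 := cont_A1.continuousAt.comp hb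
  have c2 : ContinuousAt (fun ε => B1 (b ε)) 0 := cont_B1.continuousAt.comp hb
  have c3 : ContinuousAt (fun ε => U1 (b ε)) 0 := cont_U1.continuousAt.comp hb
  have c4 : ContinuousAt (fun ε => nn (b ε)) 0 := cont_nn.continuousAt.comp hb
  have c5 := continuousAt_pi.1 hb
  by_cases hA : z .eA = 0
  · have hU := (facts_eA hz hA).2.2.2.2.1
    have hU' : U1 (b 0) ≠ 0 := hb0 ▸ hU
    obtain ⟨v, hv, hv0, hvn⟩ := exists_root_at (z := (0 : ℂ)) (f := fun ε =>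
      (b ε .e2 ^ 8 * b ε .be ^ 8 * b ε .mu ^ 8 - nn (b ε) ^ 4 * b ε .eB ^ 8 * b ε .ka ^ 8) /
        U1 (b ε)) ((((((c5 _).pow 8).mul ((c5 _).pow 8)).mul ((c5 _).pow 8)).sub
          (((c4.pow 4).mul ((c5 _).pow 8)).mul ((c5 _).pow 8))).div c3 hU') two_ne_zero (a := z .w1) (by
      rw [hb0, eq_div_iff hU]; exact sub_eq_zero.1 hz.1.hA)
    refine ⟨v, hv, hv0, ?_⟩
    filter_upwards [h, c3.eventually_ne hU'] with ε ⟨a1, a3, aM, aX⟩ hU v2
    have e : EqA (rep5 (b ε) (b ε .p1) (b ε .p3) (b ε .X) (v ε) v2) = 0 :=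
      sub_eq_zero.2 ((eq_div_iff hU).1 (hvn ε))
    have r := rel_A (z := rep5 (b ε) (b ε .p1) (b ε .p3) (b ε .X) (v ε) v2) a1 a3 aM aX
    rw [e, mul_zero] at r
    exact ⟨(mul_eq_zero.1 r.symm).resolve_right hU, e⟩
  · have hA' : b 0 .eA ^ 8 ≠ 0 := pow_ne_zero _ (hb0 ▸ hA)
    obtain ⟨v, hv, hv0, hvn⟩ := exists_root_at (z := (0 : ℂ)) (f := fun ε =>
      (A1 (b ε) - B1 (b ε)) / b ε .eA ^ 8) ((c1.sub c2).div ((c5 _).pow 8) hA') two_ne_zero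
      (a := z .w1) (by
        rw [hb0, eq_div_iff (pow_ne_zero _ hA), mul_comm]; exact sub_eq_zero.1 hz.1.hw1)
    refine ⟨v, hv, hv0, ?_⟩
    have hc : ContinuousAt (fun ε => b ε .eA ^ 8) 0 := (c5 _).pow 8
    filter_upwards [h, hc.eventually_ne hA'] with ε ⟨a1, a3, aM, aX⟩ hU v2
    have e : Ew1 (rep5 (b ε) (b ε .p1) (b ε .p3) (b ε .X) (v ε) v2) = 0 :=
      sub_eq_zero.2 ((mul_comm _ _).trans ((eq_div_iff hU).1 (hvn ε)))
    have r := rel_A (z := rep5 (b ε) (b ε .p1) (b ε .p3) (b ε .X) (v ε) v2) a1 a3 aM aX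
    rw [e, zero_mul] at r
    exact ⟨e, (mul_eq_zero.1 r).resolve_left hU⟩

theorem solve_w2 {z : W → ℂ} (hz : z ∈ MM) {b : ℂ → W → ℂ} (hb : ContinuousAt b 0)
    (hb0 : b 0 = z) (h : ∀ᶠ ε in 𝓝 (0 : ℂ), Eq0 (b ε) = 0 ∧ Eq1 (b ε) = 0 ∧ Eq3 (b ε) = 0 ∧
      EqX (b ε) = 0) : ∃ v : ℂ → ℂ, ContinuousAt v 0 ∧ v 0 = z .w2 ∧ ∀ᶠ ε in 𝓝 (0 : ℂ), ∀ v1,
      Ew2 (rep5 (b ε) (b ε .p1) (b ε .p3) (b ε .X) v1 (v ε)) = 0 ∧
      EqB (rep5 (b ε) (b ε .p1) (b ε .p3) (b ε .X) v1 (v ε)) = 0 := by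
  have c1 : ContinuousAt (fun ε => A2 (b ε)) 0 := cont_A2.continuousAt.comp hb
  have c2 : ContinuousAt (fun ε => B2 (b ε)) 0 := cont_B2.continuousAt.comp hb
  have c3 : ContinuousAt (fun ε => U2 (b ε)) 0 := cont_U2.continuousAt.comp hb
  have c5 := continuousAt_pi.1 hb
  by_cases hA : z .eB = 0
  · have hU := (facts_eB hz hA).2.2.2.2.1
    have hU' : U2 (b 0) ≠ 0 := hb0 ▸ hU
    obtain ⟨v, hv, hv0, hvn⟩ := exists_root_at (z := (0 : ℂ)) (f := fun ε =>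
      (b ε .be ^ 8 * b ε .q ^ 8 - b ε .e1 ^ 8 * b ε .s ^ 16 * b ε .eA ^ 8 * b ε .ka ^ 8) /
        U2 (b ε)) (((((c5 _).pow 8).mul ((c5 _).pow 8)).sub (((((c5 _).pow 8).mul
          ((c5 _).pow 16)).mul ((c5 _).pow 8)).mul ((c5 _).pow 8))).div c3 hU') two_ne_zero (a := z .w2) (by
      rw [hb0, eq_div_iff hU]; exact sub_eq_zero.1 hz.1.hB)
    refine ⟨v, hv, hv0, ?_⟩
    filter_upwards [h, c3.eventually_ne hU'] with ε ⟨a1, a3, aM, aX⟩ hU v2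
    have e : EqB (rep5 (b ε) (b ε .p1) (b ε .p3) (b ε .X) v2 (v ε)) = 0 :=
      sub_eq_zero.2 ((eq_div_iff hU).1 (hvn ε))
    have r := rel_B (z := rep5 (b ε) (b ε .p1) (b ε .p3) (b ε .X) v2 (v ε)) a1 a3 aM aX
    rw [e, mul_zero] at r
    exact ⟨(mul_eq_zero.1 r.symm).resolve_right hU, e⟩
  · have hA' : b 0 .eB ^ 8 ≠ 0 := pow_ne_zero _ (hb0 ▸ hA)
    obtain ⟨v, hv, hv0, hvn⟩ := exists_root_at (z := (0 : ℂ)) (f := fun ε =>
      (A2 (b ε) - B2 (b ε)) / b ε .eB ^ 8) ((c1.sub c2).div ((c5 _).pow 8) hA') two_ne_zero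
      (a := z .w2) (by
        rw [hb0, eq_div_iff (pow_ne_zero _ hA), mul_comm]; exact sub_eq_zero.1 hz.1.hw2)
    refine ⟨v, hv, hv0, ?_⟩
    have hc : ContinuousAt (fun ε => b ε .eB ^ 8) 0 := (c5 _).pow 8
    filter_upwards [h, hc.eventually_ne hA'] with ε ⟨a1, a3, aM, aX⟩ hU v2
    have e : Ew2 (rep5 (b ε) (b ε .p1) (b ε .p3) (b ε .X) v2 (v ε)) = 0 :=
      sub_eq_zero.2 ((mul_comm _ _).trans ((eq_div_iff hU).1 (hvn ε)))
    have r := rel_B (z := rep5 (b ε) (b ε .p1) (b ε .p3) (b ε .X) v2 (v ε)) a1 a3 aM aX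
    rw [e, zero_mul] at r
    exact ⟨e, (mul_eq_zero.1 r).resolve_left hU⟩

/-- A curve that solves two of the equations can be completed to a curve in the total space. -/
theorem complete_curve {z : W → ℂ} (hz : z ∈ MM) {b : ℂ → W → ℂ} (hb : ContinuousAt b 0)
    (hb0 : b 0 = z) (h : ∀ᶠ ε in 𝓝 (0 : ℂ), Eq0 (b ε) = 0 ∧ EqM (b ε) = 0) :
    ∃ c : ℂ → W → ℂ, ContinuousAt c 0 ∧ c 0 = z ∧ (∀ᶠ ε in 𝓝 (0 : ℂ), c ε ∈ MM) ∧
      ∀ ε, sb (c ε) = sb (b ε) ∧ kb (c ε) = kb (b ε) := by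
  have c1 := cont_mC
  have c2 := cont_m0
  have c3 := cont_bb
  have c4 := cont_kb
  obtain ⟨a1, ha1, ha10, ha1n⟩ := exists_root_at (z := (0 : ℂ))
    (f := fun ε => mC (b ε) - I * m0 (b ε)) (by fun_prop) four_ne_zero (a := z .p1)
    (by rw [hb0]; exact sub_eq_zero.1 hz.1.h1)
  obtain ⟨a3, ha3, ha30, ha3n⟩ := exists_root_at (z := (0 : ℂ))
    (f := fun ε => mC (b ε) + I * m0 (b ε)) (by fun_prop) four_ne_zero (a := z .p3)
    (by rw [hb0]; exact sub_eq_zero.1 hz.1.h3)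
  obtain ⟨x, hx, hx0, hxn⟩ := exists_root_at (z := (0 : ℂ))
    (f := fun ε => bb (b ε) ^ 8 + kb (b ε) ^ 8) (by fun_prop) four_ne_zero (a := z .X)
    (by rw [hb0]; have := hz.1.hX; rw [EqX] at this; linear_combination this)
  let b' : ℂ → W → ℂ := fun ε => rep5 (b ε) (a1 ε) (a3 ε) (x ε) (z .w1) (z .w2)
  have hb' : ContinuousAt b' 0 :=
    continuousAt_rep5 hb ha1 ha3 hx continuousAt_const continuousAt_const
  have hb'0 : b' 0 = z := by simp only [b', hb0, ha10, ha30, hx0, rep5_self]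
  have e1 : ∀ ε, Eq1 (b' ε) = 0 := fun ε => sub_eq_zero.2 (ha1n ε)
  have e3 : ∀ ε, Eq3 (b' ε) = 0 := fun ε => sub_eq_zero.2 (ha3n ε)
  have eX : ∀ ε, EqX (b' ε) = 0 := fun ε => by
    have : EqX (b' ε) = x ε ^ 4 - bb (b ε) ^ 8 - kb (b ε) ^ 8 := rfl
    rw [this, hxn ε]; ring
  obtain ⟨v1, hv1, hv10, hv1n⟩ := solve_w1 hz hb' hb'0
    (h.mono fun ε hε => ⟨e1 ε, e3 ε, hε.2, eX ε⟩)
  obtain ⟨v2, hv2, hv20, hv2n⟩ := solve_w2 hz hb' hb'0
    (h.mono fun ε hε => ⟨hε.1, e1 ε, e3 ε, eX ε⟩)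
  let c : ℂ → W → ℂ := fun ε => rep5 (b' ε) (a1 ε) (a3 ε) (x ε) (v1 ε) (v2 ε)
  have hc : ContinuousAt c 0 := continuousAt_rep5 hb' ha1 ha3 hx hv1 hv2
  have hc0 : c 0 = z := by simp only [c, hb'0, ha10, ha30, hx0, hv10, hv20, rep5_self]
  refine ⟨c, hc, hc0, ?_, fun ε => ⟨rfl, rfl⟩⟩
  filter_upwards [h, hv1n, hv2n, hc.tendsto.eventually (hc0.symm ▸ eventually_op hz.2)]
    with ε h0 h1 h2 hop
  exact ⟨⟨h0.1, e1 ε, e3 ε, h0.2, eX ε, (h1 _).1, (h2 _).1, (h1 _).2, (h2 _).2⟩, hop⟩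

theorem eventually_add_ne (a : ℂ) : ∀ᶠ ε in 𝓝[≠] (0 : ℂ), a + ε ≠ 0 := by
  by_cases ha : a = 0
  · filter_upwards [self_mem_nhdsWithin] with ε hε
    simpa [ha] using hε
  · have : ContinuousAt (fun ε : ℂ => a + ε) 0 := by fun_prop
    exact nhdsWithin_le_nhds (this.eventually_ne (by simpa using ha))

/-- Replace the remaining coordinates. -/
def rep9 (b : W → ℂ) (a1 a2 aA aB s t mu q ka : ℂ) : W → ℂ
  | .e1 => a1
  | .e2 => a2
  | .eA => aA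
  | .eB => aB
  | .s => s
  | .t => t
  | .mu => mu
  | .q => q
  | .ka => ka
  | i => b i

theorem exists_base_curve {z : W → ℂ} (hz : z ∈ MM) : ∃ b : ℂ → W → ℂ, ContinuousAt b 0 ∧
    b 0 = z ∧ (∀ᶠ ε in 𝓝 (0 : ℂ), Eq0 (b ε) = 0 ∧ EqM (b ε) = 0) ∧
    ∀ᶠ ε in 𝓝[≠] (0 : ℂ), sb (b ε) ≠ 0 ∧ kb (b ε) ≠ 0 := by
  have h0 : z .eB * z .q = PP z := sub_eq_zero.1 hz.1.h0
  have hM : z .eA ^ 2 * z .mu ^ 2 = m0 z := sub_eq_zero.1 hz.1.hM
  by_cases hA : z .eA = 0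
  · have hm := (facts_eA hz hA).1
    obtain ⟨hs, -, -, -, -, -, hB, -⟩ := facts_m0 hz hm
    obtain ⟨P, hP, hP0, hPn⟩ := exists_root_at (z := (0 : ℂ))
      (f := fun ε => sb z ^ 8 + 2 * ε ^ 2 * z .mu ^ 2) (by fun_prop) four_ne_zero (a := PP z)
      (by rw [m0] at hm; linear_combination 2 * hm)
    obtain ⟨t, ht, ht0, htn⟩ := exists_root_at (z := (0 : ℂ))
      (f := fun ε => P ε - z8 * sb z ^ 2) (by fun_prop) two_ne_zero (a := z .t)
      (by rw [hP0, PP]; ring)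
    refine ⟨fun ε => rep9 z (z .e1) (z .e2) ε (z .eB) (z .s) (t ε) (z .mu) (P ε / z .eB)
      (z .ka + ε), continuousAt_pi.2 fun i => ?_, ?_, Eventually.of_forall fun ε => ⟨?_, ?_⟩, ?_⟩
    · cases i <;> simp only [rep9] <;> fun_prop
    · funext i
      cases i <;> simp [rep9, hA, ht0, hP0, ← h0, hB]
    · change z .eB * (P ε / z .eB) - (t ε ^ 2 + z8 * sb z ^ 2) = 0
      rw [htn, mul_div_cancel₀ _ hB]; ring
    · change ε ^ 2 * z .mu ^ 2 - ((t ε ^ 2 + z8 * sb z ^ 2) ^ 4 - sb z ^ 8) / 2 = 0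
      rw [htn, sub_add_cancel, hPn]; ring
    · filter_upwards [eventually_add_ne (z .ka), self_mem_nhdsWithin] with ε h1 h2
      exact ⟨hs, mul_ne_zero (mul_ne_zero h2 hB) h1⟩
  have hmu : ∀ b : ℂ → W → ℂ, ContinuousAt b 0 → m0 (b 0) = m0 z → ∃ mu : ℂ → ℂ,
      ContinuousAt mu 0 ∧ mu 0 = z .mu ∧ ∀ ε, z .eA ^ 2 * mu ε ^ 2 - m0 (b ε) = 0 := by
    intro b hb hb0
    have := cont_m0
    obtain ⟨mu, hmu, hmu0, hmun⟩ := exists_root_at (z := (0 : ℂ))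
      (f := fun ε => m0 (b ε) / z .eA ^ 2) (by fun_prop) two_ne_zero (a := z .mu)
      (by rw [hb0, ← hM]; field_simp)
    exact ⟨mu, hmu, hmu0, fun ε => by rw [hmun]; field_simp; ring⟩
  by_cases hB : z .eB = 0
  · have hP := (facts_eB hz hB).1
    have hs := (facts_PP hz hP).1
    obtain ⟨t, ht, ht0, htn⟩ := exists_root_at (z := (0 : ℂ))
      (f := fun ε => ε * z .q - z8 * sb z ^ 2) (by fun_prop) two_ne_zero (a := z .t)
      (by rw [PP] at hP; linear_combination hP)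
    obtain ⟨mu, hmu, hmu0, hmun⟩ := hmu
      (fun ε => rep9 z (z .e1) (z .e2) 0 0 (z .s) (t ε) 0 0 0) (continuousAt_pi.2 fun i => by
        cases i <;> simp only [rep9] <;> fun_prop) (by simp only [ht0]; rfl)
    refine ⟨fun ε => rep9 z (z .e1) (z .e2) (z .eA) ε (z .s) (t ε) (mu ε) (z .q)
      (z .ka + ε), continuousAt_pi.2 fun i => ?_, ?_,
      Eventually.of_forall fun ε => ⟨?_, hmun ε⟩, ?_⟩
    · cases i <;> simp only [rep9] <;> fun_prop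
    · funext i
      cases i <;> simp [rep9, hB, ht0, hmu0]
    · change ε * z .q - (t ε ^ 2 + z8 * sb z ^ 2) = 0
      rw [htn]; ring
    · filter_upwards [eventually_add_ne (z .ka), self_mem_nhdsWithin] with ε h1 h2
      exact ⟨hs, mul_ne_zero (mul_ne_zero hA h2) h1⟩
  · let b : ℂ → W → ℂ := fun ε => rep9 z (z .e1 + ε) (z .e2 + ε) 0 0 (z .s + ε) (z .t) 0 0 0
    have hb : ContinuousAt b 0 := continuousAt_pi.2 fun i => by
      cases i <;> simp only [b, rep9] <;> fun_prop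
    have hP0 : PP (b 0) = PP z := by simp only [b, add_zero]; rfl
    obtain ⟨mu, hmu, hmu0, hmun⟩ := hmu b hb (by simp only [b, add_zero]; rfl)
    have := cont_PP
    refine ⟨fun ε => rep9 z (z .e1 + ε) (z .e2 + ε) (z .eA) (z .eB) (z .s + ε) (z .t) (mu ε)
      (PP (b ε) / z .eB) (z .ka + ε), continuousAt_pi.2 fun i => ?_, ?_,
      Eventually.of_forall fun ε => ⟨?_, hmun ε⟩, ?_⟩
    · cases i <;> simp only [rep9] <;> fun_prop
    · funext i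
      cases i <;> simp [rep9, hmu0, hP0, ← h0, hB]
    · change z .eB * (PP (b ε) / z .eB) - PP (b ε) = 0
      rw [mul_div_cancel₀ _ hB, sub_self]
    · filter_upwards [eventually_add_ne (z .ka), eventually_add_ne (z .e1),
        eventually_add_ne (z .e2), eventually_add_ne (z .s)] with ε h1 h2 h3 h4
      exact ⟨mul_ne_zero (mul_ne_zero h2 h3) h4, mul_ne_zero (mul_ne_zero hA hB) h1⟩

theorem mem_closure_generic {z : W → ℂ} (hz : z ∈ MM) :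
    z ∈ closure {y | y ∈ MM ∧ sb y ≠ 0 ∧ kb y ≠ 0} := by
  obtain ⟨b, hb, hb0, h1, h2⟩ := exists_base_curve hz
  obtain ⟨c, hc, hc0, h3, h4⟩ := complete_curve hz hb hb0 h1
  refine mem_closure_of_tendsto (b := 𝓝[≠] (0 : ℂ)) (f := c)
    (hc0 ▸ hc.tendsto.mono_left nhdsWithin_le_nhds) ?_
  filter_upwards [h2, nhdsWithin_le_nhds h3] with ε a b
  exact ⟨b, (h4 ε).1 ▸ a.1, (h4 ε).2 ▸ a.2⟩

theorem exists_orb_slice {z : W → ℂ} (hz : z ∈ MM) (hs : sb z ≠ 0) (hk : kb z ≠ 0) :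
    ∃ z' ∈ Slice, Orb z z' := by
  have h1 : z .e1 ≠ 0 := left_ne_zero_of_mul (left_ne_zero_of_mul hs)
  have h2 : z .e2 ≠ 0 := right_ne_zero_of_mul (left_ne_zero_of_mul hs)
  have h3 : z .s ≠ 0 := right_ne_zero_of_mul hs
  have h4 : z .eA ≠ 0 := left_ne_zero_of_mul (left_ne_zero_of_mul hk)
  have h5 : z .eB ≠ 0 := right_ne_zero_of_mul (left_ne_zero_of_mul hk)
  have h6 : z .ka ≠ 0 := right_ne_zero_of_mul hk
  have ho : Orb z (fun i => wt (sb z)⁻¹ (kb z)⁻¹ (z .e1) (z .e2) (z .eA) (z .eB) i * z i) :=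
    ⟨_, _, _, _, _, _, inv_ne_zero hs, inv_ne_zero hk, h1, h2, h4, h5, fun _ => rfl⟩
  refine ⟨_, ⟨ho.mem hz, ?_, ?_, ?_, ?_, ?_, ?_⟩, ho⟩ <;> simp only [wt, sb, kb] <;> field_simp

theorem Pres.connected {N : ℕ} {C : Set (Fin N → ℂ)} {Ψ : (W → ℂ) → (Fin N → ℂ)}
    (h : Pres MM Orb C Ψ) {z₀ : W → ℂ} (hz₀ : z₀ ∈ MM) : ConnectedSpace (Pj C) := by
  let π : MM → Pj C := fun z => pt (Ψ z) (h.mem z z.2)
  have hπ : Continuous π := continuous_iff_continuousAt.2 fun z =>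
    continuousAt_of_rep (f := fun z : MM => Ψ z)
      ((h.anal _).continuousAt.comp continuous_subtype_val.continuousAt)
      (Eventually.of_forall fun y => rep_pt _)
  have h1 : IsPreconnected (Subtype.val ⁻¹' Slice : Set MM) := by
    rw [← IsInducing.subtypeVal.isPreconnected_image, Subtype.image_preimage_coe,
      inter_eq_right.2 fun z hz => hz.1]
    exact slice_conn
  have h2 := (h1.image π hπ.continuousOn).closure
  have h3 : closure (π '' (Subtype.val ⁻¹' Slice)) = univ := by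
    refine eq_univ_of_forall fun ξ => ?_
    obtain ⟨z, hz, hr⟩ := h.exists_rep ξ
    have hc : (⟨z, hz⟩ : MM) ∈ closure (Subtype.val ⁻¹' {y | y ∈ MM ∧ sb y ≠ 0 ∧ kb y ≠ 0}) := by
      rw [closure_subtype, Subtype.image_preimage_coe, inter_eq_right.2 fun z hz => hz.1]
      exact mem_closure_generic hz
    have := image_closure_subset_closure_image hπ (mem_image_of_mem π hc)
    rw [hr.2]
    refine closure_mono ?_ this
    rintro _ ⟨y, ⟨hy, hs, hk⟩, rfl⟩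
    obtain ⟨z', hz', ho⟩ := exists_orb_slice hy hs hk
    exact ⟨⟨z', hz'.1⟩, hz', ((pt_eq_iff _ _).2 (h.orb _ hy _ ho).2).symm⟩
  haveI : PreconnectedSpace (Pj C) := ⟨h3 ▸ h2⟩
  exact ⟨⟨pt (Ψ z₀) (h.mem _ hz₀)⟩⟩

end Vale.Agent.P300
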