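import Vale.Agent.P300.Facts
import Vale.Agent.P300.Zar

/-! The charts cover the Zariski closure of the multicone. -/

set_option linter.unusedSimpArgs false

namespace Vale.Agent.P300

open Topology Filter Set Complex

variable {v : Fin 7 × Fin 6 → ℂ}

theorem cov_poly : IsPoly Pa := by
  unfold Pa
  fun_prop

theorem cov_rel {f g : (Fin 7 × Fin 6 → ℂ) → ℂ}
    (h : IsPoly f ∧ IsPoly g ∧ ∀ z, Eqs z → ∀ l : Fin 7 → ℂ,
      f (fun a => l a.1 * Phi z a) = g fun a => l a.1 * Phi z a) :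
    ∀ v ∈ Zar (MC MM Phi), f v = g v := fun _ hv =>
  sub_eq_zero.1 (hv (fun v => f v - g v) (h.1.sub h.2.1) (by
    rintro u ⟨z, hz, l, -, rfl⟩
    exact sub_eq_zero.2 (h.2.2 z hz.1 l)))

section

variable (hv : v ∈ Zar (MC MM Phi))
include hv

theorem cov_a5 : v (0, 5) = 0 := by
  revert v
  apply cov_rel
  refine ⟨by fun_prop, by fun_prop, fun z _ l => ?_⟩
  simp only [Phi, Ph, Matrix.cons_val, mul_zero]

theorem cov_b4 : v (1, 4) = 0 := by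
  revert v
  apply cov_rel
  refine ⟨by fun_prop, by fun_prop, fun z _ l => ?_⟩
  simp only [Phi, Ph, Matrix.cons_val, mul_zero]

theorem cov_b5 : v (1, 5) = 0 := by
  revert v
  apply cov_rel
  refine ⟨by fun_prop, by fun_prop, fun z _ l => ?_⟩
  simp only [Phi, Ph, Matrix.cons_val, mul_zero]

theorem cov_c3 : v (2, 3) = 0 := by
  revert v
  apply cov_rel
  refine ⟨by fun_prop, by fun_prop, fun z _ l => ?_⟩
  simp only [Phi, Ph, Matrix.cons_val, mul_zero]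

theorem cov_c4 : v (2, 4) = 0 := by
  revert v
  apply cov_rel
  refine ⟨by fun_prop, by fun_prop, fun z _ l => ?_⟩
  simp only [Phi, Ph, Matrix.cons_val, mul_zero]

theorem cov_c5 : v (2, 5) = 0 := by
  revert v
  apply cov_rel
  refine ⟨by fun_prop, by fun_prop, fun z _ l => ?_⟩
  simp only [Phi, Ph, Matrix.cons_val, mul_zero]

theorem cov_d5 : v (3, 5) = 0 := by
  revert v
  apply cov_rel
  refine ⟨by fun_prop, by fun_prop, fun z _ l => ?_⟩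
  simp only [Phi, Ph, Matrix.cons_val, mul_zero]

theorem cov_f4 : v (4, 4) = 0 := by
  revert v
  apply cov_rel
  refine ⟨by fun_prop, by fun_prop, fun z _ l => ?_⟩
  simp only [Phi, Ph, Matrix.cons_val, mul_zero]

theorem cov_f5 : v (4, 5) = 0 := by
  revert v
  apply cov_rel
  refine ⟨by fun_prop, by fun_prop, fun z _ l => ?_⟩
  simp only [Phi, Ph, Matrix.cons_val, mul_zero]

theorem cov_a1 : v (0, 1) ^ 2 = v (0, 0) * v (0, 2) := by
  revert v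
  apply cov_rel
  refine ⟨by fun_prop, by fun_prop, fun z _ l => ?_⟩
  simp only [Phi, Ph, Matrix.cons_val, sb, bb, kb]
  ring

theorem cov_a3 : v (0, 3) ^ 4 =
    (Pa v ^ 4 + v (0, 0) ^ 4) / 2 - I * ((Pa v ^ 4 - v (0, 0) ^ 4) / 2) := by
  have := cov_poly
  revert v
  apply cov_rel
  refine ⟨by fun_prop, by fun_prop, fun z hz l => ?_⟩
  have h := congrArg (fun x => l 0 ^ 4 * x) hz.h1
  simp only [Phi, Ph, Matrix.cons_val, Pa, Eq1, mC, m0, PP, sb, bb, kb] at h ⊢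
  linear_combination h

theorem cov_a4 : v (0, 4) ^ 4 =
    (Pa v ^ 4 + v (0, 0) ^ 4) / 2 + I * ((Pa v ^ 4 - v (0, 0) ^ 4) / 2) := by
  have := cov_poly
  revert v
  apply cov_rel
  refine ⟨by fun_prop, by fun_prop, fun z hz l => ?_⟩
  have h := congrArg (fun x => l 0 ^ 4 * x) hz.h3
  simp only [Phi, Ph, Matrix.cons_val, Pa, Eq3, mC, m0, PP, sb, bb, kb] at h ⊢
  linear_combination h

theorem cov_b1 : v (1, 1) ^ 2 = v (1, 0) * v (1, 2) := by
  revert v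
  apply cov_rel
  refine ⟨by fun_prop, by fun_prop, fun z _ l => ?_⟩
  simp only [Phi, Ph, Matrix.cons_val, sb, bb, kb]
  ring

theorem cov_b3 : v (1, 3) ^ 4 = v (1, 0) ^ 4 + v (1, 2) ^ 4 := by
  revert v
  apply cov_rel
  refine ⟨by fun_prop, by fun_prop, fun z hz l => ?_⟩
  have h := congrArg (fun x => l 1 ^ 4 * x) hz.hX
  simp only [Phi, Ph, Matrix.cons_val, Pa, EqX, mC, m0, PP, sb, bb, kb] at h ⊢
  linear_combination h

theorem cov_c12 : v (2, 2) * v (0, 0) ^ 2 = v (2, 1) * v (0, 2) ^ 2 := by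
  revert v
  apply cov_rel
  refine ⟨by fun_prop, by fun_prop, fun z _ l => ?_⟩
  simp only [Phi, Ph, Matrix.cons_val, sb, bb, kb]
  ring

theorem cov_c01 : v (2, 0) ^ 2 * v (0, 0) ^ 4 = (Pa v ^ 4 - v (0, 0) ^ 4) / 2 * v (2, 1) ^ 2 := by
  have := cov_poly
  revert v
  apply cov_rel
  refine ⟨by fun_prop, by fun_prop, fun z hz l => ?_⟩
  have h := congrArg (fun x => l 2 ^ 2 * l 0 ^ 4 * sb z ^ 8 * x) hz.hM
  simp only [Phi, Ph, Matrix.cons_val, Pa, EqM, mC, m0, PP, sb, bb, kb] at h ⊢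
  linear_combination h

theorem cov_c02 : v (2, 0) ^ 2 * v (0, 2) ^ 4 = (Pa v ^ 4 - v (0, 0) ^ 4) / 2 * v (2, 2) ^ 2 := by
  have := cov_poly
  revert v
  apply cov_rel
  refine ⟨by fun_prop, by fun_prop, fun z hz l => ?_⟩
  have h := congrArg (fun x => l 2 ^ 2 * l 0 ^ 4 * z .t ^ 8 * x) hz.hM
  simp only [Phi, Ph, Matrix.cons_val, Pa, EqM, mC, m0, PP, sb, bb, kb] at h ⊢
  linear_combination h

theorem cov_d32 : v (3, 3) * v (0, 2) ^ 2 = v (3, 2) * v (0, 0) ^ 2 := by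
  revert v
  apply cov_rel
  refine ⟨by fun_prop, by fun_prop, fun z _ l => ?_⟩
  simp only [Phi, Ph, Matrix.cons_val, sb, bb, kb]
  ring

theorem cov_d41 : v (3, 4) * v (0, 2) ^ 2 = v (3, 1) * v (0, 0) * v (0, 1) := by
  revert v
  apply cov_rel
  refine ⟨by fun_prop, by fun_prop, fun z _ l => ?_⟩
  simp only [Phi, Ph, Matrix.cons_val, sb, bb, kb]
  ring

theorem cov_d0tk : v (3, 0) ^ 2 * v (0, 2) ^ 4 * v (1, 2) =
    v (3, 2) ^ 2 * ((Pa v ^ 4 + v (0, 0) ^ 4) / 2) * v (1, 2) -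
      v (3, 1) ^ 2 * v (0, 2) * v (0, 3) * Pa v * v (0, 4) * v (1, 3) := by
  have := cov_poly
  revert v
  apply cov_rel
  refine ⟨by fun_prop, by fun_prop, fun z hz l => ?_⟩
  have h := congrArg (fun x => l 3 ^ 2 * l 0 ^ 4 * l 1 * z .t ^ 8 * kb z ^ 2 * x) hz.hw1
  simp only [Phi, Ph, Matrix.cons_val, Pa, Ew1, A1, B1, nn, mC, m0, PP, sb, bb, kb] at h ⊢
  linear_combination h

theorem cov_f21 : v (4, 2) * v (0, 2) = v (4, 1) * v (0, 0) := by
  revert v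
  apply cov_rel
  refine ⟨by fun_prop, by fun_prop, fun z _ l => ?_⟩
  simp only [Phi, Ph, Matrix.cons_val, sb, bb, kb]
  ring

theorem cov_f0tk : v (4, 0) ^ 2 * v (0, 2) ^ 2 * v (1, 2) =
    v (4, 1) ^ 2 * g4 * v (0, 3) * v (0, 4) * v (1, 2) -
      v (4, 3) ^ 2 * v (0, 2) ^ 2 * v (1, 3) := by
  revert v
  apply cov_rel
  refine ⟨by fun_prop, by fun_prop, fun z hz l => ?_⟩
  have h := congrArg (fun x => l 4 ^ 2 * l 0 ^ 2 * l 1 * z .t ^ 4 * kb z ^ 2 * x) hz.hw2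
  simp only [Phi, Ph, Matrix.cons_val, Pa, Ew2, A2, B2, mC, m0, PP, sb, bb, kb] at h ⊢
  linear_combination h

theorem cov_df : v (3, 2) * v (4, 3) * v (0, 2) = v (3, 1) * v (4, 1) * v (0, 1) := by
  revert v
  apply cov_rel
  refine ⟨by fun_prop, by fun_prop, fun z _ l => ?_⟩
  simp only [Phi, Ph, Matrix.cons_val, sb, bb, kb]
  ring

theorem cov_d14 : v (3, 1) * v (0, 0) ^ 2 = v (3, 4) * v (0, 1) * v (0, 2) := by
  revert v
  apply cov_rel
  refine ⟨by fun_prop, by fun_prop, fun z _ l => ?_⟩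
  simp only [Phi, Ph, Matrix.cons_val, sb, bb, kb]
  ring

theorem cov_d24 : v (3, 2) * v (0, 0) ^ 2 * v (1, 2) = v (3, 4) * v (0, 2) ^ 2 * v (1, 1) := by
  revert v
  apply cov_rel
  refine ⟨by fun_prop, by fun_prop, fun z _ l => ?_⟩
  simp only [Phi, Ph, Matrix.cons_val, sb, bb, kb]
  ring

theorem cov_d34 : v (3, 3) * v (1, 2) = v (3, 4) * v (1, 1) := by
  revert v
  apply cov_rel
  refine ⟨by fun_prop, by fun_prop, fun z _ l => ?_⟩
  simp only [Phi, Ph, Matrix.cons_val, sb, bb, kb]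
  ring

theorem cov_d0sk : v (3, 0) ^ 2 * v (0, 0) ^ 4 * v (1, 2) =
    v (3, 3) ^ 2 * ((Pa v ^ 4 + v (0, 0) ^ 4) / 2) * v (1, 2) -
      v (3, 4) ^ 2 * v (0, 0) * v (0, 3) * Pa v * v (0, 4) * v (1, 3) := by
  have := cov_poly
  revert v
  apply cov_rel
  refine ⟨by fun_prop, by fun_prop, fun z hz l => ?_⟩
  have h := congrArg (fun x => l 3 ^ 2 * l 0 ^ 4 * l 1 * sb z ^ 8 * kb z ^ 2 * x) hz.hw1
  simp only [Phi, Ph, Matrix.cons_val, Pa, Ew1, A1, B1, nn, mC, m0, PP, sb, bb, kb] at h ⊢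
  linear_combination h

theorem cov_f13 : v (4, 1) * v (0, 0) * v (1, 2) = v (4, 3) * v (0, 2) * v (1, 1) := by
  revert v
  apply cov_rel
  refine ⟨by fun_prop, by fun_prop, fun z _ l => ?_⟩
  simp only [Phi, Ph, Matrix.cons_val, sb, bb, kb]
  ring

theorem cov_f23 : v (4, 2) * v (1, 2) = v (4, 3) * v (1, 1) := by
  revert v
  apply cov_rel
  refine ⟨by fun_prop, by fun_prop, fun z _ l => ?_⟩
  simp only [Phi, Ph, Matrix.cons_val, sb, bb, kb]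
  ring

theorem cov_f0sk : v (4, 0) ^ 2 * v (0, 0) ^ 2 * v (1, 2) =
    v (4, 2) ^ 2 * g4 * v (0, 3) * v (0, 4) * v (1, 2) -
      v (4, 3) ^ 2 * v (0, 0) ^ 2 * v (1, 3) := by
  revert v
  apply cov_rel
  refine ⟨by fun_prop, by fun_prop, fun z hz l => ?_⟩
  have h := congrArg (fun x => l 4 ^ 2 * l 0 ^ 2 * l 1 * sb z ^ 4 * kb z ^ 2 * x) hz.hw2
  simp only [Phi, Ph, Matrix.cons_val, Pa, Ew2, A2, B2, mC, m0, PP, sb, bb, kb] at h ⊢
  linear_combination h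

theorem cov_d12 : v (3, 1) * v (0, 2) * v (1, 0) = v (3, 2) * v (0, 1) * v (1, 1) := by
  revert v
  apply cov_rel
  refine ⟨by fun_prop, by fun_prop, fun z _ l => ?_⟩
  simp only [Phi, Ph, Matrix.cons_val, sb, bb, kb]
  ring

theorem cov_d42 : v (3, 4) * v (0, 2) ^ 2 * v (1, 0) = v (3, 2) * v (0, 0) ^ 2 * v (1, 1) := by
  revert v
  apply cov_rel
  refine ⟨by fun_prop, by fun_prop, fun z _ l => ?_⟩
  simp only [Phi, Ph, Matrix.cons_val, sb, bb, kb]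
  ring

theorem cov_d0tb : v (3, 0) ^ 2 * v (0, 2) ^ 4 * v (1, 0) =
    v (3, 2) ^ 2 * ((Pa v ^ 4 + v (0, 0) ^ 4) / 2 * v (1, 0) -
      v (0, 0) * v (0, 3) * Pa v * v (0, 4) * v (1, 3)) := by
  have := cov_poly
  revert v
  apply cov_rel
  refine ⟨by fun_prop, by fun_prop, fun z hz l => ?_⟩
  have h := congrArg (fun x => l 3 ^ 2 * l 0 ^ 4 * l 1 * z .t ^ 8 * bb z ^ 2 * x) hz.hw1
  simp only [Phi, Ph, Matrix.cons_val, Pa, Ew1, A1, B1, nn, mC, m0, PP, sb, bb, kb] at h ⊢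
  linear_combination h

theorem cov_f31 : v (4, 3) * v (0, 2) * v (1, 0) = v (4, 1) * v (0, 0) * v (1, 1) := by
  revert v
  apply cov_rel
  refine ⟨by fun_prop, by fun_prop, fun z _ l => ?_⟩
  simp only [Phi, Ph, Matrix.cons_val, sb, bb, kb]
  ring

theorem cov_f0tb : v (4, 0) ^ 2 * v (0, 2) ^ 2 * v (1, 0) =
    v (4, 1) ^ 2 * (g4 * v (0, 3) * v (0, 4) * v (1, 0) -
      v (0, 0) ^ 2 * v (1, 3)) := by
  revert v
  apply cov_rel
  refine ⟨by fun_prop, by fun_prop, fun z hz l => ?_⟩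
  have h := congrArg (fun x => l 4 ^ 2 * l 0 ^ 2 * l 1 * z .t ^ 4 * bb z ^ 2 * x) hz.hw2
  simp only [Phi, Ph, Matrix.cons_val, Pa, Ew2, A2, B2, mC, m0, PP, sb, bb, kb] at h ⊢
  linear_combination h

end

theorem cov_row (h0 : ∀ k, ∃ j, v (k, j) ≠ 0) (k : Fin 7) (e0 : v (k, 0) = 0) (e1 : v (k, 1) = 0)
    (e2 : v (k, 2) = 0) (e3 : v (k, 3) = 0) (e4 : v (k, 4) = 0) (e5 : v (k, 5) = 0) : False := by
  obtain ⟨j, hj⟩ := h0 k
  fin_cases j
  exacts [hj e0, hj e1, hj e2, hj e3, hj e4, hj e5]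

theorem cover_base (hv : v ∈ Zar (MC MM Phi)) (h0 : ∀ k, ∃ j, v (k, j) ≠ 0) :
    (v (0, 0) ≠ 0 ∨ v (0, 2) ≠ 0) ∧ (v (1, 0) ≠ 0 ∨ v (1, 2) ≠ 0) ∧
      (v (0, 0) ≠ 0 → v (2, 1) ≠ 0) ∧ (v (0, 2) ≠ 0 → v (2, 2) ≠ 0) := by
  refine ⟨?_, ?_, fun ha hc => ?_, fun ha hc => ?_⟩
  · by_contra h
    push Not at h
    have hP : Pa v = 0 := by simp [Pa, h.1, h.2]
    exact cov_row h0 0 h.1 (by simpa [h.1] using cov_a1 hv) h.2
      (by simpa [h.1, hP] using cov_a3 hv) (by simpa [h.1, hP] using cov_a4 hv) (cov_a5 hv)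
  · by_contra h
    push Not at h
    exact cov_row h0 1 h.1 (by simpa [h.1] using cov_b1 hv) h.2
      (by simpa [h.1, h.2] using cov_b3 hv) (cov_b4 hv) (cov_b5 hv)
  · exact cov_row h0 2 (by simpa [ha, hc] using cov_c01 hv) hc
      (by simpa [ha, hc] using cov_c12 hv) (cov_c3 hv) (cov_c4 hv) (cov_c5 hv)
  · exact cov_row h0 2 (by simpa [ha, hc] using cov_c02 hv)
      (by simpa [ha, hc] using cov_c12 hv) hc (cov_c3 hv) (cov_c4 hv) (cov_c5 hv)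

theorem cover_tk (hv : v ∈ Zar (MC MM Phi)) (h0 : ∀ k, ∃ j, v (k, j) ≠ 0) (ha : v (0, 2) ≠ 0)
    (hb : v (1, 2) ≠ 0) : hS1 v ≠ 0 ∨ hS2 v ≠ 0 ∨ hS3 v ≠ 0 := by
  have hc := (cover_base hv h0).2.2.2 ha
  have hd : v (3, 1) = 0 → v (3, 2) ≠ 0 := fun d1 d2 =>
    cov_row h0 3 (by simpa [ha, hb, d1, d2] using cov_d0tk hv) d1 d2
      (by simpa [ha, d2] using cov_d32 hv) (by simpa [ha, d1] using cov_d41 hv) (cov_d5 hv)
  have hf : v (4, 1) = 0 → v (4, 3) ≠ 0 := fun f1 f3 =>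
    cov_row h0 4 (by simpa [ha, hb, f1, f3] using cov_f0tk hv) f1
      (by simpa [ha, f1] using cov_f21 hv) f3 (cov_f4 hv) (cov_f5 hv)
  by_cases d1 : v (3, 1) = 0 <;> by_cases f1 : v (4, 1) = 0
  · exact absurd (cov_df hv) (by simp [ha, d1, hd d1, hf f1])
  · exact Or.inr (Or.inr (by simp [hS3, ha, hb, hc, hd d1, f1]))
  · exact Or.inr (Or.inl (by simp [hS2, ha, hb, hc, d1, hf f1]))
  · exact Or.inl (by simp [hS1, ha, hb, hc, d1, f1])

theorem cover_sk (hv : v ∈ Zar (MC MM Phi)) (h0 : ∀ k, ∃ j, v (k, j) ≠ 0) (ha : v (0, 0) ≠ 0)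
    (hb : v (1, 2) ≠ 0) : hSK v ≠ 0 := by
  have hc := (cover_base hv h0).2.2.1 ha
  have hd : v (3, 4) ≠ 0 := fun d4 => by
    have d3 : v (3, 3) = 0 := by simpa [hb, d4] using cov_d34 hv
    exact cov_row h0 3 (by simpa [ha, hb, d3, d4] using cov_d0sk hv)
      (by simpa [ha, d4] using cov_d14 hv) (by simpa [ha, hb, d4] using cov_d24 hv) d3 d4
      (cov_d5 hv)
  have hf : v (4, 3) ≠ 0 := fun f3 => by
    have f2 : v (4, 2) = 0 := by simpa [hb, f3] using cov_f23 hv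
    exact cov_row h0 4 (by simpa [ha, hb, f2, f3] using cov_f0sk hv)
      (by simpa [ha, hb, f3] using cov_f13 hv) f2 f3 (cov_f4 hv) (cov_f5 hv)
  simp [hSK, ha, hb, hc, hd, hf]

theorem cover_tb (hv : v ∈ Zar (MC MM Phi)) (h0 : ∀ k, ∃ j, v (k, j) ≠ 0) (ha : v (0, 0) = 0)
    (hb : v (1, 0) ≠ 0) : hTB v ≠ 0 := by
  have a2 := (cover_base hv h0).1.resolve_left (not_not.2 ha)
  have hc := (cover_base hv h0).2.2.2 a2
  have hP : Pa v ≠ 0 := by simpa [Pa, ha] using a2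
  have c0 : v (2, 0) ≠ 0 := fun c0 => absurd (cov_c02 hv) (by simp [c0, ha, hP, hc])
  have hd : v (3, 2) ≠ 0 := fun d2 =>
    cov_row h0 3 (by simpa [a2, hb, d2] using cov_d0tb hv)
      (by simpa [a2, hb, d2] using cov_d12 hv) d2 (by simpa [a2, d2] using cov_d32 hv)
      (by simpa [a2, hb, d2] using cov_d42 hv) (cov_d5 hv)
  have hf : v (4, 1) ≠ 0 := fun f1 =>
    cov_row h0 4 (by simpa [a2, hb, f1] using cov_f0tb hv) f1
      (by simpa [a2, f1] using cov_f21 hv) (by simpa [a2, hb, f1] using cov_f31 hv)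
      (cov_f4 hv) (cov_f5 hv)
  simp [hTB, a2, hb, hc, hd, hf, c0, hP]

end Vale.Agent.P300
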