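import Vale.Agent.P300.Cover

/-! The charts cover the Zariski closure of the multicone, second part. -/

namespace Vale.Agent.P300

open Topology Filter Set Complex

variable {v : Fin 7 × Fin 6 → ℂ}

theorem c2_00 (z : W → ℂ) : Phi z (0, 0) = sb z ^ 2 := rfl
theorem c2_01 (z : W → ℂ) : Phi z (0, 1) = sb z * z .t := rfl
theorem c2_02 (z : W → ℂ) : Phi z (0, 2) = z .t ^ 2 := rfl
theorem c2_03 (z : W → ℂ) : Phi z (0, 3) = z .p1 := rfl
theorem c2_04 (z : W → ℂ) : Phi z (0, 4) = z .p3 := rfl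
theorem c2_10 (z : W → ℂ) : Phi z (1, 0) = bb z ^ 2 := rfl
theorem c2_11 (z : W → ℂ) : Phi z (1, 1) = bb z * kb z := rfl
theorem c2_12 (z : W → ℂ) : Phi z (1, 2) = kb z ^ 2 := rfl
theorem c2_13 (z : W → ℂ) : Phi z (1, 3) = z .X := rfl
theorem c2_20 (z : W → ℂ) : Phi z (2, 0) = z .eA * z .mu := rfl
theorem c2_21 (z : W → ℂ) : Phi z (2, 1) = sb z ^ 4 := rfl
theorem c2_30 (z : W → ℂ) : Phi z (3, 0) = z .eA ^ 4 * z .w1 := rfl
theorem c2_31 (z : W → ℂ) : Phi z (3, 1) = z .s * z .t ^ 3 * kb z := rfl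
theorem c2_32 (z : W → ℂ) : Phi z (3, 2) = z .e2 * z .be * z .t ^ 4 := rfl
theorem c2_33 (z : W → ℂ) : Phi z (3, 3) = z .e2 * z .be * sb z ^ 4 := rfl
theorem c2_34 (z : W → ℂ) : Phi z (3, 4) = z .s * sb z ^ 3 * kb z := rfl
theorem c2_35 (z : W → ℂ) : Phi z (3, 5) = 0 := rfl
theorem c2_40 (z : W → ℂ) : Phi z (4, 0) = z .eB ^ 4 * z .w2 := rfl
theorem c2_41 (z : W → ℂ) : Phi z (4, 1) = z .be * z .t ^ 2 := rfl
theorem c2_42 (z : W → ℂ) : Phi z (4, 2) = z .be * sb z ^ 2 := rfl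
theorem c2_43 (z : W → ℂ) : Phi z (4, 3) = z .e1 * z .s ^ 2 * kb z := rfl
theorem c2_44 (z : W → ℂ) : Phi z (4, 4) = 0 := rfl
theorem c2_45 (z : W → ℂ) : Phi z (4, 5) = 0 := rfl
theorem c2_50 (z : W → ℂ) : Phi z (5, 0) = z .e1 * z .e2 * z .w1 * sb z ^ 12 * bb z ^ 3 := rfl
theorem c2_51 (z : W → ℂ) : Phi z (5, 1) = (z .mu * bb z) ^ 4 := rfl
theorem c2_52 (z : W → ℂ) : Phi z (5, 2) = (z .mu * bb z) ^ 3 * (z .eB * z .ka * sb z ^ 4) := rfl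
theorem c2_53 (z : W → ℂ) : Phi z (5, 3) = (z .mu * bb z) * (z .eB * z .ka * sb z ^ 4) ^ 3 := rfl
theorem c2_54 (z : W → ℂ) : Phi z (5, 4) = (z .eB * z .ka * sb z ^ 4) ^ 4 := rfl
theorem c2_55 (z : W → ℂ) : Phi z (5, 5) = (z .eB * z .ka * z .t ^ 4) ^ 4 := rfl
theorem c2_60 (z : W → ℂ) : Phi z (6, 0) = z .e1 * z .e2 ^ 2 * z .w2 * sb z ^ 6 * bb z ^ 3 := rfl
theorem c2_61 (z : W → ℂ) : Phi z (6, 1) = (z .q * bb z) ^ 4 := rfl
theorem c2_62 (z : W → ℂ) : Phi z (6, 2) = (z .q * bb z) ^ 3 * (z .eA * z .ka * sb z ^ 2) := rfl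
theorem c2_63 (z : W → ℂ) : Phi z (6, 3) = (z .q * bb z) * (z .eA * z .ka * sb z ^ 2) ^ 3 := rfl
theorem c2_64 (z : W → ℂ) : Phi z (6, 4) = (z .eA * z .ka * sb z ^ 2) ^ 4 := rfl
theorem c2_65 (z : W → ℂ) : Phi z (6, 5) = (z .eA * z .ka * z .t ^ 2) ^ 4 := rfl

theorem c2_zar (hv : v ∈ Zar (MC MM Phi)) (f g : (Fin 7 × Fin 6 → ℂ) → ℂ) (hf : IsPoly f)
    (hg : IsPoly g) (h : ∀ z, Eqs z → ∀ l : Fin 7 → ℂ,
      f (fun a => l a.1 * Phi z a) = g fun a => l a.1 * Phi z a) : f v = g v :=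
  sub_eq_zero.1 (hv _ (hf.sub hg) (by
    rintro _ ⟨z, hz, l, -, rfl⟩
    exact sub_eq_zero.2 (h z hz.1 l)))

/-- The quartic forms in the first block of coordinates. -/
noncomputable def c2m (v : Fin 7 × Fin 6 → ℂ) : ℂ := (Pa v ^ 4 + v (0, 0) ^ 4) / 2

noncomputable def c2n (v : Fin 7 × Fin 6 → ℂ) : ℂ := (Pa v ^ 4 - v (0, 0) ^ 4) / 2

@[fun_prop] theorem c2_poly_P : IsPoly Pa := by unfold Pa; fun_prop

@[fun_prop] theorem c2_poly_m : IsPoly c2m := by unfold c2m; fun_prop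

@[fun_prop] theorem c2_poly_n : IsPoly c2n := by unfold c2n; fun_prop

theorem c2_P (z : W → ℂ) (l : Fin 7 → ℂ) : Pa (fun a => l a.1 * Phi z a) = l 0 * PP z := by
  simp only [Pa, c2_00, c2_02, PP]
  ring

theorem c2_m (z : W → ℂ) (l : Fin 7 → ℂ) : c2m (fun a => l a.1 * Phi z a) = l 0 ^ 4 * mC z := by
  simp only [c2m, c2_P, c2_00, mC]
  ring

theorem c2_n (z : W → ℂ) (l : Fin 7 → ℂ) : c2n (fun a => l a.1 * Phi z a) = l 0 ^ 4 * m0 z := by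
  simp only [c2n, c2_P, c2_00, m0]
  ring

theorem c2_a3 (hv : v ∈ Zar (MC MM Phi)) :
    v (0, 3) ^ 4 =
      c2m v - I * c2n v :=
  c2_zar hv (fun v => v (0, 3) ^ 4)
    (fun v => c2m v - I * c2n v)
    (by fun_prop) (by fun_prop) fun z hz l => by
      have h := hz.h1
      simp only [c2_03, c2_m, c2_n]
      rw [Eq1] at h
      linear_combination l 0 ^ 4 * h

theorem c2_a4 (hv : v ∈ Zar (MC MM Phi)) :
    v (0, 4) ^ 4 =
      c2m v + I * c2n v :=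
  c2_zar hv (fun v => v (0, 4) ^ 4)
    (fun v => c2m v + I * c2n v)
    (by fun_prop) (by fun_prop) fun z hz l => by
      have h := hz.h3
      simp only [c2_04, c2_m, c2_n]
      rw [Eq3] at h
      linear_combination l 0 ^ 4 * h

theorem c2_b3 (hv : v ∈ Zar (MC MM Phi)) :
    v (1, 3) ^ 4 =
      v (1, 0) ^ 4 + v (1, 2) ^ 4 :=
  c2_zar hv (fun v => v (1, 3) ^ 4)
    (fun v => v (1, 0) ^ 4 + v (1, 2) ^ 4)
    (by fun_prop) (by fun_prop) fun z hz l => by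
      have h := hz.hX
      simp only [c2_10, c2_12, c2_13]
      rw [EqX] at h
      linear_combination l 1 ^ 4 * h

theorem c2_c0 (hv : v ∈ Zar (MC MM Phi)) :
    v (2, 0) ^ 2 * v (0, 0) ^ 4 =
      c2n v * v (2, 1) ^ 2 :=
  c2_zar hv (fun v => v (2, 0) ^ 2 * v (0, 0) ^ 4)
    (fun v => c2n v * v (2, 1) ^ 2)
    (by fun_prop) (by fun_prop) fun z hz l => by
      have h := hz.hM
      simp only [c2_00, c2_20, c2_21, c2_n]
      rw [EqM] at h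
      linear_combination l 0 ^ 4 * l 2 ^ 2 * sb z ^ 8 * h

theorem c2_d0 (hv : v ∈ Zar (MC MM Phi)) :
    v (3, 0) ^ 2 * v (0, 0) ^ 4 * v (1, 0) =
      v (3, 3) ^ 2 * (c2m v * v (1, 0) - (v (0, 0) * v (0, 3) * Pa v * v (0, 4)) * v (1, 3)) :=
  c2_zar hv (fun v => v (3, 0) ^ 2 * v (0, 0) ^ 4 * v (1, 0))
    (fun v => v (3, 3) ^ 2 * (c2m v * v (1, 0) - (v (0, 0) * v (0, 3) * Pa v * v (0, 4)) * v (1, 3)))
    (by fun_prop) (by fun_prop) fun z hz l => by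
      have h := hz.hw1
      simp only [Ew1, A1, B1, nn] at h
      simp only [c2_00, c2_03, c2_04, c2_10, c2_13, c2_30, c2_33, c2_P, c2_m, sb, bb]
      linear_combination l 0 ^ 4 * l 1 * l 3 ^ 2 * (z .e1 * z .e2 * z .s) ^ 8 *
        (z .e1 * z .e2 ^ 2 * z .be) ^ 2 * h

theorem c2_d1 (hv : v ∈ Zar (MC MM Phi)) :
    v (3, 1) * v (0, 0) ^ 2 * v (1, 0) =
      v (3, 3) * v (0, 1) * v (0, 2) * v (1, 1) :=
  c2_zar hv (fun v => v (3, 1) * v (0, 0) ^ 2 * v (1, 0))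
    (fun v => v (3, 3) * v (0, 1) * v (0, 2) * v (1, 1))
    (by fun_prop) (by fun_prop) fun z hz l => by
      simp only [c2_00, c2_01, c2_02, c2_10, c2_11, c2_31, c2_33, sb, bb]
      ring

theorem c2_d2 (hv : v ∈ Zar (MC MM Phi)) :
    v (3, 2) * v (0, 0) ^ 2 =
      v (3, 3) * v (0, 2) ^ 2 :=
  c2_zar hv (fun v => v (3, 2) * v (0, 0) ^ 2)
    (fun v => v (3, 3) * v (0, 2) ^ 2)
    (by fun_prop) (by fun_prop) fun z hz l => by
      simp only [c2_00, c2_02, c2_32, c2_33]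
      ring

theorem c2_d4 (hv : v ∈ Zar (MC MM Phi)) :
    v (3, 4) * v (1, 0) =
      v (3, 3) * v (1, 1) :=
  c2_zar hv (fun v => v (3, 4) * v (1, 0))
    (fun v => v (3, 3) * v (1, 1))
    (by fun_prop) (by fun_prop) fun z hz l => by
      simp only [c2_10, c2_11, c2_33, c2_34, sb, bb]
      ring

theorem c2_d5 (hv : v ∈ Zar (MC MM Phi)) :
    v (3, 5) =
      0 :=
  c2_zar hv (fun v => v (3, 5))
    (fun v => 0)
    (by fun_prop) (by fun_prop) fun z hz l => by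
      simp only [c2_35, mul_zero]

theorem c2_f0 (hv : v ∈ Zar (MC MM Phi)) :
    v (4, 0) ^ 2 * v (0, 0) ^ 2 * v (1, 0) =
      v (4, 2) ^ 2 * ((g4 * v (0, 3) * v (0, 4)) * v (1, 0) - v (0, 0) ^ 2 * v (1, 3)) :=
  c2_zar hv (fun v => v (4, 0) ^ 2 * v (0, 0) ^ 2 * v (1, 0))
    (fun v => v (4, 2) ^ 2 * ((g4 * v (0, 3) * v (0, 4)) * v (1, 0) - v (0, 0) ^ 2 * v (1, 3)))
    (by fun_prop) (by fun_prop) fun z hz l => by
      have h := hz.hw2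
      simp only [Ew2, A2, B2] at h
      simp only [c2_00, c2_03, c2_04, c2_10, c2_13, c2_40, c2_42, sb, bb]
      linear_combination l 0 ^ 2 * l 1 * l 4 ^ 2 * (z .e1 * z .e2 * z .s) ^ 4 *
        (z .e1 * z .e2 ^ 2 * z .be) ^ 2 * h

theorem c2_f1 (hv : v ∈ Zar (MC MM Phi)) :
    v (4, 1) * v (0, 0) =
      v (4, 2) * v (0, 2) :=
  c2_zar hv (fun v => v (4, 1) * v (0, 0))
    (fun v => v (4, 2) * v (0, 2))
    (by fun_prop) (by fun_prop) fun z hz l => by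
      simp only [c2_00, c2_02, c2_41, c2_42]
      ring

theorem c2_f3 (hv : v ∈ Zar (MC MM Phi)) :
    v (4, 3) * v (1, 0) =
      v (4, 2) * v (1, 1) :=
  c2_zar hv (fun v => v (4, 3) * v (1, 0))
    (fun v => v (4, 2) * v (1, 1))
    (by fun_prop) (by fun_prop) fun z hz l => by
      simp only [c2_10, c2_11, c2_42, c2_43, sb, bb]
      ring

theorem c2_f4 (hv : v ∈ Zar (MC MM Phi)) :
    v (4, 4) =
      0 :=
  c2_zar hv (fun v => v (4, 4))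
    (fun v => 0)
    (by fun_prop) (by fun_prop) fun z hz l => by
      simp only [c2_44, mul_zero]

theorem c2_f5 (hv : v ∈ Zar (MC MM Phi)) :
    v (4, 5) =
      0 :=
  c2_zar hv (fun v => v (4, 5))
    (fun v => 0)
    (by fun_prop) (by fun_prop) fun z hz l => by
      simp only [c2_45, mul_zero]

theorem c2_g0 (hv : v ∈ Zar (MC MM Phi)) :
    v (5, 0) ^ 2 * ((v (1, 0) * c2m v + (v (0, 0) * v (0, 3) * Pa v * v (0, 4)) * v (1, 3)) *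
      ((v (1, 0) * c2m v) ^ 2 + ((v (0, 0) * v (0, 3) * Pa v * v (0, 4)) * v (1, 3)) ^ 2)) * v (0, 0) ^ 4 =
      v (1, 0) ^ 3 * (v (0, 0) ^ 16 * v (5, 1) ^ 2 - (v (0, 0) * v (0, 3) * Pa v * v (0, 4)) ^ 4 * v (5, 4) ^ 2) :=
  c2_zar hv (fun v => v (5, 0) ^ 2 * ((v (1, 0) * c2m v + (v (0, 0) * v (0, 3) * Pa v * v (0, 4)) * v (1, 3)) *
      ((v (1, 0) * c2m v) ^ 2 + ((v (0, 0) * v (0, 3) * Pa v * v (0, 4)) * v (1, 3)) ^ 2)) * v (0, 0) ^ 4)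
    (fun v => v (1, 0) ^ 3 * (v (0, 0) ^ 16 * v (5, 1) ^ 2 - (v (0, 0) * v (0, 3) * Pa v * v (0, 4)) ^ 4 * v (5, 4) ^ 2))
    (by fun_prop) (by fun_prop) fun z hz l => by
      have h := hz.hA
      simp only [EqA, U1, A1, B1, nn] at h
      simp only [c2_00, c2_03, c2_04, c2_10, c2_13, c2_50, c2_51, c2_54, c2_P, c2_m, sb, bb]
      linear_combination l 0 ^ 16 * l 1 ^ 3 * l 5 ^ 2 * (z .e1 * z .e2 * z .s) ^ 32 *
        (z .e1 * z .e2 ^ 2 * z .be) ^ 6 * (z .e1 * z .e2) ^ 8 * h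

theorem c2_g2 (hv : v ∈ Zar (MC MM Phi)) :
    v (5, 2) ^ 4 =
      v (5, 1) ^ 3 * v (5, 4) :=
  c2_zar hv (fun v => v (5, 2) ^ 4)
    (fun v => v (5, 1) ^ 3 * v (5, 4))
    (by fun_prop) (by fun_prop) fun z hz l => by
      simp only [c2_51, c2_52, c2_54]
      ring

theorem c2_g3 (hv : v ∈ Zar (MC MM Phi)) :
    v (5, 3) ^ 4 =
      v (5, 1) * v (5, 4) ^ 3 :=
  c2_zar hv (fun v => v (5, 3) ^ 4)
    (fun v => v (5, 1) * v (5, 4) ^ 3)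
    (by fun_prop) (by fun_prop) fun z hz l => by
      simp only [c2_51, c2_53, c2_54]
      ring

theorem c2_g5 (hv : v ∈ Zar (MC MM Phi)) :
    v (5, 5) * v (0, 0) ^ 8 =
      v (5, 4) * v (0, 2) ^ 8 :=
  c2_zar hv (fun v => v (5, 5) * v (0, 0) ^ 8)
    (fun v => v (5, 4) * v (0, 2) ^ 8)
    (by fun_prop) (by fun_prop) fun z hz l => by
      simp only [c2_00, c2_02, c2_54, c2_55]
      ring

theorem c2_h0 (hv : v ∈ Zar (MC MM Phi)) :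
    v (6, 0) ^ 2 * ((v (1, 0) * (g4 * v (0, 3) * v (0, 4)) + v (0, 0) ^ 2 * v (1, 3)) *
      ((v (1, 0) * (g4 * v (0, 3) * v (0, 4))) ^ 2 + (v (0, 0) ^ 2 * v (1, 3)) ^ 2)) =
      v (1, 0) ^ 3 * v (0, 0) ^ 6 * (v (6, 1) ^ 2 - v (6, 4) ^ 2) :=
  c2_zar hv (fun v => v (6, 0) ^ 2 * ((v (1, 0) * (g4 * v (0, 3) * v (0, 4)) + v (0, 0) ^ 2 * v (1, 3)) *
      ((v (1, 0) * (g4 * v (0, 3) * v (0, 4))) ^ 2 + (v (0, 0) ^ 2 * v (1, 3)) ^ 2)))
    (fun v => v (1, 0) ^ 3 * v (0, 0) ^ 6 * (v (6, 1) ^ 2 - v (6, 4) ^ 2))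
    (by fun_prop) (by fun_prop) fun z hz l => by
      have h := hz.hB
      simp only [EqB, U2, A2, B2] at h
      simp only [c2_00, c2_03, c2_04, c2_10, c2_13, c2_60, c2_61, c2_64, sb, bb]
      linear_combination l 0 ^ 6 * l 1 ^ 3 * l 6 ^ 2 * (z .e1 * z .e2 * z .s) ^ 12 *
        (z .e1 * z .e2 ^ 2 * z .be) ^ 6 * (z .e1 * z .e2 ^ 2) ^ 8 * h

theorem c2_h2 (hv : v ∈ Zar (MC MM Phi)) :
    v (6, 2) ^ 4 =
      v (6, 1) ^ 3 * v (6, 4) :=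
  c2_zar hv (fun v => v (6, 2) ^ 4)
    (fun v => v (6, 1) ^ 3 * v (6, 4))
    (by fun_prop) (by fun_prop) fun z hz l => by
      simp only [c2_61, c2_62, c2_64]
      ring

theorem c2_h3 (hv : v ∈ Zar (MC MM Phi)) :
    v (6, 3) ^ 4 =
      v (6, 1) * v (6, 4) ^ 3 :=
  c2_zar hv (fun v => v (6, 3) ^ 4)
    (fun v => v (6, 1) * v (6, 4) ^ 3)
    (by fun_prop) (by fun_prop) fun z hz l => by
      simp only [c2_61, c2_63, c2_64]
      ring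

theorem c2_h5 (hv : v ∈ Zar (MC MM Phi)) :
    v (6, 5) * v (0, 0) ^ 4 =
      v (6, 4) * v (0, 2) ^ 4 :=
  c2_zar hv (fun v => v (6, 5) * v (0, 0) ^ 4)
    (fun v => v (6, 4) * v (0, 2) ^ 4)
    (by fun_prop) (by fun_prop) fun z hz l => by
      simp only [c2_00, c2_02, c2_64, c2_65]
      ring

theorem c2_six {k : Fin 7} (h : ∃ j, v (k, j) ≠ 0) (h0 : v (k, 0) = 0) (h1 : v (k, 1) = 0)
    (h2 : v (k, 2) = 0) (h3 : v (k, 3) = 0) (h4 : v (k, 4) = 0) (h5 : v (k, 5) = 0) : False := by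
  obtain ⟨j, hj⟩ := h
  fin_cases j
  exacts [hj h0, hj h1, hj h2, hj h3, hj h4, hj h5]

theorem cover_sb (hv : v ∈ Zar (MC MM Phi)) (h0 : ∀ k, ∃ j, v (k, j) ≠ 0) (ha : v (0, 0) ≠ 0)
    (hb : v (1, 0) ≠ 0) : v (3, 3) ≠ 0 ∧ v (4, 2) ≠ 0 := by
  constructor
  · intro h
    have e0 := c2_d0 hv
    have e1 := c2_d1 hv
    have e2 := c2_d2 hv
    have e4 := c2_d4 hv
    rw [h] at e0 e1 e2 e4
    exact c2_six (h0 3) (by simpa [ha, hb] using e0) (by simpa [ha, hb] using e1)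
      (by simpa [ha] using e2) h (by simpa [hb] using e4) (c2_d5 hv)
  · intro h
    have e0 := c2_f0 hv
    have e1 := c2_f1 hv
    have e3 := c2_f3 hv
    rw [h] at e0 e1 e3
    exact c2_six (h0 4) (by simpa [ha, hb] using e0) (by simpa [ha] using e1) h
      (by simpa [hb] using e3) (c2_f4 hv) (c2_f5 hv)

theorem cover_A (hv : v ∈ Zar (MC MM Phi)) (h0 : ∀ k, ∃ j, v (k, j) ≠ 0) (ha : v (0, 0) ≠ 0)
    (hb : v (1, 2) = 0) (hP : Pa v ≠ 0) : hAm v ≠ 0 ∨ hAk v ≠ 0 ∨ hG1 v ≠ 0 := by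
  obtain ⟨-, b0, c1, -⟩ := cover_base hv h0
  have b0 := b0.resolve_right (not_not.2 hb)
  have c1 := c1 ha
  obtain ⟨d3, f2⟩ := cover_sb hv h0 ha b0
  by_contra h
  simp only [hAm, hAk, hG1, not_or, not_not, mul_eq_zero, ha, b0, c1, d3, f2, hP, false_or,
    or_false] at h
  obtain ⟨g1, g4, d0⟩ := h
  have e0 := c2_g0 hv
  have e2 := c2_g2 hv
  have e3 := c2_g3 hv
  have e5 := c2_g5 hv
  have e6 := c2_d0 hv
  have e7 := c2_b3 hv
  rw [g1, g4] at e0 e2 e3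
  rw [g4] at e5
  have g0 : v (5, 0) ≠ 0 := fun g0 => c2_six (h0 5) g0 g1 (by simpa using e2) (by simpa using e3) g4
    (by simpa [ha] using e5)
  have e8 : v (0, 0) * v (0, 3) * Pa v * v (0, 4) * v (1, 3) = v (1, 0) * c2m v := by
    refine mul_left_cancel₀ (pow_ne_zero 2 d3) ?_
    rw [d0] at e6
    linear_combination e6
  have e9 : c2m v = 0 := by
    have : v (5, 0) ^ 2 * (4 * (v (1, 0) * c2m v) ^ 3) * v (0, 0) ^ 4 = 0 := by
      rw [e8] at e0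
      linear_combination e0
    simpa [g0, ha, b0] using this
  have b3 : v (1, 3) ≠ 0 := fun h => by
    rw [h, hb] at e7
    exact pow_ne_zero 4 b0 (by linear_combination -e7)
  have e10 : c2n v = 0 := by
    have a3 := c2_a3 hv
    have a4 := c2_a4 hv
    rw [e9] at e8 a3 a4
    simp only [mul_zero, mul_eq_zero, ha, hP, b3, false_or, or_false] at e8
    rcases e8 with h | h
    · simpa [h] using a3
    · simpa [h] using a4
  rw [c2m] at e9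
  rw [c2n] at e10
  exact pow_ne_zero 4 ha (by linear_combination e9 - e10)

theorem cover_B (hv : v ∈ Zar (MC MM Phi)) (h0 : ∀ k, ∃ j, v (k, j) ≠ 0) (ha : v (0, 0) ≠ 0)
    (hb : v (1, 2) = 0) (hP : Pa v = 0) : hBq v ≠ 0 ∨ hBk v ≠ 0 ∨ hG2 v ≠ 0 := by
  obtain ⟨-, b0, c1, -⟩ := cover_base hv h0
  have b0 := b0.resolve_right (not_not.2 hb)
  have c1 := c1 ha
  obtain ⟨d3, f2⟩ := cover_sb hv h0 ha b0
  have c0 : v (2, 0) ≠ 0 := fun h => by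
    have e := c2_c0 hv
    rw [h, c2n, hP] at e
    exact mul_ne_zero (pow_ne_zero 4 ha) (pow_ne_zero 2 c1) (by linear_combination 2 * e)
  by_contra h
  simp only [hBq, hBk, hG2, not_or, not_not, mul_eq_zero, ha, b0, c1, d3, f2, c0, false_or,
    or_false] at h
  obtain ⟨g1, g4', f0⟩ := h
  have e0 := c2_h0 hv
  have e2 := c2_h2 hv
  have e3 := c2_h3 hv
  have e5 := c2_h5 hv
  have e6 := c2_f0 hv
  have e7 := c2_b3 hv
  rw [g1, g4'] at e0 e2 e3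
  rw [g4'] at e5
  have g0 : v (6, 0) ≠ 0 := fun g0 => c2_six (h0 6) g0 g1 (by simpa using e2) (by simpa using e3) g4'
    (by simpa [ha] using e5)
  have e8 : v (1, 0) * (g4 * v (0, 3) * v (0, 4)) = v (0, 0) ^ 2 * v (1, 3) := by
    refine mul_left_cancel₀ (pow_ne_zero 2 f2) ?_
    rw [f0] at e6
    linear_combination -e6
  have b3 : v (1, 3) ≠ 0 := fun h => by
    rw [h, hb] at e7
    exact pow_ne_zero 4 b0 (by linear_combination -e7)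
  have : v (6, 0) ^ 2 * (4 * (v (0, 0) ^ 2 * v (1, 3)) ^ 3) = 0 := by
    rw [e8] at e0
    linear_combination e0
  simp [g0, ha, b3] at this

end Vale.Agent.P300
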