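import Vale.Agent.P300.Basic

/-! Homogeneous coordinates of the surface. -/

namespace Vale.Agent.P300

open Topology Filter Set Complex

/-- The fifteen coordinates. -/
inductive W : Type
  | e1 | e2 | eA | eB | s | t | p1 | p3 | mu | q | be | ka | X | w1 | w2
  deriving DecidableEq

instance : Fintype W :=
  ⟨{.e1, .e2, .eA, .eB, .s, .t, .p1, .p3, .mu, .q, .be, .ka, .X, .w1, .w2}, fun x => by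
    cases x <;> simp⟩

theorem card_W : Fintype.card W = 15 := rfl

noncomputable section

def sb (z : W → ℂ) : ℂ := z .e1 * z .e2 * z .s
def bb (z : W → ℂ) : ℂ := z .e1 * z .e2 ^ 2 * z .be
def kb (z : W → ℂ) : ℂ := z .eA * z .eB * z .ka
def PP (z : W → ℂ) : ℂ := z .t ^ 2 + z8 * sb z ^ 2
def mC (z : W → ℂ) : ℂ := (PP z ^ 4 + sb z ^ 8) / 2
def m0 (z : W → ℂ) : ℂ := (PP z ^ 4 - sb z ^ 8) / 2
def nn (z : W → ℂ) : ℂ := z .s ^ 2 * z .p1 * PP z * z .p3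
def A1 (z : W → ℂ) : ℂ := z .e2 ^ 2 * z .be ^ 2 * mC z
def B1 (z : W → ℂ) : ℂ := nn z * z .X
def A2 (z : W → ℂ) : ℂ := z .be ^ 2 * (g4 * z .p1 * z .p3)
def B2 (z : W → ℂ) : ℂ := z .e1 ^ 2 * z .s ^ 4 * z .X
def U1 (z : W → ℂ) : ℂ := (A1 z + B1 z) * (A1 z ^ 2 + B1 z ^ 2)
def U2 (z : W → ℂ) : ℂ := (A2 z + B2 z) * (A2 z ^ 2 + B2 z ^ 2)

def Eq0 (z : W → ℂ) : ℂ := z .eB * z .q - PP z
def Eq1 (z : W → ℂ) : ℂ := z .p1 ^ 4 - (mC z - I * m0 z)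
def Eq3 (z : W → ℂ) : ℂ := z .p3 ^ 4 - (mC z + I * m0 z)
def EqM (z : W → ℂ) : ℂ := z .eA ^ 2 * z .mu ^ 2 - m0 z
def EqX (z : W → ℂ) : ℂ := z .X ^ 4 - bb z ^ 8 - kb z ^ 8
def Ew1 (z : W → ℂ) : ℂ := z .eA ^ 8 * z .w1 ^ 2 - (A1 z - B1 z)
def Ew2 (z : W → ℂ) : ℂ := z .eB ^ 8 * z .w2 ^ 2 - (A2 z - B2 z)
def EqA (z : W → ℂ) : ℂ := z .w1 ^ 2 * U1 z -
  (z .e2 ^ 8 * z .be ^ 8 * z .mu ^ 8 - nn z ^ 4 * z .eB ^ 8 * z .ka ^ 8)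
def EqB (z : W → ℂ) : ℂ := z .w2 ^ 2 * U2 z -
  (z .be ^ 8 * z .q ^ 8 - z .e1 ^ 8 * z .s ^ 16 * z .eA ^ 8 * z .ka ^ 8)

/-- The nine equations. -/
def eqs : Fin 9 → (W → ℂ) → ℂ := ![Eq0, Eq1, Eq3, EqM, EqX, Ew1, Ew2, EqA, EqB]

/-- The open conditions. -/
structure Op (z : W → ℂ) : Prop where
  st : sb z ≠ 0 ∨ z .t ≠ 0
  bk : bb z ≠ 0 ∨ kb z ≠ 0
  sp : z .s * z .be ≠ 0 ∨ z .s * z .e1 ≠ 0 ∨ z .be * z .e2 ≠ 0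
  oa : z .mu ≠ 0 ∨ z .ka ≠ 0 ∨ z .w1 * z .eA ≠ 0
  ob : z .q ≠ 0 ∨ z .ka ≠ 0 ∨ z .w2 * z .eB ≠ 0

/-- The equations, one by one. -/
structure Eqs (z : W → ℂ) : Prop where
  h0 : Eq0 z = 0
  h1 : Eq1 z = 0
  h3 : Eq3 z = 0
  hM : EqM z = 0
  hX : EqX z = 0
  hw1 : Ew1 z = 0
  hw2 : Ew2 z = 0
  hA : EqA z = 0
  hB : EqB z = 0

/-- The eight-dimensional total space; the surface is its quotient by a six-dimensional torus. -/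
def MM : Set (W → ℂ) := {z | Eqs z ∧ Op z}

theorem eqs_iff (z : W → ℂ) : (∀ i, eqs i z = 0) ↔ Eqs z :=
  ⟨fun h => ⟨h 0, h 1, h 2, h 3, h 4, h 5, h 6, h 7, h 8⟩, fun h i => by
    fin_cases i
    exacts [h.h0, h.h1, h.h3, h.hM, h.hX, h.hw1, h.hw2, h.hA, h.hB]⟩

/-- The weights of the torus. -/
def wt (a b c d f g : ℂ) : W → ℂ
  | .e1 => c⁻¹
  | .e2 => d⁻¹
  | .eA => f⁻¹
  | .eB => g⁻¹
  | .s => a * c * d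
  | .t => a
  | .p1 => a ^ 2
  | .p3 => a ^ 2
  | .mu => a ^ 4 * f
  | .q => a ^ 2 * g
  | .be => b * c * d ^ 2
  | .ka => b * f * g
  | .X => b ^ 2
  | .w1 => a ^ 4 * b * c * d * f ^ 4
  | .w2 => a ^ 2 * b * c * d ^ 2 * g ^ 4

/-- Two coordinate vectors lie in one torus orbit. -/
def Orb (z z' : W → ℂ) : Prop :=
  ∃ a b c d f g : ℂ, a ≠ 0 ∧ b ≠ 0 ∧ c ≠ 0 ∧ d ≠ 0 ∧ f ≠ 0 ∧ g ≠ 0 ∧
    ∀ i, z' i = wt a b c d f g i * z i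

/-- The map to the first curve. -/
def pB (z : W → ℂ) : Fin 4 → ℂ := ![sb z ^ 2, z .p1, PP z, z .p3]

/-- The map to the Fermat quartic. -/
def yF (z : W → ℂ) : Fin 3 → ℂ := ![z .X, bb z ^ 2, kb z ^ 2]

/-- The seven maps to projective spaces, each padded to six coordinates. -/
def Ph (z : W → ℂ) : Fin 7 → Fin 6 → ℂ :=
  ![![sb z ^ 2, sb z * z .t, z .t ^ 2, z .p1, z .p3, 0],
    ![bb z ^ 2, bb z * kb z, kb z ^ 2, z .X, 0, 0],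
    ![z .eA * z .mu, sb z ^ 4, z .t ^ 4, 0, 0, 0],
    ![z .eA ^ 4 * z .w1, z .s * z .t ^ 3 * kb z, z .e2 * z .be * z .t ^ 4,
      z .e2 * z .be * sb z ^ 4, z .s * sb z ^ 3 * kb z, 0],
    ![z .eB ^ 4 * z .w2, z .be * z .t ^ 2, z .be * sb z ^ 2, z .e1 * z .s ^ 2 * kb z, 0, 0],
    ![z .e1 * z .e2 * z .w1 * sb z ^ 12 * bb z ^ 3, (z .mu * bb z) ^ 4,
      (z .mu * bb z) ^ 3 * (z .eB * z .ka * sb z ^ 4),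
      (z .mu * bb z) * (z .eB * z .ka * sb z ^ 4) ^ 3, (z .eB * z .ka * sb z ^ 4) ^ 4,
      (z .eB * z .ka * z .t ^ 4) ^ 4],
    ![z .e1 * z .e2 ^ 2 * z .w2 * sb z ^ 6 * bb z ^ 3, (z .q * bb z) ^ 4,
      (z .q * bb z) ^ 3 * (z .eA * z .ka * sb z ^ 2),
      (z .q * bb z) * (z .eA * z .ka * sb z ^ 2) ^ 3, (z .eA * z .ka * sb z ^ 2) ^ 4,
      (z .eA * z .ka * z .t ^ 2) ^ 4]]

def Phi (z : W → ℂ) : Fin 7 × Fin 6 → ℂ := fun a => Ph z a.1 a.2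

/-! The polynomials whose nonvanishing defines the eleven charts. -/

def Pa (v : Fin 7 × Fin 6 → ℂ) : ℂ := v (0, 2) + z8 * v (0, 0)

def hS1 (v : Fin 7 × Fin 6 → ℂ) : ℂ := v (0, 2) * v (1, 2) * v (2, 2) * v (3, 1) * v (4, 1)
def hS2 (v : Fin 7 × Fin 6 → ℂ) : ℂ := v (0, 2) * v (1, 2) * v (2, 2) * v (3, 1) * v (4, 3)
def hS3 (v : Fin 7 × Fin 6 → ℂ) : ℂ := v (0, 2) * v (1, 2) * v (2, 2) * v (3, 2) * v (4, 1)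
def hSK (v : Fin 7 × Fin 6 → ℂ) : ℂ := v (0, 0) * v (1, 2) * v (2, 1) * v (3, 4) * v (4, 3)
def hTB (v : Fin 7 × Fin 6 → ℂ) : ℂ :=
  v (0, 2) * v (1, 0) * v (2, 2) * v (3, 2) * v (4, 1) * v (2, 0) * Pa v
def hAm (v : Fin 7 × Fin 6 → ℂ) : ℂ :=
  v (0, 0) * v (1, 0) * v (2, 1) * v (4, 2) * Pa v * v (5, 1)
def hAk (v : Fin 7 × Fin 6 → ℂ) : ℂ := v (0, 0) * v (1, 0) * v (4, 2) * Pa v * v (5, 4)
def hBq (v : Fin 7 × Fin 6 → ℂ) : ℂ :=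
  v (0, 0) * v (1, 0) * v (2, 1) * v (3, 3) * v (2, 0) * v (6, 1)
def hBk (v : Fin 7 × Fin 6 → ℂ) : ℂ :=
  v (0, 0) * v (1, 0) * v (2, 1) * v (3, 3) * v (2, 0) * v (6, 4)
def hG1 (v : Fin 7 × Fin 6 → ℂ) : ℂ :=
  v (0, 0) * v (1, 0) * v (2, 1) * v (3, 3) * v (4, 2) * v (3, 0) * Pa v
def hG2 (v : Fin 7 × Fin 6 → ℂ) : ℂ :=
  v (0, 0) * v (1, 0) * v (2, 1) * v (3, 3) * v (4, 2) * v (4, 0) * v (2, 0)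

/-! Differentials of the equations at `z` in the direction `δ`. -/

def dsb (z δ : W → ℂ) : ℂ := δ .e1 * z .e2 * z .s + z .e1 * δ .e2 * z .s + z .e1 * z .e2 * δ .s
def dbb (z δ : W → ℂ) : ℂ :=
  δ .e1 * z .e2 ^ 2 * z .be + 2 * z .e1 * z .e2 * δ .e2 * z .be + z .e1 * z .e2 ^ 2 * δ .be
def dkb (z δ : W → ℂ) : ℂ :=
  δ .eA * z .eB * z .ka + z .eA * δ .eB * z .ka + z .eA * z .eB * δ .ka
def dPP (z δ : W → ℂ) : ℂ := 2 * z .t * δ .t + 2 * z8 * sb z * dsb z δ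
def dmC (z δ : W → ℂ) : ℂ := 2 * PP z ^ 3 * dPP z δ + 4 * sb z ^ 7 * dsb z δ
def dm0 (z δ : W → ℂ) : ℂ := 2 * PP z ^ 3 * dPP z δ - 4 * sb z ^ 7 * dsb z δ
def dnn (z δ : W → ℂ) : ℂ :=
  2 * z .s * δ .s * z .p1 * PP z * z .p3 + z .s ^ 2 * δ .p1 * PP z * z .p3 +
    z .s ^ 2 * z .p1 * dPP z δ * z .p3 + z .s ^ 2 * z .p1 * PP z * δ .p3
def dA1 (z δ : W → ℂ) : ℂ :=
  2 * z .e2 * δ .e2 * z .be ^ 2 * mC z + 2 * z .e2 ^ 2 * z .be * δ .be * mC z +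
    z .e2 ^ 2 * z .be ^ 2 * dmC z δ
def dB1 (z δ : W → ℂ) : ℂ := dnn z δ * z .X + nn z * δ .X
def dA2 (z δ : W → ℂ) : ℂ :=
  2 * z .be * δ .be * (g4 * z .p1 * z .p3) +
    z .be ^ 2 * (g4 * δ .p1 * z .p3 + g4 * z .p1 * δ .p3)
def dB2 (z δ : W → ℂ) : ℂ :=
  2 * z .e1 * δ .e1 * z .s ^ 4 * z .X + 4 * z .e1 ^ 2 * z .s ^ 3 * δ .s * z .X +
    z .e1 ^ 2 * z .s ^ 4 * δ .X
def dU1 (z δ : W → ℂ) : ℂ :=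
  (dA1 z δ + dB1 z δ) * (A1 z ^ 2 + B1 z ^ 2) +
    (A1 z + B1 z) * (2 * A1 z * dA1 z δ + 2 * B1 z * dB1 z δ)
def dU2 (z δ : W → ℂ) : ℂ :=
  (dA2 z δ + dB2 z δ) * (A2 z ^ 2 + B2 z ^ 2) +
    (A2 z + B2 z) * (2 * A2 z * dA2 z δ + 2 * B2 z * dB2 z δ)
def dEq0 (z δ : W → ℂ) : ℂ := δ .eB * z .q + z .eB * δ .q - dPP z δ
def dEq1 (z δ : W → ℂ) : ℂ := 4 * z .p1 ^ 3 * δ .p1 - (dmC z δ - I * dm0 z δ)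
def dEq3 (z δ : W → ℂ) : ℂ := 4 * z .p3 ^ 3 * δ .p3 - (dmC z δ + I * dm0 z δ)
def dEqM (z δ : W → ℂ) : ℂ :=
  2 * z .eA * δ .eA * z .mu ^ 2 + 2 * z .eA ^ 2 * z .mu * δ .mu - dm0 z δ
def dEqX (z δ : W → ℂ) : ℂ :=
  4 * z .X ^ 3 * δ .X - 8 * bb z ^ 7 * dbb z δ - 8 * kb z ^ 7 * dkb z δ
def dEw1 (z δ : W → ℂ) : ℂ :=
  8 * z .eA ^ 7 * δ .eA * z .w1 ^ 2 + 2 * z .eA ^ 8 * z .w1 * δ .w1 - (dA1 z δ - dB1 z δ)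
def dEw2 (z δ : W → ℂ) : ℂ :=
  8 * z .eB ^ 7 * δ .eB * z .w2 ^ 2 + 2 * z .eB ^ 8 * z .w2 * δ .w2 - (dA2 z δ - dB2 z δ)
def dEqA (z δ : W → ℂ) : ℂ :=
  2 * z .w1 * δ .w1 * U1 z + z .w1 ^ 2 * dU1 z δ -
    (8 * z .e2 ^ 7 * δ .e2 * z .be ^ 8 * z .mu ^ 8 + 8 * z .e2 ^ 8 * z .be ^ 7 * δ .be * z .mu ^ 8 +
      8 * z .e2 ^ 8 * z .be ^ 8 * z .mu ^ 7 * δ .mu -
      (4 * nn z ^ 3 * dnn z δ * z .eB ^ 8 * z .ka ^ 8 +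
        8 * nn z ^ 4 * z .eB ^ 7 * δ .eB * z .ka ^ 8 +
        8 * nn z ^ 4 * z .eB ^ 8 * z .ka ^ 7 * δ .ka))
def dEqB (z δ : W → ℂ) : ℂ :=
  2 * z .w2 * δ .w2 * U2 z + z .w2 ^ 2 * dU2 z δ -
    (8 * z .be ^ 7 * δ .be * z .q ^ 8 + 8 * z .be ^ 8 * z .q ^ 7 * δ .q -
      (8 * z .e1 ^ 7 * δ .e1 * z .s ^ 16 * z .eA ^ 8 * z .ka ^ 8 +
        16 * z .e1 ^ 8 * z .s ^ 15 * δ .s * z .eA ^ 8 * z .ka ^ 8 +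
        8 * z .e1 ^ 8 * z .s ^ 16 * z .eA ^ 7 * δ .eA * z .ka ^ 8 +
        8 * z .e1 ^ 8 * z .s ^ 16 * z .eA ^ 8 * z .ka ^ 7 * δ .ka))

/-- The seven differentials are injective on some seven-dimensional coordinate subspace. -/
def Inj (z : W → ℂ) (D1 D2 : (W → ℂ) → ℂ) : Prop :=
  ∃ J : Finset W, J.card = 7 ∧ ∀ δ : W → ℂ, (∀ i, i ∉ J → δ i = 0) → dEq0 z δ = 0 →
    dEq1 z δ = 0 → dEq3 z δ = 0 → dEqM z δ = 0 → dEqX z δ = 0 → D1 δ = 0 → D2 δ = 0 → δ = 0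

/-! The leading coefficients at the special points. -/

def ux (D : ℂ) (z : W → ℂ) : ℂ := D * z .p1 * PP z * z .p3 / mC z
def uy (D : ℂ) (z : W → ℂ) : ℂ := D / z .X
def u1 (D : ℂ) (z : W → ℂ) : ℂ := -D * z .eA ^ 8 / (z .X * mC z)
def u2 (D : ℂ) (z : W → ℂ) : ℂ := D * z .eB ^ 8 / (z .X * (g4 * z .p1 * z .p3))
def FB (D : ℂ) (z : W → ℂ) : ℂ :=
  u1 D z * z .w1 ^ 2 * (starRingEnd ℂ) (ux D z * z .s ^ 2) /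
    ((‖ux D z * z .s ^ 2‖ + ‖uy D z * z .e2 ^ 2 * z .be ^ 2‖ : ℝ) : ℂ) ^ 2
def FA (D : ℂ) (z : W → ℂ) : ℂ :=
  u2 D z * z .w2 ^ 2 * (starRingEnd ℂ) (uy D z * z .be ^ 2) /
    ((‖uy D z * z .be ^ 2‖ + ‖z .e1 * ux D z * z .s ^ 2‖ ^ 2 : ℝ) : ℂ) ^ 2

end

/-- The data on a covering space of the surface. -/
structure Setup {N : ℕ} {C : Set (Fin N → ℂ)} (Ψ : (W → ℂ) → (Fin N → ℂ)) {E : Type}
    [TopologicalSpace E] (p : E → Pj C) (u : Dsc → Pj CF) (x y φ : E → Dsc) : Prop where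
  pres : Pres MM Orb C Ψ
  cov : IsCoveringMap p
  unif : Unif u
  cx : Continuous x
  cy : Continuous y
  cφ : Continuous φ
  hx : ∀ e, ∀ z ∈ MM, Rep (p e) (Ψ z) → Rep (u (x e)) (aV (pB z))
  hy : ∀ e, ∀ z ∈ MM, Rep (p e) (Ψ z) → Rep (u (y e)) (yF z)
  hφ : ∀ e, ∀ z ∈ MM, Rep (p e) (Ψ z) → Rep (u (φ e)) (cV (pB z))
  x0 : ∀ e, ∀ z ∈ MM, Rep (p e) (Ψ z) → x e = Dsc.o → sb z = 0
  sch : ∀ e, ‖(φ e : ℂ)‖ ≤ ‖(x e : ℂ)‖ ^ 2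

/-- A local lift of `p` to the coordinate space through `z`. -/
structure LocLift {V : Type} [Fintype V] (M : Set (V → ℂ)) {N : ℕ} {C : Set (Fin N → ℂ)}
    (Ψ : (V → ℂ) → (Fin N → ℂ)) {E : Type} [TopologicalSpace E] (p : E → Pj C) (e : E)
    (z : V → ℂ) (ζ : E → V → ℂ) : Prop where
  base : ζ e = z
  cont : CNear ζ e
  rep : ∀ᶠ e' in 𝓝 e, ζ e' ∈ M ∧ Rep (p e') (Ψ (ζ e'))
  hol : ∀ (G : (V → ℂ) → ℂ) (g : E → ℂ), AnalyticAt ℂ G z → g =ᶠ[𝓝 e] (fun e' => G (ζ e')) →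
    HolAt p g e

end Vale.Agent.P300
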