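import Mathlib

/-! Projective varieties with the classical topology, holomorphic functions on their covering
spaces, and holomorphic convexity. -/

namespace Vale.Agent.P300

open Topology Filter

/-- Two vectors of `C` are equivalent when they are proportional. -/
def propSetoid {N : ℕ} (C : Set (Fin N → ℂ)) : Setoid C where
  r v w := ∃ c : ℂ, c ≠ 0 ∧ (w : Fin N → ℂ) = c • (v : Fin N → ℂ)
  iseqv :=
    ⟨fun _ => ⟨1, one_ne_zero, (one_smul _ _).symm⟩,
      fun ⟨c, hc, h⟩ => ⟨c⁻¹, inv_ne_zero hc, by rw [h, inv_smul_smul₀ hc]⟩,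
      fun ⟨c, hc, h⟩ ⟨d, hd, h'⟩ => ⟨d * c, mul_ne_zero hd hc, by rw [h', h, mul_smul]⟩⟩

/-- The projectivisation of a cone `C`, with the quotient topology. -/
abbrev Pj {N : ℕ} (C : Set (Fin N → ℂ)) : Type := Quotient (propSetoid C)

/-- The nonzero common zeros of a set of polynomials. -/
def cone {N : ℕ} (S : Set (MvPolynomial (Fin N) ℂ)) : Set (Fin N → ℂ) :=
  {v | v ≠ 0 ∧ ∀ f ∈ S, MvPolynomial.eval v f = 0}

/-- `C` is a complex submanifold near `v`: the zero set of a holomorphic submersion. -/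
def IsSubmanifoldAt {N : ℕ} (C : Set (Fin N → ℂ)) (v : Fin N → ℂ) : Prop :=
  ∃ (k : ℕ) (F : (Fin N → ℂ) → (Fin k → ℂ)), AnalyticAt ℂ F v ∧
    Function.Surjective (fderiv ℂ F v) ∧ ∀ᶠ u in 𝓝 v, (u ∈ C ↔ F u = 0)

/-- `g` is holomorphic on the covering space `p : E → Pj C`: near every point it is given, in
homogeneous coordinates, by a holomorphic function of the ambient affine space. -/
def IsHol {N : ℕ} {C : Set (Fin N → ℂ)} {E : Type} [TopologicalSpace E] (p : E → Pj C)
    (g : E → ℂ) : Prop :=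
  ∀ e : E, ∃ (v : C) (G : (Fin N → ℂ) → ℂ), p e = Quotient.mk (propSetoid C) v ∧
    AnalyticAt ℂ G v ∧
    ∀ᶠ q : E × C in 𝓝 (e, v), p q.1 = Quotient.mk (propSetoid C) q.2 → g q.1 = G q.2

/-- The holomorphic hull of `K`. -/
def hull {N : ℕ} {C : Set (Fin N → ℂ)} {E : Type} [TopologicalSpace E] (p : E → Pj C)
    (K : Set E) : Set E :=
  {x | ∀ g : E → ℂ, IsHol p g → ‖g x‖ ≤ sSup ((fun y => ‖g y‖) '' K)}

/-- Holomorphic convexity: hulls of nonempty compact sets are compact. -/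
def HolConvex {N : ℕ} {C : Set (Fin N → ℂ)} {E : Type} [TopologicalSpace E] (p : E → Pj C) :
    Prop :=
  ∀ K : Set E, K.Nonempty → IsCompact K → IsCompact (hull p K)

end Vale.Agent.P300
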