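import Vale.Agent.P300.Zar
import Vale.Agent.P300.Proj

/-! The Segre embedding of a multicone covered by charts. -/

namespace Vale.Agent.P300

open Topology Filter Set Complex

theorem mem_MC_of_chart {V K J ι : Type} {eqs : ι → (V → ℂ) → ℂ} (he : ∀ i, IsPoly (eqs i))
    {M O : Set (V → ℂ)} (hM : ∀ z, z ∈ M ↔ (∀ i, eqs i z = 0) ∧ z ∈ O)
    {Orb : (V → ℂ) → (V → ℂ) → Prop} {Φ : (V → ℂ) → (K × J → ℂ)}
    (hΦ : ∀ a, IsPoly (fun z => Φ z a)) (hne : ∀ z ∈ M, ∀ k, ∃ j, Φ z (k, j) ≠ 0)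
    (horb : ∀ z ∈ M, ∀ z', Orb z z' →
      z' ∈ M ∧ ∃ l : K → ℂ, (∀ k, l k ≠ 0) ∧ Φ z' = fun a => l a.1 * Φ z a)
    {h : (K × J → ℂ) → ℂ} {σ : (K × J → ℂ) → (V → ℂ)} (hc : Chart M O Orb Φ h σ)
    {v : K × J → ℂ} (hv : v ∈ Zar (MC M Φ)) (hv0 : ∀ k, ∃ j, v (k, j) ≠ 0) (hh : h v ≠ 0) :
    σ v ∈ M ∧ ∃ l : K → ℂ, (∀ k, l k ≠ 0) ∧ v = fun a => l a.1 * Φ (σ v) a := by
  have hm : σ v ∈ M := by
    refine (hM _).2 ⟨fun i => IsRat.zar hc.poly (IsRat.comp (he i) hc.rat) ?_ hv hh, hc.op v hh⟩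
    rintro _ ⟨z, hz, l, hl, rfl⟩ hu
    exact ((hM _).1 (horb z hz _ (hc.orb z hz l hl hu)).1).1 i
  have key : ∀ k a b, v (k, a) * Φ (σ v) (k, b) - v (k, b) * Φ (σ v) (k, a) = 0 := by
    intro k a b
    have hp : ∀ x, IsPoly fun w : (K × J) ⊕ V → ℂ => Φ (fun i => w (Sum.inr i)) x :=
      fun x => (hΦ x).comp fun i => IsPoly.coord _
    have hr := IsRat.comp (S := {u | h u ≠ 0}) (F := fun u => Sum.elim u (σ u))
      (((IsPoly.coord (Sum.inl (k, a))).mul (hp (k, b))).sub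
        ((IsPoly.coord (Sum.inl (k, b))).mul (hp (k, a))))
      (fun x => by
        cases x with
        | inl x => exact IsRat.of_poly (IsPoly.coord x)
        | inr i => exact hc.rat i)
    refine IsRat.zar hc.poly hr ?_ hv hh
    rintro _ ⟨z, hz, l, hl, rfl⟩ hu
    obtain ⟨-, l', -, e⟩ := horb z hz _ (hc.orb z hz l hl hu)
    simp only [Sum.elim_inl, Sum.elim_inr, e]
    ring
  choose j hj using hne _ hm
  have e : ∀ k a, v (k, a) = v (k, j k) / Φ (σ v) (k, j k) * Φ (σ v) (k, a) := fun k a => by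
    rw [div_mul_eq_mul_div, eq_div_iff (hj k)]
    exact sub_eq_zero.1 (key k a (j k))
  refine ⟨hm, fun k => v (k, j k) / Φ (σ v) (k, j k), fun k h0 => ?_, funext fun a => e a.1 a.2⟩
  obtain ⟨a, ha⟩ := hv0 k
  exact ha ((e k a).trans (mul_eq_zero_of_left h0 _))

theorem emb_poly_prod {ι K : Type} (s : Finset K) {f : K → (ι → ℂ) → ℂ}
    (hf : ∀ k, IsPoly (f k)) : IsPoly fun v => ∏ k ∈ s, f k v := by
  choose P hP using hf
  exact ⟨∏ k ∈ s, P k, fun v => by simp [hP]⟩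

theorem emb_mem_zar {ι : Type} {A : Set (ι → ℂ)} {v : ι → ℂ} (h : v ∈ A) : v ∈ Zar A :=
  fun _ _ hf => hf v h

theorem Par.emb_ne {ι : Type} {v w : ι → ℂ} (h : Par v w) {i : ι} (hv : v i ≠ 0) : w i ≠ 0 := by
  obtain ⟨c, hc, rfl⟩ := h
  exact mul_ne_zero hc hv

section Seg
variable {K J : Type} {N : ℕ} [Fintype K] [DecidableEq K] (e : (K → J) ≃ Fin N)

/-- The Segre map. -/
noncomputable def embSeg (v : K × J → ℂ) : Fin N → ℂ := fun n => ∏ k, v (k, e.symm n k)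

/-- The slices of a tensor through the position `n₀`. -/
def embSl (n₀ : Fin N) (T : Fin N → ℂ) : K × J → ℂ :=
  fun a => T (e (Function.update (e.symm n₀) a.1 a.2))

omit [DecidableEq K] in
theorem embSeg_scale (l : K → ℂ) (u : K × J → ℂ) :
    embSeg e (fun a => l a.1 * u a) = (∏ k, l k) • embSeg e u := by
  funext n
  simp [embSeg, Finset.prod_mul_distrib]

omit [DecidableEq K] in
theorem embSeg_par {l : K → ℂ} (hl : ∀ k, l k ≠ 0) (u : K × J → ℂ) :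
    Par (embSeg e u) (embSeg e fun a => l a.1 * u a) :=
  ⟨_, Finset.prod_ne_zero_iff.2 fun k _ => hl k, embSeg_scale e l u⟩

omit [Fintype K] in
theorem embSl_diag (n₀ : Fin N) (T : Fin N → ℂ) (k : K) :
    embSl e n₀ T (k, e.symm n₀ k) = T n₀ := by
  simp [embSl]

theorem embSl_seg (n₀ : Fin N) (c : ℂ) (u : K × J → ℂ) :
    ∃ l : K → ℂ, embSl e n₀ (c • embSeg e u) = fun a => l a.1 * u a := by
  refine ⟨fun k => c * ∏ k' ∈ Finset.univ.erase k, u (k', e.symm n₀ k'), funext fun ⟨k, j⟩ => ?_⟩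
  simp only [embSl, embSeg, Pi.smul_apply, smul_eq_mul, Equiv.symm_apply_apply]
  rw [← Finset.mul_prod_erase _ _ (Finset.mem_univ k), Function.update_self,
    Finset.prod_congr rfl fun k' hk' => by
      rw [Function.update_of_ne (Finset.ne_of_mem_erase hk')]]
  ring

theorem embSl_par {n₀ : Fin N} {u : K × J → ℂ} {T : Fin N → ℂ} (h : Par (embSeg e u) T)
    (h0 : T n₀ ≠ 0) :
    ∃ l : K → ℂ, (∀ k, l k ≠ 0) ∧ embSl e n₀ T = fun a => l a.1 * u a := by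
  obtain ⟨c, -, rfl⟩ := h
  obtain ⟨l, hl⟩ := embSl_seg e n₀ c u
  refine ⟨l, fun k hk => h0 ?_, hl⟩
  rw [← embSl_diag e n₀ (c • embSeg e u) k, hl]
  simp [hk]

theorem embSeg_sl (n₀ n : Fin N) {u : K × J → ℂ} {T : Fin N → ℂ} (h : Par (embSeg e u) T) :
    embSeg e (embSl e n₀ T) n * T n₀ - T n * T n₀ ^ Fintype.card K = 0 := by
  have h1 : embSeg e (embSl e n₀ T) n₀ = T n₀ ^ Fintype.card K := by
    simp [embSeg, embSl_diag]
  obtain ⟨c, -, rfl⟩ := h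
  obtain ⟨l, hl⟩ := embSl_seg e n₀ c u
  rw [← h1, hl, embSeg_scale]
  simp only [Pi.smul_apply, smul_eq_mul]
  ring

omit [Fintype K] in
theorem embSl_poly (n₀ : Fin N) (a : K × J) : IsPoly fun T => embSl e n₀ T a := IsPoly.coord _

omit [DecidableEq K] in
theorem embSeg_poly {ι : Type} {F : (ι → ℂ) → (K × J → ℂ)} (hF : ∀ a, IsPoly fun z => F z a)
    (n : Fin N) : IsPoly fun z => embSeg e (F z) n :=
  emb_poly_prod _ fun _ => hF _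

variable {V : Type} {M : Set (V → ℂ)} {Φ : (V → ℂ) → (K × J → ℂ)}

theorem embSl_zar {T : Fin N → ℂ} (hT : T ∈ Zar {T | ∃ z ∈ M, Par (embSeg e (Φ z)) T})
    {n₀ : Fin N} (h0 : T n₀ ≠ 0) :
    embSl e n₀ T ∈ Zar (MC M Φ) ∧ Par (embSeg e (embSl e n₀ T)) T := by
  refine ⟨fun f hf hv => ?_, Par.symm ⟨T n₀ ^ Fintype.card K / T n₀,
    div_ne_zero (pow_ne_zero _ h0) h0, funext fun n => ?_⟩⟩
  · refine (mul_eq_zero.1 (hT _ ((hf.comp (embSl_poly e n₀)).mul (IsPoly.coord n₀)) ?_)).resolve_right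
      h0
    rintro u ⟨z, hz, hp⟩
    by_cases h1 : u n₀ = 0
    · rw [h1, mul_zero]
    · rw [hv _ ⟨z, hz, embSl_par e hp h1⟩, zero_mul]
  · have := hT _ (((embSeg_poly e (embSl_poly e n₀) n).mul (IsPoly.coord n₀)).sub
      ((IsPoly.coord n).mul ((IsPoly.coord n₀).pow (Fintype.card K))))
      fun u ⟨z, _, hp⟩ => embSeg_sl e n₀ n hp
    rw [Pi.smul_apply, smul_eq_mul, div_mul_eq_mul_div, eq_div_iff h0]
    linear_combination this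

end Seg

theorem emb_retr {V : Type} [Fintype V] {N : ℕ} {M : Set (V → ℂ)} {Ψ : (V → ℂ) → (Fin N → ℂ)}
    (hΨ : ∀ z, AnalyticAt ℂ Ψ z) (hretr : ∀ z ∈ M, Retr M z) {T : Fin N → ℂ}
    (hT : T ∈ {T | ∃ z ∈ M, Par (Ψ z) T}) {n₀ : Fin N} (h0 : T n₀ ≠ 0)
    {s : (Fin N → ℂ) → (V → ℂ)} (hs : AnalyticAt ℂ s T)
    (hsM : ∀ᶠ v in 𝓝 T, v ∈ {T | ∃ z ∈ M, Par (Ψ z) T} → s v ∈ M ∧ Par (Ψ (s v)) v) :
    Retr {T | ∃ z ∈ M, Par (Ψ z) T} T := by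
  obtain ⟨hy, hp⟩ := hsM.self_of_nhds hT
  obtain ⟨R, hR, h1, h2⟩ := hretr _ hy
  have hA : AnalyticAt ℂ (fun v => Ψ (R (s v))) T := (hΨ _).fun_comp (hR.fun_comp hs)
  have hA0 : AnalyticAt ℂ (fun v => Ψ (R (s v)) n₀) T := analyticAt_pi_iff.1 hA n₀
  have hc : AnalyticAt ℂ (fun v : Fin N → ℂ => v n₀) T := (IsPoly.coord n₀).analyticAt T
  have hne : Ψ (R (s T)) n₀ ≠ 0 := by
    rw [h2.self_of_nhds hy]
    exact hp.symm.emb_ne h0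
  refine ⟨fun v => (v n₀ / Ψ (R (s v)) n₀) • Ψ (R (s v)), (hc.div hA0 hne).smul hA, ?_, ?_⟩
  · filter_upwards [hs.continuousAt.eventually h1, hA0.continuousAt.eventually_ne hne,
      hc.continuousAt.eventually_ne h0] with v a b c
    exact ⟨_, a, _, div_ne_zero c b, rfl⟩
  · filter_upwards [hs.continuousAt.eventually h2, hA0.continuousAt.eventually_ne hne, hsM]
      with v a b c hv
    obtain ⟨hm, k, -, hk⟩ := c hv
    rw [a hm] at b ⊢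
    have : v n₀ / Ψ (s v) n₀ = k := by
      rw [div_eq_iff b]
      exact congrFun hk n₀
    rw [this, ← hk]

theorem exists_pres {V K J ι : Type} [Fintype V] [Fintype K] [Fintype J] [DecidableEq K]
    [Nonempty K] {eqs : ι → (V → ℂ) → ℂ} (he : ∀ i, IsPoly (eqs i))
    {M O : Set (V → ℂ)} (hM : ∀ z, z ∈ M ↔ (∀ i, eqs i z = 0) ∧ z ∈ O)
    {Orb : (V → ℂ) → (V → ℂ) → Prop} {Φ : (V → ℂ) → (K × J → ℂ)}
    (hΦ : ∀ a, IsPoly (fun z => Φ z a)) (hne : ∀ z ∈ M, ∀ k, ∃ j, Φ z (k, j) ≠ 0)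
    (horb : ∀ z ∈ M, ∀ z', Orb z z' →
      z' ∈ M ∧ ∃ l : K → ℂ, (∀ k, l k ≠ 0) ∧ Φ z' = fun a => l a.1 * Φ z a)
    (hsymm : ∀ z z', Orb z z' → Orb z' z) (htrans : ∀ z z' z'', Orb z z' → Orb z' z'' → Orb z z'')
    (hlin : ∀ z z', Orb z z' → ∃ L : (V → ℂ) →L[ℂ] (V → ℂ), L z = z' ∧ ∀ y, Orb y (L y))
    (hcov : ∀ v ∈ Zar (MC M Φ), (∀ k, ∃ j, v (k, j) ≠ 0) →
      ∃ h σ, Chart M O Orb Φ h σ ∧ h v ≠ 0)
    (hretr : ∀ z ∈ M, Retr M z) :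
    ∃ (N : ℕ) (S : Set (MvPolynomial (Fin N) ℂ)) (Ψ : (V → ℂ) → (Fin N → ℂ)),
      (∀ f ∈ S, ∃ d, f.IsHomogeneous d) ∧ Pres M Orb (cone S) Ψ := by
  let e := Fintype.equivFin (K → J)
  set Ψ : (V → ℂ) → (Fin (Fintype.card (K → J)) → ℂ) := fun z => embSeg e (Φ z) with hΨd
  set C : Set (Fin (Fintype.card (K → J)) → ℂ) := {T | ∃ z ∈ M, Par (Ψ z) T} with hCd
  have hΨ : ∀ z, AnalyticAt ℂ Ψ z := fun z =>
    analyticAt_pi_iff.2 fun n => (embSeg_poly e hΦ n).analyticAt z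
  have hne' : ∀ T ∈ C, ∃ n, T n ≠ 0 := by
    rintro T ⟨z, hz, hp⟩
    choose j hj using hne z hz
    refine ⟨e j, hp.emb_ne ?_⟩
    simpa [hΨd, embSeg, Finset.prod_ne_zero_iff] using hj
  have hO : ∀ z ∈ M, ∀ z', Orb z z' → z' ∈ M ∧ Par (Ψ z) (Ψ z') := fun z hz z' h => by
    obtain ⟨h1, l, hl, h2⟩ := horb z hz z' h
    refine ⟨h1, ?_⟩
    simp only [hΨd, h2]
    exact embSeg_par e hl _
  have cov : ∀ T ∈ Zar C, ∀ n₀, T n₀ ≠ 0 →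
      ∃ h σ, Chart M O Orb Φ h σ ∧ h (embSl e n₀ T) ≠ 0 := fun T hT n₀ h0 =>
    hcov _ (embSl_zar e hT h0).1 fun k => ⟨e.symm n₀ k, by rwa [embSl_diag]⟩
  have chart : ∀ T ∈ Zar C, ∀ n₀, T n₀ ≠ 0 → ∀ h σ, Chart M O Orb Φ h σ →
      h (embSl e n₀ T) ≠ 0 → σ (embSl e n₀ T) ∈ M ∧ Par (Ψ (σ (embSl e n₀ T))) T := by
    intro T hT n₀ h0 h σ hc hh
    obtain ⟨h1, h2⟩ := embSl_zar e hT h0
    obtain ⟨h3, l, hl, h4⟩ := mem_MC_of_chart he hM hΦ hne horb hc h1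
      (fun k => ⟨e.symm n₀ k, by rwa [embSl_diag]⟩) hh
    refine ⟨h3, Par.trans ?_ h2⟩
    conv_rhs => rw [h4]
    exact embSeg_par e hl _
  have orbc : ∀ z ∈ M, ∀ T, Par (Ψ z) T → ∀ n₀, T n₀ ≠ 0 → ∀ h σ, Chart M O Orb Φ h σ →
      h (embSl e n₀ T) ≠ 0 → Orb z (σ (embSl e n₀ T)) := by
    intro z hz T hp n₀ h0 h σ hc hh
    obtain ⟨l, hl, h1⟩ := embSl_par e hp h0
    rw [h1] at hh ⊢
    exact hc.orb z hz l hl hh
  have sec : ∀ T ∈ C, ∃ s : (Fin (Fintype.card (K → J)) → ℂ) → (V → ℂ), AnalyticAt ℂ s T ∧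
      (∀ z ∈ M, Par (Ψ z) T → Orb z (s T)) ∧
      ∀ᶠ v in 𝓝 T, v ∈ C → s v ∈ M ∧ Par (Ψ (s v)) v := by
    intro T hT
    obtain ⟨n₀, h0⟩ := hne' T hT
    obtain ⟨h, σ, hc, hh⟩ := cov T (emb_mem_zar hT) n₀ h0
    have hsl : AnalyticAt ℂ (embSl e n₀) T :=
      analyticAt_pi_iff.2 fun a => (embSl_poly e n₀ a).analyticAt T
    have hσ : AnalyticAt ℂ σ (embSl e n₀ T) :=
      analyticAt_pi_iff.2 fun i => IsRat.analyticAt hc.poly (hc.rat i) hh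
    refine ⟨fun v => σ (embSl e n₀ v), hσ.fun_comp hsl,
      fun z hz hp => orbc z hz T hp n₀ h0 h σ hc hh, ?_⟩
    filter_upwards [((hc.poly.analyticAt _).fun_comp hsl).continuousAt.eventually_ne hh,
      (continuous_apply n₀).continuousAt.eventually_ne h0] with v a b hv
    exact chart v (emb_mem_zar hv) n₀ b h σ hc a
  obtain ⟨S, hS, hC, hcone⟩ := exists_homogeneous (C := C)
    (fun T hT h0 => by obtain ⟨n, hn⟩ := hne' T hT; exact hn (congrFun h0 n))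
    (fun T ⟨z, hz, hp⟩ c hc => ⟨z, hz, hp.trans ⟨c, hc, rfl⟩⟩) fun T hT h0 => by
      obtain ⟨n₀, h0⟩ := Function.ne_iff.1 h0
      obtain ⟨h, σ, hc, hh⟩ := cov T hT n₀ h0
      exact ⟨_, chart T hT n₀ h0 h σ hc hh⟩
  refine ⟨_, S, Ψ, hS, ?_⟩
  rw [hC]
  refine ⟨hcone, fun T hT => ?_, hΨ, fun z hz => ⟨z, hz, Par.refl _⟩, fun _ h => h, fun z hz => ?_,
    fun z hz z' hz' hp => ?_, hO⟩
  · obtain ⟨s, h1, -, h2⟩ := sec T hT
    obtain ⟨n₀, h0⟩ := hne' T hT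
    exact emb_retr hΨ hretr hT h0 h1 h2
  · obtain ⟨s, h1, h2, h3⟩ := sec (Ψ z) ⟨z, hz, Par.refl _⟩
    obtain ⟨L, hL, hL'⟩ := hlin _ _ (hsymm _ _ (h2 z hz (Par.refl _)))
    refine ⟨fun v => L (s v), (L.analyticAt _).fun_comp h1, hL, h3.mono fun v a hv => ?_⟩
    obtain ⟨b, c⟩ := hO _ (a hv).1 _ (hL' (s v))
    exact ⟨b, c.symm.trans (a hv).2⟩
  · obtain ⟨s, -, h2, -⟩ := sec (Ψ z') ⟨z', hz', Par.refl _⟩
    exact htrans _ _ _ (h2 z hz hp) (hsymm _ _ (h2 z' hz' (Par.refl _)))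

end Vale.Agent.P300
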