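import Vale.Agent.P300.Loc1

/-! The four functions near the special points. -/

namespace Vale.Agent.P300

open Topology Filter Set Complex

variable {N : ℕ} {C : Set (Fin N → ℂ)} {Ψ : (W → ℂ) → (Fin N → ℂ)} {E : Type}
  [TopologicalSpace E] {p : E → Pj C} {u : Dsc → Pj CF} {x y φ : E → Dsc}

/-- The local form of the four functions at a special point. -/
structure SpecAt (D : ℂ) (x y φ : E → Dsc) (e : E) (z : W → ℂ) (ζ : E → W → ℂ)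
    (cx cy c1 c2 : E → ℂ) : Prop where
  sb0 : sb z = 0
  bb0 : bb z = 0
  nx : CNear cx e
  ny : CNear cy e
  n1 : CNear c1 e
  n2 : CNear c2 e
  vx : cx e = ux D z
  vy : cy e = uy D z
  v1 : c1 e = u1 D z
  v2 : c2 e = u2 D z
  ex : ∀ᶠ e' in 𝓝 e, (x e' : ℂ) = cx e' * (ζ e' .e1 * ζ e' .e2 * ζ e' .s) ^ 2
  ey : ∀ᶠ e' in 𝓝 e, (y e' : ℂ) = cy e' * (ζ e' .e1 * ζ e' .e2 ^ 2 * ζ e' .be) ^ 2
  e1 : ∀ᶠ e' in 𝓝 e, (x e' : ℂ) - y e' = c1 e' * (ζ e' .e1 * ζ e' .e2 * ζ e' .w1) ^ 2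
  e2 : ∀ᶠ e' in 𝓝 e, (y e' : ℂ) - φ e' = c2 e' * (ζ e' .e1 * ζ e' .e2 ^ 2 * ζ e' .w2) ^ 2

theorem Setup.spec (S : Setup Ψ p u x y φ) : ∃ D : ℂ, D ≠ 0 ∧ ∀ e, x e = Dsc.o → y e = Dsc.o →
    ∀ z ∈ MM, Rep (p e) (Ψ z) → ∀ ζ, LocLift MM Ψ p e z ζ →
      ∃ cx cy c1 c2, SpecAt D x y φ e z ζ cx cy c1 c2 := by
  obtain ⟨D, hD, h⟩ := diff_unit_o S.unif
  refine ⟨D, hD, fun e hx hy z hz he ζ L => ?_⟩
  have ro : Rep (u Dsc.o) ![1, 0, 1] := ⟨_, S.unif.zero⟩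
  have hs := S.x0 e z hz he hx
  have hb : bb z = 0 := by
    obtain ⟨c, -, hc⟩ := ro.par (hy ▸ S.hy e z hz he)
    simpa [yF] using congrFun hc 1
  have hφ : φ e = Dsc.o := Subtype.ext (by simpa [hx, Dsc.o] using S.sch e)
  obtain ⟨a, a1, a2, a3⟩ := h E x (fun _ => Dsc.o) e S.cx continuous_const hx rfl
  obtain ⟨b, b1, b2, b3⟩ := h E y (fun _ => Dsc.o) e S.cy continuous_const hy rfl
  obtain ⟨c, c1, c2, c3⟩ := h E x y e S.cx S.cy hx hy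
  obtain ⟨d, d1, d2, d3⟩ := h E y φ e S.cy S.cφ hy hφ
  obtain ⟨-, -, f1, f2, f3, -⟩ := facts_sb hz hs
  obtain ⟨-, -, -, f4⟩ := facts_bb hz hb
  have hn : ∀ {F : (W → ℂ) → ℂ}, Continuous F → F z ≠ 0 → ∀ᶠ t in 𝓝 e, F (ζ t) ≠ 0 :=
    fun hF h0 => (hF.continuousAt.comp L.cont.self_of_nhds).eventually_ne
      (by rwa [Function.comp, L.base])
  have cP : Continuous PP := by unfold PP sb; fun_prop
  have cm : Continuous mC := by unfold mC sb; fun_prop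
  have g1 := hn cm f1
  have g2 := hn (F := fun z => g4 * z .p1 * z .p3) (by fun_prop)
    (mul_ne_zero (mul_ne_zero g4_ne f2) f3)
  have g3 := hn (continuous_apply .X) f4
  have k1 : ∀ᶠ t in 𝓝 e, ∀ i, ContinuousAt (fun t => ζ t i) t :=
    L.cont.mono fun t ht => continuousAt_pi.1 ht
  have rx : ∀ᶠ t in 𝓝 e, rat 1 0 (u (x t)) = (ζ t .e1 * ζ t .e2) ^ 2 * nn (ζ t) / mC (ζ t) :=
    L.rep.mono fun t ht => by rw [(S.hx t _ ht.1 ht.2).rat_eq, aV_pB]; rfl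
  have ry : ∀ᶠ t in 𝓝 e, rat 1 0 (u (y t)) = bb (ζ t) ^ 2 / ζ t .X :=
    L.rep.mono fun t ht => (S.hy t _ ht.1 ht.2).rat_eq 1 0
  have rφ : ∀ᶠ t in 𝓝 e, rat 1 0 (u (φ t)) = sb (ζ t) ^ 4 / (g4 * ζ t .p1 * ζ t .p3) :=
    L.rep.mono fun t ht => by rw [(S.hφ t _ ht.1 ht.2).rat_eq, cV_pB]; rfl
  have r0 : rat 1 0 (u Dsc.o) = 0 := by simp [ro.rat_eq]
  refine ⟨fun t => ux (a t) (ζ t), fun t => uy (b t) (ζ t), fun t => u1 (c t) (ζ t),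
    fun t => u2 (d t) (ζ t), hs, hb, ?_, ?_, ?_, ?_, by rw [a2, L.base], by rw [b2, L.base],
    by rw [c2, L.base], by rw [d2, L.base], ?_, ?_, ?_, ?_⟩
  · filter_upwards [a1, L.cont, k1, g1] with t h1 h2 h3 h5
    exact ContinuousAt.div (by fun_prop) (by fun_prop) h5
  · filter_upwards [b1, k1, g3] with t h1 h2 h3
    exact h1.div (h2 _) h3
  · filter_upwards [c1, L.cont, k1, g1, g3] with t h1 h2 h3 h5 h6
    exact ContinuousAt.div (by fun_prop) (by fun_prop) (mul_ne_zero h6 h5)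
  · filter_upwards [d1, k1, g2, g3] with t h1 h2 h5 h6
    exact ContinuousAt.div (by fun_prop) (by fun_prop) (mul_ne_zero h6 h5)
  · filter_upwards [a3, rx] with t h1 h2
    rw [(sub_zero _).symm.trans h1, h2, r0, ux, nn]
    ring
  · filter_upwards [b3, ry] with t h1 h2
    rw [(sub_zero _).symm.trans h1, h2, r0, uy, bb]
    ring
  · filter_upwards [c3, rx, ry, g1, g3, L.rep] with t h1 h2 h3 h4 h5 h6
    have := h6.1.1.hw1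
    rw [Ew1, A1, B1] at this
    rw [h1, h2, h3, u1, bb]
    field_simp
    linear_combination (c t * ζ t .e1 ^ 2 * ζ t .e2 ^ 2) * this
  · filter_upwards [d3, ry, rφ, g2, g3, L.rep] with t h1 h2 h3 h4 h5 h6
    have := h6.1.1.hw2
    rw [Ew2, A2, B2] at this
    rw [h1, h2, h3, u2, bb, sb]
    generalize g4 * ζ t .p1 * ζ t .p3 = G at this h4 ⊢
    field_simp
    linear_combination (-d t * ζ t .e1 ^ 2 * ζ t .e2 ^ 4) * this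

theorem units_ne {D : ℂ} (hD : D ≠ 0) {z : W → ℂ} (hz : z ∈ MM) (h : sb z = 0) (h' : bb z = 0) :
    ux D z ≠ 0 ∧ uy D z ≠ 0 ∧ u1 D z ≠ 0 ∧ u2 D z ≠ 0 := by
  obtain ⟨-, f0, f1, f2, f3, -⟩ := facts_sb hz h
  obtain ⟨f4, f5, -, f6⟩ := facts_bb hz h'
  simp [ux, uy, u1, u2, g4_ne, *]

/-- The conic relations at the special points. -/
theorem units_rel {D : ℂ} {z : W → ℂ} (hz : z ∈ MM) (h : sb z = 0) (h' : bb z = 0) :
    u1 D z * z .w1 ^ 2 = ux D z * z .s ^ 2 - uy D z * z .e2 ^ 2 * z .be ^ 2 ∧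
    u2 D z * z .w2 ^ 2 = uy D z * z .be ^ 2 -
      D / (g4 * z .p1 * z .p3) * z .e1 ^ 2 * z .s ^ 4 := by
  obtain ⟨-, -, f1, f2, f3, -⟩ := facts_sb hz h
  obtain ⟨-, -, -, f6⟩ := facts_bb hz h'
  have h1 := hz.1.hw1
  have h2 := hz.1.hw2
  have := g4_ne
  rw [Ew1, A1, B1, nn] at h1
  rw [Ew2, A2, B2] at h2
  rw [u1, u2, ux, uy]
  constructor <;> field_simp
  · linear_combination (-D) * h1
  · linear_combination D * h2

theorem curve_upd {c : ℂ → W → ℂ} {z : W → ℂ} (hc : CNear c 0 ∧ c 0 = z) (i : W) {n : ℕ}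
    (hn : n ≠ 0) {F : (W → ℂ) → ℂ} (hF : Continuous F) (hi : z i ≠ 0) (h : z i ^ n = F z) :
    ∃ r : ℂ → ℂ, (CNear (fun ε => Function.update (c ε) i (r ε)) 0 ∧
      Function.update (c 0) i (r 0) = z) ∧ ∀ᶠ ε in 𝓝 0, r ε ^ n = F (c ε) := by
  obtain ⟨r, h1, h2, h3⟩ := exists_root_near (f := fun ε => F (c ε))
    (hc.1.mono fun _ ht => hF.continuousAt.comp ht) hn hi (hc.2 ▸ h)
  refine ⟨r, ⟨?_, by rw [hc.2, h2, Function.update_eq_self]⟩, h3⟩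
  filter_upwards [hc.1, h1] with t a b using a.update i b

theorem mem_MM {y : W → ℂ} (k1 : Eq0 y = 0) (k2 : Eq1 y = 0) (k3 : Eq3 y = 0) (k4 : EqM y = 0)
    (k5 : EqX y = 0) (k6 : Ew1 y = 0) (k7 : Ew2 y = 0) (f4 : y .eA ≠ 0) (f6 : y .eB ≠ 0)
    (f1 : y .t ≠ 0) (f8 : y .ka ≠ 0) (f2 : y .s ≠ 0) (f3 : y .be ≠ 0) : y ∈ MM :=
  ⟨⟨k1, k2, k3, k4, k5, k6, k7, (mul_eq_zero.1 ((rel_A k2 k3 k4 k5).trans
    (mul_eq_zero_of_left k6 _))).resolve_left (pow_ne_zero _ f4),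
    (mul_eq_zero.1 ((rel_B k1 k2 k3 k5).trans (mul_eq_zero_of_left k7 _))).resolve_left
      (pow_ne_zero _ f6)⟩, .inr f1, .inr (mul_ne_zero (mul_ne_zero f4 f6) f8),
    .inl (mul_ne_zero f2 f3), .inr (.inl f8), .inr (.inl f8)⟩

/-- Points of the total space near a node where no relevant coordinate vanishes. -/
theorem exists_curve {z : W → ℂ} (hz : z ∈ MM) (h1 : z .e1 = 0) (h2 : z .e2 = 0) :
    ∃ c : ℂ → W → ℂ, ContinuousAt c 0 ∧ c 0 = z ∧ ∀ᶠ ε in 𝓝 (0 : ℂ), c ε ∈ MM ∧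
      c ε .e1 = ε ∧ c ε .e2 = ε := by
  have hs : sb z = 0 := by simp [sb, h1]
  have hb : bb z = 0 := by simp [bb, h1]
  obtain ⟨f1, -, -, f2, f3, f4, f5, f6, f7⟩ := facts_sb hz hs
  obtain ⟨-, -, f8, f9⟩ := facts_bb hz hb
  obtain ⟨-, g1, g2⟩ := facts_S hz hs hb
  have E := hz.1
  have c0 : CNear (fun ε : ℂ => Function.update (Function.update z .e1 ε) .e2 ε) 0 ∧
      Function.update (Function.update z .e1 0) .e2 0 = z :=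
    ⟨Continuous.cNear (by fun_prop) 0,
      by rw [← h1, Function.update_eq_self, h1, ← h2, Function.update_eq_self]⟩
  obtain ⟨r1, c1, k1⟩ := curve_upd c0 .q one_ne_zero (F := fun y => PP y / z .eB)
    (by unfold PP sb; fun_prop) f7 (by rw [eq_div_iff f6, pow_one, mul_comm]; exact sub_eq_zero.1 E.h0)
  obtain ⟨r2, c2, k2⟩ := curve_upd c1 .p1 four_ne_zero (F := fun y => mC y - I * m0 y)
    (by unfold mC m0 PP sb; fun_prop) f2 (sub_eq_zero.1 E.h1)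
  obtain ⟨r3, c3, k3⟩ := curve_upd c2 .p3 four_ne_zero (F := fun y => mC y + I * m0 y)
    (by unfold mC m0 PP sb; fun_prop) f3 (sub_eq_zero.1 E.h3)
  obtain ⟨r4, c4, k4⟩ := curve_upd c3 .mu two_ne_zero (F := fun y => m0 y / z .eA ^ 2)
    (by unfold m0 PP sb; fun_prop) f5
    (by rw [eq_div_iff (pow_ne_zero _ f4), mul_comm]; exact sub_eq_zero.1 E.hM)
  obtain ⟨r5, c5, k5⟩ := curve_upd c4 .X four_ne_zero (F := fun y => bb y ^ 8 + kb y ^ 8)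
    (by unfold bb kb; fun_prop) f9 (sub_eq_zero.1 ((sub_sub _ _ _).symm.trans E.hX))
  obtain ⟨r6, c6, k6⟩ := curve_upd c5 .w1 two_ne_zero (F := fun y => (A1 y - B1 y) / z .eA ^ 8)
    (by unfold A1 B1 nn mC PP sb; fun_prop) (g2 h2).2
    (by rw [eq_div_iff (pow_ne_zero _ f4), mul_comm]; exact sub_eq_zero.1 E.hw1)
  obtain ⟨r7, c7, k7⟩ := curve_upd c6 .w2 two_ne_zero (F := fun y => (A2 y - B2 y) / z .eB ^ 8)
    (by unfold A2 B2; fun_prop) (g1 h1).2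
    (by rw [eq_div_iff (pow_ne_zero _ f6), mul_comm]; exact sub_eq_zero.1 E.hw2)
  refine ⟨_, c7.1.self_of_nhds, c7.2, ?_⟩
  filter_upwards [k1, k2, k3, k4, k5, k6, k7] with ε k1 k2 k3 k4 k5 k6 k7
  rw [pow_one, eq_div_iff f6, mul_comm, ← sub_eq_zero] at k1
  rw [eq_div_iff (pow_ne_zero _ f4), mul_comm, ← sub_eq_zero] at k4 k6
  rw [eq_div_iff (pow_ne_zero _ f6), mul_comm, ← sub_eq_zero] at k7
  rw [← sub_eq_zero] at k2 k3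
  rw [← sub_eq_zero, ← sub_sub] at k5
  refine ⟨mem_MM ?_ ?_ ?_ ?_ ?_ ?_ ?_ f4 f6 f1 f8 (g2 h2).1 (g1 h1).1, rfl, rfl⟩ <;>
    simp only [Eq0, Eq1, Eq3, EqM, EqX, Ew1, Ew2, A1, B1, A2, B2, nn, mC, m0, PP, sb, bb, kb,
      Function.update_self, Function.update_of_ne, ne_eq, reduceCtorEq, not_false_eq_true]
      at k1 k2 k3 k4 k5 k6 k7 ⊢ <;> assumption

/-- The four functions do not vanish identically. -/
theorem Setup.exists_ne (S : Setup Ψ p u x y φ) {e : E} (hx : x e = Dsc.o) (hy : y e = Dsc.o)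
    {z : W → ℂ} (hz : z ∈ MM) (he : Rep (p e) (Ψ z)) (h1 : z .e1 = 0) (h2 : z .e2 = 0) :
    ∃ e', (x e' : ℂ) ≠ 0 ∧ (y e' : ℂ) ≠ 0 ∧ (x e' : ℂ) - y e' ≠ 0 ∧ (y e' : ℂ) - φ e' ≠ 0 := by
  classical
  obtain ⟨D, hD, h⟩ := S.spec
  obtain ⟨ζ, L⟩ := exists_locLift S.pres S.cov.continuous e hz he
  obtain ⟨cx, cy, c1, c2, A⟩ := h e hx hy z hz he ζ L
  obtain ⟨u1, u2, u3, u4⟩ := units_ne hD hz A.sb0 A.bb0
  obtain ⟨-, g1, g2⟩ := facts_S hz A.sb0 A.bb0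
  have hn : ∀ i, z i ≠ 0 → ∀ᶠ t in 𝓝 e, ζ t i ≠ 0 := fun i h0 =>
    (continuousAt_pi.1 L.cont.self_of_nhds i).eventually_ne (L.base ▸ h0)
  have hU : ∀ᶠ t in 𝓝 e, (ζ t ∈ MM ∧ Rep (p t) (Ψ (ζ t))) ∧ (ζ t .e1 ≠ 0 → ζ t .e2 ≠ 0 →
      (x t : ℂ) ≠ 0 ∧ (y t : ℂ) ≠ 0 ∧ (x t : ℂ) - y t ≠ 0 ∧ (y t : ℂ) - φ t ≠ 0) := by
    filter_upwards [L.rep, A.ex, A.ey, A.e1, A.e2, hn _ (g1 h1).1, hn _ (g1 h1).2, hn _ (g2 h2).1,
      hn _ (g2 h2).2, A.nx.self_of_nhds.eventually_ne (A.vx ▸ u1),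
      A.ny.self_of_nhds.eventually_ne (A.vy ▸ u2), A.n1.self_of_nhds.eventually_ne (A.v1 ▸ u3),
      A.n2.self_of_nhds.eventually_ne (A.v2 ▸ u4)] with t a0 a1 a2 a3 a4 _ _ _ _ _ _ _ _
    refine ⟨a0, fun _ _ => ?_⟩
    rw [a3, a4, a1, a2]
    refine ⟨?_, ?_, ?_, ?_⟩ <;> simp [*]
  obtain ⟨c, k1, k2, k3⟩ := exists_curve hz h1 h2
  let ξ : ℂ → Pj C := fun ε => if h : c ε ∈ MM then pt _ (S.pres.mem _ h) else p e
  have k4 : ∀ᶠ ε in 𝓝 (0 : ℂ), Rep (ξ ε) (Ψ (c ε)) := k3.mono fun ε h => by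
    simp only [ξ, dif_pos h.1]
    exact rep_pt _
  have k5 := continuousAt_of_rep ((S.pres.anal _).continuousAt.comp k1) k4
  have k6 : ξ 0 = p e := k4.self_of_nhds.eq (k2 ▸ he)
  obtain ⟨ε, ⟨⟨a1, a2⟩, t, ⟨a3, a4⟩, a5⟩, a6⟩ := ((((k3.and k4).and
    (k5.eventually (k6 ▸ S.cov.isLocalHomeomorph.isOpenMap.image_mem_nhds hU))).filter_mono
      nhdsWithin_le_nhds).and (self_mem_nhdsWithin (s := {0}ᶜ))).exists
  have o := S.pres.fib _ a3.1 _ a1.1 (a3.2.par (a5 ▸ a2))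
  exact ⟨t, a4 ((o.ne_iff _).1 (a1.2.1.trans_ne a6)) ((o.ne_iff _).1 (a1.2.2.trans_ne a6))⟩

end Vale.Agent.P300
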