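import Vale.Agent.P300.Loc2
import Vale.Agent.P300.Loc3
import Vale.Agent.P300.Coc

/-! The two continuous functions without a common zero of the real parts. -/

namespace Vale.Agent.P300

open Topology Filter Set Complex

variable {N : ℕ} {C : Set (Fin N → ℂ)} {Ψ : (W → ℂ) → (Fin N → ℂ)} {E : Type}
  [TopologicalSpace E] {p : E → Pj C} {u : Dsc → Pj CF} {x y φ : E → Dsc}

/-- If the product of a root with a conjugate root is imaginary, then an inequality holds. -/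
theorem norm_le_of_re {a b r s : ℂ} (hr : r ^ 2 = a - b) (hs : s ^ 2 = a)
    (h : (r * (starRingEnd ℂ) s).re = 0) : ‖a‖ ≤ ‖b‖ := by
  have hb : b = (s - r) * (s + r) := by linear_combination hr - hs
  have h' : r.re * s.re + r.im * s.im = 0 := by simpa using h
  have h1 : ‖s‖ ≤ ‖s - r‖ := by
    rw [← sq_le_sq₀ (norm_nonneg _) (norm_nonneg _), Complex.sq_norm, Complex.sq_norm,
      normSq_apply, normSq_apply, sub_re, sub_im]
    nlinarith [sq_nonneg r.re, sq_nonneg r.im]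
  have h2 : ‖s‖ ≤ ‖s + r‖ := by
    rw [← sq_le_sq₀ (norm_nonneg _) (norm_nonneg _), Complex.sq_norm, Complex.sq_norm,
      normSq_apply, normSq_apply, add_re, add_im]
    nlinarith [sq_nonneg r.re, sq_nonneg r.im]
  rw [hb, ← hs, norm_pow, norm_mul, sq]
  exact mul_le_mul h1 h2 (norm_nonneg _) (norm_nonneg _)

namespace ExtAux

theorem dsc_eq_iff (a : Dsc) : a = Dsc.o ↔ (a : ℂ) = 0 :=
  ⟨fun h => by rw [h]; rfl, fun h => Subtype.ext h⟩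

theorem cnear_of_continuous {F : Type} [TopologicalSpace F] {f : E → F} (hf : Continuous f)
    (e : E) : CNear f e := Eventually.of_forall fun _ => hf.continuousAt

theorem cnear_mul {f g : E → ℂ} {e : E} (hf : CNear f e) (hg : CNear g e) :
    CNear (fun e' => f e' * g e') e := by
  filter_upwards [hf, hg] with e' h1 h2 using h1.mul h2

theorem cnear_pow {f : E → ℂ} {e : E} (hf : CNear f e) (n : ℕ) :
    CNear (fun e' => f e' ^ n) e := by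
  filter_upwards [hf] with e' h1 using h1.pow n

theorem cnear_coord {ζ : E → W → ℂ} {e : E} (hζ : CNear ζ e) (i : W) :
    CNear (fun e' => ζ e' i) e := by
  filter_upwards [hζ] with e' h1 using (continuous_apply i).continuousAt.comp h1

theorem cnear_quot {a b : E → ℂ} {d : E → ℝ} {e : E} (ha : CNear a e) (hb : CNear b e)
    (hd : CNear d e) (h0 : d e ≠ 0) :
    CNear (fun e' => a e' * (starRingEnd ℂ) (b e') / (d e' : ℂ)) e := by
  filter_upwards [ha, hb, hd, hd.self_of_nhds.eventually_ne h0] with e' h1 h2 h3 h4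
  exact (h1.mul (continuous_conj.continuousAt.comp h2)).div
    (continuous_ofReal.continuousAt.comp h3) (ofReal_ne_zero.2 h4)

/-- A global root of a unit times a square. -/
theorem root_eq {f r c g : E → ℂ} {e : E} (hr : Continuous r) (hrf : ∀ e', r e' ^ 2 = f e')
    (hu : SqUnique f e) (hc : CNear c e) (hg : CNear g e) (h0 : c e ≠ 0)
    (h : ∀ᶠ e' in 𝓝 e, f e' = c e' * g e' ^ 2) :
    ∃ a : E → ℂ, CNear a e ∧ a e ^ 2 = c e ∧ ∀ᶠ e' in 𝓝 e, r e' = a e' * g e' := by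
  obtain ⟨a, ha, -, ha2, hag, hsq⟩ := locSq_of_unit hc hg h0 h
  rcases hu.2 r _ (cnear_of_continuous hr e) hag (Eventually.of_forall hrf) hsq with h1 | h1
  · exact ⟨a, ha, ha2.self_of_nhds, h1⟩
  · refine ⟨fun e' => -a e', ?_, by rw [neg_sq]; exact ha2.self_of_nhds, ?_⟩
    · filter_upwards [ha] with e' h2 using h2.neg
    · filter_upwards [h1] with e' h2
      rw [h2, Pi.neg_apply, neg_mul]

theorem cancel {m a b : ℂ} {d : ℝ} (hm : m ≠ 0) :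
    a * m * (starRingEnd ℂ) (b * m) / ((‖m‖ ^ 2 * d : ℝ) : ℂ) =
      a * (starRingEnd ℂ) b / (d : ℂ) := by
  have h1 : ((‖m‖ : ℝ) : ℂ) ^ 2 ≠ 0 := pow_ne_zero _ (ofReal_ne_zero.2 (norm_ne_zero_iff.2 hm))
  have h2 : a * m * (starRingEnd ℂ) (b * m) =
      ((‖m‖ : ℝ) : ℂ) ^ 2 * (a * (starRingEnd ℂ) b) := by
    rw [map_mul, ← Complex.mul_conj']; ring
  rw [h2, ofReal_mul, ofReal_pow, mul_div_mul_left _ _ h1]

/-- The local extension of a quotient after cancelling a common factor. -/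
theorem local_ext {Dn : Set E} {r s a b m : E → ℂ} {d d' : E → ℝ} {e : E} (ha : CNear a e)
    (hb : CNear b e) (hd : CNear d e) (h0 : d e ≠ 0) (hr : ∀ᶠ e' in 𝓝 e, r e' = a e' * m e')
    (hs : ∀ᶠ e' in 𝓝 e, s e' = b e' * m e') (hd' : ∀ᶠ e' in 𝓝 e, d' e' = ‖m e'‖ ^ 2 * d e')
    (hm : ∀ᶠ e' in 𝓝 e, e' ∈ Dn → m e' ≠ 0) :
    ∃ g : E → ℂ, CNear g e ∧
      (∀ᶠ e' in 𝓝 e, e' ∈ Dn → g e' = r e' * (starRingEnd ℂ) (s e') / (d' e' : ℂ)) ∧
      g e = a e * (starRingEnd ℂ) (b e) / (d e : ℂ) := by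
  refine ⟨_, cnear_quot ha hb hd h0, ?_, rfl⟩
  filter_upwards [hr, hs, hd', hm] with e' h1 h2 h3 h4 h5
  rw [h1, h2, h3, cancel (h4 h5)]

variable {D : ℂ} {e : E} {z : W → ℂ} {ζ : E → W → ℂ} {cx cy c1 c2 : E → ℂ}

theorem ne_of_spec (H : SpecAt D x y φ e z ζ cx cy c1 c2) :
    ∀ᶠ e' in 𝓝 e, e' ∈ {e | ¬ (x e = Dsc.o ∧ y e = Dsc.o)} →
      ζ e' .e1 ≠ 0 ∧ ζ e' .e2 ≠ 0 := by
  filter_upwards [H.ex, H.ey] with e' h1 h2 h3
  by_contra h4
  apply h3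
  rw [dsc_eq_iff, dsc_eq_iff, h1, h2]
  rcases not_and_or.1 h4 with h5 | h5 <;> simp [not_not.1 h5]

theorem local_B (hD : D ≠ 0) (hz : z ∈ MM) (hζ : CNear ζ e) (hb : ζ e = z)
    (H : SpecAt D x y φ e z ζ cx cy c1 c2) {rx r1 : E → ℂ} (hrx : Continuous rx)
    (hr1 : Continuous r1) (ex : ∀ e', rx e' ^ 2 = x e') (e1 : ∀ e', r1 e' ^ 2 = (x e' : ℂ) - y e')
    (sx : SqUnique (fun e => (x e : ℂ)) e) (s1 : SqUnique (fun e => (x e : ℂ) - y e) e) :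
    ∃ g : E → ℂ, CNear g e ∧
      (∀ᶠ e' in 𝓝 e, e' ∈ {e | ¬ (x e = Dsc.o ∧ y e = Dsc.o)} →
        g e' = r1 e' * (starRingEnd ℂ) (rx e') / ((‖(x e' : ℂ)‖ + ‖(y e' : ℂ)‖ : ℝ) : ℂ)) ∧
      g e ^ 2 = FB D z := by
  obtain ⟨hx0, hy0, h10, -⟩ := units_ne hD hz H.sb0 H.bb0
  have k := cnear_coord hζ
  obtain ⟨ax, hax, vx, rx'⟩ := root_eq hrx ex sx H.nx
    (cnear_mul (cnear_mul (k .e1) (k .e2)) (k .s)) (by rw [H.vx]; exact hx0) H.ex
  obtain ⟨a1, ha1, v1, r1'⟩ := root_eq hr1 e1 s1 H.n1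
    (cnear_mul (cnear_mul (k .e1) (k .e2)) (k .w1)) (by rw [H.v1]; exact h10) H.e1
  have hd : CNear (fun e' => ‖cx e' * ζ e' .s ^ 2‖ + ‖cy e' * ζ e' .e2 ^ 2 * ζ e' .be ^ 2‖) e := by
    filter_upwards [cnear_mul H.nx (cnear_pow (k .s) 2),
      cnear_mul (cnear_mul H.ny (cnear_pow (k .e2) 2)) (cnear_pow (k .be) 2)] with e' h1 h2
    exact h1.norm.add h2.norm
  have h0 : ‖cx e * ζ e .s ^ 2‖ + ‖cy e * ζ e .e2 ^ 2 * ζ e .be ^ 2‖ ≠ 0 := by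
    rw [hb, H.vx, H.vy]
    intro h
    rw [add_eq_zero_iff_of_nonneg (norm_nonneg _) (norm_nonneg _), norm_eq_zero,
      norm_eq_zero] at h
    have hs : z .s = 0 := pow_eq_zero_iff two_ne_zero |>.1 ((mul_eq_zero.1 h.1).resolve_left hx0)
    have hbe : z .be * z .e2 = 0 := by
      have h2 : uy D z * (z .be * z .e2) ^ 2 = 0 := by linear_combination h.2
      exact pow_eq_zero_iff two_ne_zero |>.1 ((mul_eq_zero.1 h2).resolve_left hy0)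
    rcases hz.2.sp with h3 | h3 | h3
    · exact h3 (by rw [hs, zero_mul])
    · exact h3 (by rw [hs, zero_mul])
    · exact h3 hbe
  obtain ⟨g, hg, hg', hge⟩ := local_ext (Dn := {e | ¬ (x e = Dsc.o ∧ y e = Dsc.o)})
    (r := r1) (s := rx) (m := fun e' => ζ e' .e1 * ζ e' .e2)
    (d' := fun e' => ‖(x e' : ℂ)‖ + ‖(y e' : ℂ)‖) (cnear_mul ha1 (k .w1)) (cnear_mul hax (k .s))
    hd h0 (by filter_upwards [r1'] with e' h using by rw [h]; ring)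
    (by filter_upwards [rx'] with e' h using by rw [h]; ring)
    (by
      filter_upwards [H.ex, H.ey] with e' h1 h2
      rw [h1, h2]
      simp only [norm_mul, norm_pow]
      ring)
    (by filter_upwards [ne_of_spec H] with e' h h' using mul_ne_zero (h h').1 (h h').2)
  refine ⟨g, hg, hg', ?_⟩
  rw [hge, div_pow, mul_pow, ← map_pow, mul_pow, mul_pow, vx, v1, hb, H.vx, H.vy, H.v1]
  rfl

theorem local_A (hD : D ≠ 0) (hz : z ∈ MM) (hζ : CNear ζ e) (hb : ζ e = z)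
    (H : SpecAt D x y φ e z ζ cx cy c1 c2) {ry r2 : E → ℂ} (hry : Continuous ry)
    (hr2 : Continuous r2) (ey : ∀ e', ry e' ^ 2 = y e') (e2 : ∀ e', r2 e' ^ 2 = (y e' : ℂ) - φ e')
    (sy : SqUnique (fun e => (y e : ℂ)) e) (s2 : SqUnique (fun e => (y e : ℂ) - φ e) e) :
    ∃ g : E → ℂ, CNear g e ∧
      (∀ᶠ e' in 𝓝 e, e' ∈ {e | ¬ (x e = Dsc.o ∧ y e = Dsc.o)} →
        g e' = r2 e' * (starRingEnd ℂ) (ry e') / ((‖(y e' : ℂ)‖ + ‖(x e' : ℂ)‖ ^ 2 : ℝ) : ℂ)) ∧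
      g e ^ 2 = FA D z := by
  obtain ⟨hx0, hy0, -, h20⟩ := units_ne hD hz H.sb0 H.bb0
  have k := cnear_coord hζ
  obtain ⟨ay, hay, vy, ry'⟩ := root_eq hry ey sy H.ny
    (cnear_mul (cnear_mul (k .e1) (cnear_pow (k .e2) 2)) (k .be)) (by rw [H.vy]; exact hy0) H.ey
  obtain ⟨a2, ha2, v2, r2'⟩ := root_eq hr2 e2 s2 H.n2
    (cnear_mul (cnear_mul (k .e1) (cnear_pow (k .e2) 2)) (k .w2)) (by rw [H.v2]; exact h20) H.e2
  have hd : CNear (fun e' => ‖cy e' * ζ e' .be ^ 2‖ + ‖ζ e' .e1 * cx e' * ζ e' .s ^ 2‖ ^ 2) e := by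
    filter_upwards [cnear_mul H.ny (cnear_pow (k .be) 2),
      cnear_mul (cnear_mul (k .e1) H.nx) (cnear_pow (k .s) 2)] with e' h1 h2
    exact h1.norm.add (h2.norm.pow 2)
  have h0 : ‖cy e * ζ e .be ^ 2‖ + ‖ζ e .e1 * cx e * ζ e .s ^ 2‖ ^ 2 ≠ 0 := by
    rw [hb, H.vx, H.vy]
    intro h
    rw [add_eq_zero_iff_of_nonneg (norm_nonneg _) (sq_nonneg _), pow_eq_zero_iff two_ne_zero,
      norm_eq_zero, norm_eq_zero] at h
    have hbe : z .be = 0 := pow_eq_zero_iff two_ne_zero |>.1 ((mul_eq_zero.1 h.1).resolve_left hy0)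
    have hs : z .s * z .e1 = 0 := by
      have h2 : ux D z * (z .s * (z .s * z .e1)) = 0 := by linear_combination h.2
      rcases mul_eq_zero.1 ((mul_eq_zero.1 h2).resolve_left hx0) with h3 | h3
      · rw [h3, zero_mul]
      · exact h3
    rcases hz.2.sp with h3 | h3 | h3
    · exact h3 (by rw [hbe, mul_zero])
    · exact h3 hs
    · exact h3 (by rw [hbe, zero_mul])
  obtain ⟨g, hg, hg', hge⟩ := local_ext (Dn := {e | ¬ (x e = Dsc.o ∧ y e = Dsc.o)})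
    (r := r2) (s := ry) (m := fun e' => ζ e' .e1 * ζ e' .e2 ^ 2)
    (d' := fun e' => ‖(y e' : ℂ)‖ + ‖(x e' : ℂ)‖ ^ 2) (cnear_mul ha2 (k .w2))
    (cnear_mul hay (k .be))
    hd h0 (by filter_upwards [r2'] with e' h using by rw [h]; ring)
    (by filter_upwards [ry'] with e' h using by rw [h]; ring)
    (by
      filter_upwards [H.ex, H.ey] with e' h1 h2
      rw [h1, h2]
      simp only [norm_mul, norm_pow]
      ring)
    (by
      filter_upwards [ne_of_spec H] with e' h h' using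
        mul_ne_zero (h h').1 (pow_ne_zero 2 (h h').2))
  refine ⟨g, hg, hg', ?_⟩
  rw [hge, div_pow, mul_pow, ← map_pow, mul_pow, mul_pow, vy, v2, hb, H.vx, H.vy, H.v2]
  rfl

theorem re_div_eq_zero {w : ℂ} {d : ℝ} (hd : d ≠ 0) (h : (w / (d : ℂ)).re = 0) : w.re = 0 := by
  rw [div_ofReal_re] at h
  exact (div_eq_zero_iff.1 h).resolve_right hd

theorem mul_conj_div {w : ℂ} (hw : w ≠ 0) :
    w * (starRingEnd ℂ) w / ((‖w‖ : ℝ) : ℂ) ^ 2 = 1 := by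
  rw [Complex.mul_conj', div_self (pow_ne_zero _ (ofReal_ne_zero.2 (norm_ne_zero_iff.2 hw)))]

end ExtAux

open ExtAux in
theorem Setup.ext [SimplyConnectedSpace E] [LocallyPathConnectedSpace E]
    (S : Setup Ψ p u x y φ) {e₀ : E} (h0 : (x e₀ : ℂ) ≠ 0 ∧ (y e₀ : ℂ) ≠ 0 ∧
      (x e₀ : ℂ) - y e₀ ≠ 0 ∧ (y e₀ : ℂ) - φ e₀ ≠ 0) :
    ∃ (A B : E → ℂ) (D : ℂ), Continuous A ∧ Continuous B ∧ D ≠ 0 ∧
      (∀ e, ¬ (x e = Dsc.o ∧ y e = Dsc.o) → (A e).re ≠ 0 ∨ (B e).re ≠ 0) ∧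
      ∀ e, x e = Dsc.o → y e = Dsc.o → ∀ z ∈ MM, Rep (p e) (Ψ z) →
        sb z = 0 ∧ bb z = 0 ∧ A e ^ 2 = FA D z ∧ B e ^ 2 = FB D z := by
  obtain ⟨hx, hy, hφ⟩ := S.hol
  have hC := S.pres.cone
  have hR := S.pres.retr
  have hp := S.cov.isLocalHomeomorph
  have sx := hx.sqUnique hC hR hp h0.1
  have sy := hy.sqUnique hC hR hp h0.2.1
  have s1 := (hx.sub hC hy).sqUnique hC hR hp h0.2.2.1
  have s2 := (hy.sub hC hφ).sqUnique hC hR hp h0.2.2.2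
  obtain ⟨rx, hrx, ex⟩ := exists_global_sqrt S.locSq_x sx
  obtain ⟨ry, hry, ey⟩ := exists_global_sqrt S.locSq_y sy
  obtain ⟨r1, hr1, e1⟩ := exists_global_sqrt S.locSq_xy s1
  obtain ⟨r2, hr2, e2⟩ := exists_global_sqrt S.locSq_yφ s2
  obtain ⟨D, hD, hspec⟩ := S.spec
  have cx : Continuous fun e => (x e : ℂ) := continuous_subtype_val.comp S.cx
  have cy : Continuous fun e => (y e : ℂ) := continuous_subtype_val.comp S.cy
  have hDn : ∀ e, ∃ᶠ e' in 𝓝 e, e' ∈ {e | ¬ (x e = Dsc.o ∧ y e = Dsc.o)} := fun e =>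
    (sx e).1.mono fun e' h h' => h ((dsc_eq_iff _).1 h'.1)
  have dB : ∀ e, ¬ (x e = Dsc.o ∧ y e = Dsc.o) → ‖(x e : ℂ)‖ + ‖(y e : ℂ)‖ ≠ 0 := by
    intro e he h
    rw [add_eq_zero_iff_of_nonneg (norm_nonneg _) (norm_nonneg _), norm_eq_zero,
      norm_eq_zero] at h
    exact he ⟨(dsc_eq_iff _).2 h.1, (dsc_eq_iff _).2 h.2⟩
  have dA : ∀ e, ¬ (x e = Dsc.o ∧ y e = Dsc.o) → ‖(y e : ℂ)‖ + ‖(x e : ℂ)‖ ^ 2 ≠ 0 := by
    intro e he h
    rw [add_eq_zero_iff_of_nonneg (norm_nonneg _) (sq_nonneg _), pow_eq_zero_iff two_ne_zero,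
      norm_eq_zero, norm_eq_zero] at h
    exact he ⟨(dsc_eq_iff _).2 h.2, (dsc_eq_iff _).2 h.1⟩
  have nB : ∀ e, ¬ (x e = Dsc.o ∧ y e = Dsc.o) → CNear (fun e' =>
      r1 e' * (starRingEnd ℂ) (rx e') / ((‖(x e' : ℂ)‖ + ‖(y e' : ℂ)‖ : ℝ) : ℂ)) e := fun e he =>
    cnear_quot (cnear_of_continuous hr1 e) (cnear_of_continuous hrx e)
      (cnear_of_continuous (cx.norm.add cy.norm) e) (dB e he)
  have nA : ∀ e, ¬ (x e = Dsc.o ∧ y e = Dsc.o) → CNear (fun e' =>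
      r2 e' * (starRingEnd ℂ) (ry e') / ((‖(y e' : ℂ)‖ + ‖(x e' : ℂ)‖ ^ 2 : ℝ) : ℂ)) e :=
    fun e he => cnear_quot (cnear_of_continuous hr2 e) (cnear_of_continuous hry e)
      (cnear_of_continuous (cy.norm.add (cx.norm.pow 2)) e) (dA e he)
  have loc : ∀ e, x e = Dsc.o → y e = Dsc.o → ∀ z ∈ MM, Rep (p e) (Ψ z) →
      sb z = 0 ∧ bb z = 0 ∧ (∃ g : E → ℂ, CNear g e ∧
        (∀ᶠ e' in 𝓝 e, e' ∈ {e | ¬ (x e = Dsc.o ∧ y e = Dsc.o)} →
          g e' = r2 e' * (starRingEnd ℂ) (ry e') / ((‖(y e' : ℂ)‖ + ‖(x e' : ℂ)‖ ^ 2 : ℝ) : ℂ)) ∧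
        g e ^ 2 = FA D z) ∧ ∃ g : E → ℂ, CNear g e ∧
        (∀ᶠ e' in 𝓝 e, e' ∈ {e | ¬ (x e = Dsc.o ∧ y e = Dsc.o)} →
          g e' = r1 e' * (starRingEnd ℂ) (rx e') / ((‖(x e' : ℂ)‖ + ‖(y e' : ℂ)‖ : ℝ) : ℂ)) ∧
        g e ^ 2 = FB D z := by
    intro e hxe hye z hz he
    obtain ⟨ζ, hζ⟩ := exists_locLift S.pres S.cov.continuous e hz he
    obtain ⟨_, _, _, _, H⟩ := hspec e hxe hye z hz he ζ hζ
    exact ⟨H.sb0, H.bb0, local_A hD hz hζ.cont hζ.base H hry hr2 ey e2 (sy e) (s2 e),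
      local_B hD hz hζ.cont hζ.base H hrx hr1 ex e1 (sx e) (s1 e)⟩
  obtain ⟨A, hA, hA'⟩ := exists_extension hDn (f := fun e' =>
      r2 e' * (starRingEnd ℂ) (ry e') / ((‖(y e' : ℂ)‖ + ‖(x e' : ℂ)‖ ^ 2 : ℝ) : ℂ)) (by
    intro e
    by_cases he : x e = Dsc.o ∧ y e = Dsc.o
    · obtain ⟨z, hz, hr⟩ := S.pres.exists_rep (p e)
      obtain ⟨-, -, ⟨g, hg, hg', -⟩, -⟩ := loc e he.1 he.2 z hz hr
      exact ⟨g, hg, hg'⟩
    · exact ⟨_, nA e he, Eventually.of_forall fun _ _ => rfl⟩)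
  obtain ⟨B, hB, hB'⟩ := exists_extension hDn (f := fun e' =>
      r1 e' * (starRingEnd ℂ) (rx e') / ((‖(x e' : ℂ)‖ + ‖(y e' : ℂ)‖ : ℝ) : ℂ)) (by
    intro e
    by_cases he : x e = Dsc.o ∧ y e = Dsc.o
    · obtain ⟨z, hz, hr⟩ := S.pres.exists_rep (p e)
      obtain ⟨-, -, -, g, hg, hg', -⟩ := loc e he.1 he.2 z hz hr
      exact ⟨g, hg, hg'⟩
    · exact ⟨_, nB e he, Eventually.of_forall fun _ _ => rfl⟩)
  refine ⟨A, B, D, hA, hB, hD, fun e he => ?_, fun e hxe hye z hz he => ?_⟩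
  · by_contra hcon
    rw [not_or, not_not, not_not,
      hA' e _ (nA e he).self_of_nhds (Eventually.of_forall fun _ _ => rfl),
      hB' e _ (nB e he).self_of_nhds (Eventually.of_forall fun _ _ => rfl)] at hcon
    have i1 := norm_le_of_re (e1 e) (ex e) (re_div_eq_zero (dB e he) hcon.2)
    have i2 := norm_le_of_re (e2 e) (ey e) (re_div_eq_zero (dA e he) hcon.1)
    have i3 := S.sch e
    have i4 : ‖(x e : ℂ)‖ < 1 := mem_ball_zero_iff.1 (x e).2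
    have i5 : ‖(x e : ℂ)‖ = 0 := by nlinarith [norm_nonneg (x e : ℂ)]
    have i6 : ‖(y e : ℂ)‖ = 0 := by
      rw [i5] at i3
      nlinarith [norm_nonneg (y e : ℂ)]
    exact dB e he (by rw [i5, i6, add_zero])
  · obtain ⟨h1, h2, ⟨g, hg, hg', hge⟩, g', hh, hh', hhe⟩ := loc e hxe hye z hz he
    exact ⟨h1, h2, by rw [hA' e g hg.self_of_nhds hg', hge],
      by rw [hB' e g' hh.self_of_nhds hh', hhe]⟩

theorem FA_eq_one {D : ℂ} (hD : D ≠ 0) {z : W → ℂ} (hz : z ∈ MM) (h : z .e1 = 0) :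
    FA D z = 1 := by
  have h1 : sb z = 0 := by simp [sb, h]
  have h2 : bb z = 0 := by simp [bb, h]
  have h3 := (units_rel (D := D) hz h1 h2).2
  have h4 : uy D z * z .be ^ 2 ≠ 0 := mul_ne_zero (units_ne hD hz h1 h2).2.1
    (pow_ne_zero _ ((facts_S hz h1 h2).2.1 h).1)
  rw [h, zero_pow two_ne_zero, mul_zero, zero_mul, sub_zero] at h3
  rw [FA, h3, h, zero_mul, zero_mul, norm_zero, zero_pow two_ne_zero, add_zero]
  exact ExtAux.mul_conj_div h4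

theorem FB_eq_one {D : ℂ} (hD : D ≠ 0) {z : W → ℂ} (hz : z ∈ MM) (h : z .e2 = 0) :
    FB D z = 1 := by
  have h1 : sb z = 0 := by simp [sb, h]
  have h2 : bb z = 0 := by simp [bb, h]
  have h3 := (units_rel (D := D) hz h1 h2).1
  have h4 : ux D z * z .s ^ 2 ≠ 0 := mul_ne_zero (units_ne hD hz h1 h2).1
    (pow_ne_zero _ ((facts_S hz h1 h2).2.2 h).1)
  rw [h, zero_pow two_ne_zero, mul_zero, zero_mul, sub_zero] at h3
  rw [FB, h3, h, zero_pow two_ne_zero, mul_zero, zero_mul, norm_zero, add_zero]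
  exact ExtAux.mul_conj_div h4

end Vale.Agent.P300
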