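import Vale.Agent.P300.Cox

/-! Algebraic consequences of the equations. -/

namespace Vale.Agent.P300

open Topology Filter Set Complex

theorem mm_pB (z : W → ℂ) : mm (pB z) = mC z := by
  simp [mm, pB, mC]; ring

theorem mz_pB (z : W → ℂ) : mz (pB z) = m0 z := by
  simp [mz, pB, m0]; ring

theorem aV_pB (z : W → ℂ) :
    aV (pB z) = ![mC z, (z .e1 * z .e2) ^ 2 * nn z, m0 z] := by
  rw [aV, mm_pB, mz_pB]
  simp [pB, nn, sb]; ring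

theorem cV_pB (z : W → ℂ) : cV (pB z) = ![g4 * z .p1 * z .p3, sb z ^ 4, PP z ^ 2] := by
  simp [cV, pB]; ring

theorem mC_add (z : W → ℂ) : mC z + m0 z = PP z ^ 4 := by simp only [mC, m0]; ring

theorem mC_sub (z : W → ℂ) : mC z - m0 z = sb z ^ 8 := by simp only [mC, m0]; ring

/-- The Fermat relation for the unramified map. -/
theorem fermat_a {z : W → ℂ} (h1 : Eq1 z = 0) (h3 : Eq3 z = 0) :
    mC z ^ 4 = (z .e1 * z .e2) ^ 8 * nn z ^ 4 + m0 z ^ 4 := by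
  have a1 : z .p1 ^ 4 = mC z - I * m0 z := sub_eq_zero.1 h1
  have a3 : z .p3 ^ 4 = mC z + I * m0 z := sub_eq_zero.1 h3
  have : (z .e1 * z .e2) ^ 8 * nn z ^ 4 = sb z ^ 8 * z .p1 ^ 4 * PP z ^ 4 * z .p3 ^ 4 := by
    simp only [nn, sb]; ring
  rw [this, a1, a3, ← mC_add, ← mC_sub]
  linear_combination (mC z ^ 2 - m0 z ^ 2) * m0 z ^ 2 * I_sq

/-- The Fermat relation for the ramified map. -/
theorem fermat_c {z : W → ℂ} (h1 : Eq1 z = 0) (h3 : Eq3 z = 0) :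
    (g4 * z .p1 * z .p3) ^ 4 = sb z ^ 16 + PP z ^ 8 := by
  have a1 : z .p1 ^ 4 = mC z - I * m0 z := sub_eq_zero.1 h1
  have a3 : z .p3 ^ 4 = mC z + I * m0 z := sub_eq_zero.1 h3
  rw [mul_pow, mul_pow, g4_pow4, a1, a3]
  simp only [mC, m0]
  linear_combination (-(PP z ^ 4 - sb z ^ 8) ^ 2 / 2) * I_sq

theorem rel_A {z : W → ℂ} (h1 : Eq1 z = 0) (h3 : Eq3 z = 0) (hM : EqM z = 0) (hX : EqX z = 0) :
    z .eA ^ 8 * EqA z = Ew1 z * U1 z := by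
  have a := fermat_a h1 h3
  have b : m0 z = z .eA ^ 2 * z .mu ^ 2 := (sub_eq_zero.1 hM).symm
  rw [b] at a
  simp only [EqX, bb, kb] at hX
  simp only [EqA, Ew1, U1, A1, B1]
  linear_combination (z .e2 ^ 8 * z .be ^ 8) * a - nn z ^ 4 * hX

theorem rel_B {z : W → ℂ} (h0 : Eq0 z = 0) (h1 : Eq1 z = 0) (h3 : Eq3 z = 0) (hX : EqX z = 0) :
    z .eB ^ 8 * EqB z = Ew2 z * U2 z := by
  have a := fermat_c h1 h3
  have b : PP z = z .eB * z .q := (sub_eq_zero.1 h0).symm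
  rw [b] at a
  simp only [EqX, bb, kb] at hX
  simp only [sb] at a
  simp only [EqB, Ew2, U2, A2, B2]
  linear_combination (z .be ^ 8) * a - z .e1 ^ 8 * z .s ^ 16 * hX

variable {z : W → ℂ}

theorem fx_0 (hz : z ∈ MM) : z .eB * z .q = PP z := sub_eq_zero.1 hz.1.h0

theorem fx_1 (hz : z ∈ MM) : z .p1 ^ 4 = mC z - I * m0 z := sub_eq_zero.1 hz.1.h1

theorem fx_3 (hz : z ∈ MM) : z .p3 ^ 4 = mC z + I * m0 z := sub_eq_zero.1 hz.1.h3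

theorem fx_M (hz : z ∈ MM) : z .eA ^ 2 * z .mu ^ 2 = m0 z := sub_eq_zero.1 hz.1.hM

theorem fx_X (hz : z ∈ MM) : z .X ^ 4 = bb z ^ 8 + kb z ^ 8 := by
  have := hz.1.hX
  rw [EqX] at this
  linear_combination this

theorem fx_w1 (hz : z ∈ MM) : z .eA ^ 8 * z .w1 ^ 2 = A1 z - B1 z := sub_eq_zero.1 hz.1.hw1

theorem fx_w2 (hz : z ∈ MM) : z .eB ^ 8 * z .w2 ^ 2 = A2 z - B2 z := sub_eq_zero.1 hz.1.hw2

theorem fx_A (hz : z ∈ MM) : z .w1 ^ 2 * U1 z =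
    z .e2 ^ 8 * z .be ^ 8 * z .mu ^ 8 - nn z ^ 4 * z .eB ^ 8 * z .ka ^ 8 := sub_eq_zero.1 hz.1.hA

theorem fx_B (hz : z ∈ MM) : z .w2 ^ 2 * U2 z =
    z .be ^ 8 * z .q ^ 8 - z .e1 ^ 8 * z .s ^ 16 * z .eA ^ 8 * z .ka ^ 8 := sub_eq_zero.1 hz.1.hB

theorem fx_sp (hz : z ∈ MM) (h : sb z = 0) : PP z ≠ 0 := by
  have ht : z .t ≠ 0 := hz.2.st.resolve_left (not_not.2 h)
  rw [PP, h]
  simpa using ht

theorem fx_t (h : z .t = 0) : mC z = 0 := by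
  rw [mC, PP, h]
  linear_combination (sb z ^ 8 / 2) * z8_pow4

theorem fx_m0 (hz : z ∈ MM) (h : m0 z ≠ 0) : z .eA ≠ 0 ∧ z .mu ≠ 0 := by
  rw [← fx_M hz] at h
  simpa using h

theorem fx_PP (hz : z ∈ MM) (h : PP z ≠ 0) : z .eB ≠ 0 ∧ z .q ≠ 0 := by
  rw [← fx_0 hz] at h
  simpa using h

theorem fx_ne {x y c : ℂ} {n : ℕ} (h : x ^ (n + 1) = c * y) (hc : c ≠ 0) (hy : y ≠ 0) : x ≠ 0 := by
  rintro rfl
  exact mul_ne_zero hc hy (by simpa using h.symm)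

theorem fx_i1 : (1 + I : ℂ) ≠ 0 := fun h => by simpa using congrArg re h

theorem fx_i2 : (1 - I : ℂ) ≠ 0 := fun h => by simpa using congrArg re h

/-- Over the base point of the first curve. -/
theorem facts_sb (hz : z ∈ MM) (h : sb z = 0) : z .t ≠ 0 ∧ PP z ≠ 0 ∧ mC z ≠ 0 ∧ z .p1 ≠ 0 ∧
    z .p3 ≠ 0 ∧ z .eA ≠ 0 ∧ z .mu ≠ 0 ∧ z .eB ≠ 0 ∧ z .q ≠ 0 := by
  have hP := fx_sp hz h
  have e1 : mC z = PP z ^ 4 / 2 := by rw [mC, h]; ring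
  have e2 : m0 z = mC z := by rw [mC, m0, h]; ring
  have hC : mC z ≠ 0 := by rw [e1]; simpa using hP
  have hA := fx_m0 hz (e2 ▸ hC)
  have hB := fx_PP hz hP
  exact ⟨hz.2.st.resolve_left (not_not.2 h), hP, hC,
    fx_ne (n := 3) (by rw [fx_1 hz, e2]; ring) fx_i2 hC,
    fx_ne (n := 3) (by rw [fx_3 hz, e2]; ring) fx_i1 hC, hA.1, hA.2, hB.1, hB.2⟩

theorem facts_bb (hz : z ∈ MM) (h : bb z = 0) :
    z .eA ≠ 0 ∧ z .eB ≠ 0 ∧ z .ka ≠ 0 ∧ z .X ≠ 0 := by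
  have hk : kb z ≠ 0 := hz.2.bk.resolve_left (not_not.2 h)
  have hX : z .X ≠ 0 :=
    fx_ne (n := 3) (by rw [fx_X hz, h]; ring) one_ne_zero (pow_ne_zero 8 hk)
  simp only [kb, ne_eq, mul_eq_zero, not_or] at hk
  exact ⟨hk.1.1, hk.1.2, hk.2, hX⟩

theorem facts_kb (hz : z ∈ MM) (h : kb z = 0) :
    z .e1 ≠ 0 ∧ z .e2 ≠ 0 ∧ z .be ≠ 0 ∧ z .X ≠ 0 := by
  have hk : bb z ≠ 0 := hz.2.bk.resolve_right (not_not.2 h)
  have hX : z .X ≠ 0 :=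
    fx_ne (n := 3) (by rw [fx_X hz, h]; ring) one_ne_zero (pow_ne_zero 8 hk)
  simp only [bb, ne_eq, mul_eq_zero, not_or] at hk
  exact ⟨hk.1.1, fun h2 => hk.1.2 (by simp [h2]), hk.2, hX⟩

theorem facts_X (hz : z ∈ MM) (h : z .X = 0) : bb z ≠ 0 ∧ kb z ≠ 0 := by
  exact ⟨fun h' => (facts_bb hz h').2.2.2 h, fun h' => (facts_kb hz h').2.2.2 h⟩

theorem facts_m0 (hz : z ∈ MM) (h : m0 z = 0) : sb z ≠ 0 ∧ z .t ≠ 0 ∧ PP z ≠ 0 ∧ mC z ≠ 0 ∧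
    z .p1 ≠ 0 ∧ z .p3 ≠ 0 ∧ z .eB ≠ 0 ∧ z .q ≠ 0 := by
  have e1 := mC_add z
  have e2 := mC_sub z
  rw [h] at e1 e2
  have hs : sb z ≠ 0 := fun hs => (facts_sb hz hs).2.2.1 (by rw [hs] at e2; simpa using e2)
  have hC : mC z ≠ 0 := fun hC => pow_ne_zero 8 hs (by rw [← e2, hC]; simp)
  have hP : PP z ≠ 0 := fun hP => hC (by rw [hP] at e1; simpa using e1)
  have hB := fx_PP hz hP
  exact ⟨hs, fun ht => hC (fx_t ht), hP, hC,
    fx_ne (n := 3) (by rw [fx_1 hz, h]; ring) one_ne_zero hC,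
    fx_ne (n := 3) (by rw [fx_3 hz, h]; ring) one_ne_zero hC, hB.1, hB.2⟩

theorem facts_PP (hz : z ∈ MM) (h : PP z = 0) : sb z ≠ 0 ∧ z .t ≠ 0 ∧ mC z ≠ 0 ∧ z .p1 ≠ 0 ∧
    z .p3 ≠ 0 ∧ z .eA ≠ 0 ∧ z .mu ≠ 0 := by
  have hs : sb z ≠ 0 := fun hs => fx_sp hz hs h
  have e1 : mC z = sb z ^ 8 / 2 := by rw [mC, h]; ring
  have e2 : m0 z = -mC z := by rw [mC, m0, h]; ring
  have hC : mC z ≠ 0 := by rw [e1]; simpa using hs
  have hA := fx_m0 hz (e2 ▸ neg_ne_zero.2 hC)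
  exact ⟨hs, fun ht => hC (fx_t ht), hC,
    fx_ne (n := 3) (by rw [fx_1 hz, e2]; ring) fx_i1 hC,
    fx_ne (n := 3) (by rw [fx_3 hz, e2]; ring) fx_i2 hC, hA.1, hA.2⟩

theorem facts_p1 (hz : z ∈ MM) (h : z .p1 = 0) : sb z ≠ 0 ∧ z .t ≠ 0 ∧ PP z ≠ 0 ∧ mC z ≠ 0 ∧
    z .p3 ≠ 0 ∧ z .eA ≠ 0 ∧ z .mu ≠ 0 := by
  have hm : m0 z ≠ 0 := fun h' => (facts_m0 hz h').2.2.2.2.1 h
  have e : mC z = I * m0 z := by
    have := fx_1 hz
    rw [h] at this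
    linear_combination -this
  have hC : mC z ≠ 0 := e ▸ mul_ne_zero I_ne_zero hm
  have hA := fx_m0 hz hm
  exact ⟨fun h' => (facts_sb hz h').2.2.2.1 h, fun ht => hC (fx_t ht),
    fun h' => (facts_PP hz h').2.2.2.1 h, hC,
    fx_ne (n := 3) (by rw [fx_3 hz, ← e]; ring) two_ne_zero hC, hA.1, hA.2⟩

theorem facts_p3 (hz : z ∈ MM) (h : z .p3 = 0) : sb z ≠ 0 ∧ z .t ≠ 0 ∧ PP z ≠ 0 ∧ mC z ≠ 0 ∧
    z .p1 ≠ 0 ∧ z .eA ≠ 0 ∧ z .mu ≠ 0 := by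
  have hm : m0 z ≠ 0 := fun h' => (facts_m0 hz h').2.2.2.2.2.1 h
  have e : I * m0 z = -mC z := by
    have := fx_3 hz
    rw [h] at this
    linear_combination -this
  have hC : mC z ≠ 0 := neg_ne_zero.1 (e ▸ mul_ne_zero I_ne_zero hm)
  have hA := fx_m0 hz hm
  exact ⟨fun h' => (facts_sb hz h').2.2.2.2.1 h, fun ht => hC (fx_t ht),
    fun h' => (facts_PP hz h').2.2.2.2.1 h, hC,
    fx_ne (n := 3) (by rw [fx_1 hz, e]; ring) two_ne_zero hC, hA.1, hA.2⟩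

theorem facts_mC (hz : z ∈ MM) (h : mC z = 0) : sb z ≠ 0 ∧ PP z ≠ 0 ∧ z .p1 ≠ 0 ∧ z .p3 ≠ 0 ∧
    z .eA ≠ 0 ∧ z .mu ≠ 0 := by
  have hA := fx_m0 hz fun h' => (facts_m0 hz h').2.2.2.1 h
  exact ⟨fun h' => (facts_sb hz h').2.2.1 h, fun h' => (facts_PP hz h').2.2.1 h,
    fun h' => (facts_p1 hz h').2.2.2.1 h, fun h' => (facts_p3 hz h').2.2.2.1 h, hA.1, hA.2⟩

/-- On the two special exceptional curves. -/
theorem facts_S (hz : z ∈ MM) (h : sb z = 0) (h' : bb z = 0) : z .e1 * z .e2 = 0 ∧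
    (z .e1 = 0 → z .be ≠ 0 ∧ z .w2 ≠ 0) ∧ (z .e2 = 0 → z .s ≠ 0 ∧ z .w1 ≠ 0) := by
  obtain ⟨-, hP, -, h1, h3, -⟩ := facts_sb hz h
  obtain ⟨-, -, -, hX⟩ := facts_bb hz h'
  have hsp := hz.2.sp
  refine ⟨?_, fun he => ?_, fun he => ?_⟩
  · by_contra hne
    have hs : z .s = 0 := (mul_eq_zero.1 h).resolve_left hne
    have hb : z .be = 0 := (mul_eq_zero.1 h').resolve_left
      (mul_ne_zero (left_ne_zero_of_mul hne) (pow_ne_zero 2 (right_ne_zero_of_mul hne)))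
    simp [hs, hb] at hsp
  · have hb : z .be ≠ 0 := fun hb => by simp [he, hb] at hsp
    refine ⟨hb, fun hw => ?_⟩
    have := fx_w2 hz
    simp [hw, A2, B2, he, hb, g4_ne, h1, h3] at this
  · have hs : z .s ≠ 0 := fun hs => by simp [he, hs] at hsp
    refine ⟨hs, fun hw => ?_⟩
    have := fx_w1 hz
    simp [hw, A1, B1, nn, he, hs, h1, h3, hP, hX] at this

/-- On the exceptional curves of the first kind. -/
theorem facts_eA (hz : z ∈ MM) (h : z .eA = 0) : m0 z = 0 ∧ kb z = 0 ∧ A1 z = B1 z ∧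
    A1 z ≠ 0 ∧ U1 z ≠ 0 ∧ z .w2 ≠ 0 ∧ (z .mu ≠ 0 ∨ z .ka ≠ 0) ∧
    (z .w1 = 0 → z .mu ≠ 0 ∧ z .ka ≠ 0) := by
  have hm : m0 z = 0 := by rw [← fx_M hz, h]; ring
  have hk : kb z = 0 := by rw [kb, h]; ring
  have hAB : A1 z = B1 z := by
    have := fx_w1 hz
    rw [h] at this
    linear_combination -this
  obtain ⟨-, h2, hb, -⟩ := facts_kb hz hk
  obtain ⟨-, -, -, hC, -, -, hB, hq⟩ := facts_m0 hz hm
  have hA : A1 z ≠ 0 := by simp [A1, h2, hb, hC]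
  have hn : nn z ≠ 0 := left_ne_zero_of_mul (hAB ▸ hA : B1 z ≠ 0)
  have ho : z .mu ≠ 0 ∨ z .ka ≠ 0 := by simpa [h] using hz.2.oa
  refine ⟨hm, hk, hAB, hA, ?_, fun hw => ?_, ho, fun hw => ?_⟩
  · have : U1 z = 4 * A1 z ^ 3 := by rw [U1, ← hAB]; ring
    rw [this]
    simpa using hA
  · have := fx_B hz
    simp [hw, h, hb, hq] at this
  · have := fx_A hz
    constructor
    · intro h0
      simp [h0] at ho
      simp [hw, h0, hn, hB, ho] at this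
    · intro h0
      simp [h0] at ho
      simp [hw, h0, h2, hb, ho] at this

/-- On the exceptional curves of the second kind. -/
theorem facts_eB (hz : z ∈ MM) (h : z .eB = 0) : PP z = 0 ∧ kb z = 0 ∧ A2 z = B2 z ∧
    A2 z ≠ 0 ∧ U2 z ≠ 0 ∧ z .w1 ≠ 0 ∧ (z .q ≠ 0 ∨ z .ka ≠ 0) ∧
    (z .w2 = 0 → z .q ≠ 0 ∧ z .ka ≠ 0) := by
  have hm : PP z = 0 := by rw [← fx_0 hz, h]; ring
  have hk : kb z = 0 := by rw [kb, h]; ring
  have hAB : A2 z = B2 z := by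
    have := fx_w2 hz
    rw [h] at this
    linear_combination -this
  obtain ⟨he, h2, hb, -⟩ := facts_kb hz hk
  obtain ⟨hs, -, -, h1, h3, hA', hmu⟩ := facts_PP hz hm
  have hs' : z .s ≠ 0 := right_ne_zero_of_mul hs
  have hA : A2 z ≠ 0 := by simp [A2, hb, g4_ne, h1, h3]
  have ho : z .q ≠ 0 ∨ z .ka ≠ 0 := by simpa [h] using hz.2.ob
  refine ⟨hm, hk, hAB, hA, ?_, fun hw => ?_, ho, fun hw => ?_⟩
  · have : U2 z = 4 * A2 z ^ 3 := by rw [U2, ← hAB]; ring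
    rw [this]
    simpa using hA
  · have := fx_A hz
    simp [hw, h, h2, hb, hmu] at this
  · have := fx_B hz
    constructor
    · intro h0
      simp [h0] at ho
      simp [hw, h0, he, hs', hA', ho] at this
    · intro h0
      simp [h0] at ho
      simp [hw, h0, hb, ho] at this

/-- The branch curves away from the exceptional curves. -/
theorem facts_w1 (hz : z ∈ MM) (hA : z .eA ≠ 0) (h : z .w1 = 0) : kb z ≠ 0 := by
  intro hk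
  obtain ⟨-, h2, hb, -⟩ := facts_kb hz hk
  have hB : z .eB ≠ 0 := fun hB => (facts_eB hz hB).2.2.2.2.2.1 h
  have hka : z .ka = 0 := (mul_eq_zero.1 hk).resolve_left (mul_ne_zero hA hB)
  have ho : z .mu ≠ 0 := by simpa [h, hka] using hz.2.oa
  have := fx_A hz
  simp [h, hka, h2, hb, ho] at this

theorem facts_w2 (hz : z ∈ MM) (hB : z .eB ≠ 0) (h : z .w2 = 0) :
    kb z ≠ 0 ∧ z .be ≠ 0 ∧ z .s ≠ 0 ∧ z .e1 ≠ 0 := by
  have hAB : A2 z = B2 z := by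
    have := fx_w2 hz
    rw [h] at this
    linear_combination -this
  have hb : z .be ≠ 0 := fun hb => by
    have hX := (facts_bb hz (by rw [bb, hb]; ring)).2.2.2
    have hsp := hz.2.sp
    simp [hb] at hsp
    simp [A2, B2, hb, hX, hsp.1, hsp.2] at hAB
  have hs : z .e1 * z .s ≠ 0 := fun hs => by
    obtain ⟨-, -, -, h1, h3, -⟩ := facts_sb hz (by rw [sb]; linear_combination z .e2 * hs)
    have : B2 z = 0 := by rw [B2]; linear_combination z .e1 * z .s ^ 3 * z .X * hs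
    rw [this] at hAB
    simp [A2, hb, g4_ne, h1, h3] at hAB
  refine ⟨fun hk => ?_, hb, right_ne_zero_of_mul hs, left_ne_zero_of_mul hs⟩
  have hA : z .eA ≠ 0 := fun hA => (facts_eA hz hA).2.2.2.2.2.1 h
  have hka : z .ka = 0 := (mul_eq_zero.1 hk).resolve_left (mul_ne_zero hA hB)
  have ho : z .q ≠ 0 := by simpa [h, hka] using hz.2.ob
  have := fx_B hz
  simp [h, hka, hb, ho] at this

theorem pB_mem (hz : z ∈ MM) : pB z ∈ CB := by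
  refine ⟨fun h => ?_, ?_, ?_⟩
  · exact fx_sp hz (by simpa [pB] using congrFun h 0) (by simpa [pB] using congrFun h 2)
  · rw [mm_pB, mz_pB]; exact fx_1 hz
  · rw [mm_pB, mz_pB]; exact fx_3 hz

theorem yF_mem (hz : z ∈ MM) : yF z ∈ CF := by
  refine ⟨fun h => ?_, ?_⟩
  · rcases hz.2.bk with h' | h'
    · exact h' (by simpa [yF] using congrFun h 1)
    · exact h' (by simpa [yF] using congrFun h 2)
  · show z .X ^ 4 = (bb z ^ 2) ^ 4 + (kb z ^ 2) ^ 4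
    rw [fx_X hz]; ring

end Vale.Agent.P300
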