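import Vale.Agent.P300.Main
import Vale.Agent.P300.Conn2

/-! The counterexample. -/

namespace Vale.Agent.P300

open Topology Filter Set Complex

theorem counterexample : ∃ (N : ℕ) (S : Set (MvPolynomial (Fin N) ℂ)),
    (∀ f ∈ S, ∃ d, f.IsHomogeneous d) ∧ (∀ v ∈ cone S, IsSubmanifoldAt (cone S) v) ∧
    ConnectedSpace (Pj (cone S)) ∧
    ∃ (E : Type) (_ : TopologicalSpace E) (p : E → Pj (cone S)), IsCoveringMap p ∧
      Function.Surjective p ∧ SimplyConnectedSpace E ∧ ¬ HolConvex p := by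
  obtain ⟨N, S, Ψ, hS, hP⟩ := exists_surface
  obtain ⟨z, hz, p₁, p₃, h13, hB, hF, h1, h2⟩ := exists_node
  haveI := locPath_Pj hP.cone hP.retr
  haveI := hP.connected hz
  haveI : PathConnectedSpace (Pj (cone S)) := pathConnectedSpace_iff_connectedSpace.2 this
  obtain ⟨E, _, p, hp, hE, hr⟩ := exists_univ_cover_conn (semiloc_Pj hP.cone hP.retr)
  obtain ⟨e₀, he₀⟩ := hr (pt (Ψ z) (hP.mem z hz))
  exact ⟨N, S, hS, fun v hv => submanifold_of_retr hv (hP.retr v hv), inferInstance, E, _, p, hp,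
    hr, hE, not_holConvex hP hp hz h13 hB hF h1 h2 (he₀ ▸ rep_pt _)⟩

end Vale.Agent.P300
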