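import Vale.Agent.P300.Coc

/-! A compact space with a hyperbolic structure is covered by the disc. -/

namespace Vale.Agent.P300

open Topology Filter Set Complex

/-- A local homeomorphism with uniformly large local sections is a covering map. -/
theorem cover_of_sections {P Y : Type} [TopologicalSpace P] [T2Space P] [TopologicalSpace Y]
    [LocallyConnectedSpace Y] {f : P → Y} (hf : IsLocalHomeomorph f)
    (h : ∀ y₀ : Y, ∃ V ∈ 𝓝 y₀, ∀ e : P, f e ∈ V → ∃ s : Y → P, ContinuousOn s V ∧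
      s (f e) = e ∧ ∀ y ∈ V, f (s y) = y) : IsCoveringMap f := by
  intro y₀
  obtain ⟨V, hV, hs⟩ := h y₀
  obtain ⟨W, hWV, hW, hy₀, hWc⟩ := locallyConnectedSpace_iff_subsets_isOpen_isConnected.1
    inferInstance y₀ V hV
  have h1 : ∀ e : P, ∃ s : Y → P, f e ∈ W → ContinuousOn s W ∧ s (f e) = e ∧
      ∀ y ∈ W, f (s y) = y := by
    intro e
    by_cases he : f e ∈ W
    · obtain ⟨s, s1, s2, s3⟩ := hs e (hWV he)
      exact ⟨s, fun _ => ⟨s1.mono hWV, s2, fun y hy => s3 y (hWV hy)⟩⟩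
    · exact ⟨fun _ => e, fun h => absurd h he⟩
  choose s hs using h1
  have uniq : ∀ e e', f e ∈ W → f e' ∈ W → ∀ y ∈ W, s e y = s e' y → ∀ y' ∈ W, s e y' = s e' y' :=
    fun e e' he he' y hy hyy y' hy' =>
      (T2Space.isSeparatedMap f).eqOn_of_comp_eqOn hf.isLocallyInjective hWc.isPreconnected
        (hs e he).1 (hs e' he').1 (fun z hz => ((hs e he).2.2 z hz).trans ((hs e' he').2.2 z hz).symm)
        hy hyy hy'
  have key : ∀ e, f e ∈ W → ∀ y ∈ W, ∀ y' ∈ W, s (s e y) y' = s e y' := by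
    intro e he y hy y' hy'
    have h2 := (hs e he).2.2 y hy
    have h3 : f (s e y) ∈ W := by rwa [h2]
    refine uniq _ _ h3 he y hy ?_ y' hy'
    have h4 := (hs _ h3).2.1
    rwa [h2] at h4
  have hd : DiscreteTopology (f ⁻¹' {y₀}) :=
    (IsDiscrete.of_openPartialHomeomorph f subset_rfl fun e _ => (hf e).imp fun _ h => ⟨h.1, h.2.symm⟩).1
  have ha : ∀ a : f ⁻¹' {y₀}, f a ∈ W := fun a => by rw [show f a = y₀ from a.2]; exact hy₀
  have hb : ∀ z : W × f ⁻¹' {y₀}, s z.2 z.1 ∈ f ⁻¹' W := fun z => by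
    rw [mem_preimage, (hs _ (ha z.2)).2.2 _ z.1.2]
    exact z.1.2
  refine ⟨hd, W, hy₀, hW, hW.preimage hf.continuous,
    { toFun := fun e => (⟨f e, e.2⟩, ⟨s e y₀, (hs e e.2).2.2 y₀ hy₀⟩)
      invFun := fun z => ⟨s z.2 z.1, hb z⟩
      left_inv := fun e => Subtype.ext ((key e e.2 y₀ hy₀ _ e.2).trans (hs e e.2).2.1)
      right_inv := fun z => Prod.ext (Subtype.ext ((hs _ (ha z.2)).2.2 _ z.1.2)) (Subtype.ext ?_)
      continuous_toFun := Continuous.prodMk ((hf.continuous.comp continuous_subtype_val).subtype_mk _)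
        (Continuous.subtype_mk ?_ _)
      continuous_invFun := Continuous.subtype_mk (continuous_prod_of_discrete_right.2 fun a =>
        (hs _ (ha a)).1.domRestrict) hb }, fun _ => rfl⟩
  · refine (key _ (ha z.2) _ z.1.2 y₀ hy₀).trans ?_
    have h2 := (hs _ (ha z.2)).2.1
    rwa [show f z.2 = y₀ from z.2.2] at h2
  · refine continuous_iff_continuousAt.2 fun e => ?_
    obtain ⟨O, hO, he, hinj⟩ := hf.isLocallyInjective e.1
    have h2 : ContinuousAt (fun e' : f ⁻¹' W => s e (f e')) e :=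
      ContinuousAt.comp (f := fun e' : f ⁻¹' W => f e') ((hs e e.2).1.continuousAt (hW.mem_nhds e.2))
        (hf.continuous.comp continuous_subtype_val).continuousAt
    have h3 := h2.eventually_mem (s := O) (by rw [(hs e e.2).2.1]; exact hO.mem_nhds he)
    have h4 := continuous_subtype_val.continuousAt.eventually_mem (hO.mem_nhds he)
    refine (continuousAt_const (y := s e y₀)).congr ?_
    filter_upwards [h3, h4] with e' h5 h6
    rw [← key e e.2 _ e'.2 y₀ hy₀, hinj h5 h6 ((hs e e.2).2.2 _ e'.2)]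

theorem gx_congr {X Y : Type} [TopologicalSpace X] [TopologicalSpace Y] {f g : X → Y} {x : X}
    (h : IsLocalHomeomorphOn f {x}) (he : g =ᶠ[𝓝 x] f) : IsLocalHomeomorphOn g {x} := by
  obtain ⟨e, hx, rfl⟩ := h x rfl
  obtain ⟨O, h1, h2, h3⟩ := mem_nhds_iff.1 he
  refine IsLocalHomeomorphOn.mk _ _ ?_
  rintro _ rfl
  exact ⟨e.restrOpen O h2, ⟨hx, h3⟩, fun z hz => h1 hz.2⟩

/-- The group of automorphisms of the disc. -/
def gxG : Subgroup (Dsc ≃ₜ Dsc) where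
  carrier := {γ | ∃ f g, DAut f g ∧ ∀ z : Dsc, (γ z : ℂ) = f z}
  one_mem' := ⟨id, id, ⟨differentiableOn_id, differentiableOn_id, mapsTo_id _, mapsTo_id _,
    fun _ _ => rfl, fun _ _ => rfl, fun _ _ _ _ => rfl⟩, fun _ => rfl⟩
  mul_mem' := by
    rintro γ γ' ⟨f, g, h, hγ⟩ ⟨f', g', h', hγ'⟩
    refine ⟨f ∘ f', g' ∘ g, ⟨h.df.comp h'.df h'.mf, h'.dg.comp h.dg h.mg, h.mf.comp h'.mf,
      h'.mg.comp h.mg, fun z hz => ?_, fun z hz => ?_, fun z hz w hw => ?_⟩, fun z => ?_⟩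
    · rw [Function.comp, Function.comp, h.gf _ (h'.mf hz), h'.gf z hz]
    · rw [Function.comp, Function.comp, h'.fg _ (h.mg hz), h.fg z hz]
    · rw [Function.comp, Function.comp, h.iso _ (h'.mf hz) _ (h'.mf hw), h'.iso z hz w hw]
    · rw [Homeomorph.mul_apply, hγ, hγ', Function.comp]
  inv_mem' := by
    rintro γ ⟨f, g, h, hγ⟩
    refine ⟨g, f, ⟨h.dg, h.df, h.mg, h.mf, h.fg, h.gf, fun z hz w hw => ?_⟩, fun z => ?_⟩
    · rw [← h.iso _ (h.mg hz) _ (h.mg hw), h.fg z hz, h.fg w hw]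
    · rw [← h.gf _ (γ⁻¹ z).2, ← hγ, Homeomorph.inv_apply, Homeomorph.apply_symm_apply]

theorem gx_of_dAut {f g : ℂ → ℂ} (h : DAut f g) : ∃ γ : gxG, ∀ z : Dsc, (γ.1 z : ℂ) = f z :=
  ⟨⟨{ toFun := fun z => ⟨f z, h.mf z.2⟩
      invFun := fun z => ⟨g z, h.mg z.2⟩
      left_inv := fun z => Subtype.ext (h.gf z z.2)
      right_inv := fun z => Subtype.ext (h.fg z z.2)
      continuous_toFun := h.df.continuousOn.domRestrict.subtype_mk _
      continuous_invFun := h.dg.continuousOn.domRestrict.subtype_mk _ }, f, g, h, fun _ => rfl⟩,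
    fun _ => rfl⟩

theorem gx_iso (γ : gxG) (z w : Dsc) : phd (γ.1 z) (γ.1 w) = phd z w := by
  obtain ⟨f, g, h, hγ⟩ := γ.2
  rw [hγ, hγ, h.iso _ z.2 _ w.2]

theorem gx_rigid {γ γ' : gxG} {z₀ : Dsc} (h : ∀ᶠ z in 𝓝 z₀, γ.1 z = γ'.1 z) : γ = γ' := by
  obtain ⟨f, g, hf, hγ⟩ := γ.2
  obtain ⟨f', g', hf', hγ'⟩ := γ'.2
  have h1 : f =ᶠ[𝓝 (z₀ : ℂ)] f' := by
    rw [← Metric.isOpen_ball.isOpenEmbedding_subtypeVal.map_nhds_eq, EventuallyEq, eventually_map]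
    filter_upwards [h] with z hz
    rw [← hγ, ← hγ', hz]
  have h2 := (hf.df.analyticOnNhd Metric.isOpen_ball).eqOn_of_preconnected_of_eventuallyEq
    (hf'.df.analyticOnNhd Metric.isOpen_ball) (convex_ball _ _).isPreconnected z₀.2 h1
  ext z
  rw [hγ, hγ', h2 z.2]

theorem gx_den {z w : ℂ} (hz : z ∈ Metric.ball (0 : ℂ) 1) (hw : w ∈ Metric.ball (0 : ℂ) 1) :
    ‖(starRingEnd ℂ) w * z‖ < 1 := by
  rw [mem_ball_zero_iff] at hz hw
  rw [norm_mul, RCLike.norm_conj]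
  exact mul_lt_one_of_nonneg_of_lt_one_left (norm_nonneg _) hw hz.le

theorem gx_den_ne {z w : ℂ} (hz : z ∈ Metric.ball (0 : ℂ) 1) (hw : w ∈ Metric.ball (0 : ℂ) 1) :
    1 - (starRingEnd ℂ) w * z ≠ 0 := fun h => by
  simpa [← sub_eq_zero.1 h] using gx_den hz hw

theorem gx_dist {z w : ℂ} (hz : z ∈ Metric.ball (0 : ℂ) 1) (hw : w ∈ Metric.ball (0 : ℂ) 1) :
    ‖z - w‖ ≤ 2 * phd z w := by
  have h1 := norm_sub_le 1 ((starRingEnd ℂ) w * z)
  have h2 := gx_den hz hw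
  rw [phd, norm_div, ← mul_div_assoc, le_div_iff₀ (norm_pos_iff.2 (gx_den_ne hz hw))]
  rw [norm_one] at h1
  nlinarith [norm_nonneg (z - w)]

theorem gx_small (y₀ : Dsc) {ε : ℝ} (hε : 0 < ε) :
    ∃ V ∈ 𝓝 y₀, ∀ y ∈ V, ∀ y' ∈ V, phd (y : ℂ) (y' : ℂ) < ε := by
  have h1 : Continuous fun p : Dsc × Dsc => phd (p.1 : ℂ) (p.2 : ℂ) :=
    (Continuous.div (by fun_prop) (by fun_prop) fun p => gx_den_ne p.1.2 p.2.2).norm
  have h2 := (h1.continuousAt (x := (y₀, y₀))).eventually_lt continuousAt_const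
    (show phd (y₀ : ℂ) (y₀ : ℂ) < ε by simpa [phd] using hε)
  rw [nhds_prod_eq] at h2
  obtain ⟨V, hV, h3⟩ := mem_prod_self_iff.1 h2
  exact ⟨V, hV, fun y hy y' hy' => h3 (mk_mem_prod hy hy')⟩

/-- Charts have local inverses of uniform size. -/
theorem gx_radius {B ι : Type} [TopologicalSpace B] [CompactSpace B] (U : ι → Set B)
    (ψ : ι → B → ℂ) (hU : ∀ i, IsOpen (U i)) (hcov : ∀ b, ∃ i, b ∈ U i)
    (hm : ∀ i, MapsTo (ψ i) (U i) (Metric.ball 0 1))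
    (hloc : ∀ i, ∀ b ∈ U i, ∃ e : OpenPartialHomeomorph B ℂ, b ∈ e.source ∧ ψ i =ᶠ[𝓝 b] e) :
    ∃ ε > 0, ∀ b ∈ (univ : Set B), ∃ i, b ∈ U i ∧ ∃ χ : ℂ → B, χ (ψ i b) = b ∧
      ∀ z ∈ Metric.ball (0 : ℂ) 1, phd z (ψ i b) < ε →
        ContinuousAt χ z ∧ χ z ∈ U i ∧ ψ i (χ z) = z := by
  refine isCompact_univ.induction_on (p := fun s => ∃ ε > 0, ∀ b ∈ s, ∃ i, b ∈ U i ∧
    ∃ χ : ℂ → B, χ (ψ i b) = b ∧ ∀ z ∈ Metric.ball (0 : ℂ) 1, phd z (ψ i b) < ε →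
      ContinuousAt χ z ∧ χ z ∈ U i ∧ ψ i (χ z) = z) ⟨1, one_pos, by simp⟩ ?_ ?_ ?_
  · rintro s t hst ⟨ε, h0, h⟩
    exact ⟨ε, h0, fun b hb => h b (hst hb)⟩
  · rintro s t ⟨ε, h0, h⟩ ⟨ε', h0', h'⟩
    refine ⟨min ε ε', lt_min h0 h0', ?_⟩
    rintro b (hb | hb)
    · obtain ⟨i, hi, χ, h1, h2⟩ := h b hb
      exact ⟨i, hi, χ, h1, fun z hz h3 => h2 z hz (h3.trans_le (min_le_left _ _))⟩
    · obtain ⟨i, hi, χ, h1, h2⟩ := h' b hb
      exact ⟨i, hi, χ, h1, fun z hz h3 => h2 z hz (h3.trans_le (min_le_right _ _))⟩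
  · intro b₁ _
    obtain ⟨i, hi⟩ := hcov b₁
    obtain ⟨E, hE, h1⟩ := hloc i b₁ hi
    have h2 : ∀ᶠ b in 𝓝 b₁, b ∈ E.source ∧ b ∈ U i ∧ ψ i b = E b := by
      filter_upwards [E.open_source.mem_nhds hE, (hU i).mem_nhds hi, h1] with b a1 a2 a3
      exact ⟨a1, a2, a3⟩
    obtain ⟨r, hr, h3⟩ := Metric.mem_nhds_iff.1 (E.image_mem_nhds hE h2)
    have h4 := (E.continuousAt hE).eventually_mem (Metric.ball_mem_nhds (E b₁) (half_pos hr))
    refine ⟨_, mem_nhdsWithin_of_mem_nhds (h2.and h4), r / 4, by positivity, ?_⟩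
    rintro b ⟨⟨a1, a2, a3⟩, a4⟩
    refine ⟨i, a2, E.symm, by rw [a3, E.left_inv a1], fun z hz h5 => ?_⟩
    have h6 := gx_dist hz (hm i a2)
    rw [a3, ← dist_eq_norm] at h6
    rw [a3] at h5
    obtain ⟨b', ⟨c1, c2, c3⟩, rfl⟩ := h3 (show dist z (E b₁) < r by
      linarith [dist_triangle z (E b) (E b₁), Metric.mem_ball.1 a4])
    rw [E.left_inv c1]
    exact ⟨E.continuousAt_symm (E.map_source c1), c2, c3⟩

/-- The developing map. -/
theorem gx_dev {B ι : Type} [TopologicalSpace B] (U : ι → Set B) (φ : ι → B → Dsc)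
    (hU : ∀ i, IsOpen (U i)) (hcov : ∀ b, ∃ i, b ∈ U i)
    (hloc : ∀ i, ∀ b ∈ U i, IsLocalHomeomorphOn (φ i) {b})
    (htr : ∀ i j, ∀ b ∈ U i ∩ U j, ∃ γ : gxG, ∀ᶠ b' in 𝓝 b, γ.1 (φ j b') = φ i b') :
    ∃ (P : Type) (_ : TopologicalSpace P) (pr : P → B) (t : ι → P → gxG) (s : ι → gxG → B → P)
      (ev : P → Dsc), IsCoveringMap pr ∧ IsLocalHomeomorph ev ∧
      (∀ i e, pr e ∈ U i → ∀ᶠ e' in 𝓝 e, t i e' = t i e) ∧
      (∀ i e, pr e ∈ U i → ev e = (t i e).1 (φ i (pr e))) ∧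
      (∀ i γ, ContinuousOn (s i γ) (U i)) ∧
      (∀ i γ b, b ∈ U i → pr (s i γ b) = b ∧ t i (s i γ b) = γ) ∧
      (∀ i e, pr e ∈ U i → s i (t i e) (pr e) = e) := by
  choose! g hg using htr
  have uniq : ∀ j b, b ∈ U j → ∀ γ γ' : gxG, (∀ᶠ b' in 𝓝 b, γ.1 (φ j b') = γ'.1 (φ j b')) →
      γ = γ' := by
    intro j b hb γ γ' h
    refine gx_rigid (z₀ := φ j b) ?_
    rwa [← (hloc j b hb).map_nhds_eq rfl, eventually_map]
  obtain ⟨P, _, pr, t, s, h1, h2, h3, h4, h5, h6⟩ := exists_cocycle_cover U hU hcov g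
    (fun i j b hi hj => by
      filter_upwards [(hU i).mem_nhds hi, (hU j).mem_nhds hj, (hg i j b ⟨hi, hj⟩).eventually_nhds]
        with b' a1 a2 a3
      refine uniq j b' a2 _ _ ?_
      filter_upwards [a3, hg i j b' ⟨a1, a2⟩] with b'' c1 c2
      rw [c1, c2])
    (fun i j k b hi hj hk => uniq k b hk _ _ (by
      filter_upwards [hg i j b ⟨hi, hj⟩, hg j k b ⟨hj, hk⟩, hg i k b ⟨hi, hk⟩] with b' c1 c2 c3
      rw [c3, Subgroup.coe_mul, Homeomorph.mul_apply, c2, c1]))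
  choose c hc using hcov
  have h7 : ∀ i e, pr e ∈ U i → (t (c (pr e)) e).1 (φ (c (pr e)) (pr e)) = (t i e).1 (φ i (pr e)) := by
    intro i e he
    rw [h3 i _ e he (hc _), Subgroup.coe_mul, Homeomorph.mul_apply,
      (hg i _ _ ⟨he, hc _⟩).self_of_nhds]
  refine ⟨P, inferInstance, pr, t, s, fun e => (t (c (pr e)) e).1 (φ (c (pr e)) (pr e)), h1,
    fun e => ?_, h2, h7, h4, h5, h6⟩
  have h8 : IsLocalHomeomorphOn ((t (c (pr e)) e).1 ∘ φ (c (pr e)) ∘ pr) {e} :=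
    ((t (c (pr e)) e).1.isLocalHomeomorph.isLocalHomeomorphOn (s := univ)).comp
      ((hloc _ _ (hc _)).comp h1.isLocalHomeomorph.isLocalHomeomorphOn
        (mapsTo_singleton.2 rfl)) (mapsTo_univ _ _)
  refine gx_congr h8 ?_ e rfl
  filter_upwards [h2 _ e (hc _), h1.continuous.continuousAt.eventually_mem ((hU _).mem_nhds (hc _))]
    with e' a1 a2
  rw [h7 _ e' a2, a1]
  rfl

theorem gx {B ι : Type} [TopologicalSpace B] [CompactSpace B] [T2Space B] (U : ι → Set B)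
    (ψ : ι → B → ℂ) (hU : ∀ i, IsOpen (U i)) (hcov : ∀ b, ∃ i, b ∈ U i)
    (hm : ∀ i, MapsTo (ψ i) (U i) (Metric.ball 0 1))
    (hloc : ∀ i, ∀ b ∈ U i, ∃ e : OpenPartialHomeomorph B ℂ, b ∈ e.source ∧ ψ i =ᶠ[𝓝 b] e)
    (htr : ∀ i j, ∀ b ∈ U i ∩ U j, ∃ f g, DAut f g ∧ ψ j =ᶠ[𝓝 b] fun b' => f (ψ i b'))
    {i₀ : ι} {b₀ : B} (hb₀ : b₀ ∈ U i₀) (h0 : ψ i₀ b₀ = 0) :
    ∃ u : Dsc → B, Continuous u ∧ u Dsc.o = b₀ ∧ Lifts u ∧
      ∀ ζ₀ : Dsc, ∃ i f g, DAut f g ∧ u ζ₀ ∈ U i ∧ ∀ᶠ ζ in 𝓝 ζ₀, f (ψ i (u ζ)) = (ζ : ℂ) := by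
  classical
  obtain ⟨φ, hφ⟩ : ∃ φ : ι → B → Dsc, ∀ i, ∀ b ∈ U i, (φ i b : ℂ) = ψ i b :=
    ⟨fun i b => if h : b ∈ U i then ⟨_, hm i h⟩ else Dsc.o, fun i b hb => by simp [hb]⟩
  have hv := (Metric.isOpen_ball (x := (0 : ℂ)) (ε := 1)).isOpenEmbedding_subtypeVal
  obtain ⟨P, _, pr, t, s, ev, h1, h2, h3, h4, h5, h6, h7⟩ := gx_dev U φ hU hcov
    (fun i b hb => by
      obtain ⟨E, hE, a1⟩ := hloc i b hb
      have a2 : IsLocalHomeomorphOn (Subtype.val ∘ φ i) {b} :=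
        gx_congr (f := E) (fun _ h => ⟨E, h ▸ hE, rfl⟩) (by
          filter_upwards [a1, (hU i).mem_nhds hb] with b' c1 c2
          rw [← c1, ← hφ i b' c2]
          rfl)
      exact a2.of_comp_left hv.isLocalHomeomorph.isLocalHomeomorphOn fun x hx =>
        hv.isInducing.continuousAt_iff.2 (a2.continuousAt hx))
    (fun i j b hb => by
      obtain ⟨f, g, a1, a2⟩ := htr j i b ⟨hb.2, hb.1⟩
      obtain ⟨γ, hγ⟩ := gx_of_dAut a1
      refine ⟨γ, ?_⟩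
      filter_upwards [a2, (hU i).mem_nhds hb.1, (hU j).mem_nhds hb.2] with b' c1 c2 c3
      exact Subtype.ext (by rw [hγ, hφ i b' c2, hφ j b' c3, c1]))
  have : T2Space P := ⟨fun e e' h => by
    by_cases a : pr e = pr e'
    · exact h1.isSeparatedMap e e' a h
    · exact separated_by_continuous h1.continuous a⟩
  have : LocallyPathConnectedSpace Dsc := Metric.isOpen_ball.locallyPathConnectedSpace
  have : ContractibleSpace Dsc := (convex_ball (0 : ℂ) 1).contractibleSpace ⟨0, by simp⟩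
  obtain ⟨ε, hε, hr⟩ := gx_radius U ψ hU hcov hm hloc
  have hev : IsCoveringMap ev := by
    refine cover_of_sections h2 fun y₀ => ?_
    obtain ⟨V, hV, a1⟩ := gx_small y₀ hε
    refine ⟨V, hV, fun e he => ?_⟩
    obtain ⟨i, hi, χ, a2, a3⟩ := hr (pr e) (mem_univ _)
    have a4 : ((t i e).1.symm (ev e) : ℂ) = ψ i (pr e) := by
      rw [h4 i e hi, Homeomorph.symm_apply_apply, hφ i _ hi]
    have a5 := fun y (hy : y ∈ V) => a3 _ ((t i e).1.symm y).2 (by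
      rw [← a4, ← gx_iso (t i e), Homeomorph.apply_symm_apply, Homeomorph.apply_symm_apply]
      exact a1 y hy _ he)
    refine ⟨fun y => s i (t i e) (χ ((t i e).1.symm y)), fun y hy => ?_, ?_, fun y hy => ?_⟩
    · refine ContinuousAt.continuousWithinAt ?_
      exact ContinuousAt.comp (f := fun y => χ ((t i e).1.symm y))
        ((h5 _ _).continuousAt ((hU i).mem_nhds (a5 y hy).2.1))
        (ContinuousAt.comp (f := fun y => ((t i e).1.symm y : ℂ)) (a5 y hy).1 (by fun_prop))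
    · simp only [a4, a2, h7 i e hi]
    · obtain ⟨c1, c2⟩ := h6 i (t i e) _ (a5 y hy).2.1
      rw [h4 i _ (by rw [c1]; exact (a5 y hy).2.1), c1, c2,
        show φ i (χ ((t i e).1.symm y)) = (t i e).1.symm y from
          Subtype.ext (by rw [hφ i _ (a5 y hy).2.1, (a5 y hy).2.2]), Homeomorph.apply_symm_apply]
  obtain ⟨c1, c2⟩ := h6 i₀ 1 b₀ hb₀
  obtain ⟨σ, ⟨σ0, σ1⟩, -⟩ := hev.existsUnique_continuousMap_lifts (ContinuousMap.id Dsc) Dsc.o
    (s i₀ 1 b₀) (by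
      rw [h4 i₀ _ (by rwa [c1]), c1, c2]
      exact Subtype.ext ((hφ i₀ b₀ hb₀).trans h0))
  have σ2 : ∀ ζ, ev (σ ζ) = ζ := congrFun σ1
  refine ⟨pr ∘ σ, h1.continuous.comp σ.continuous, by rw [Function.comp, σ0, c1], ?_, fun ζ₀ => ?_⟩
  · intro Z _ _ _ f hf z₀ ζ₀ h
    obtain ⟨F, ⟨F0, F1⟩, -⟩ := h1.existsUnique_continuousMap_lifts ⟨f, hf⟩ z₀ (σ ζ₀) h
    have a1 := hev.continuous.comp F.continuous
    have a2 := hev.eq_of_comp_eq (σ.continuous.comp a1) F.continuous (funext fun z => σ2 _) z₀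
      (by simp only [Function.comp, F0, σ2])
    exact ⟨ev ∘ F, a1, by rw [Function.comp, F0, σ2],
      fun z => (congrArg pr (congrFun a2 z)).trans (congrFun F1 z)⟩
  · obtain ⟨i, hi⟩ := hcov (pr (σ ζ₀))
    obtain ⟨f, g, a1, a2⟩ := (t i (σ ζ₀)).2
    refine ⟨i, f, g, a1, hi, ?_⟩
    filter_upwards [σ.continuous.continuousAt.eventually (h3 i _ hi),
      (h1.continuous.comp σ.continuous).continuousAt.eventually_mem ((hU i).mem_nhds hi)]
      with ζ a3 a4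
    rw [← hφ i _ a4, ← a2, ← a3]
    exact congrArg Subtype.val ((h4 i _ a4).symm.trans (σ2 ζ))

end Vale.Agent.P300
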