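import Vale.Agent.P300.Proj

/-! Holomorphic functions on a covering space. -/

namespace Vale.Agent.P300

open Topology Filter Set Complex
open scoped Convex

variable {N : ℕ} {C : Set (Fin N → ℂ)} {E : Type} [TopologicalSpace E] {p : E → Pj C}

theorem isHol_iff {g : E → ℂ} : IsHol p g ↔ ∀ e, HolAt p g e := Iff.rfl

/-- The defining property holds for every choice of coordinates. -/
theorem HolAt.of_rep (hC : IsCone C) {g : E → ℂ} {e : E} (h : HolAt p g e) {v : Fin N → ℂ}
    (hv : Rep (p e) v) : ∃ G : (Fin N → ℂ) → ℂ, AnalyticAt ℂ G v ∧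
      ∀ᶠ q : E × (Fin N → ℂ) in 𝓝 (e, v), Rep (p q.1) q.2 → g q.1 = G q.2 := by
  obtain ⟨v₀, G, he, hG, hev⟩ := h
  have h0 : Rep (p e) v₀.1 := ⟨v₀.2, he⟩
  obtain ⟨c, hc, hcv⟩ := hv.par h0
  have hlin : AnalyticAt ℂ (fun u : Fin N → ℂ => c • u) v := by fun_prop
  refine ⟨fun u => G (c • u), ?_, ?_⟩
  · exact AnalyticAt.comp (g := G) (f := fun u : Fin N → ℂ => c • u) (by rw [← hcv]; exact hG)
      hlin
  · have hind : IsInducing (Prod.map id Subtype.val : E × C → E × (Fin N → ℂ)) :=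
      IsInducing.id.prodMap IsInducing.subtypeVal
    rw [hind.nhds_eq_comap, eventually_comap] at hev
    have hcont : Continuous (fun q : E × (Fin N → ℂ) => (q.1, c • q.2)) := by fun_prop
    have ht : Tendsto (fun q : E × (Fin N → ℂ) => (q.1, c • q.2)) (𝓝 (e, v))
        (𝓝 (Prod.map id Subtype.val (e, v₀))) := by
      have := hcont.tendsto (e, v)
      simpa only [Prod.map, id, hcv] using this
    filter_upwards [ht.eventually hev] with q hq hr
    have hr' : Rep (p q.1) (c • q.2) := hr.of_par hC ⟨c, hc, rfl⟩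
    exact hq (q.1, ⟨c • q.2, hr'.1⟩) rfl hr'.2

theorem holAt_of_rep {g : E → ℂ} {e : E} {v : Fin N → ℂ} (hv : Rep (p e) v)
    {G : (Fin N → ℂ) → ℂ} (hG : AnalyticAt ℂ G v)
    (h : ∀ᶠ q : E × (Fin N → ℂ) in 𝓝 (e, v), Rep (p q.1) q.2 → g q.1 = G q.2) :
    HolAt p g e := by
  refine ⟨⟨v, hv.1⟩, G, hv.2, hG, ?_⟩
  have hcont : Continuous (Prod.map id Subtype.val : E × C → E × (Fin N → ℂ)) := by fun_prop
  filter_upwards [(hcont.tendsto (e, ⟨v, hv.1⟩)).eventually h] with q hq hr
  exact hq ⟨q.2.2, hr⟩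

theorem IsHol.sub (hC : IsCone C) {f g : E → ℂ} (hf : IsHol p f) (hg : IsHol p g) :
    IsHol p (fun e => f e - g e) := by
  intro e
  obtain ⟨v, hv⟩ := exists_rep (p e)
  obtain ⟨F, hF, h1⟩ := HolAt.of_rep hC (hf e) hv
  obtain ⟨G, hG, h2⟩ := HolAt.of_rep hC (hg e) hv
  refine holAt_of_rep (g := fun e => f e - g e) (G := fun u => F u - G u) hv (hF.sub hG) ?_
  filter_upwards [h1, h2] with q h1 h2 hr
  rw [h1 hr, h2 hr]

theorem IsHol.continuous (hC : IsCone C) (hp : Continuous p) {g : E → ℂ} (hg : IsHol p g) :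
    Continuous g := by
  rw [continuous_iff_continuousAt]
  intro e
  obtain ⟨v, hv⟩ := exists_rep (p e)
  obtain ⟨G, hG, h⟩ := HolAt.of_rep hC (hg e) hv
  obtain ⟨j, -, hs, hsv, hrep⟩ := hv.exists_sec hC
  have h1 : ContinuousAt (fun e' => v j • nrm j (p e')) e :=
    ContinuousAt.comp (g := fun η : Pj C => v j • nrm j η) hs.self_of_nhds hp.continuousAt
  have ht : Tendsto (fun e' => (e', v j • nrm j (p e'))) (𝓝 e) (𝓝 (e, v)) := by
    have := continuousAt_id.prodMk h1
    simpa only [ContinuousAt, id, hsv] using this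
  have h2 : ContinuousAt (fun e' => G (v j • nrm j (p e'))) e :=
    ContinuousAt.comp (g := G) (by rw [hsv]; exact hG.continuousAt) h1
  refine h2.congr ?_
  filter_upwards [ht.eventually h, hp.continuousAt.eventually hrep] with e' h3 h4
  exact (h3 h4).symm

/-- A holomorphic function is analytic along a continuous map that has analytic coordinates. -/
theorem IsHol.analyticAt_comp (hC : IsCone C) {g : E → ℂ} (hg : IsHol p g) {F : Type}
    [NormedAddCommGroup F] [NormedSpace ℂ F] {l : F → E} {γ : F → Fin N → ℂ} {a : F}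
    (hl : ContinuousAt l a) (hγ : AnalyticAt ℂ γ a) (h : ∀ᶠ b in 𝓝 a, Rep (p (l b)) (γ b)) :
    AnalyticAt ℂ (fun b => g (l b)) a := by
  obtain ⟨G, hG, h1⟩ := HolAt.of_rep hC (hg (l a)) h.self_of_nhds
  have ht : Tendsto (fun b => (l b, γ b)) (𝓝 a) (𝓝 (l a, γ a)) := hl.prodMk hγ.continuousAt
  refine (AnalyticAt.comp hG hγ).congr ?_
  filter_upwards [ht.eventually h1, h] with b h3 h4
  exact (h3 h4).symm

/-- A ball of the ambient space mapped onto a neighbourhood of a point of the covering space. -/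
theorem exists_ball_param (hC : IsCone C) (hR : ∀ v ∈ C, Retr C v) (hp : IsLocalHomeomorph p)
    (e : E) {U : Set E} (hU : U ∈ 𝓝 e) :
    ∃ (v : Fin N → ℂ) (ε : ℝ) (l : (Fin N → ℂ) → E), 0 < ε ∧ l v = e ∧
      ContinuousOn l (Metric.ball v ε) ∧ MapsTo l (Metric.ball v ε) U ∧
      l '' Metric.ball v ε ∈ 𝓝 e ∧
      ∀ g : E → ℂ, IsHol p g → AnalyticOnNhd ℂ (fun b => g (l b)) (Metric.ball v ε) := by
  classical
  obtain ⟨v, hv⟩ := exists_rep (p e)
  obtain ⟨R, hRa, hRC, hRid⟩ := hR v hv.1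
  obtain ⟨φ, heφ, hφ⟩ := hp e
  have hpc : Continuous p := hp.continuous
  let ρ : (Fin N → ℂ) → Pj C := fun b => if h : R b ∈ C then pt (R b) h else p e
  have hρ : ∀ b, R b ∈ C → Rep (ρ b) (R b) := fun b hb => ⟨hb, by simp only [ρ, dif_pos hb]⟩
  have hRv : R v = v := hRid.self_of_nhds hv.1
  have hρv : ρ v = p e := by
    have := hρ v hRC.self_of_nhds
    rw [hRv] at this
    exact this.eq hv
  have hev1 : ∀ᶠ b in 𝓝 v, AnalyticAt ℂ R b ∧ (∀ᶠ y in 𝓝 b, Rep (ρ y) (R y)) := by
    filter_upwards [hRa.eventually_analyticAt, hRC.eventually_nhds] with b h1 h2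
    exact ⟨h1, h2.mono fun y hy => hρ y hy⟩
  have hρc : ∀ᶠ b in 𝓝 v, ContinuousAt ρ b :=
    hev1.mono fun b hb => continuousAt_of_rep hb.1.continuousAt hb.2
  have htar : p e ∈ φ.target := by rw [hφ]; exact φ.map_source heφ
  have hev2 : ∀ᶠ b in 𝓝 v, ρ b ∈ φ.target :=
    hρc.self_of_nhds.eventually (φ.open_target.mem_nhds (by rw [hρv]; exact htar))
  let l : (Fin N → ℂ) → E := fun b => φ.symm (ρ b)
  have hlv : l v = e := by
    simp only [l, hρv]
    rw [hφ]
    exact φ.left_inv heφ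
  have hlc : ∀ᶠ b in 𝓝 v, ContinuousAt l b := by
    filter_upwards [hρc, hev2] with b h1 h2
    exact ContinuousAt.comp (g := φ.symm) (φ.continuousAt_symm h2) h1
  have hlU : ∀ᶠ b in 𝓝 v, l b ∈ U :=
    hlc.self_of_nhds.eventually (by rw [hlv]; exact hU)
  have hpl : ∀ᶠ b in 𝓝 v, ∀ᶠ y in 𝓝 b, Rep (p (l y)) (R y) := by
    filter_upwards [hev1, hev2.eventually_nhds] with b h1 h2
    filter_upwards [h1.2, h2] with y h3 h4
    have : p (l y) = ρ y := by
      rw [hφ]
      exact φ.right_inv h4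
    rwa [this]
  obtain ⟨ε, hε, hball⟩ := Metric.eventually_nhds_iff_ball.1
    (hev1.and (hlc.and (hlU.and (hpl.and hRid))))
  refine ⟨v, ε, l, hε, hlv, fun b hb => (hball b hb).2.1.continuousWithinAt,
    fun b hb => (hball b hb).2.2.1, ?_, fun g hg b hb =>
      hg.analyticAt_comp hC (hball b hb).2.1 (hball b hb).1.1 (hball b hb).2.2.2.1⟩
  obtain ⟨j, -, hs, hsv, hrep⟩ := hv.exists_sec hC
  have h1 : ContinuousAt (fun e' => v j • nrm j (p e')) e :=
    ContinuousAt.comp (g := fun η : Pj C => v j • nrm j η) hs.self_of_nhds hpc.continuousAt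
  have h2 : ∀ᶠ e' in 𝓝 e, v j • nrm j (p e') ∈ Metric.ball v ε :=
    h1.eventually (by beta_reduce; rw [hsv]; exact Metric.ball_mem_nhds v hε)
  filter_upwards [h2, hpc.continuousAt.eventually hrep, φ.open_source.mem_nhds heφ]
    with e' h3 h4 h5
  refine ⟨_, h3, ?_⟩
  have h6 : R (v j • nrm j (p e')) = v j • nrm j (p e') := (hball _ h3).2.2.2.2 h4.1
  have h7 : ρ (v j • nrm j (p e')) = p e' := by
    have := hρ (v j • nrm j (p e')) (by rw [h6]; exact h4.1)
    rw [h6] at this
    exact this.eq h4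
  simp only [l, h7]
  rw [hφ]
  exact φ.left_inv h5

/-- The identity theorem. -/
theorem IsHol.frequently_ne (hC : IsCone C) (hR : ∀ v ∈ C, Retr C v) (hp : IsLocalHomeomorph p)
    [PreconnectedSpace E] {g : E → ℂ} (hg : IsHol p g) {e₀ : E} (h0 : g e₀ ≠ 0) (e : E) :
    ∃ᶠ e' in 𝓝 e, g e' ≠ 0 := by
  let Z : Set E := {e | ∀ᶠ e' in 𝓝 e, g e' = 0}
  have hZo : IsOpen Z := isOpen_setOfPred_eventually_nhds
  have hZc : IsClosed Z := by
    rw [← closure_subset_iff_isClosed]
    intro x hx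
    obtain ⟨v, ε, l, hε, hlv, hlc, -, him, han⟩ := exists_ball_param hC hR hp x univ_mem
    obtain ⟨y, ⟨b, hb, rfl⟩, hy⟩ := mem_closure_iff_nhds.1 hx _ him
    have hb' : ContinuousAt l b := hlc.continuousAt (Metric.isOpen_ball.mem_nhds hb)
    have hz : EqOn (fun b => g (l b)) 0 (Metric.ball v ε) :=
      (han g hg).eqOn_zero_of_preconnected_of_eventuallyEq_zero
        (convex_ball v ε).isPreconnected hb (hb'.eventually hy)
    filter_upwards [him] with e' he'
    obtain ⟨b', hb', rfl⟩ := he'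
    exact hz hb'
  rcases isClopen_iff.1 ⟨hZc, hZo⟩ with h | h
  · have : e ∉ Z := by rw [h]; exact notMem_empty e
    exact not_eventually.1 this
  · have : e₀ ∈ Z := by rw [h]; exact mem_univ _
    exact absurd this.self_of_nhds h0

/-- An open convex plane set minus a countable set is path connected. -/
theorem joinedIn_diff_countable {T s : Set ℂ} (hT : IsOpen T) (hc : Convex ℝ T)
    (hs : s.Countable) {a b : ℂ} (haT : a ∈ T) (hbT : b ∈ T) (ha : a ∉ s) (hb : b ∉ s) :
    JoinedIn (T \ s) a b := by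
  rcases eq_or_ne a b with rfl | hab
  · exact JoinedIn.refl ⟨haT, ha⟩
  let c := (2 : ℝ)⁻¹ • (a + b)
  let x := (2 : ℝ)⁻¹ • (b - a)
  have Ia : c - x = a := by
    simp only [c, x]
    module
  have Ib : c + x = b := by
    simp only [c, x]
    module
  have hcT : c ∈ T := by
    have := hc haT hbT (a := (2 : ℝ)⁻¹) (b := (2 : ℝ)⁻¹) (by norm_num) (by norm_num)
      (by norm_num)
    simpa only [c, smul_add] using this
  have x_ne_zero : x ≠ 0 := by simpa [x] using sub_ne_zero.2 hab.symm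
  obtain ⟨y, hy⟩ : ∃ y, LinearIndependent ℝ ![x, y] :=
    exists_linearIndependent_pair_of_one_lt_rank (by simp) x_ne_zero
  have A : Set.Countable {t : ℝ | ([c + x -[ℝ] c + t • y] ∩ s).Nonempty} := by
    apply countable_ofPred_nonempty_of_disjoint _ (fun t ↦ inter_subset_right) hs
    intro t t' htt'
    apply disjoint_iff_inter_eq_empty.2
    have N : {c + x} ∩ s = ∅ := by
      simpa only [singleton_inter_eq_empty, mem_compl_iff, Ib] using hb
    rw [inter_assoc, inter_comm s, inter_assoc, inter_self, ← inter_assoc, ← subset_empty_iff, ← N]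
    apply inter_subset_inter_left
    apply Eq.subset
    apply segment_inter_eq_endpoint_of_linearIndependent_of_ne hy htt'.symm
  have B : Set.Countable {t : ℝ | ([c - x -[ℝ] c + t • y] ∩ s).Nonempty} := by
    apply countable_ofPred_nonempty_of_disjoint _ (fun t ↦ inter_subset_right) hs
    intro t t' htt'
    apply disjoint_iff_inter_eq_empty.2
    have N : {c - x} ∩ s = ∅ := by
      simpa only [singleton_inter_eq_empty, mem_compl_iff, Ia] using ha
    rw [inter_assoc, inter_comm s, inter_assoc, inter_self, ← inter_assoc, ← subset_empty_iff, ← N]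
    apply inter_subset_inter_left
    rw [sub_eq_add_neg _ x]
    apply Eq.subset
    apply segment_inter_eq_endpoint_of_linearIndependent_of_ne _ htt'.symm
    convert! hy.units_smul ![-1, 1]
    simp [← List.ofFn_inj]
  have hO : IsOpen {t : ℝ | c + t • y ∈ T} := hT.preimage (by fun_prop)
  obtain ⟨t, htT, ht⟩ := ((A.union B).dense_compl ℝ).inter_open_nonempty _ hO
    ⟨0, by simpa using hcT⟩
  simp only [compl_union, mem_inter_iff, mem_compl_iff, mem_ofPred_eq, not_nonempty_iff_eq_empty]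
    at ht
  have JA : JoinedIn (T \ s) a (c + t • y) := by
    apply JoinedIn.of_segment_subset
    refine subset_sdiff.2 ⟨hc.segment_subset haT htT, ?_⟩
    rw [disjoint_iff_inter_eq_empty]
    convert! ht.2
    exact Ia.symm
  have JB : JoinedIn (T \ s) b (c + t • y) := by
    apply JoinedIn.of_segment_subset
    refine subset_sdiff.2 ⟨hc.segment_subset hbT htT, ?_⟩
    rw [disjoint_iff_inter_eq_empty]
    convert! ht.1
    exact Ib.symm
  exact JA.trans JB.symm

/-- The zeros of a nonzero analytic function on a connected open set are countable. -/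
theorem countable_zeros {T : Set ℂ} (hT : IsPreconnected T) {h : ℂ → ℂ}
    (hh : AnalyticOnNhd ℂ h T) {a : ℂ} (ha : a ∈ T) (h0 : h a ≠ 0) :
    {z | z ∈ T ∧ h z = 0}.Countable := by
  have hd : IsDiscrete {z | z ∈ T ∧ h z = 0} := by
    rw [isDiscrete_iff_forall_mem_exists_isOpen]
    intro z hz
    rcases (hh z hz.1).eventually_eq_zero_or_eventually_ne_zero with h1 | h1
    · exact absurd (hh.eqOn_zero_of_preconnected_of_eventuallyEq_zero hT hz.1 h1 ha) h0
    · obtain ⟨W, hW, hWo, hzW⟩ := eventually_nhds_iff.1 (eventually_nhdsWithin_iff.1 h1)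
      refine ⟨W, hWo, ?_⟩
      ext w
      constructor
      · rintro ⟨h2, h3⟩
        by_contra h4
        exact hW w h2 h4 h3.2
      · rintro rfl
        exact ⟨hzW, hz⟩
  have := hd.to_subtype
  exact countable_of_Lindelof_of_discrete (X := {z | z ∈ T ∧ h z = 0})

/-- The complement of the zeros of an analytic function in a ball is connected and dense. -/
theorem ball_diff_zeros {F : Type} [NormedAddCommGroup F] [NormedSpace ℂ F] {f : F → ℂ} {v : F}
    {ε : ℝ} (hf : AnalyticOnNhd ℂ f (Metric.ball v ε)) {b : F} (hb : b ∈ Metric.ball v ε)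
    (h0 : f b ≠ 0) : IsPreconnected {a | a ∈ Metric.ball v ε ∧ f a ≠ 0} ∧
      Metric.ball v ε ⊆ closure {a | a ∈ Metric.ball v ε ∧ f a ≠ 0} := by
  let : NormedSpace ℝ F := NormedSpace.restrictScalars ℝ ℂ F
  constructor
  · suffices hpc : IsPathConnected {a | a ∈ Metric.ball v ε ∧ f a ≠ 0} from
      hpc.isConnected.isPreconnected
    refine ⟨b, ⟨hb, h0⟩, ?_⟩
    rintro a ⟨ha, ha0⟩
    let L : ℂ → F := fun τ => b + τ • (a - b)
    have hL : Continuous L := by fun_prop
    have hLa : ∀ τ, AnalyticAt ℂ L τ := fun τ => by fun_prop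
    let T : Set ℂ := L ⁻¹' Metric.ball v ε
    have hTo : IsOpen T := Metric.isOpen_ball.preimage hL
    have hTc : Convex ℝ T := by
      intro x hx y hy s t hs ht hst
      have := convex_ball v ε hx hy hs ht hst
      have h1 : L (s • x + t • y) = s • L x + t • L y := by
        have e1 : ∀ (r : ℝ) (w : F), r • w = (r : ℂ) • w := fun r w => rfl
        have e2 : (s : ℂ) + t = 1 := by exact_mod_cast hst
        simp only [L, e1, real_smul]
        have e3 : b = ((s : ℂ) + t) • b := by rw [e2, one_smul]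
        nth_rewrite 1 [e3]
        module
      show L (s • x + t • y) ∈ Metric.ball v ε
      rwa [h1]
    have h0T : (0 : ℂ) ∈ T := by simpa [T, L] using hb
    have h1T : (1 : ℂ) ∈ T := by simpa [T, L] using ha
    have hh : AnalyticOnNhd ℂ (fun τ => f (L τ)) T := fun τ hτ =>
      AnalyticAt.comp (hf _ hτ) (hLa τ)
    have hcount := countable_zeros hTc.isPreconnected hh h0T (by simpa [L] using h0)
    have hj := joinedIn_diff_countable hTo hTc hcount h0T h1T
      (by simp [L, h0]) (by simp [L, ha0])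
    have hj' := hj.map hL
    have e0 : L 0 = b := by simp [L]
    have e1 : L 1 = a := by simp [L]
    rw [e0, e1] at hj'
    refine hj'.mono ?_
    rintro _ ⟨τ, ⟨h1, h2⟩, rfl⟩
    exact ⟨h1, fun h3 => h2 ⟨h1, h3⟩⟩
  · intro a ha
    rw [mem_closure_iff_frequently]
    by_contra h1
    rw [not_frequently] at h1
    have h2 : f =ᶠ[𝓝 a] 0 := by
      filter_upwards [h1, Metric.isOpen_ball.mem_nhds ha] with y h3 h4
      by_contra h5
      exact h3 ⟨h4, h5⟩
    exact h0 (hf.eqOn_zero_of_preconnected_of_eventuallyEq_zero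
      (convex_ball v ε).isPreconnected ha h2 hb)

theorem IsHol.sqUnique (hC : IsCone C) (hR : ∀ v ∈ C, Retr C v) (hp : IsLocalHomeomorph p)
    [PreconnectedSpace E] {g : E → ℂ} (hg : IsHol p g) {e₀ : E} (h0 : g e₀ ≠ 0) (e : E) :
    SqUnique g e := by
  have hfr := hg.frequently_ne hC hR hp h0 e
  refine ⟨hfr, fun r r' hr hr' h1 h2 => ?_⟩
  obtain ⟨v, ε, l, hε, hlv, hlc, hU, him, han⟩ :=
    exists_ball_param hC hR hp e (hr.and (hr'.and (h1.and h2)))
  obtain ⟨_, hb0, ⟨b, hb, rfl⟩⟩ := (hfr.and_eventually him).exists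
  have hS := (ball_diff_zeros (han g hg) hb hb0).1
  have hsub : {a | a ∈ Metric.ball v ε ∧ g (l a) ≠ 0} ⊆ Metric.ball v ε := fun a ha => ha.1
  have c1 : ContinuousOn (fun a => r (l a)) (Metric.ball v ε) := fun a ha =>
    ContinuousAt.comp_continuousWithinAt (hU ha).1 (hlc a ha)
  have c2 : ContinuousOn (fun a => r' (l a)) (Metric.ball v ε) := fun a ha =>
    ContinuousAt.comp_continuousWithinAt (hU ha).2.1 (hlc a ha)
  have hz : ∀ a ∈ Metric.ball v ε, g (l a) = 0 → r (l a) = 0 ∧ r' (l a) = 0 := fun a ha h =>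
    ⟨pow_eq_zero_iff two_ne_zero |>.1 ((hU ha).2.2.1.trans h),
      pow_eq_zero_iff two_ne_zero |>.1 ((hU ha).2.2.2.trans h)⟩
  rcases hS.eq_or_eq_neg_of_sq_eq (c1.mono hsub) (c2.mono hsub)
    (fun a ha => (hU ha.1).2.2.1.trans (hU ha.1).2.2.2.symm)
    (fun {a} ha h => ha.2 (by rw [← (hU ha.1).2.2.2, h]; simp)) with h | h
  · left
    filter_upwards [him] with e' he'
    obtain ⟨a, ha, rfl⟩ := he'
    by_cases h3 : g (l a) = 0
    · rw [(hz a ha h3).1, (hz a ha h3).2]
    · exact h ⟨ha, h3⟩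
  · right
    filter_upwards [him] with e' he'
    obtain ⟨a, ha, rfl⟩ := he'
    by_cases h3 : g (l a) = 0
    · rw [Pi.neg_apply, (hz a ha h3).1, (hz a ha h3).2, neg_zero]
    · exact h ⟨ha, h3⟩

end Vale.Agent.P300
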