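import Vale.Agent.P300.BCov
import Vale.Agent.P300.Retr

/-! The lift of the ramified map and the Schwarz lemma. -/

namespace Vale.Agent.P300

open Topology Filter Set Complex

open Classical in
/-- A retraction of the plane to the disc, continuous on the disc. -/
noncomputable def prjD (a : ℂ) : Dsc := if h : a ∈ Metric.ball (0 : ℂ) 1 then ⟨a, h⟩ else Dsc.o

theorem prjD_val (ζ : Dsc) : prjD ζ = ζ := by
  simp only [prjD, dif_pos ζ.2]

theorem val_prjD {a : ℂ} (h : a ∈ Metric.ball (0 : ℂ) 1) : (prjD a : ℂ) = a := by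
  simp only [prjD, dif_pos h]

theorem eventually_val_prjD (ζ : Dsc) : ∀ᶠ a in 𝓝 (ζ : ℂ), (prjD a : ℂ) = a :=
  Filter.mem_of_superset (Metric.isOpen_ball.mem_nhds ζ.2) fun _ h => val_prjD h

theorem tendsto_prjD (ζ : Dsc) : Tendsto prjD (𝓝 (ζ : ℂ)) (𝓝 ζ) :=
  tendsto_subtype_rng.2 (tendsto_id.congr' ((eventually_val_prjD ζ).mono fun _ h => h.symm))

theorem continuousAt_prjD {F : Type} [TopologicalSpace F] {f : Dsc → F} {ζ : Dsc}
    (hf : ContinuousAt f ζ) : ContinuousAt (fun a => f (prjD a)) ζ := by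
  have := hf.tendsto.comp (tendsto_prjD ζ)
  simpa only [ContinuousAt, prjD_val, Function.comp_def] using this

theorem phiCF_idx {v : Fin 3 → ℂ} (hv : v ∈ CF) : ∃ i j k : Fin 3, i ≠ j ∧ j ≠ k ∧ i ≠ k ∧
    v j ≠ 0 ∧ v k ≠ 0 ∧ (∀ l, l = i ∨ l = j ∨ l = k) ∧
    ∃ α β : ℂ, ∀ w ∈ CF, w k ^ 4 = α * w i ^ 4 + β * w j ^ 4 := by
  obtain ⟨h0, h⟩ := hv
  have hz : ∀ x : ℂ, x ^ 4 = 0 → x = 0 := fun x hx => pow_eq_zero_iff (by norm_num) |>.1 hx
  have hall : v 0 = 0 → v 1 = 0 → v 2 = 0 → False := fun a b c =>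
    h0 (funext fun i => by fin_cases i <;> assumption)
  by_cases e0 : v 0 = 0
  · refine ⟨0, 1, 2, by decide, by decide, by decide, fun e1 => ?_, fun e2 => ?_, by decide,
      1, -1, fun w hw => by linear_combination -hw.2⟩
    · exact hall e0 e1 (hz _ (by rw [e0, e1] at h; linear_combination -h))
    · exact hall e0 (hz _ (by rw [e0, e2] at h; linear_combination -h)) e2
  · by_cases e1 : v 1 = 0
    · refine ⟨1, 0, 2, by decide, by decide, by decide, e0, fun e2 => ?_, by decide,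
        -1, 1, fun w hw => by linear_combination -hw.2⟩
      exact e0 (hz _ (by rw [e1, e2] at h; linear_combination h))
    · exact ⟨2, 0, 1, by decide, by decide, by decide, e0, e1, by decide,
        -1, 1, fun w hw => by linear_combination -hw.2⟩

/-- The coordinates of the uniformising map are analytic. -/
theorem Unif.analytic {u : Dsc → Pj CF} (hu : Unif u) (ζ₀ : Dsc) :
    ∃ γ : ℂ → Fin 3 → ℂ, AnalyticAt ℂ γ ζ₀ ∧ ∀ᶠ ζ in 𝓝 ζ₀, Rep (u ζ) (γ ζ) := by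
  obtain ⟨v, hv⟩ := exists_rep (u ζ₀)
  obtain ⟨i, j, k, hij, hjk, hik, hj, hk, hall, α, β, hrel⟩ := phiCF_idx hv.1
  obtain ⟨Ξ, hΞ, hd, hloc⟩ := hu.loc ζ₀ i j k hij hjk hik v hv hj hk
  have hrep : ∀ᶠ ζ in 𝓝 ζ₀, Rep (u ζ) (nrm j (u ζ)) ∧ nrm j (u ζ) j = 1 :=
    hu.cont.continuousAt.eventually (hv.eventually_rep_nrm isCone_CF hj)
  have hc : ∀ l, ContinuousAt (fun ζ => rat l j (u ζ)) ζ₀ := fun l =>
    ContinuousAt.comp (g := rat l j) (hv.continuousAt_rat isCone_CF l hj) hu.cont.continuousAt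
  have hi : AnalyticAt ℂ (fun a => rat i j (u (prjD a))) ζ₀ := by
    have hΛ := hΞ.analyticAt_localInverse hd
    have h0 : Ξ (v i / v j) = ζ₀ := by rw [← hv.rat_eq]; exact hloc.self_of_nhds
    rw [h0] at hΛ
    refine hΛ.congr ?_
    have h1 : ∀ᶠ ζ in 𝓝 ζ₀, hΞ.hasStrictDerivAt.localInverse _ _ _ hd (Ξ (rat i j (u ζ))) =
        rat i j (u ζ) :=
      (hc i).eventually (p := fun x => hΞ.hasStrictDerivAt.localInverse _ _ _ hd (Ξ x) = x)
        (by beta_reduce; rw [hv.rat_eq]; exact hΞ.hasStrictDerivAt.eventually_left_inverse hd)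
    filter_upwards [(tendsto_prjD ζ₀).eventually (h1.and hloc), eventually_val_prjD ζ₀]
      with a h2 h3
    rw [← h2.1, h2.2, h3]
  have hjj : AnalyticAt ℂ (fun a => rat j j (u (prjD a))) ζ₀ := by
    refine (analyticAt_const (v := (1 : ℂ))).congr ?_
    filter_upwards [(tendsto_prjD ζ₀).eventually hrep] with a ha
    exact ha.2.symm
  have hkk : AnalyticAt ℂ (fun a => rat k j (u (prjD a))) ζ₀ := by
    refine analyticAt_of_pow (n := 4) (f := fun a => α * rat i j (u (prjD a)) ^ 4 +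
      β * rat j j (u (prjD a)) ^ 4) (by norm_num) (continuousAt_prjD (hc k)) ?_
      ((analyticAt_const.mul (hi.pow 4)).add (analyticAt_const.mul (hjj.pow 4))) ?_
    · rw [prjD_val, hv.rat_eq]
      exact div_ne_zero hk hj
    · filter_upwards [(tendsto_prjD ζ₀).eventually hrep] with a ha
      exact hrel (nrm j (u (prjD a))) ha.1.mem
  refine ⟨fun a => nrm j (u (prjD a)), analyticAt_pi_iff.2 fun l => ?_, ?_⟩
  · rcases hall l with rfl | rfl | rfl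
    exacts [hi, hjj, hkk]
  · filter_upwards [hrep] with ζ hζ
    rw [prjD_val]
    exact hζ.1

/-- The coordinates of a lift through the unramified map are analytic. -/
theorem analytic_lift {u : Dsc → Pj CF} (hu : Unif u) {v : Dsc → Pj CB} (hv : Continuous v)
    (h : ∀ ζ p, Rep (v ζ) p → Rep (u ζ) (aV p)) (ζ₀ : Dsc) :
    ∃ γ : ℂ → Fin 4 → ℂ, AnalyticAt ℂ γ ζ₀ ∧ ∀ᶠ ζ in 𝓝 ζ₀, Rep (v ζ) (γ ζ) := by
  obtain ⟨γ, hγ, hγr⟩ := hu.analytic ζ₀
  obtain ⟨p, hp⟩ := exists_rep (v ζ₀)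
  obtain ⟨j, hj⟩ : ∃ j, p j ≠ 0 := Function.ne_iff.1 hp.1.1
  have hrep : ∀ᶠ ζ in 𝓝 ζ₀, Rep (v ζ) (nrm j (v ζ)) ∧ nrm j (v ζ) j = 1 :=
    hv.continuousAt.eventually (hp.eventually_rep_nrm isCone_CB hj)
  have hc : ∀ l, ContinuousAt (fun ζ => rat l j (v ζ)) ζ₀ := fun l =>
    ContinuousAt.comp (g := rat l j) (hp.continuousAt_rat isCone_CB l hj) hv.continuousAt
  have hγi : ∀ l, AnalyticAt ℂ (fun a => γ a l) ζ₀ := analyticAt_pi_iff.1 hγ
  let D : ℂ → ℂ := fun a => γ a 0 - I ^ (j : ℕ) * γ a 2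
  have hD : AnalyticAt ℂ D ζ₀ := (hγi 0).sub (analyticAt_const.mul (hγi 2))
  have key : ∀ᶠ ζ : Dsc in 𝓝 ζ₀, D ζ ≠ 0 ∧
      (∀ l : Fin 4, rat l j (v ζ) ^ 4 = (γ ζ 0 - I ^ (l : ℕ) * γ ζ 2) / D ζ) ∧
      ∏ l, rat l j (v ζ) = γ ζ 1 / D ζ := by
    filter_upwards [hrep, hγr] with ζ h1 h2
    obtain ⟨c, hc, hcp⟩ := h2.par (h ζ _ h1.1)
    have e0 : mm (nrm j (v ζ)) = c * γ ζ 0 := congrFun hcp 0
    have e1 : rat 0 j (v ζ) * rat 1 j (v ζ) * rat 2 j (v ζ) * rat 3 j (v ζ) = c * γ ζ 1 :=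
      congrFun hcp 1
    have e2 : mz (nrm j (v ζ)) = c * γ ζ 2 := congrFun hcp 2
    have e3 : c * D ζ = 1 := by
      have := CB_pow h1.1.1 j
      rw [h1.2, e0, e2] at this
      simp only [D]
      linear_combination -this
    have e4 : D ζ ≠ 0 := right_ne_zero_of_mul_eq_one e3
    refine ⟨e4, fun l => ?_, ?_⟩
    · have := CB_pow h1.1.1 l
      rw [e0, e2] at this
      rw [eq_div_iff e4]
      change nrm j (v ζ) l ^ 4 * D ζ = _
      rw [this]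
      linear_combination (γ ζ 0 - I ^ (l : ℕ) * γ ζ 2) * e3
    · rw [Fin.prod_univ_four, e1, eq_div_iff e4]
      linear_combination γ ζ 1 * e3
  have hne : ∀ l, p l ≠ 0 → AnalyticAt ℂ (fun a => rat l j (v (prjD a))) ζ₀ := fun l hl => by
    refine analyticAt_of_pow (n := 4) (f := fun a => (γ a 0 - I ^ (l : ℕ) * γ a 2) / D a)
      (by norm_num) (continuousAt_prjD (hc l)) ?_
      (((hγi 0).sub (analyticAt_const.mul (hγi 2))).div hD key.self_of_nhds.1) ?_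
    · rw [prjD_val, hp.rat_eq]
      exact div_ne_zero hl hj
    · filter_upwards [(tendsto_prjD ζ₀).eventually key, eventually_val_prjD ζ₀] with a ha h3
      have := ha.2.1 l
      rwa [h3] at this
  refine ⟨fun a => nrm j (v (prjD a)), analyticAt_pi_iff.2 fun l => ?_, ?_⟩
  · by_cases hl : p l = 0
    · have hoth : ∀ m ∈ Finset.univ.erase l, p m ≠ 0 := fun m hm hm0 =>
        CB_two hp.1 (Finset.ne_of_mem_erase hm) hm0 hl
      have hP : AnalyticAt ℂ (fun a => ∏ m ∈ Finset.univ.erase l, rat m j (v (prjD a))) ζ₀ :=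
        Finset.analyticAt_fun_prod _ fun m hm => hne m (hoth m hm)
      have hP0 : ∏ m ∈ Finset.univ.erase l, rat m j (v (prjD ζ₀)) ≠ 0 := by
        refine Finset.prod_ne_zero_iff.2 fun m hm => ?_
        rw [prjD_val, hp.rat_eq]
        exact div_ne_zero (hoth m hm) hj
      refine ((((hγi 1).div hD key.self_of_nhds.1)).div hP hP0).congr ?_
      filter_upwards [(tendsto_prjD ζ₀).eventually key, eventually_val_prjD ζ₀,
        hP.continuousAt.eventually_ne hP0] with a ha h3 h4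
      have h5 := ha.2.2
      rw [h3, ← Finset.mul_prod_erase _ _ (Finset.mem_univ l)] at h5
      change γ a 1 / D a / ∏ m ∈ Finset.univ.erase l, rat m j (v (prjD a)) = rat l j (v (prjD a))
      rw [← h5, mul_div_cancel_right₀ _ h4]
    · exact hne l hl
  · filter_upwards [hrep] with ζ hζ
    rw [prjD_val]
    exact hζ.1

theorem analyticAt_cV (l : Fin 3) (p : Fin 4 → ℂ) : AnalyticAt ℂ (fun q => cV q l) p := by
  have h : ∀ i, AnalyticAt ℂ (fun q : Fin 4 → ℂ => q i) p := analyticAt_pi_iff.1 analyticAt_id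
  fin_cases l
  · exact (analyticAt_const.mul (h 1)).mul (h 3)
  · exact (h 0).pow 2
  · exact (h 2).pow 2

theorem exists_phi {u : Dsc → Pj CF} (hu : Unif u) {v : Dsc → Pj CB} (hv : Continuous v)
    (h : ∀ ζ p, Rep (v ζ) p → Rep (u ζ) (aV p)) {p₁ p₃ : ℂ} (h13 : g4 * p₁ * p₃ = 1)
    (h0 : Rep (v Dsc.o) ![0, p₁, 1, p₃]) :
    ∃ φ : Dsc → Dsc, Continuous φ ∧ (∀ ζ p, Rep (v ζ) p → Rep (u (φ ζ)) (cV p)) ∧
      ∀ ζ, ‖(φ ζ : ℂ)‖ ≤ ‖(ζ : ℂ)‖ ^ 2 := by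
  obtain ⟨c, hc, hcr⟩ := exists_cmap
  have : ContractibleSpace Dsc :=
    (convex_ball (0 : ℂ) 1).contractibleSpace (Metric.nonempty_ball.2 one_pos)
  have : LocallyPathConnectedSpace Dsc := Metric.isOpen_ball.locallyPathConnectedSpace
  have hbase : u Dsc.o = c (v Dsc.o) := by
    have h1 := hcr _ _ h0
    have h2 : cV ![0, p₁, 1, p₃] = ![1, 0, 1] := by
      funext i
      fin_cases i <;> simp [cV, h13]
    rw [h2] at h1
    rw [hu.zero]
    exact (rep_pt y0_mem).eq h1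
  obtain ⟨φ, hφ, hφ0, hφu⟩ := hu.lifts Dsc (fun ζ => c (v ζ)) (hc.comp hv) Dsc.o Dsc.o hbase
  have hφr : ∀ ζ p, Rep (v ζ) p → Rep (u (φ ζ)) (cV p) := fun ζ p hp => by
    rw [hφu]
    exact hcr _ _ hp
  refine ⟨φ, hφ, hφr, ?_⟩
  let Φ : ℂ → ℂ := fun a => φ (prjD a)
  have hloc : ∀ (ζ₀ : Dsc) (γ : ℂ → Fin 4 → ℂ), AnalyticAt ℂ γ ζ₀ →
      (∀ᶠ ζ in 𝓝 ζ₀, Rep (v ζ) (γ ζ)) → ∀ i j k : Fin 3, i ≠ j → j ≠ k → i ≠ k →
      cV (γ ζ₀) j ≠ 0 → cV (γ ζ₀) k ≠ 0 → ∃ Ξ : ℂ → ℂ,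
        AnalyticAt ℂ Ξ (cV (γ ζ₀) i / cV (γ ζ₀) j) ∧
        Φ =ᶠ[𝓝 (ζ₀ : ℂ)] fun a => Ξ (cV (γ a) i / cV (γ a) j) := by
    intro ζ₀ γ hγ hγr i j k hij hjk hik hj hk
    obtain ⟨Ξ, hΞ, -, hl⟩ := hu.loc (φ ζ₀) i j k hij hjk hik _ (hφr _ _ hγr.self_of_nhds) hj hk
    refine ⟨Ξ, hΞ, ?_⟩
    filter_upwards [(tendsto_prjD ζ₀).eventually (hγr.and (hφ.continuousAt.eventually hl)),
      eventually_val_prjD ζ₀] with a ha h3
    have h4 := (hφr _ _ ha.1).rat_eq i j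
    rw [h3] at h4
    rw [← h4]
    exact ha.2.symm
  have han : ∀ ζ₀ : Dsc, AnalyticAt ℂ Φ ζ₀ := fun ζ₀ => by
    obtain ⟨γ, hγ, hγr⟩ := analytic_lift hu hv h ζ₀
    obtain ⟨i, j, k, hij, hjk, hik, hj, hk, -⟩ := phiCF_idx (cV_mem hγr.self_of_nhds.1)
    obtain ⟨Ξ, hΞ, he⟩ := hloc ζ₀ γ hγ hγr i j k hij hjk hik hj hk
    refine AnalyticAt.congr ?_ he.symm
    exact AnalyticAt.comp (f := fun a => cV (γ a) i / cV (γ a) j) hΞ
      (((analyticAt_cV i _).comp hγ).div ((analyticAt_cV j _).comp hγ) hj)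
  have hΦ0 : Φ 0 = 0 := by
    have : prjD 0 = Dsc.o := prjD_val Dsc.o
    simp only [Φ, this, hφ0]
    rfl
  have hder : HasDerivAt Φ 0 0 := by
    obtain ⟨γ, hγ, hγr⟩ := analytic_lift hu hv h Dsc.o
    obtain ⟨t, ht, hpar⟩ := h0.par hγr.self_of_nhds
    change γ 0 = _ at hpar
    change AnalyticAt ℂ γ 0 at hγ
    have g0 : γ 0 0 = 0 := by simp [hpar]
    have g1 : cV (γ 0) 0 ≠ 0 := by
      have : cV (γ 0) 0 = t ^ 2 * (g4 * p₁ * p₃) := by
        simp [hpar, cV]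
        ring
      rw [this, h13, mul_one]
      exact pow_ne_zero _ ht
    have g2 : cV (γ 0) 2 ≠ 0 := by simp [hpar, cV, ht]
    obtain ⟨Ξ, hΞ, he⟩ := hloc Dsc.o γ hγ hγr 1 0 2 (by decide) (by decide) (by decide) g1 g2
    have d0 := (analyticAt_pi_iff.1 hγ 0).differentiableAt.hasDerivAt
    have d1 := ((analyticAt_cV 0 _).comp hγ).differentiableAt.hasDerivAt
    have d2 : HasDerivAt (fun a => cV (γ a) 1 / cV (γ a) 0) 0 0 := by
      have := (d0.fun_pow 2).fun_div d1 g1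
      simp only [g0] at this
      simpa [cV] using this
    have d3 := HasDerivAt.comp (0 : ℂ) hΞ.differentiableAt.hasDerivAt d2
    rw [mul_zero] at d3
    exact d3.congr_of_eventuallyEq he
  intro ζ
  have hS := dist_le_mul_div_pow_of_mapsTo_ball_of_isLittleO (f := Φ) (c := 0) (z := ζ)
    (R₁ := 1) (R₂ := 1) (n := 1)
    (fun a ha => (han ⟨a, ha⟩).differentiableAt.differentiableWithinAt)
    (fun a _ => by rw [hΦ0]; exact Metric.ball_subset_closedBall (φ (prjD a)).2)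
    (by simpa using hder.isLittleO.norm_right) ζ.2
  simpa [hΦ0, Φ, prjD_val] using hS

end Vale.Agent.P300
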