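import Vale.Agent.P300.Proj

/-! Local topology of a smooth projective set. -/

namespace Vale.Agent.P300

open Topology Filter Set Complex

variable {N : ℕ} {C : Set (Fin N → ℂ)}

/-- Near every point the projective set is a retract of a ball. -/
theorem xl_retract (hC : IsCone C) (hR : ∀ v ∈ C, Retr C v) (ξ : Pj C) :
    ∃ (v : Fin N → ℂ) (r : ℝ) (ρ : (Fin N → ℂ) → Pj C) (s : Pj C → Fin N → ℂ), 0 < r ∧
      ContinuousOn ρ (Metric.ball v r) ∧ ρ v = ξ ∧ CNear s ξ ∧ s ξ = v ∧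
      ∀ᶠ η in 𝓝 ξ, ρ (s η) = η := by
  classical
  obtain ⟨v, hv⟩ := exists_rep ξ
  obtain ⟨R, hA, hm, hfix⟩ := hR v hv.mem
  obtain ⟨j, -, hs, hsv, hrep⟩ := hv.exists_sec hC
  let ρ : (Fin N → ℂ) → Pj C := fun u => if h : R u ∈ C then pt (R u) h else ξ
  have hρ : ∀ u, R u ∈ C → Rep (ρ u) (R u) := fun u hu => ⟨hu, dif_pos hu⟩
  obtain ⟨r, hr, hb⟩ := Metric.mem_nhds_iff.1
    (hA.eventually_analyticAt.and hm.eventually_nhds)
  refine ⟨v, r, ρ, fun η => v j • nrm j η, hr, fun u hu => ?_, ?_, hs, hsv, ?_⟩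
  · exact (continuousAt_of_rep (hb hu).1.continuousAt
      ((hb hu).2.mono fun y hy => hρ y hy)).continuousWithinAt
  · have := hρ v hm.self_of_nhds
    rw [hfix.self_of_nhds hv.mem] at this
    exact this.eq hv
  · have ht : Tendsto (fun η : Pj C => v j • nrm j η) (𝓝 ξ) (𝓝 v) := by
      have := hs.self_of_nhds
      rwa [ContinuousAt, hsv] at this
    filter_upwards [hrep, ht.eventually hfix] with η a1 a2
    have e := a2 a1.mem
    have := hρ _ (by rw [e]; exact a1.mem)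
    rw [e] at this
    exact this.eq a1

theorem locPath_Pj (hC : IsCone C) (hR : ∀ v ∈ C, Retr C v) :
    LocallyPathConnectedSpace (Pj C) := by
  rw [locallyPathConnectedSpace_iff_pathComponentIn_mem_nhds]
  intro ξ u hu hξ
  obtain ⟨v, r, ρ, s, hr, hρ, h0, hs, hsv, hρs⟩ := xl_retract hC hR ξ
  have hc : ContinuousAt ρ v := hρ.continuousAt (Metric.ball_mem_nhds v hr)
  have h1 : ρ ⁻¹' u ∩ Metric.ball v r ∈ 𝓝 v :=
    inter_mem (hc.preimage_mem_nhds (h0 ▸ hu.mem_nhds hξ)) (Metric.ball_mem_nhds v hr)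
  obtain ⟨r', hr', hb⟩ := Metric.mem_nhds_iff.1 h1
  have hp : IsPathConnected (ρ '' Metric.ball v r') :=
    ((convex_ball v r').isPathConnected ⟨v, Metric.mem_ball_self hr'⟩).image'
      (hρ.mono fun x hx => (hb hx).2)
  have hsub := hp.subset_pathComponentIn (F := u) ⟨v, Metric.mem_ball_self hr', h0⟩ (by
    rintro _ ⟨x, hx, rfl⟩
    exact (hb hx).1)
  have h2 : ∀ᶠ η in 𝓝 ξ, s η ∈ Metric.ball v r' :=
    hs.self_of_nhds.eventually_mem (hsv ▸ Metric.ball_mem_nhds v hr')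
  filter_upwards [h2, hρs] with η a1 a2
  exact hsub ⟨s η, a1, a2⟩

theorem semiloc_Pj (hC : IsCone C) (hR : ∀ v ∈ C, Retr C v) (ξ : Pj C) :
    ∃ U ∈ 𝓝 ξ, ∀ (a b : Pj C) (γ γ' : Path a b), range γ ⊆ U → range γ' ⊆ U →
      γ.Homotopic γ' := by
  obtain ⟨v, r, ρ, s, hr, hρ, -, hs, hsv, hρs⟩ := xl_retract hC hR ξ
  have h2 : ∀ᶠ η in 𝓝 ξ, s η ∈ Metric.ball v r :=
    hs.self_of_nhds.eventually_mem (hsv ▸ Metric.ball_mem_nhds v hr)
  refine ⟨{η | ContinuousAt s η ∧ s η ∈ Metric.ball v r ∧ ρ (s η) = η},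
    (hs.and (h2.and hρs) :), fun a b γ γ' hγ hγ' => ?_⟩
  have c1 : Continuous fun τ => s (γ τ) := continuous_iff_continuousAt.2 fun τ =>
    (hγ (mem_range_self τ)).1.comp γ.continuous.continuousAt
  have c2 : Continuous fun τ => s (γ' τ) := continuous_iff_continuousAt.2 fun τ =>
    (hγ' (mem_range_self τ)).1.comp γ'.continuous.continuousAt
  let L : unitInterval × unitInterval → Fin N → ℂ := fun q =>
    (1 - (q.1 : ℝ)) • s (γ q.2) + (q.1 : ℝ) • s (γ' q.2)
  have cL : Continuous L := by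
    have d1 : Continuous fun q : unitInterval × unitInterval => s (γ q.2) := c1.comp continuous_snd
    have d2 : Continuous fun q : unitInterval × unitInterval => s (γ' q.2) := c2.comp continuous_snd
    have d3 : Continuous fun q : unitInterval × unitInterval => (q.1 : ℝ) := by fun_prop
    exact ((continuous_const.sub d3).smul d1).add (d3.smul d2)
  have mL : ∀ q, L q ∈ Metric.ball v r := fun q =>
    convex_ball v r (hγ (mem_range_self q.2)).2.1 (hγ' (mem_range_self q.2)).2.1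
      (sub_nonneg.2 q.1.2.2) q.1.2.1 (sub_add_cancel _ _)
  have same : ∀ t τ, γ τ = γ' τ → ρ (L (t, τ)) = γ τ := fun t τ e => by
    have : L (t, τ) = s (γ τ) := by
      simp only [L]
      rw [← e, ← add_smul, sub_add_cancel, one_smul]
    rw [this]
    exact (hγ (mem_range_self τ)).2.2
  refine ⟨⟨⟨⟨fun q => ρ (L q), hρ.comp_continuous cL mL⟩, fun τ => ?_, fun τ => ?_⟩, ?_⟩⟩
  · have : L (0, τ) = s (γ τ) := by simp [L]
    change ρ (L (0, τ)) = γ τ
    rw [this]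
    exact (hγ (mem_range_self τ)).2.2
  · have : L (1, τ) = s (γ' τ) := by simp [L]
    change ρ (L (1, τ)) = γ' τ
    rw [this]
    exact (hγ' (mem_range_self τ)).2.2
  · intro t τ hτ
    change ρ (L (t, τ)) = γ τ
    refine same t τ ?_
    rcases hτ with rfl | rfl
    · rw [γ.source, γ'.source]
    · rw [γ.target, γ'.target]

theorem locPath_of_cover {E X : Type} [TopologicalSpace E] [TopologicalSpace X]
    [LocallyPathConnectedSpace X] {p : E → X} (hp : IsLocalHomeomorph p) :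
    LocallyPathConnectedSpace E := by
  rw [locallyPathConnectedSpace_iff_pathComponentIn_mem_nhds]
  intro e u hu he
  obtain ⟨φ, hφ, rfl⟩ := hp e
  have ht := φ.map_source hφ
  have h1 : φ.target ∩ φ.symm ⁻¹' u ∈ 𝓝 (φ e) :=
    inter_mem (φ.open_target.mem_nhds ht) ((φ.continuousAt_symm ht).preimage_mem_nhds (by
      rw [φ.left_inv hφ]
      exact hu.mem_nhds he))
  obtain ⟨W, ⟨hW, hWc⟩, hWs⟩ := (path_connected_basis (φ e)).mem_iff.1 h1
  have hp : IsPathConnected (φ.symm '' W) :=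
    hWc.image' (φ.continuousOn_symm.mono fun x hx => (hWs hx).1)
  have hsub := hp.subset_pathComponentIn (F := u) (x := e)
    ⟨φ e, mem_of_mem_nhds hW, φ.left_inv hφ⟩ (by
      rintro _ ⟨x, hx, rfl⟩
      exact (hWs hx).2)
  filter_upwards [(φ.continuousAt hφ).preimage_mem_nhds hW, φ.open_source.mem_nhds hφ]
    with y a1 a2
  exact hsub ⟨φ y, a1, φ.left_inv a2⟩

/-- Local lifts to the coordinate space. -/
theorem Pres.exists_locLift' {V : Type} [Fintype V] {M : Set (V → ℂ)}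
    {Orb : (V → ℂ) → (V → ℂ) → Prop} {Ψ : (V → ℂ) → (Fin N → ℂ)} (h : Pres M Orb C Ψ)
    {E : Type} [TopologicalSpace E] {p : E → Pj C} (hp : Continuous p) (e : E) {z : V → ℂ}
    (hz : z ∈ M) (he : Rep (p e) (Ψ z)) :
    ∃ ζ : E → V → ℂ, ζ e = z ∧ CNear ζ e ∧ (∀ᶠ e' in 𝓝 e, ζ e' ∈ M ∧ Rep (p e') (Ψ (ζ e'))) ∧
      ∀ (G : (V → ℂ) → ℂ) (g : E → ℂ), AnalyticAt ℂ G z → g =ᶠ[𝓝 e] (fun e' => G (ζ e')) →
        HolAt p g e := by
  obtain ⟨σ, hσ, hσz, hσM⟩ := h.sec z hz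
  obtain ⟨j, hj, hs, hsv, hrep⟩ := he.exists_sec h.cone
  have ht : Tendsto (fun e' => Ψ z j • nrm j (p e')) (𝓝 e) (𝓝 (Ψ z)) := by
    have := hs.self_of_nhds.comp (f := p) hp.continuousAt
    rw [ContinuousAt] at this
    simp only [Function.comp_def] at this
    rwa [hsv] at this
  refine ⟨fun e' => σ (Ψ z j • nrm j (p e')), by simp only [hsv, hσz], ?_, ?_, ?_⟩
  · filter_upwards [hp.continuousAt.eventually hs, ht.eventually hσ.eventually_analyticAt]
      with e' a1 a2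
    exact ContinuousAt.comp (f := fun e' => Ψ z j • nrm j (p e')) a2.continuousAt
      (a1.comp (f := p) hp.continuousAt)
  · filter_upwards [hp.continuousAt.eventually hrep, ht.eventually hσM] with e' a1 a2
    exact ⟨(a2 a1.mem).1, a1.of_par h.cone (a2 a1.mem).2.symm⟩
  · intro G g hG hg
    refine ⟨⟨Ψ z, he.mem⟩, fun u => G (σ (Ψ z j • (u j)⁻¹ • u)), he.2, ?_, ?_⟩
    · have e0 : Ψ z j • (Ψ z j)⁻¹ • Ψ z = Ψ z := smul_inv_smul₀ hj _
      have a1 : AnalyticAt ℂ (fun u : Fin N → ℂ => Ψ z j • (u j)⁻¹ • u) (Ψ z) := by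
        have b1 : AnalyticAt ℂ (fun u : Fin N → ℂ => u j) (Ψ z) :=
          (ContinuousLinearMap.proj (R := ℂ) (φ := fun _ : Fin N => ℂ) j).analyticAt _
        have b2 : AnalyticAt ℂ (fun u : Fin N → ℂ => (u j)⁻¹ • u) (Ψ z) :=
          (b1.inv hj).smul analyticAt_id
        exact b2.const_smul (c := Ψ z j)
      have a2 : AnalyticAt ℂ (fun u : Fin N → ℂ => σ (Ψ z j • (u j)⁻¹ • u)) (Ψ z) :=
        hσ.comp_of_eq a1 e0
      exact hG.comp_of_eq a2 (by simp only [e0, hσz])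
    · have : ∀ᶠ q : E × C in 𝓝 (e, ⟨Ψ z, he.mem⟩), g q.1 = G (σ (Ψ z j • nrm j (p q.1))) :=
        (continuousAt_fst (p := (e, (⟨Ψ z, he.mem⟩ : C)))).eventually hg
      filter_upwards [this] with q a1 a2
      rw [a1, Rep.nrm_eq (v := q.2) ⟨q.2.2, a2⟩ j]

end Vale.Agent.P300
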