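import Vale.Agent.P300.Inv
import Vale.Agent.P300.XLoc
import Vale.Agent.P300.Hol
import Vale.Agent.P300.Phi

/-! The three maps to the disc. -/

namespace Vale.Agent.P300

open Topology Filter Set Complex

variable {N : ℕ} {C : Set (Fin N → ℂ)} {Ψ : (W → ℂ) → (Fin N → ℂ)} {E : Type}
  [TopologicalSpace E] {p : E → Pj C} {u : Dsc → Pj CF} {x y φ : E → Dsc}

theorem exists_locLift (h : Pres MM Orb C Ψ) (hp : Continuous p) (e : E) {z : W → ℂ}
    (hz : z ∈ MM) (he : Rep (p e) (Ψ z)) : ∃ ζ, LocLift MM Ψ p e z ζ := by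
  obtain ⟨ζ, h1, h2, h3, h4⟩ := h.exists_locLift' hp e hz he
  exact ⟨ζ, h1, h2, h3, h4⟩

theorem exists_setup [SimplyConnectedSpace E] [LocallyPathConnectedSpace E]
    (h : Pres MM Orb C Ψ) (hp : IsCoveringMap p) (hu : Unif u) {z₀ : W → ℂ} (hz : z₀ ∈ MM)
    {p₁ p₃ : ℂ} (h13 : g4 * p₁ * p₃ = 1) (hB : pB z₀ = ![0, p₁, 1, p₃])
    (hF : yF z₀ = ![1, 0, 1]) {e₀ : E} (he : Rep (p e₀) (Ψ z₀)) :
    ∃ x y φ : E → Dsc, Setup Ψ p u x y φ ∧ x e₀ = Dsc.o ∧ y e₀ = Dsc.o := by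
  obtain ⟨π₁, c1, r1⟩ := h.desc pB continuous_pB (fun z hz => pB_mem hz) fun z _ z' h => h.pB
  obtain ⟨π₂, c2, r2⟩ := h.desc yF continuous_yF (fun z hz => yF_mem hz) fun z _ z' h => h.yF
  obtain ⟨a, ha, ra⟩ := exists_amap
  have r0 := hB ▸ r1 _ _ hz he
  have ro : Rep (u Dsc.o) ![1, 0, 1] := ⟨_, hu.zero⟩
  have e0 : u Dsc.o = a (π₁ (p e₀)) := ro.eq_of_par (ra _ _ r0) ⟨1 / 2, by norm_num, by
    funext i
    fin_cases i <;> simp [aV, mm, mz]⟩
  have := (convex_ball (0 : ℂ) 1).contractibleSpace ⟨0, by simp⟩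
  have := (Metric.isOpen_ball (x := (0 : ℂ)) (ε := 1)).locallyPathConnectedSpace
  obtain ⟨v, ⟨v0, hv⟩, -⟩ := ha.existsUnique_continuousMap_lifts ⟨u, hu.cont⟩ Dsc.o _ e0.symm
  replace hv : ∀ ζ, a (v ζ) = u ζ := congrFun hv
  obtain ⟨x, cx, x0, hx⟩ := hu.lifts E (fun e => a (π₁ (p e)))
    (ha.continuous.comp (c1.comp hp.continuous)) e₀ Dsc.o e0
  obtain ⟨y, cy, y0, hy⟩ := hu.lifts E (fun e => π₂ (p e)) (c2.comp hp.continuous) e₀ Dsc.o
    (ro.eq (hF ▸ r2 _ _ hz he))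
  obtain ⟨φ, cφ, hφ, sch⟩ := exists_phi hu v.continuous (fun ζ q hq => hv ζ ▸ ra _ _ hq) h13
    (v0 ▸ r0)
  have key : ∀ e, v (x e) = π₁ (p e) := congrFun (ha.eq_of_comp_eq (v.continuous.comp cx)
    (c1.comp hp.continuous) (funext fun e => (hv _).trans (hx e)) e₀ (by simp [x0, v0]))
  refine ⟨x, y, fun e => φ (x e), ⟨h, hp, hu, cx, cy, cφ.comp cx,
    fun e z hz he => hx e ▸ ra _ _ (r1 _ _ hz he), fun e z hz he => hy e ▸ r2 _ _ hz he,
    fun e z hz he => hφ _ _ (key e ▸ r1 _ _ hz he), fun e z hz he h0 => ?_, fun e => sch _⟩, x0, y0⟩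
  have h1 := key e
  rw [h0, v0] at h1
  obtain ⟨c, -, hc⟩ := r0.par (h1 ▸ r1 _ _ hz he)
  simpa [pB] using congrFun hc 0

theorem CF_idx {v : Fin 3 → ℂ} (hv : v ∈ CF) :
    ∃ i j k : Fin 3, i ≠ j ∧ j ≠ k ∧ i ≠ k ∧ v j ≠ 0 ∧ v k ≠ 0 := by
  obtain ⟨h0, h⟩ := hv
  have z : v 0 = 0 → v 1 = 0 → v 2 = 0 → False := fun a b c => h0 (by
    funext i
    fin_cases i
    exacts [a, b, c])
  by_cases a : v 0 = 0
  · refine ⟨0, 1, 2, by decide, by decide, by decide, fun b => z a b ?_, fun c => z a ?_ c⟩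
    · simpa [a, b] using h.symm
    · simpa [a, c] using h.symm
  by_cases b : v 1 = 0
  · exact ⟨1, 0, 2, by decide, by decide, by decide, a, fun c => a (by simpa [b, c] using h)⟩
  exact ⟨2, 0, 1, by decide, by decide, by decide, a, b⟩

/-- A continuous lift of a polynomial map to the quartic is holomorphic. -/
theorem isHol_lift (h : Pres MM Orb C Ψ) (hp : Continuous p) (hu : Unif u) {f : E → Dsc}
    (hf : Continuous f) {F : (W → ℂ) → Fin 3 → ℂ} (hF : ∀ z, AnalyticAt ℂ F z)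
    (hr : ∀ e, ∀ z ∈ MM, Rep (p e) (Ψ z) → Rep (u (f e)) (F z)) :
    IsHol p (fun e => (f e : ℂ)) := by
  refine isHol_iff.2 fun e => ?_
  obtain ⟨z, hz, he⟩ := h.exists_rep (p e)
  obtain ⟨ζ, L⟩ := exists_locLift h hp e hz he
  obtain ⟨i, j, k, hij, hjk, hik, hj, hk⟩ := CF_idx (hr e z hz he).mem
  obtain ⟨Ξ, hΞ, -, hl⟩ := hu.loc (f e) i j k hij hjk hik _ (hr e z hz he) hj hk
  have hc := analyticAt_pi_iff.1 (hF z)
  refine L.hol (fun z => Ξ (F z i / F z j)) _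
    (AnalyticAt.comp (f := fun z => F z i / F z j) hΞ ((hc i).div (hc j) hj)) ?_
  filter_upwards [hf.continuousAt.eventually hl, L.rep] with e' h1 h2
  rw [← h1, (hr e' _ h2.1 h2.2).rat_eq]

theorem Setup.hol (S : Setup Ψ p u x y φ) : IsHol p (fun e => (x e : ℂ)) ∧
    IsHol p (fun e => (y e : ℂ)) ∧ IsHol p (fun e => (φ e : ℂ)) := by
  refine ⟨isHol_lift S.pres S.cov.continuous S.unif S.cx (fun z => ?_) S.hx,
    isHol_lift S.pres S.cov.continuous S.unif S.cy (fun z => ?_) S.hy,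
    isHol_lift S.pres S.cov.continuous S.unif S.cφ (fun z => ?_) S.hφ⟩ <;>
  · refine analyticAt_pi_iff.2 fun i => IsPoly.analyticAt ?_ z
    simp only [aV_pB, cV_pB, yF]
    fin_cases i <;> simp [mC, m0, nn, PP, sb, bb, kb] <;> fun_prop

theorem CNear.comp {A B D : Type} [TopologicalSpace A] [TopologicalSpace B] [TopologicalSpace D]
    {g : B → D} {f : A → B} {a : A} {b : B} (hg : CNear g b) (hf : CNear f a) (h : f a = b) :
    CNear (fun t => g (f t)) a := by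
  subst h
  filter_upwards [hf, hf.self_of_nhds.eventually hg] with t h1 h2 using h2.comp h1

theorem Continuous.cNear {A B : Type} [TopologicalSpace A] [TopologicalSpace B] {f : A → B}
    (h : Continuous f) (a : A) : CNear f a := Eventually.of_forall fun _ => h.continuousAt

theorem diff_core (hu : Unif u) {ζ₀ : Dsc} {i j : Fin 3} {v : Fin 3 → ℂ} (hv : Rep (u ζ₀) v)
    (hj : v j ≠ 0) {Ξ : ℂ → ℂ} (hΞ : AnalyticAt ℂ Ξ (v i / v j))
    (hl : ∀ᶠ ζ in 𝓝 ζ₀, Ξ (rat i j (u ζ)) = (ζ : ℂ)) {f g : E → Dsc} {e : E} (hf : Continuous f)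
    (hg : Continuous g) (hf0 : f e = ζ₀) (hg0 : g e = ζ₀) :
    ∃ c : E → ℂ, CNear c e ∧ c e = deriv Ξ (v i / v j) ∧ ∀ᶠ e' in 𝓝 e,
      (f e' : ℂ) - g e' = c e' * (rat i j (u (f e')) - rat i j (u (g e'))) := by
  obtain ⟨Δ, h1, h2, h3⟩ := exists_divdiff hΞ
  have h4 : CNear (rat i j) (u ζ₀) := (hv.eventually_rep_nrm isCone_CF hj).mono fun η h =>
    h.1.continuousAt_rat isCone_CF i (by rw [h.2]; exact one_ne_zero)
  have h5 : CNear (fun t => (rat i j (u (f t)), rat i j (u (g t)))) e := by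
    filter_upwards [h4.comp (Continuous.cNear (hu.cont.comp hf) e) (congrArg u hf0),
      h4.comp (Continuous.cNear (hu.cont.comp hg) e) (congrArg u hg0)] with t a b using a.prodMk b
  have h6 : (rat i j (u (f e)), rat i j (u (g e))) = (v i / v j, v i / v j) := by
    rw [hf0, hg0, hv.rat_eq]
  refine ⟨_, h1.comp h5 h6, h6 ▸ h2, ?_⟩
  filter_upwards [h5.self_of_nhds.eventually (h6 ▸ h3), hf.continuousAt.eventually (hf0 ▸ hl),
    hg.continuousAt.eventually (hg0 ▸ hl)] with t a b c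
  rw [← a, b, c]

/-- Two lifts that agree at `e` differ near `e` by a unit times the difference of a local
coordinate. -/
theorem diff_unit (hu : Unif u) {f g : E → Dsc} {e : E} (hf : Continuous f) (hg : Continuous g)
    (hfg : f e = g e) {i j k : Fin 3} (hij : i ≠ j) (hjk : j ≠ k) (hik : i ≠ k) {v : Fin 3 → ℂ}
    (hv : Rep (u (f e)) v) (hj : v j ≠ 0) (hk : v k ≠ 0) :
    ∃ c : E → ℂ, CNear c e ∧ c e ≠ 0 ∧ ∀ᶠ e' in 𝓝 e,
      (f e' : ℂ) - g e' = c e' * (rat i j (u (f e')) - rat i j (u (g e'))) := by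
  obtain ⟨Ξ, h1, h2, h3⟩ := hu.loc (f e) i j k hij hjk hik v hv hj hk
  obtain ⟨c, h4, h5, h6⟩ := diff_core hu hv hj h1 h3 hf hg rfl hfg.symm
  exact ⟨c, h4, h5 ▸ h2, h6⟩

/-- The same at the centre of the disc, with a universal leading coefficient. -/
theorem diff_unit_o (hu : Unif u) : ∃ D : ℂ, D ≠ 0 ∧ ∀ (E : Type) [TopologicalSpace E]
    (f g : E → Dsc) (e : E), Continuous f → Continuous g → f e = Dsc.o → g e = Dsc.o →
    ∃ c : E → ℂ, CNear c e ∧ c e = D ∧ ∀ᶠ e' in 𝓝 e,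
      (f e' : ℂ) - g e' = c e' * (rat 1 0 (u (f e')) - rat 1 0 (u (g e'))) := by
  have ro : Rep (u Dsc.o) ![1, 0, 1] := ⟨_, hu.zero⟩
  obtain ⟨Ξ, h1, h2, h3⟩ := hu.loc Dsc.o 1 0 2 (by decide) (by decide) (by decide) _ ro
    (by simp) (by simp)
  exact ⟨_, h2, fun E _ f g e hf hg h4 h5 => diff_core hu ro (by simp) h1 h3 hf hg h4 h5⟩

end Vale.Agent.P300
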