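import Vale.Agent.P300.Loc1

/-! Local square roots of the four functions. -/

namespace Vale.Agent.P300

open Topology Filter Set Complex

variable {N : ℕ} {C : Set (Fin N → ℂ)} {Ψ : (W → ℂ) → (Fin N → ℂ)} {E : Type}
  [TopologicalSpace E] {p : E → Pj C} {u : Dsc → Pj CF} {x y φ : E → Dsc}

namespace Loc2Aux

@[fun_prop] theorem c_sb : Continuous sb := by
  unfold sb
  fun_prop
@[fun_prop] theorem c_bb : Continuous bb := by
  unfold bb
  fun_prop
@[fun_prop] theorem c_kb : Continuous kb := by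
  unfold kb
  fun_prop
@[fun_prop] theorem c_PP : Continuous PP := by
  unfold PP
  fun_prop
@[fun_prop] theorem c_mC : Continuous mC := by
  unfold mC
  fun_prop
@[fun_prop] theorem c_m0 : Continuous m0 := by
  unfold m0
  fun_prop
@[fun_prop] theorem c_nn : Continuous nn := by
  unfold nn
  fun_prop
@[fun_prop] theorem c_U1 : Continuous U1 := by
  unfold U1 A1 B1
  fun_prop
@[fun_prop] theorem c_U2 : Continuous U2 := by
  unfold U2 A2 B2
  fun_prop

/-- The unramified map in coordinates. -/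
noncomputable def fA (z : W → ℂ) : Fin 3 → ℂ := ![mC z, (z .e1 * z .e2) ^ 2 * nn z, m0 z]

/-- The ramified map in coordinates. -/
noncomputable def fC (z : W → ℂ) : Fin 3 → ℂ := ![g4 * z .p1 * z .p3, sb z ^ 4, PP z ^ 2]

theorem c_fA : Continuous fA := by
  unfold fA
  fun_prop

theorem c_fC : Continuous fC := by
  unfold fC
  fun_prop

theorem ne_case {f : E → ℂ} {e : E} (hf : Continuous f) (h : f e ≠ 0) : LocSq f e := by
  obtain ⟨a, ha⟩ := IsAlgClosed.exists_pow_nat_eq (f e) two_pos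
  obtain ⟨r, h1, -, h2⟩ := exists_root_near (f := f) (Eventually.of_forall fun _ => hf.continuousAt)
    two_ne_zero (fun h0 => h (by rw [← ha, h0, zero_pow two_ne_zero])) ha
  exact ⟨r, h1, h2⟩

theorem par_ne {v w : Fin 3 → ℂ} (h : Par v w) {j : Fin 3} (hj : v j ≠ 0) : w j ≠ 0 := by
  obtain ⟨c, hc, rfl⟩ := h
  exact mul_ne_zero hc hj

theorem par_minor {v w : Fin 3 → ℂ} (h : Par v w) (i j : Fin 3) : v i * w j = w i * v j := by
  obtain ⟨c, -, rfl⟩ := h
  simp only [Pi.smul_apply, smul_eq_mul]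
  ring

theorem key (S : Setup Ψ p u x y φ) {f g : E → Dsc} (hf : Continuous f) (hg : Continuous g)
    {F G : (W → ℂ) → Fin 3 → ℂ} (cF : Continuous F) (cG : Continuous G)
    (hF : ∀ e, ∀ z ∈ MM, Rep (p e) (Ψ z) → Rep (u (f e)) (F z))
    (hG : ∀ e, ∀ z ∈ MM, Rep (p e) (Ψ z) → Rep (u (g e)) (G z)) {e : E} (hfg : f e = g e)
    {z : W → ℂ} (hz : z ∈ MM) (he : Rep (p e) (Ψ z)) (i j k : Fin 3) (hij : i ≠ j) (hjk : j ≠ k)
    (hik : i ≠ k) {v : Fin 3 → ℂ} (hv : Rep (u (f e)) v) (hj : v j ≠ 0) (hk : v k ≠ 0)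
    (d n r : (W → ℂ) → ℂ) (hd : Continuous d) (hn : Continuous n) (hr : Continuous r)
    (hd0 : d z ≠ 0) (hn0 : n z ≠ 0)
    (h : ∀ w ∈ MM, d w * (F w i * G w j - G w i * F w j) = n w * r w ^ 2) :
    LocSq (fun e => (f e : ℂ) - g e) e := by
  obtain ⟨c, c1, c2, c3⟩ := diff_unit S.unif hf hg hfg hij hjk hik hv hj hk
  obtain ⟨ζ, hζ⟩ := exists_locLift S.pres S.cov.continuous e hz he
  have a1 : F z j ≠ 0 := par_ne (hv.par (hF e z hz he)) hj
  have a2 : G z j ≠ 0 := par_ne (hv.par (hfg ▸ hG e z hz he)) hj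
  have cD : Continuous fun w => d w * (F w j * G w j) := by fun_prop
  have a3 : ∀ᶠ e' in 𝓝 e, d (ζ e') * (F (ζ e') j * G (ζ e') j) ≠ 0 :=
    (cD.continuousAt.comp hζ.cont.self_of_nhds).eventually_ne (by
      simpa only [Function.comp_apply, hζ.base] using mul_ne_zero hd0 (mul_ne_zero a1 a2))
  obtain ⟨a, -, -, -, b1, b2⟩ := locSq_of_unit (f := fun e => (f e : ℂ) - g e)
    (c := fun e' => c e' * (n (ζ e') / (d (ζ e') * (F (ζ e') j * G (ζ e') j))))
    (g := fun e' => r (ζ e')) (z := e)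
    (by
      filter_upwards [c1, hζ.cont, a3] with e' b1 b2 b3
      exact b1.mul ((hn.continuousAt.comp b2).div (cD.continuousAt.comp b2) b3))
    (hζ.cont.mono fun e' b => hr.continuousAt.comp b)
    (mul_ne_zero c2 (div_ne_zero (hζ.base ▸ hn0) a3.self_of_nhds))
    (by
      filter_upwards [c3, hζ.rep, a3] with e' b1 b2 b3
      have b4 := (mul_ne_zero_iff.1 b3).1
      have b5 := mul_ne_zero_iff.1 (mul_ne_zero_iff.1 b3).2
      rw [b1, (hF _ _ b2.1 b2.2).rat_eq, (hG _ _ b2.1 b2.2).rat_eq, mul_assoc,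
        div_mul_eq_mul_div, ← h _ b2.1, mul_div_mul_left _ _ b4, div_sub_div _ _ b5.1 b5.2,
        mul_comm (F (ζ e') j) (G (ζ e') i)])
  exact ⟨_, b1, b2⟩

theorem rep_o (S : Setup Ψ p u x y φ) : Rep (u Dsc.o) ![1, 0, 1] := ⟨y0_mem, S.unif.zero⟩

theorem coe_cont {f : E → Dsc} (hf : Continuous f) : Continuous fun e => (f e : ℂ) :=
  continuous_subtype_val.comp hf

end Loc2Aux

open Loc2Aux

theorem Setup.locSq_x (S : Setup Ψ p u x y φ) (e : E) : LocSq (fun e => (x e : ℂ)) e := by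
  by_cases h0 : (x e : ℂ) = 0
  swap
  · exact ne_case (coe_cont S.cx) h0
  have hx : x e = Dsc.o := Subtype.ext h0
  obtain ⟨z, hz, he⟩ := S.pres.exists_rep (p e)
  obtain ⟨-, a1, -, a2, a3, -⟩ := facts_sb hz (S.x0 e z hz he hx)
  have h := key S S.cx (continuous_const (y := Dsc.o)) c_fA (continuous_const (y := ![1, 0, 1]))
    (fun e z hz he => by simpa only [aV_pB, fA] using S.hx e z hz he) (fun _ _ _ _ => rep_o S) hx hz
    he 1 0 2 (by decide) (by decide) (by decide) (hx ▸ rep_o S) one_ne_zero one_ne_zero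
    (fun _ => 1) (fun w => w .p1 * PP w * w .p3) sb (by fun_prop) (by fun_prop) (by fun_prop)
    one_ne_zero (mul_ne_zero (mul_ne_zero a2 a1) a3) fun w _ => by
      change 1 * ((w .e1 * w .e2) ^ 2 * nn w * 1 - 0 * mC w) = _
      simp only [nn, sb]
      ring
  simpa only [Dsc.o, sub_zero] using h

theorem Setup.locSq_y (S : Setup Ψ p u x y φ) (e : E) : LocSq (fun e => (y e : ℂ)) e := by
  by_cases h0 : (y e : ℂ) = 0
  swap
  · exact ne_case (coe_cont S.cy) h0
  have hy : y e = Dsc.o := Subtype.ext h0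
  obtain ⟨z, hz, he⟩ := S.pres.exists_rep (p e)
  have h := key S S.cy (continuous_const (y := Dsc.o)) continuous_yF
    (continuous_const (y := ![1, 0, 1])) S.hy (fun _ _ _ _ => rep_o S) hy hz
    he 1 0 2 (by decide) (by decide) (by decide) (hy ▸ rep_o S) one_ne_zero one_ne_zero
    (fun _ => 1) (fun _ => 1) bb (by fun_prop) (by fun_prop) (by fun_prop)
    one_ne_zero one_ne_zero fun w _ => by
      change 1 * (bb w ^ 2 * 1 - 0 * w .X) = _
      ring
  simpa only [Dsc.o, sub_zero] using h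

theorem Setup.locSq_xy (S : Setup Ψ p u x y φ) (e : E) :
    LocSq (fun e => (x e : ℂ) - y e) e := by
  by_cases h0 : (x e : ℂ) - y e = 0
  swap
  · exact ne_case ((coe_cont S.cx).sub (coe_cont S.cy)) h0
  have hx : x e = y e := Subtype.ext (sub_eq_zero.1 h0)
  obtain ⟨z, hz, he⟩ := S.pres.exists_rep (p e)
  have hA : ∀ e, ∀ z ∈ MM, Rep (p e) (Ψ z) → Rep (u (x e)) (fA z) := fun e z hz he => by
    simpa only [aV_pB, fA] using S.hx e z hz he
  have hv : Rep (u (x e)) (yF z) := hx ▸ S.hy e z hz he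
  have k := key S S.cx S.cy c_fA continuous_yF hA S.hy hx hz he
  by_cases hk : kb z = 0
  · obtain ⟨a1, a2, a3, a4⟩ := facts_kb hz hk
    have k1 := k 2 0 1 (by decide) (by decide) (by decide) hv a4
      (pow_ne_zero 2 (mul_ne_zero (mul_ne_zero a1 (pow_ne_zero 2 a2)) a3))
    by_cases hL : z .mu ^ 2 * z .X - z .eB ^ 2 * z .ka ^ 2 * mC z = 0
    · have hp := hv.par (hA e z hz he)
      have b1 : z .eA = 0 := by
        by_contra b2
        refine facts_w1 hz b2 ?_ hk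
        have b3 : bb z ^ 2 * mC z = (z .e1 * z .e2) ^ 2 * nn z * z .X := par_minor hp 1 0
        have b4 := hz.1.hw1
        simp only [Ew1, A1, B1, bb] at b3 b4
        have b5 : (z .e1 * z .e2) ^ 2 * (z .eA ^ 8 * z .w1 ^ 2) = 0 := by
          linear_combination (z .e1 * z .e2) ^ 2 * b4 + b3
        simpa [a1, a2, b2] using b5
      obtain ⟨b2, -, -, -, b3, -, b4, -⟩ := facts_eA hz b1
      obtain ⟨-, -, -, b5, -, -, b6, -⟩ := facts_m0 hz b2
      have b7 : z .mu ≠ 0 := by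
        intro b8
        simp [b8, b5, b6, b4.resolve_left (not_not.2 b8)] at hL
      refine k1 (fun w => (w .mu ^ 2 * w .X + w .eB ^ 2 * w .ka ^ 2 * mC w) *
          ((w .mu ^ 2 * w .X) ^ 2 + (w .eB ^ 2 * w .ka ^ 2 * mC w) ^ 2)) U1
        (fun w => w .eA * (w .e1 * w .e2) ^ 4 * w .w1) (by fun_prop) (by fun_prop) (by fun_prop)
        ?_ b3 fun w hw => ?_
      · rw [← sub_eq_zero.1 hL, ← two_mul, ← two_mul]
        simp [b7, a4]
      · change _ * (m0 w * w .X - kb w ^ 2 * mC w) = _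
        have c1 := fermat_a hw.1.h1 hw.1.h3
        have c2 := hw.1.hX
        have c3 := hw.1.hA
        rw [← sub_eq_zero.1 hw.1.hM] at c1 ⊢
        simp only [EqX, EqA, bb, kb] at c2 c3 ⊢
        linear_combination w .eA ^ 2 * (w .mu ^ 8 * c2 - w .eB ^ 8 * w .ka ^ 8 * c1 -
          (w .e1 * w .e2) ^ 8 * c3)
    · refine k1 (fun _ => 1) (fun w => w .mu ^ 2 * w .X - w .eB ^ 2 * w .ka ^ 2 * mC w)
        (fun w => w .eA) (by fun_prop) (by fun_prop) (by fun_prop) one_ne_zero hL fun w hw => ?_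
      change _ * (m0 w * w .X - kb w ^ 2 * mC w) = _
      rw [← sub_eq_zero.1 hw.1.hM, kb]
      ring
  by_cases hX : z .X = 0
  · refine k 0 1 2 (by decide) (by decide) (by decide) hv (pow_ne_zero 2 (facts_X hz hX).1)
      (pow_ne_zero 2 hk) (fun _ => 1) (fun _ => 1) (fun w => w .eA ^ 4 * w .e1 * w .e2 * w .w1)
      (by fun_prop) (by fun_prop) (by fun_prop) one_ne_zero one_ne_zero fun w hw => ?_
    change _ * (mC w * bb w ^ 2 - w .X * ((w .e1 * w .e2) ^ 2 * nn w)) = _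
    have c1 := hw.1.hw1
    simp only [Ew1, A1, B1, bb] at c1 ⊢
    linear_combination -(w .e1 * w .e2) ^ 2 * c1
  · refine k 1 0 2 (by decide) (by decide) (by decide) hv hX
      (pow_ne_zero 2 hk) (fun _ => 1) (fun _ => -1) (fun w => w .eA ^ 4 * w .e1 * w .e2 * w .w1)
      (by fun_prop) (by fun_prop) (by fun_prop) one_ne_zero (neg_ne_zero.2 one_ne_zero)
      fun w hw => ?_
    change _ * ((w .e1 * w .e2) ^ 2 * nn w * w .X - bb w ^ 2 * mC w) = _
    have c1 := hw.1.hw1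
    simp only [Ew1, A1, B1, bb] at c1 ⊢
    linear_combination (w .e1 * w .e2) ^ 2 * c1

theorem Setup.locSq_yφ (S : Setup Ψ p u x y φ) (e : E) :
    LocSq (fun e => (y e : ℂ) - φ e) e := by
  by_cases h0 : (y e : ℂ) - φ e = 0
  swap
  · exact ne_case ((coe_cont S.cy).sub (coe_cont S.cφ)) h0
  have hx : y e = φ e := Subtype.ext (sub_eq_zero.1 h0)
  obtain ⟨z, hz, he⟩ := S.pres.exists_rep (p e)
  have hA : ∀ e, ∀ z ∈ MM, Rep (p e) (Ψ z) → Rep (u (φ e)) (fC z) := fun e z hz he => by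
    simpa only [cV_pB, fC] using S.hφ e z hz he
  have hv : Rep (u (y e)) (yF z) := S.hy e z hz he
  have k := key S S.cy S.cφ continuous_yF c_fC S.hy hA hx hz he
  by_cases hk : kb z = 0
  · obtain ⟨a1, a2, a3, a4⟩ := facts_kb hz hk
    have k1 := k 2 0 1 (by decide) (by decide) (by decide) hv a4
      (pow_ne_zero 2 (mul_ne_zero (mul_ne_zero a1 (pow_ne_zero 2 a2)) a3))
    by_cases hL : z .eA ^ 2 * z .ka ^ 2 * (g4 * z .p1 * z .p3) - z .q ^ 2 * z .X = 0
    · have hp := hv.par (hx ▸ hA e z hz he)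
      have b1 : z .eB = 0 := by
        by_contra b2
        refine (facts_w2 hz b2 ?_).1 hk
        have b3 : bb z ^ 2 * (g4 * z .p1 * z .p3) = sb z ^ 4 * z .X := par_minor hp 1 0
        have b4 := hz.1.hw2
        simp only [Ew2, A2, B2, bb, sb] at b3 b4
        have b5 : (z .e1 * z .e2 ^ 2) ^ 2 * (z .eB ^ 8 * z .w2 ^ 2) = 0 := by
          linear_combination (z .e1 * z .e2 ^ 2) ^ 2 * b4 + b3
        simpa [a1, a2, b2] using b5
      obtain ⟨b2, -, -, -, b3, -, b4, -⟩ := facts_eB hz b1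
      obtain ⟨-, -, -, b5, b5', b6, -⟩ := facts_PP hz b2
      have b7 : z .q ≠ 0 := by
        intro b8
        simp [b8, b5, b5', b6, g4_ne, b4.resolve_left (not_not.2 b8)] at hL
      refine k1 (fun w => (w .eA ^ 2 * w .ka ^ 2 * (g4 * w .p1 * w .p3) + w .q ^ 2 * w .X) *
          ((w .eA ^ 2 * w .ka ^ 2 * (g4 * w .p1 * w .p3)) ^ 2 + (w .q ^ 2 * w .X) ^ 2))
        (fun w => -U2 w) (fun w => w .eB * (w .e1 * w .e2 ^ 2) ^ 4 * w .w2) (by fun_prop)
        (by fun_prop) (by fun_prop) ?_ (neg_ne_zero.2 b3) fun w hw => ?_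
      · rw [sub_eq_zero.1 hL, ← two_mul, ← two_mul]
        simp [b7, a4]
      · change _ * (kb w ^ 2 * (g4 * w .p1 * w .p3) - PP w ^ 2 * w .X) = _
        have c1 := fermat_c hw.1.h1 hw.1.h3
        have c2 := hw.1.hX
        have c3 := hw.1.hB
        rw [← sub_eq_zero.1 hw.1.h0] at c1 ⊢
        simp only [EqX, EqB, bb, kb, sb] at c1 c2 c3 ⊢
        linear_combination w .eB ^ 2 * (w .eA ^ 8 * w .ka ^ 8 * c1 - w .q ^ 8 * c2 +
          (w .e1 * w .e2 ^ 2) ^ 8 * c3)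
    · refine k1 (fun _ => 1)
        (fun w => w .eA ^ 2 * w .ka ^ 2 * (g4 * w .p1 * w .p3) - w .q ^ 2 * w .X)
        (fun w => w .eB) (by fun_prop) (by fun_prop) (by fun_prop) one_ne_zero hL fun w hw => ?_
      change _ * (kb w ^ 2 * (g4 * w .p1 * w .p3) - PP w ^ 2 * w .X) = _
      rw [← sub_eq_zero.1 hw.1.h0, kb]
      ring
  by_cases hX : z .X = 0
  · refine k 0 1 2 (by decide) (by decide) (by decide) hv (pow_ne_zero 2 (facts_X hz hX).1)
      (pow_ne_zero 2 hk) (fun _ => 1) (fun _ => -1)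
      (fun w => w .eB ^ 4 * w .e1 * w .e2 ^ 2 * w .w2) (by fun_prop) (by fun_prop) (by fun_prop)
      one_ne_zero (neg_ne_zero.2 one_ne_zero) fun w hw => ?_
    change _ * (w .X * sb w ^ 4 - g4 * w .p1 * w .p3 * bb w ^ 2) = _
    have c1 := hw.1.hw2
    simp only [Ew2, A2, B2, bb, sb] at c1 ⊢
    linear_combination (w .e1 * w .e2 ^ 2) ^ 2 * c1
  · refine k 1 0 2 (by decide) (by decide) (by decide) hv hX
      (pow_ne_zero 2 hk) (fun _ => 1) (fun _ => 1)
      (fun w => w .eB ^ 4 * w .e1 * w .e2 ^ 2 * w .w2) (by fun_prop) (by fun_prop) (by fun_prop)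
      one_ne_zero one_ne_zero fun w hw => ?_
    change _ * (bb w ^ 2 * (g4 * w .p1 * w .p3) - sb w ^ 4 * w .X) = _
    have c1 := hw.1.hw2
    simp only [Ew2, A2, B2, bb, sb] at c1 ⊢
    linear_combination -(w .e1 * w .e2 ^ 2) ^ 2 * c1

end Vale.Agent.P300
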