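import Vale.Agent.P300.Hol

/-! Holomorphic functions are constant along lifted rational curves. -/

namespace Vale.Agent.P300

open Topology Filter Set Complex

theorem rat_const {N : ℕ} {C : Set (Fin N → ℂ)} (hC : IsCone C) {E : Type} [TopologicalSpace E]
    {p : E → Pj C} (hp : IsCoveringMap p) {γ γ' : ℂ → Fin N → ℂ} (hγ : ∀ τ, AnalyticAt ℂ γ τ)
    (hγ' : ∀ τ, AnalyticAt ℂ γ' τ) (hm : ∀ τ, γ τ ∈ C) (hm' : ∀ τ, γ' τ ∈ C)
    (hpar : ∀ τ, τ ≠ 0 → Par (γ τ) (γ' τ⁻¹)) {e : E} (he : Rep (p e) (γ 0)) :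
    ∃ l : ℂ → E, Continuous l ∧ l 0 = e ∧ (∀ τ, Rep (p (l τ)) (γ τ)) ∧
      ∀ g : E → ℂ, IsHol p g → ∀ τ, g (l τ) = g e := by
  have cont : ∀ {δ : ℂ → Fin N → ℂ} (_ : ∀ τ, AnalyticAt ℂ δ τ) (hd : ∀ τ, δ τ ∈ C),
      Continuous fun τ => pt (δ τ) (hd τ) := fun {δ} h hd =>
    continuous_mkPj.comp
      ((continuous_iff_continuousAt.2 fun τ => (h τ).continuousAt).subtype_mk hd)
  obtain ⟨l, ⟨hl0, hl⟩, -⟩ := hp.existsUnique_continuousMap_lifts
    ⟨fun τ => pt (γ τ) (hm τ), cont hγ hm⟩ 0 e (he.eq (rep_pt (hm 0)))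
  have hl' : ∀ τ, Rep (p (l τ)) (γ τ) := fun τ => ⟨hm τ, congrFun hl τ⟩
  have h1 : Par (γ 1) (γ' 1) := by simpa using hpar 1 one_ne_zero
  obtain ⟨k, ⟨hk0, hk⟩, -⟩ := hp.existsUnique_continuousMap_lifts
    ⟨fun τ => pt (γ' τ) (hm' τ), cont hγ' hm'⟩ 1 (l 1)
    ((hl' 1).eq_of_par (rep_pt (hm' 1)) h1)
  have hk' : ∀ τ, Rep (p (k τ)) (γ' τ) := fun τ => ⟨hm' τ, congrFun hk τ⟩
  have hlk : EqOn l (fun τ => k τ⁻¹) ({0}ᶜ : Set ℂ) := by
    refine hp.eqOn_of_comp_eqOn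
      (isConnected_compl_singleton_of_one_lt_rank (by simp) (0 : ℂ)).isPreconnected
      l.continuous.continuousOn (k.continuous.comp_continuousOn continuousOn_inv₀)
      (fun τ hτ => (hl' τ).eq_of_par (hk' τ⁻¹) (hpar τ hτ)) (a := 1) (by simp) ?_
    simp [hk0]
  refine ⟨l, l.continuous, hl0, hl', fun g hg τ => ?_⟩
  have a1 : Differentiable ℂ fun τ => g (l τ) := fun τ =>
    (hg.analyticAt_comp hC l.continuous.continuousAt (hγ τ)
      (Eventually.of_forall hl')).differentiableAt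
  have a2 : Differentiable ℂ fun τ => g (k τ) := fun τ =>
    (hg.analyticAt_comp hC k.continuous.continuousAt (hγ' τ)
      (Eventually.of_forall hk')).differentiableAt
  have b1 := ((isCompact_closedBall (0 : ℂ) 1).image a1.continuous).isBounded
  have b2 := ((isCompact_closedBall (0 : ℂ) 1).image a2.continuous).isBounded
  have b : Bornology.IsBounded (range fun τ => g (l τ)) := by
    refine (b1.union b2).subset ?_
    rintro _ ⟨σ, rfl⟩
    by_cases h : ‖σ‖ ≤ 1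
    · exact Or.inl ⟨σ, by simpa using h, rfl⟩
    · have h' : 1 < ‖σ‖ := not_le.1 h
      have h0 : σ ≠ 0 := by
        rintro rfl
        norm_num at h'
      refine Or.inr ⟨σ⁻¹, ?_, ?_⟩
      · simpa using inv_le_one_of_one_le₀ h'.le
      · exact congrArg g (hlk h0).symm
  rw [← hl0]
  exact a1.apply_eq_apply_of_bounded b τ 0

/-- The winding step: in a half plane, a continuous logarithm changes by the principal amount. -/
theorem log_step {L : ℝ → ℂ} (hL : ContinuousOn L (Icc 0 1)) {c : ℂ}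
    (hre : ∀ τ ∈ Icc (0 : ℝ) 1, (c * exp (L τ)).re = 1) (h0 : c * exp (L 0) = 1 - I)
    (h1 : c * exp (L 1) = 1 + I) : (L 1).im = (L 0).im + Real.pi / 2 := by
  have hs : ∀ τ ∈ Icc (0 : ℝ) 1, c * exp (L τ) ∈ slitPlane := fun τ hτ =>
    Or.inl (by rw [hre τ hτ]; exact one_pos)
  have hc : ContinuousOn (fun τ => L τ - log (c * exp (L τ))) (Icc 0 1) :=
    hL.sub ((continuousOn_const.mul hL.cexp).clog hs)
  have he : ∀ τ ∈ Icc (0 : ℝ) 1, exp (L τ - log (c * exp (L τ))) = c⁻¹ := by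
    intro τ hτ
    have h := slitPlane_ne_zero (hs τ hτ)
    rw [exp_sub, exp_log h]
    have := exp_ne_zero (L τ)
    have := left_ne_zero_of_mul h
    field_simp
  have key := isCoveringMap_exp.constOn_of_comp isPreconnected_Icc hc
    (fun a ha a' ha' => Subtype.ext ((he a ha).trans (he a' ha').symm))
    (left_mem_Icc.2 zero_le_one) (right_mem_Icc.2 zero_le_one)
  have a1 : arg (1 + I) = Real.pi / 4 := by
    have : (1 + I : ℂ) = (√2 : ℝ) * (Real.cos (Real.pi / 4) + Real.sin (Real.pi / 4) * I) := by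
      rw [Real.cos_pi_div_four, Real.sin_pi_div_four]
      have h2 : ((√2 : ℝ) : ℂ) ^ 2 = 2 := by
        rw [← ofReal_pow, Real.sq_sqrt (by norm_num)]
        norm_num
      push_cast
      linear_combination (-(1 + I) / 2) * h2
    rw [this, ofReal_cos, ofReal_sin]
    exact arg_mul_cos_add_sin_mul_I (by positivity)
      ⟨by linarith [Real.pi_pos], by linarith [Real.pi_pos]⟩
  have a2 : arg (1 - I) = -(Real.pi / 4) := by
    have : (1 - I : ℂ) = (starRingEnd ℂ) (1 + I) := by simp [sub_eq_add_neg]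
    rw [this, arg_conj, a1, if_neg (by linarith [Real.pi_pos])]
  have k2 := congrArg im key
  simp only [h0, h1, sub_im, log_im, a1, a2] at k2
  linarith

/-- A continuous function whose square is the square of a nonvanishing continuous function. -/
theorem sign_const {f b : ℝ → ℂ} (hf : ContinuousOn f (Icc 0 1)) (hb : ContinuousOn b (Icc 0 1))
    (hne : ∀ τ ∈ Icc (0 : ℝ) 1, b τ ≠ 0) (h : ∀ τ ∈ Icc (0 : ℝ) 1, f τ ^ 2 = b τ ^ 2) :
    (∀ τ ∈ Icc (0 : ℝ) 1, f τ = b τ) ∨ ∀ τ ∈ Icc (0 : ℝ) 1, f τ = -b τ := by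
  exact isPreconnected_Icc.eq_or_eq_neg_of_sq_eq hf hb h fun hx => hne _ hx

/-- An unbounded chain in the hull of a point. -/
theorem not_holConvex_of_step {N : ℕ} {C : Set (Fin N → ℂ)} {E : Type} [TopologicalSpace E]
    {p : E → Pj C} {θ : E → ℝ} (hθ : Continuous θ) {S : Set E} {e₀ : E} (h0 : e₀ ∈ S)
    (step : ∀ e ∈ S, ∃ e' ∈ S, θ e' = θ e + Real.pi / 2 ∧ ∀ g, IsHol p g → g e' = g e) :
    ¬ HolConvex p := by
  intro H
  have hK := H {e₀} (singleton_nonempty _) isCompact_singleton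
  obtain ⟨B, hB⟩ := (hK.image hθ).bddAbove
  have key : ∀ n : ℕ, ∃ e ∈ S, θ e = θ e₀ + n * (Real.pi / 2) ∧ ∀ g, IsHol p g → g e = g e₀ := by
    intro n
    induction n with
    | zero => exact ⟨e₀, h0, by simp, fun _ _ => rfl⟩
    | succ n ih =>
      obtain ⟨e, he, h1, h2⟩ := ih
      obtain ⟨e', he', h3, h4⟩ := step e he
      refine ⟨e', he', ?_, fun g hg => (h4 g hg).trans (h2 g hg)⟩
      rw [h3, h1]
      push_cast
      ring
  obtain ⟨n, hn⟩ := exists_nat_gt (B - θ e₀)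
  obtain ⟨e, -, h1, h2⟩ := key n
  have hm : e ∈ hull p {e₀} := by
    intro g hg
    simp [h2 g hg]
  have h3 : θ e ≤ B := hB ⟨e, hm, rfl⟩
  have h4 : (n : ℝ) * 1 ≤ n * (Real.pi / 2) :=
    mul_le_mul_of_nonneg_left (by linarith [Real.pi_gt_three]) (Nat.cast_nonneg n)
  linarith

end Vale.Agent.P300
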