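import Vale.Agent.P300.Coc

/-! Existence of the universal cover. -/

namespace Vale.Agent.P300

open Topology Filter Set

open CategoryTheory in
theorem uc_group (X : Type) [TopologicalSpace X] [PathConnectedSpace X] :
    ∃ (G : Type) (_ : Group G) (Λ : ∀ a b : X, Path a b → G),
      (∀ a b c (γ : Path a b) (γ' : Path b c), Λ a c (γ.trans γ') = Λ a b γ * Λ b c γ') ∧
      (∀ a b (γ γ' : Path a b), Λ a b γ = Λ a b γ' ↔ γ.Homotopic γ') ∧
      ∀ a b, Function.Surjective (Λ a b) := by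
  obtain ⟨x⟩ : Nonempty X := inferInstance
  let c : ∀ a : X, FundamentalGroupoid.mk x ⟶ FundamentalGroupoid.mk a := fun a =>
    Path.Homotopic.Quotient.mk (PathConnectedSpace.somePath x a)
  let q : ∀ a b : X, Path a b → (FundamentalGroupoid.mk a ⟶ FundamentalGroupoid.mk b) :=
    fun a b γ => Path.Homotopic.Quotient.mk γ
  let F : ∀ a b : X, Path a b → FundamentalGroup X x := fun a b γ => c a ≫ q a b γ ≫ inv (c b)
  refine ⟨FundamentalGroup X x, inferInstance, fun a b γ => (F a b γ)⁻¹, fun a b d γ γ' => ?_,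
    fun a b γ γ' => ?_, fun a b g => ?_⟩
  · have e : q a d (γ.trans γ') = q a b γ ≫ q b d γ' := rfl
    rw [← mul_inv_rev, inv_inj, End.mul_def]
    simp only [F, e, Category.assoc, IsIso.inv_hom_id_assoc]
  · rw [inv_inj]
    simp only [F]
    erw [cancel_epi, cancel_mono]
    exact Path.Homotopic.Quotient.eq
  · obtain ⟨γ, hγ⟩ := Path.Homotopic.Quotient.mk_surjective
      (inv (c a) ≫ FundamentalGroup.toArrow g⁻¹ ≫ c b)
    refine ⟨γ, inv_eq_iff_eq_inv.2 ?_⟩
    have e : q a b γ = inv (c a) ≫ FundamentalGroup.toArrow g⁻¹ ≫ c b := hγ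
    simp only [F, e, Category.assoc, IsIso.hom_inv_id_assoc, IsIso.hom_inv_id, Category.comp_id]

theorem exists_univ_cover_conn {X : Type} [TopologicalSpace X] [LocallyPathConnectedSpace X]
    [PathConnectedSpace X]
    (h : ∀ ξ : X, ∃ U ∈ 𝓝 ξ, ∀ (a b : X) (γ γ' : Path a b), range γ ⊆ U → range γ' ⊆ U →
      γ.Homotopic γ') :
    ∃ (E : Type) (_ : TopologicalSpace E) (p : E → X), IsCoveringMap p ∧
      SimplyConnectedSpace E ∧ Function.Surjective p := by
  classical
  obtain ⟨G, _, Λ, h1, h2, h3⟩ := uc_group X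
  choose V hV hV' using h
  choose U hU hUV using fun ξ => (isOpen_isPathConnected_basis ξ).mem_iff.1 (hV ξ)
  have hj : ∀ ξ b, b ∈ U ξ → JoinedIn (U ξ) ξ b := fun ξ b hb =>
    (hU ξ).2.2.joinedIn ξ (hU ξ).2.1 b hb
  obtain ⟨d, hd⟩ : ∃ d : X → X → G, ∀ ξ a b (γ : Path a b), (∀ t, γ t ∈ U ξ) →
      d ξ b = d ξ a * Λ a b γ := by
    refine ⟨fun ξ b => if hb : b ∈ U ξ then Λ ξ b (hj ξ b hb).somePath else 1,
      fun ξ a b γ hγ => ?_⟩
    have ha : a ∈ U ξ := γ.source ▸ hγ 0
    have hb : b ∈ U ξ := γ.target ▸ hγ 1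
    simp only [dif_pos ha, dif_pos hb]
    rw [← h1, h2]
    refine hV' ξ _ _ _ _ ((range_subset_iff.2 (hj ξ b hb).somePath_mem).trans (hUV ξ)) ?_
    rw [Path.trans_range]
    exact (union_subset (range_subset_iff.2 (hj ξ a ha).somePath_mem)
      (range_subset_iff.2 hγ)).trans (hUV ξ)
  obtain ⟨P, _, pr, t, s, hc, t1, t2, -, s2, s3⟩ := exists_cocycle_cover U (fun ξ => (hU ξ).1)
    (fun b => ⟨b, (hU b).2.1⟩) (fun i j b => d i b * (d j b)⁻¹)
    (fun i j b hi hj => by
      filter_upwards [pathComponentIn_mem_nhds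
        (((hU i).1.inter (hU j).1).mem_nhds ⟨hi, hj⟩)] with b' hb'
      rw [hd i b b' hb'.somePath fun t => (hb'.somePath_mem t).1,
        hd j b b' hb'.somePath fun t => (hb'.somePath_mem t).2]
      group)
    (fun i j k b _ _ _ => by group)
  obtain ⟨Θ, hΘ⟩ : ∃ Θ : P → G, ∀ i e, pr e ∈ U i → Θ e = t i e * d i (pr e) :=
    ⟨fun e => t (pr e) e * d (pr e) (pr e), fun i e he => by
      rw [t2 (pr e) i e (hU _).2.1 he]
      group⟩
  have hinj : ∀ e e', pr e = pr e' → Θ e = Θ e' → e = e' := fun e e' a1 a2 => by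
    have a3 := (hU (pr e)).2.1
    have a4 : pr e' ∈ U (pr e) := a1 ▸ a3
    rw [hΘ _ e a3, hΘ _ e' a4, ← a1, mul_left_inj] at a2
    rw [← s3 _ e a3, ← s3 _ e' a4, ← a1, a2]
  have hcast : ∀ {a b a' b' : X} (γ : Path a b) (ha : a' = a) (hb : b' = b),
      Λ _ _ (γ.cast ha hb) = Λ _ _ γ := by
    rintro a b _ _ γ rfl rfl
    rfl
  have key : ∀ {e e' : P} (Γ : Path e e'), Θ e' = Θ e * Λ _ _ (Γ.map hc.continuous) := by
    intro e e' Γ
    have hlc : IsLocallyConstant fun u =>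
        Θ (Γ u) * (Λ _ _ ((Γ.map hc.continuous).subpath 0 u))⁻¹ := by
      refine (IsLocallyConstant.iff_eventually_eq _).2 fun u => ?_
      have a1 := (hU (pr (Γ u))).2.1
      have a2 : {u' | pr (Γ u') ∈ U (pr (Γ u)) ∧ t (pr (Γ u)) (Γ u') = t (pr (Γ u)) (Γ u)} ∈ 𝓝 u :=
        Γ.continuous.continuousAt.eventually ((hc.continuous.continuousAt.eventually
          ((hU _).1.mem_nhds a1)).and (t1 _ _ a1))
      filter_upwards [ordConnectedComponent_mem_nhds.2 a2] with u' hu'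
      have a3 := hu' right_mem_uIcc
      have a4 := hd (pr (Γ u)) _ _ ((Γ.map hc.continuous).subpath u u') fun v => by
        obtain ⟨w, hw, e⟩ := ((Γ.map hc.continuous).range_subpath u u').subset (mem_range_self v)
        exact e ▸ (hu' hw).1
      rw [hΘ _ _ a1, hΘ _ _ a3.1, a3.2, ← (h2 _ _ _ _).2
        ⟨Path.Homotopy.subpathTransSubpath (Γ.map hc.continuous) 0 u u'⟩, h1]
      erw [a4]
      simp only [mul_inv_rev, mul_assoc, mul_inv_cancel_left]
      rfl
    have a1 := hlc.apply_eq_of_preconnectedSpace 1 0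
    have a2 : ∀ a, Λ a a (Path.refl a) = 1 := fun a =>
      mul_eq_left.1 ((h1 a a a _ _).symm.trans
        ((h2 _ _ _ _).2 (Path.Homotopic.trans_refl (Path.refl a))))
    rw [Path.subpath_zero_one, Path.subpath_self, hcast, a2, inv_one, mul_one, Γ.source,
      Γ.target] at a1
    exact mul_inv_eq_iff_eq_mul.1 a1
  have hs : Function.Surjective pr := fun b => ⟨s b 1 b, (s2 b 1 b (hU b).2.1).1⟩
  refine ⟨P, inferInstance, pr, hc, simply_connected_iff_paths_homotopic'.2
    ⟨⟨hs.nonempty, fun e e' => ?_⟩, fun {e e'} Γ Γ' => ?_⟩, hs⟩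
  · obtain ⟨γ, hγ⟩ := h3 (pr e) (pr e') ((Θ e)⁻¹ * Θ e')
    obtain ⟨Γ, a1, a2⟩ := hc.exists_path_lifts γ e γ.source
    have a3 : pr (Γ 1) = pr e' := (congrFun a1 1).trans γ.target
    have a4 := key (e' := Γ 1) ⟨Γ, a2, rfl⟩
    have a5 : Path.map (⟨Γ, a2, rfl⟩ : Path e (Γ 1)) hc.continuous = γ.cast rfl a3 :=
      Path.ext a1
    rw [a5, hcast, hγ, mul_inv_cancel_left] at a4
    exact ⟨⟨Γ, a2, hinj _ _ a3 a4⟩⟩
  · exact Path.Homotopic.Quotient.eq.1 (hc.injective_path_homotopic_map e e'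
      (Path.Homotopic.Quotient.eq.2 ((h2 _ _ _ _).1
        (mul_left_cancel ((key Γ).symm.trans (key Γ'))))))

theorem uc_clopen {X E : Type} [TopologicalSpace X] [TopologicalSpace E] {s : Set X}
    (hs : IsClopen s) {p : E → s} (hp : IsCoveringMap p) : IsCoveringMap (Subtype.val ∘ p) := by
  intro x
  by_cases hx : x ∈ s
  · exact ((hp ⟨x, hx⟩).subtypeVal_comp _ hs.isOpen).to_isEvenlyCovered_preimage
  · exact (IsEvenlyCovered.of_preimage_eq_empty Empty (hs.compl.isOpen.mem_nhds hx)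
      (eq_empty_of_forall_notMem fun e he => he (p e).2)).to_isEvenlyCovered_preimage

/-- The universal cover of the path component of `x₀`. -/
theorem exists_univ_cover {X : Type} [TopologicalSpace X] [LocallyPathConnectedSpace X]
    (h : ∀ ξ : X, ∃ U ∈ 𝓝 ξ, ∀ (a b : X) (γ γ' : Path a b), range γ ⊆ U → range γ' ⊆ U →
      γ.Homotopic γ') (x₀ : X) :
    ∃ (E : Type) (_ : TopologicalSpace E) (p : E → X), IsCoveringMap p ∧
      SimplyConnectedSpace E ∧ range p = pathComponent x₀ := by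
  have hs := IsClopen.pathComponent x₀
  have := hs.isOpen.locallyPathConnectedSpace
  have := isPathConnected_iff_pathConnectedSpace.1 (isPathConnected_pathComponent (x := x₀))
  have hc : IsCoveringMap (Subtype.val ∘ id : pathComponent x₀ → X) :=
    uc_clopen hs fun x => IsEvenlyCovered.to_isEvenlyCovered_preimage (I := Unit)
      ⟨inferInstance, univ, mem_univ _, isOpen_univ, isOpen_univ,
        (Homeomorph.prodUnique _ Unit).symm, fun _ => rfl⟩
  obtain ⟨E, _, p, h1, h2, h3⟩ := exists_univ_cover_conn (X := pathComponent x₀) fun ξ => by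
    obtain ⟨U, hU, hU'⟩ := h ξ
    refine ⟨Subtype.val ⁻¹' U, continuous_subtype_val.continuousAt hU, fun a b γ γ' a1 a2 => ?_⟩
    exact Path.Homotopic.Quotient.eq.1 (hc.injective_path_homotopic_map a b
      (Path.Homotopic.Quotient.eq.2 (hU' _ _ (γ.map hc.continuous) (γ'.map hc.continuous)
        (range_subset_iff.2 fun t => a1 (mem_range_self t))
        (range_subset_iff.2 fun t => a2 (mem_range_self t)))))
  exact ⟨E, inferInstance, Subtype.val ∘ p, uc_clopen hs h1, h2, by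
    rw [h3.range_comp, Subtype.range_coe]⟩

end Vale.Agent.P300
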