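import Vale.Agent.P300.OdeDefs
import Vale.Agent.P300.Proj
import Vale.Agent.P300.Retr

/-! The six charts composed with the developing map form a hyperbolic structure. -/

namespace Vale.Agent.P300

open Topology Filter Set Complex

theorem dAut_rot {c : ℂ} (hc : ‖c‖ = 1) : DAut (fun z => c * z) (fun z => c⁻¹ * z) := by
  have h0 : c ≠ 0 := by rintro rfl; simp at hc
  refine ⟨by fun_prop, by fun_prop, fun z hz => by simpa [hc] using hz,
    fun z hz => by simpa [hc] using hz, fun z _ => by simp [h0], fun z _ => by simp [h0],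
    fun z _ w _ => ?_⟩
  have h1 : (starRingEnd ℂ) (c * w) * (c * z) = (starRingEnd ℂ) w * z := by
    have h2 := Complex.conj_mul' c
    rw [hc, ofReal_one, one_pow] at h2
    rw [map_mul]
    linear_combination ((starRingEnd ℂ) w * z) * h2
  rw [phd, phd, h1, ← mul_sub, mul_div_assoc, norm_mul, hc, one_mul]

theorem dAut_inv {a : ℝ} (ha : |a| < 1) :
    DAut (fun z => (a - z) / (1 - a * z)) (fun z => (a - z) / (1 - a * z)) := by
  have h1 : ∀ z : ℂ, ‖z‖ < 1 → 1 - a * z ≠ 0 := fun z hz h => by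
    have h2 := congrArg norm (sub_eq_zero.1 h)
    rw [norm_one, norm_mul, Complex.norm_real, Real.norm_eq_abs] at h2
    nlinarith [abs_nonneg a, norm_nonneg z]
  have ha2 : a ^ 2 < 1 := (sq_lt_one_iff_abs_lt_one a).2 ha
  have h2 : (1 : ℂ) - a * a ≠ 0 := h1 a (by simpa using ha)
  have hd : DifferentiableOn ℂ (fun z : ℂ => (a - z) / (1 - a * z)) (Metric.ball 0 1) :=
    DifferentiableOn.div (by fun_prop) (by fun_prop) fun z hz => h1 z (by simpa using hz)
  have hm : MapsTo (fun z : ℂ => (a - z) / (1 - a * z)) (Metric.ball 0 1) (Metric.ball 0 1) := by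
    intro z hz
    rw [mem_ball_zero_iff] at hz ⊢
    rw [norm_div, div_lt_one (norm_pos_iff.2 (h1 z hz)), ← sq_lt_sq₀ (norm_nonneg _) (norm_nonneg _),
      Complex.sq_norm, Complex.sq_norm]
    have h3 : normSq z < 1 := by
      rw [← Complex.sq_norm]; exact pow_lt_one₀ (norm_nonneg _) hz two_ne_zero
    simp only [normSq_apply, sub_re, ofReal_re, sub_im, ofReal_im, one_re, one_im, mul_re,
      mul_im] at h3 ⊢
    nlinarith [mul_pos (sub_pos.2 ha2) (sub_pos.2 h3)]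
  have hi : ∀ z ∈ Metric.ball (0 : ℂ) 1,
      (a - (a - z) / (1 - a * z)) / (1 - a * ((a - z) / (1 - a * z))) = z := fun z hz => by
    rw [div_eq_iff (h1 _ (mem_ball_zero_iff.1 (hm hz)))]
    have := h1 z (mem_ball_zero_iff.1 hz)
    field_simp
    ring
  refine ⟨hd, hd, hm, hm, hi, hi, fun z hz w hw => ?_⟩
  rw [mem_ball_zero_iff] at hz hw
  have hz' := h1 z hz
  have hw' := h1 w hw
  have hw'' := h1 ((starRingEnd ℂ) w) (by simpa using hw)
  have e1 : (a - z) / (1 - a * z) - (a - w) / (1 - a * w) =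
      -((1 - a * a) / (1 - a * z)) * (z - w) / (1 - a * w) := by
    field_simp
    ring
  have e2 : 1 - (starRingEnd ℂ) ((a - w) / (1 - a * w)) * ((a - z) / (1 - a * z)) =
      (1 - a * a) / (1 - a * z) * (1 - (starRingEnd ℂ) w * z) / (1 - a * (starRingEnd ℂ) w) := by
    simp only [map_div₀, map_sub, map_mul, map_one, conj_ofReal]
    field_simp
    ring
  have e3 : ‖1 - a * (starRingEnd ℂ) w‖ = ‖1 - a * w‖ := by
    rw [← Complex.norm_conj]; simp
  rw [phd, phd, e1, e2]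
  simp only [norm_div, norm_mul, norm_neg, e3]
  rw [div_div_div_cancel_right₀ (norm_ne_zero_iff.2 hw'), mul_div_mul_left _ _
    (div_ne_zero (norm_ne_zero_iff.2 h2) (norm_ne_zero_iff.2 hz'))]

theorem DAut.comp {f g f' g' : ℂ → ℂ} (h : DAut f g) (h' : DAut f' g') :
    DAut (fun z => f (f' z)) (fun z => g' (g z)) := by
  exact ⟨h.df.comp h'.df h'.mf, h'.dg.comp h.dg h.mg, h.mf.comp h'.mf, h'.mg.comp h.mg,
    fun z hz => by rw [h.gf _ (h'.mf hz), h'.gf z hz],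
    fun z hz => by rw [h'.fg _ (h.mg hz), h.fg z hz],
    fun z hz w hw => (h.iso _ (h'.mf hz) _ (h'.mf hw)).trans (h'.iso z hz w hw)⟩

theorem Atl.continuousAt {U : Fin 6 → Set (Pj CF)} {w : Fin 6 → Pj CF → ℂ} (h : Atl U w)
    {i : Fin 6} {b : Pj CF} (hb : b ∈ U i) : ContinuousAt (w i) b := by
  obtain ⟨v, hv⟩ := exists_rep b
  obtain ⟨G, hG, h1⟩ := h.amb i b hb v hv
  obtain ⟨j, -, h2, h3, h4⟩ := hv.exists_sec isCone_CF
  have h5 := h2.self_of_nhds
  rw [← h3] at hG h1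
  refine (hG.continuousAt.comp (f := fun η : Pj CF => v j • nrm j η) h5).congr ?_
  filter_upwards [h4, h5.eventually h1] with η a1 a2
  exact (a2 η a1).symm

theorem tr_oph {X Y : Type} [TopologicalSpace X] [TopologicalSpace Y] {f : X → Y} {g : Y → X}
    {x : X} (hf : ∀ᶠ x' in 𝓝 x, ContinuousAt f x' ∧ g (f x') = x')
    (hg : ∀ᶠ y in 𝓝 (f x), ContinuousAt g y ∧ f (g y) = y) :
    ∃ e : OpenPartialHomeomorph X Y, x ∈ e.source ∧ f = e := by
  obtain ⟨A, hA, oA, xA⟩ := eventually_nhds_iff.1 hf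
  obtain ⟨B, hB, oB, xB⟩ := eventually_nhds_iff.1 hg
  have cA : ContinuousOn f A := fun x hx => (hA x hx).1.continuousWithinAt
  have cB : ContinuousOn g B := fun x hx => (hB x hx).1.continuousWithinAt
  exact ⟨{
    toFun := f
    invFun := g
    source := A ∩ f ⁻¹' B
    target := B ∩ g ⁻¹' A
    map_source' := fun x hx => ⟨hx.2, by simpa [(hA x hx.1).2] using hx.1⟩
    map_target' := fun y hy => ⟨hy.2, by simpa [(hB y hy.1).2] using hy.1⟩
    left_inv' := fun x hx => (hA x hx.1).2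
    right_inv' := fun y hy => (hB y hy.1).2
    open_source := cA.isOpen_inter_preimage oA oB
    open_target := cB.isOpen_inter_preimage oB oA
    continuousOn_toFun := cA.mono inter_subset_left
    continuousOn_invFun := cB.mono inter_subset_left }, ⟨xA, xB⟩, rfl⟩

theorem Atl.chart {U : Fin 6 → Set (Pj CF)} {w : Fin 6 → Pj CF → ℂ} (h : Atl U w)
    {i : Fin 6} {b : Pj CF} (hb : b ∈ U i) :
    ∃ e : OpenPartialHomeomorph (Pj CF) ℂ, b ∈ e.source ∧ w i =ᶠ[𝓝 b] e := by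
  classical
  obtain ⟨κ, h1, h2, h3⟩ := h.inv i b hb
  obtain ⟨K, hK⟩ : ∃ K : ℂ → Pj CF, ∀ a (ha : κ a ∈ CF), K a = pt (κ a) ha :=
    ⟨fun a => if ha : κ a ∈ CF then pt (κ a) ha else b, fun a ha => dif_pos ha⟩
  obtain ⟨e, he, he'⟩ := tr_oph (f := w i) (g := K) (x := b) (by
      filter_upwards [(h.op i).mem_nhds hb, h3] with b' a1 a2
      exact ⟨h.continuousAt a1, (hK _ a2.1).trans a2.2.symm⟩) (by
      filter_upwards [h1.eventually_analyticAt, h2.eventually_nhds] with a a1 a2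
      refine ⟨continuousAt_of_rep a1.continuousAt (a2.mono fun a' h' => ⟨h'.1, hK _ h'.1⟩), ?_⟩
      obtain ⟨a3, a4⟩ := a2.self_of_nhds
      rw [hK a a3, a4])
  exact ⟨e, he, he' ▸ EventuallyEq.rfl⟩

theorem Atl.dev_chart {U : Fin 6 → Set (Pj CF)} {w : Fin 6 → Pj CF → ℂ} (h : Atl U w)
    {D : ℂ → ℂ} {a : ℝ} (hD : Tri D a) {i : Fin 6} {b : Pj CF} (hb : b ∈ U i) :
    ∃ e : OpenPartialHomeomorph (Pj CF) ℂ, b ∈ e.source ∧ (fun b' => D (w i b')) =ᶠ[𝓝 b] e := by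
  obtain ⟨e, he, he'⟩ := h.chart hb
  have h1 := (hD.an _ (h.lt i b hb)).hasStrictDerivAt.hasStrictFDerivAt_equiv
    (hD.der _ (h.lt i b hb))
  refine ⟨e.trans (h1.toOpenPartialHomeomorph D), ⟨he, ?_⟩, he'.mono fun b' h' => ?_⟩
  · change e b ∈ (h1.toOpenPartialHomeomorph D).source
    rw [← he'.self_of_nhds]
    exact h1.mem_toOpenPartialHomeomorph_source
  · simp [h']

theorem tr_sign {u : ℂ} (h1 : ‖u ^ 2‖ < 1) (h2 : ‖jm (u ^ 2)‖ < 1) :
    ∃ ε : ℂ, ε ^ 2 = 1 ∧ 0 < (ε * u).re := by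
  have h3 : 1 + u ^ 2 ≠ 0 := fun h => by
    rw [eq_neg_of_add_eq_zero_right h] at h1
    simp at h1
  rw [jm, norm_div, div_lt_one (norm_pos_iff.2 h3), ← sq_lt_sq₀ (norm_nonneg _) (norm_nonneg _),
    Complex.sq_norm, Complex.sq_norm] at h2
  simp only [normSq_apply, sub_re, add_re, sub_im, add_im, one_re, one_im, sq, mul_re] at h2
  rcases lt_trichotomy u.re 0 with h | h | h
  · exact ⟨-1, by norm_num, by simpa using h⟩
  · rw [h] at h2
    nlinarith [mul_self_nonneg u.im]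
  · exact ⟨1, by norm_num, by simpa using h⟩

theorem Atl.trans {U : Fin 6 → Set (Pj CF)} {w : Fin 6 → Pj CF → ℂ} (h : Atl U w)
    {D : ℂ → ℂ} {a : ℝ} (hD : Tri D a) (i j : Fin 6) {b : Pj CF} (hb : b ∈ U i ∩ U j) :
    ∃ f g, DAut f g ∧ (fun b' => D (w j b')) =ᶠ[𝓝 b] fun b' => f (D (w i b')) := by
  rcases eq_or_ne i j with rfl | hij
  · exact ⟨_, _, dAut_rot norm_one, Eventually.of_forall fun b' => (one_mul _).symm⟩
  obtain ⟨k, l, hr⟩ := h.rel i j hij ⟨b, hb⟩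
  have z8p : z8 ^ 8 = 1 := by rw [show z8 ^ 8 = (z8 ^ 4) ^ 2 by ring, z8_pow4]; norm_num
  have hs : ∀ b' ∈ U i ∩ U j, ((z8 ^ l)⁻¹ * w j b') ^ 2 = jm ((z8 ^ k * w i b') ^ 2) := by
    intro b' hb'
    rw [mul_pow, mul_pow, inv_pow, ← pow_mul, ← pow_mul, mul_comm l, mul_comm k, pow_mul, pow_mul,
      z8_sq, hr b' hb', inv_mul_cancel_left₀ (pow_ne_zero _ I_ne_zero)]
  have nz : ‖z8‖ = 1 := Complex.norm_eq_one_of_pow_eq_one z8p (by norm_num)
  have n1 : ‖(z8 ^ k * w i b) ^ 2‖ < 1 := by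
    simpa [nz] using (h.lt i b hb.1).trans (show (3 : ℝ) / 5 < 1 by norm_num)
  have n2 : ‖((z8 ^ l)⁻¹ * w j b) ^ 2‖ < 1 := by
    simpa [nz] using (h.lt j b hb.2).trans (show (3 : ℝ) / 5 < 1 by norm_num)
  obtain ⟨ε, e1, e2⟩ := tr_sign n1 (hs b hb ▸ n2)
  obtain ⟨ε', e1', e2'⟩ := tr_sign n2 (by
    have h3 : 1 + (z8 ^ k * w i b) ^ 2 ≠ 0 := fun h => by
      rw [eq_neg_of_add_eq_zero_right h] at n1
      simp at n1
    rw [hs b hb]
    generalize (z8 ^ k * w i b) ^ 2 = z at n1 h3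
    have : jm (jm z) = z := by
      unfold jm
      field_simp
      ring
    rwa [this])
  have p1 : (ε * z8 ^ k) ^ 8 = 1 := by
    rw [mul_pow, ← pow_mul, mul_comm k, pow_mul, z8p, show ε ^ 8 = (ε ^ 2) ^ 4 by ring, e1]
    simp
  have p2 : (ε' * (z8 ^ l)⁻¹) ^ 8 = 1 := by
    rw [mul_pow, inv_pow, ← pow_mul, mul_comm l, pow_mul, z8p,
      show ε' ^ 8 = (ε' ^ 2) ^ 4 by ring, e1']
    simp
  have q1 := Complex.norm_eq_one_of_pow_eq_one p1 (by norm_num)
  have q2 := Complex.norm_eq_one_of_pow_eq_one p2 (by norm_num)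
  rw [← mul_assoc] at e2 e2'
  replace hs : ∀ b' ∈ U i ∩ U j,
      (ε' * (z8 ^ l)⁻¹ * w j b') ^ 2 = jm ((ε * z8 ^ k * w i b') ^ 2) := fun b' hb' => by
    rw [mul_assoc, mul_assoc, mul_pow ε, mul_pow ε', e1, e1', one_mul, one_mul, hs b' hb']
  generalize ε * z8 ^ k = ζ at *
  generalize ε' * (z8 ^ l)⁻¹ = ξ at *
  have ξ0 : ξ ≠ 0 := by rintro rfl; simp at q2
  refine ⟨_, _, (dAut_rot (c := ξ⁻¹) (by simp [q2])).comp
    ((dAut_inv hD.abs).comp (dAut_rot q1)), ?_⟩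
  have c1 : ContinuousAt (fun b' => (ζ * w i b').re) b :=
    continuous_re.continuousAt.comp (continuousAt_const.mul (h.continuousAt hb.1))
  have c2 : ContinuousAt (fun b' => (ξ * w j b').re) b :=
    continuous_re.continuousAt.comp (continuousAt_const.mul (h.continuousAt hb.2))
  filter_upwards [((h.op i).inter (h.op j)).mem_nhds hb, c1.eventually (lt_mem_nhds e2),
    c2.eventually (lt_mem_nhds e2')] with b' a1 a2 a3
  have h3 := hD.fe _ _ (by simpa [q1] using h.lt i b' a1.1) (by simpa [q2] using h.lt j b' a1.2)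
    a2 a3 (hs b' a1)
  rw [hD.rot _ _ p1, hD.rot _ _ p2] at h3
  rw [← h3, inv_mul_cancel_left₀ ξ0]

end Vale.Agent.P300
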