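import Vale.Agent.P300.Ode3
import Vale.Agent.P300.Atlas
import Vale.Agent.P300.GX
import Vale.Agent.P300.Trans

/-! The uniformisation of the Fermat quartic. -/

namespace Vale.Agent.P300

open Topology Filter Set Complex

theorem un_eq {i j k : Fin 3} (hij : i ≠ j) (hjk : j ≠ k) (hik : i ≠ k) :
    (∀ l, l = i ∨ l = j ∨ l = k) ∧ ∃ α β : ℂ, ∀ v : Fin 3 → ℂ,
      v 0 ^ 4 = v 1 ^ 4 + v 2 ^ 4 ↔ v k ^ 4 = α * v i ^ 4 + β * v j ^ 4 := by
  refine ⟨by revert i j k; decide, if i = 0 ∨ k = 0 then 1 else -1, if j = 0 ∨ k = 0 then 1 else -1,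
    fun v => ?_⟩
  fin_cases i <;> fin_cases j <;> fin_cases k <;>
    first | exact absurd rfl hij | exact absurd rfl hjk | exact absurd rfl hik |
      (simp <;> constructor <;> intro h <;>
        first | linear_combination h | linear_combination -h)

theorem un_deriv {f g : ℂ → ℂ} {z : ℂ} (hf : DifferentiableAt ℂ f z)
    (hg : DifferentiableAt ℂ g (f z)) (h : ∀ᶠ a in 𝓝 z, g (f a) = a) : deriv f z ≠ 0 := fun e => by
  have := (hg.hasDerivAt.comp z hf.hasDerivAt).unique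
    ((hasDerivAt_id z).congr_of_eventuallyEq h)
  rw [e, mul_zero] at this
  exact zero_ne_one this

theorem un_root {Z : Type} [TopologicalSpace Z] {f g : Z → ℂ} {z : Z} (hf : ContinuousAt f z)
    (hg : ContinuousAt g z) (e : f z = g z) (h : g z ≠ 0) :
    ∀ᶠ y in 𝓝 z, f y ^ 4 = g y ^ 4 → f y = g y := by
  have c : ContinuousAt (fun y => (f y + g y) * (f y ^ 2 + g y ^ 2)) z := by fun_prop
  filter_upwards [c.eventually_ne (y := 0) (by
    rw [e, ← two_mul, ← two_mul]
    exact mul_ne_zero (mul_ne_zero two_ne_zero h) (mul_ne_zero two_ne_zero (pow_ne_zero _ h)))]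
    with y e1 e2
  exact sub_eq_zero.1 ((mul_eq_zero.1 (by linear_combination e2)).resolve_right e1)

/-- A ratio of coordinates is a local coordinate where the third coordinate does not vanish. -/
theorem CF_param {i j k : Fin 3} (hij : i ≠ j) (hjk : j ≠ k) (hik : i ≠ k) {b : Pj CF}
    {v : Fin 3 → ℂ} (hv : Rep b v) (hj : v j ≠ 0) (hk : v k ≠ 0) :
    ∃ κ : ℂ → Fin 3 → ℂ, AnalyticAt ℂ κ (v i / v j) ∧ κ (v i / v j) = nrm j b ∧
      (∀ᶠ a in 𝓝 (v i / v j), κ a ∈ CF ∧ κ a i = a ∧ κ a j = 1) ∧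
      ∀ᶠ b' in 𝓝 b, Rep b' (κ (rat i j b')) := by
  obtain ⟨h3, α, β, h⟩ := un_eq hij hjk hik
  have h0 := div_ne_zero hk hj
  obtain ⟨r, r1, r2, r3⟩ := exists_root_near (f := fun a : ℂ => α * a ^ 4 + β) (z := v i / v j)
    (.of_forall fun a => by fun_prop) four_ne_zero h0 (by
      rw [div_pow, div_pow, (h v).1 hv.mem.2]; field_simp)
  have r4 := analyticAt_of_pow four_ne_zero r1.self_of_nhds (r2 ▸ h0) (by fun_prop) r3
  have k1 (b' : Pj CF) (e1 : nrm j b' j = 1) (e2 : r (rat i j b') = rat k j b') :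
      (fun l => if l = i then rat i j b' else if l = j then 1 else r (rat i j b')) = nrm j b' := by
    funext l
    rcases h3 l with rfl | rfl | rfl
    · exact if_pos rfl
    · rw [if_neg hij.symm, if_pos rfl, e1]
    · rw [if_neg hik.symm, if_neg hjk.symm, e2, nrm]
  have c1 := hv.continuousAt_rat isCone_CF i hj
  have c2 := hv.continuousAt_rat isCone_CF k hj
  have c3 : ContinuousAt (fun b' => r (rat i j b')) b :=
    r1.self_of_nhds.comp_of_eq c1 (hv.rat_eq i j)
  refine ⟨fun a l => if l = i then a else if l = j then 1 else r a,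
    analyticAt_pi_iff.2 fun l => ?_, ?_, r3.mono fun a ha => ?_, ?_⟩
  · split_ifs
    exacts [analyticAt_id, analyticAt_const, r4]
  · rw [← hv.rat_eq]
    exact k1 b (by rw [nrm, hv.rat_eq, div_self hj]) (by rw [hv.rat_eq, hv.rat_eq, r2])
  · have e : (if j = i then a else if j = j then 1 else r a) = 1 := by
      rw [if_neg hij.symm, if_pos rfl]
    refine ⟨⟨fun e' => one_ne_zero (e.symm.trans (congrFun e' j)),
      (h fun l => if l = i then a else if l = j then 1 else r a).2 ?_⟩, if_pos rfl, e⟩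
    rw [e, if_neg hik.symm, if_neg hjk.symm, if_pos rfl, ha, one_pow, mul_one]
  have c4 := un_root c3 c2 (by rw [hv.rat_eq, hv.rat_eq, r2]) (by rwa [hv.rat_eq])
  filter_upwards [hv.eventually_rep_nrm isCone_CF hj, c4,
    (hv.rat_eq i j ▸ c1.tendsto).eventually r3] with b' e1 e2 e3
  have e4 := (h _).1 e1.1.mem.2
  rw [e1.2, one_pow, mul_one] at e4
  rw [k1 b' e1.2 (e2 (e3.trans e4.symm))]
  exact e1.1

theorem exists_unif : ∃ u : Dsc → Pj CF, Unif u := by
  obtain ⟨D, a, hD⟩ := exists_tri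
  obtain ⟨U, w, h⟩ := exists_atlas
  have := t2_Pj isCone_CF
  have := compact_Pj isCone_CF
  obtain ⟨u, u1, u2, u3, u4⟩ := gx U (fun i b => D (w i b)) h.op h.cov
    (fun i b hb => mem_ball_zero_iff.2 (hD.lt _ (h.lt i b hb))) (fun i b hb => h.dev_chart hD hb)
    (fun i j b hb => h.trans hD i j hb) h.base.1 (by rw [h.base.2, hD.zero])
  refine ⟨u, u1, u2, u3, fun ζ i j k hij hjk hik v hv hj hk => ?_⟩
  obtain ⟨m, f, g, hf, hm, e⟩ := u4 ζ
  obtain ⟨κ, k1, k2, k3, k4⟩ := CF_param hij hjk hik hv hj hk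
  obtain ⟨G, g1, g2⟩ := h.amb m _ hm _ (hv.rep_nrm isCone_CF hj)
  obtain ⟨κ', l1, -, l2⟩ := h.inv m _ hm
  have w0 : G (κ (v i / v j)) = w m (u ζ) := by
    rw [k2, g2.self_of_nhds _ (hv.rep_nrm isCone_CF hj)]
  rw [← k2] at g1 g2
  have w1 : AnalyticAt ℂ (fun a => G (κ a)) (v i / v j) := g1.comp k1
  have w2 := h.lt m _ hm
  have w3 := mem_ball_zero_iff.2 (hD.lt _ w2)
  have w4 := Metric.isOpen_ball.mem_nhds w3
  have w5 := hf.df.analyticAt w4
  have w6 := hD.an _ w2
  rw [← w0] at w2 w3 w4 w5 w6 l1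
  refine ⟨fun a => f (D (G (κ a))), (w5.comp w6).comp (f := fun a => G (κ a)) w1, ?_, ?_⟩
  · refine ((w5.differentiableAt.hasDerivAt.comp _ w6.differentiableAt.hasDerivAt).comp (v i / v j)
      (h := fun a => G (κ a)) w1.differentiableAt.hasDerivAt).deriv.trans_ne <| mul_ne_zero (mul_ne_zero (un_deriv w5.differentiableAt (hf.dg.differentiableAt
      (Metric.isOpen_ball.mem_nhds (hf.mf w3))) (mem_of_superset w4 hf.gf)) (hD.der _ w2))
      (un_deriv (g := fun a => κ' a i / κ' a j) w1.differentiableAt ?_ ?_)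
    · obtain ⟨c, hc, e1⟩ := hv.par l2.self_of_nhds
      exact (differentiableAt_pi.1 l1.differentiableAt i).div
        (differentiableAt_pi.1 l1.differentiableAt j) (by rw [w0, e1]; exact mul_ne_zero hc hj)
    classical
    have t1 : ∀ᶠ a in 𝓝 (v i / v j), Rep (if h : κ a ∈ CF then pt (κ a) h else u ζ) (κ a) :=
      k3.mono fun a ha => by rw [dif_pos ha.1]; exact rep_pt _
    have t2 := (continuousAt_of_rep k1.continuousAt t1).tendsto
    rw [t1.self_of_nhds.eq (k2 ▸ hv.rep_nrm isCone_CF hj)] at t2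
    filter_upwards [t1, k3, t2.eventually l2, k1.continuousAt.eventually g2] with a e1 e2 e3 e4
    rw [← e4 _ e1, ← e3.rat_eq, e1.rat_eq, e2.2.1, e2.2.2, div_one]
  · have t1 := (hv.rat_eq i j ▸ (hv.continuousAt_rat isCone_CF i hj).tendsto).eventually
      (k1.continuousAt.eventually g2)
    filter_upwards [e, u1.continuousAt.eventually (k4.and t1)] with ζ' e1 e2
    rw [← e2.2 _ e2.1, e1]

end Vale.Agent.P300
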