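import Vale.Agent.P300.Ext
import Vale.Agent.P300.Conic
import Vale.Agent.P300.Rat
import Vale.Agent.P300.Unif
import Vale.Agent.P300.Emb
import Vale.Agent.P300.Chart1
import Vale.Agent.P300.Chart2
import Vale.Agent.P300.Chart3
import Vale.Agent.P300.Cover2
import Vale.Agent.P300.Sm0
import Vale.Agent.P300.UCov

/-! Assembly. -/

namespace Vale.Agent.P300

open Topology Filter Set Complex

theorem exists_surface : ∃ (N : ℕ) (S : Set (MvPolynomial (Fin N) ℂ))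
    (Ψ : (W → ℂ) → (Fin N → ℂ)), (∀ f ∈ S, ∃ d, f.IsHomogeneous d) ∧ Pres MM Orb (cone S) Ψ := by
  refine exists_pres eqs_poly MM_iff Phi_poly (fun z hz k => Phi_ne hz k)
    (fun z hz z' h => ⟨h.mem hz, h.phi⟩) (fun _ _ h => h.symm) (fun _ _ _ h h' => h.trans h')
    (fun _ _ h => h.lin) (fun v hv h0 => ?_) (fun z hz => retr_MM hz)
  have key : ∀ h : (Fin 7 × Fin 6 → ℂ) → ℂ, (∃ σ, Chart MM {z | Op z} Orb Phi h σ) → h v ≠ 0 →
      ∃ h σ, Chart MM {z | Op z} Orb Phi h σ ∧ h v ≠ 0 := fun h ⟨σ, hσ⟩ hh => ⟨h, σ, hσ, hh⟩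
  obtain ⟨ha, hb, -, -⟩ := cover_base hv h0
  by_cases hb2 : v (1, 2) = 0
  · have hb0 : v (1, 0) ≠ 0 := hb.resolve_right (not_not.2 hb2)
    by_cases ha0 : v (0, 0) = 0
    · exact key _ chart_TB (cover_tb hv h0 ha0 hb0)
    by_cases hP : Pa v = 0
    · rcases cover_B hv h0 ha0 hb2 hP with h | h | h
      exacts [key _ chart_Bq h, key _ chart_Bk h, key _ chart_G2 h]
    · rcases cover_A hv h0 ha0 hb2 hP with h | h | h
      exacts [key _ chart_Am h, key _ chart_Ak h, key _ chart_G1 h]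
  · rcases ha with ha | ha
    · exact key _ chart_SK (cover_sk hv h0 ha hb2)
    · rcases cover_tk hv h0 ha hb2 with h | h | h
      exacts [key _ chart_S1 h, key _ chart_S2 h, key _ chart_S3 h]

theorem exists_log {E : Type} [TopologicalSpace E] [SimplyConnectedSpace E]
    [LocallyPathConnectedSpace E] {f : E → ℂ} (hf : Continuous f) (h0 : ∀ e, f e ≠ 0) (e₀ : E) :
    ∃ L : E → ℂ, Continuous L ∧ ∀ e, exp (L e) = f e := by
  obtain ⟨L, ⟨-, hL⟩, -⟩ := Complex.isCoveringMap_exp.existsUnique_continuousMap_lifts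
    (⟨fun e => ⟨f e, h0 e⟩, hf.subtype_mk _⟩ : C(E, {z : ℂ // z ≠ 0})) e₀ (log (f e₀))
    (Subtype.ext (exp_log (h0 e₀)))
  exact ⟨L, L.continuous, fun e => congrArg Subtype.val (congrFun hL e)⟩

theorem sq_eq_one_cases {a : ℂ} (h : a ^ 2 = 1) : a = 1 ∨ a = -1 := by
  have : (a - 1) * (a + 1) = 0 := by linear_combination h
  rcases mul_eq_zero.1 this with h | h
  · exact Or.inl (by linear_combination h)
  · exact Or.inr (by linear_combination h)

section core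
variable {N : ℕ} {C : Set (Fin N → ℂ)} {Ψ : (W → ℂ) → (Fin N → ℂ)} {E : Type}
  [TopologicalSpace E] {p : E → Pj C} {u : Dsc → Pj CF} {x y φ : E → Dsc}

/-- Moving along one conic. -/
theorem Setup.move (S : Setup Ψ p u x y φ) {e : E} (hx : x e = Dsc.o) (hy : y e = Dsc.o)
    {z : W → ℂ} (he : Rep (p e) (Ψ z)) {c c' : ℂ → W → ℂ} {i : W} {F : (W → ℂ) → ℂ}
    {b : ℝ → ℂ} (h : Arc z c c' i F b) {A B : E → ℂ} (hA : Continuous A) (hB : Continuous B)
    (hA1 : ∀ e, x e = Dsc.o → y e = Dsc.o → ∀ z ∈ MM, Rep (p e) (Ψ z) → z i = 0 → A e ^ 2 = 1)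
    (hBF : ∀ e, x e = Dsc.o → y e = Dsc.o → ∀ z ∈ MM, Rep (p e) (Ψ z) → B e ^ 2 = F z) :
    ∃ l : ℝ → E, Continuous l ∧ l 0 = e ∧ (∀ τ ∈ Icc (0 : ℝ) 1, A (l τ) = A e) ∧
      B (l 1) = -B e ∧ x (l 1) = Dsc.o ∧ y (l 1) = Dsc.o ∧ Rep (p (l 1)) (Ψ (c 1)) ∧
      ∀ g, IsHol p g → g (l 1) = g e := by
  obtain ⟨l, hl, hl0, hrep, hc⟩ := rat_const S.pres.cone S.cov (γ := fun τ => Ψ (c τ))
    (γ' := fun τ => Ψ (c' τ)) (fun τ => (S.pres.anal _).comp (h.an τ))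
    (fun τ => (S.pres.anal _).comp (h.an' τ)) (fun τ => S.pres.mem _ (h.mem τ))
    (fun τ => S.pres.mem _ (h.mem' τ))
    (fun τ hτ => (S.pres.orb _ (h.mem τ) _ (h.orb τ hτ)).2) (e := e) (by rw [h.start]; exact he)
  have hxl : ∀ τ, x (l τ) = Dsc.o := fun τ => Subtype.ext ((hc _ S.hol.1 τ).trans (by rw [hx]))
  have hyl : ∀ τ, y (l τ) = Dsc.o := fun τ => Subtype.ext ((hc _ S.hol.2.1 τ).trans (by rw [hy]))
  have hlr : Continuous fun τ : ℝ => l τ := hl.comp continuous_ofReal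
  have h01 : (0 : ℝ) ∈ Icc (0 : ℝ) 1 := ⟨le_rfl, zero_le_one⟩
  have h11 : (1 : ℝ) ∈ Icc (0 : ℝ) 1 := ⟨zero_le_one, le_rfl⟩
  have hl0' : l ((0 : ℝ) : ℂ) = e := by rw [ofReal_zero, hl0]
  refine ⟨fun τ : ℝ => l τ, hlr, hl0', fun τ hτ => ?_, ?_, hxl _, hyl _, ?_, fun g hg => hc g hg _⟩
  · rcases sign_const (f := fun τ : ℝ => A (l τ)) (b := fun _ => 1) (hA.comp hlr).continuousOn
      continuousOn_const (fun _ _ => one_ne_zero) (fun τ _ => by
        rw [hA1 _ (hxl _) (hyl _) _ (h.mem _) (hrep _) (h.zero _), one_pow]) with h' | h'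
    · rw [h' τ hτ, ← hl0', h' 0 h01]
    · rw [h' τ hτ, ← hl0', h' 0 h01]
  · rcases sign_const (f := fun τ : ℝ => B (l τ)) (b := b) (hB.comp hlr).continuousOn
      h.cont h.ne (fun τ hτ => by
        rw [hBF _ (hxl _) (hyl _) _ (h.mem _) (hrep _), h.sq τ hτ]) with h' | h'
    · rw [h' 1 h11, ← hl0', h' 0 h01, h.b0, h.b1]
    · rw [h' 1 h11, ← hl0', h' 0 h01, h.b0, h.b1]
  · simpa using hrep 1

theorem not_holConvex [SimplyConnectedSpace E] (hP : Pres MM Orb C Ψ) (hp : IsCoveringMap p)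
    {z₀ : W → ℂ} (hz : z₀ ∈ MM) {p₁ p₃ : ℂ} (h13 : g4 * p₁ * p₃ = 1)
    (hB : pB z₀ = ![0, p₁, 1, p₃]) (hF : yF z₀ = ![1, 0, 1]) (h1 : z₀ .e1 = 0) (h2 : z₀ .e2 = 0)
    {e₀ : E} (he : Rep (p e₀) (Ψ z₀)) : ¬ HolConvex p := by
  haveI := locPath_Pj hP.cone hP.retr
  haveI := locPath_of_cover hp.isLocalHomeomorph
  obtain ⟨u, hu⟩ := exists_unif
  obtain ⟨x, y, φ, S, hx0, hy0⟩ := exists_setup hP hp hu hz h13 hB hF he
  obtain ⟨e₁, he₁⟩ := S.exists_ne hx0 hy0 hz he h1 h2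
  obtain ⟨A, B, D, hA, hB, hD, hoff, hon⟩ := S.ext he₁
  have hA1 : ∀ e, x e = Dsc.o → y e = Dsc.o → ∀ z ∈ MM, Rep (p e) (Ψ z) → z .e1 = 0 →
      A e ^ 2 = 1 := fun e hx hy z hz hr h => by
    rw [(hon e hx hy z hz hr).2.2.1, FA_eq_one hD hz h]
  have hB1 : ∀ e, x e = Dsc.o → y e = Dsc.o → ∀ z ∈ MM, Rep (p e) (Ψ z) → z .e2 = 0 →
      B e ^ 2 = 1 := fun e hx hy z hz hr h => by
    rw [(hon e hx hy z hz hr).2.2.2, FB_eq_one hD hz h]
  have hne : ∀ e, (A e).re ≠ 0 ∨ (B e).re ≠ 0 := fun e => by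
    by_cases h : x e = Dsc.o ∧ y e = Dsc.o
    · obtain ⟨z, hz, hr⟩ := hP.exists_rep (p e)
      obtain ⟨hs, hb, -, -⟩ := hon e h.1 h.2 z hz hr
      rcases mul_eq_zero.1 (facts_S hz hs hb).1 with h' | h'
      · rcases sq_eq_one_cases (hA1 e h.1 h.2 z hz hr h') with h'' | h'' <;> simp [h'']
      · rcases sq_eq_one_cases (hB1 e h.1 h.2 z hz hr h') with h'' | h'' <;> simp [h'']
    · exact hoff e h
  obtain ⟨L, hL, hexp⟩ := exists_log (f := fun e => ((A e).re : ℂ) + ((B e).re : ℂ) * I)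
    (by fun_prop) (fun e h => by
      have a := congrArg re h
      have b := congrArg im h
      simp at a b
      rcases hne e with h | h
      exacts [h a, h b]) e₀
  refine not_holConvex_of_step (θ := fun e => (L e).im) (continuous_im.comp hL)
    (S := {e | x e = Dsc.o ∧ y e = Dsc.o ∧ ∃ z ∈ MM, Rep (p e) (Ψ z) ∧ z .e1 = 0 ∧ z .e2 = 0})
    (e₀ := e₀) ⟨hx0, hy0, z₀, hz, he, h1, h2⟩ ?_
  rintro e ⟨hx, hy, z, hz, hr, h1, h2⟩
  have ha := sq_eq_one_cases (hA1 e hx hy z hz hr h1)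
  have hb := sq_eq_one_cases (hB1 e hx hy z hz hr h2)
  have h11 : (1 : ℝ) ∈ Icc (0 : ℝ) 1 := ⟨zero_le_one, le_rfl⟩
  by_cases hab : B e = -A e
  · obtain ⟨c, c', b, harc⟩ := exists_arc1 hD hz h1 h2
    obtain ⟨l, hl, hl0, hAl, hBl, hxl, hyl, hrl, hg⟩ := S.move hx hy hr harc hA hB hA1
      (fun e hx hy z hz hr => (hon e hx hy z hz hr).2.2.2)
    refine ⟨l 1, ⟨hxl, hyl, c 1, harc.mem 1, hrl, harc.stop⟩, ?_, hg⟩
    have := log_step (L := fun τ => L (l τ)) (hL.comp hl).continuousOn (c := A e)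
      (fun τ hτ => by
        rw [hexp, hAl τ hτ]
        rcases ha with h | h <;> simp [h])
      (by
        rw [hexp, hl0, hab]
        rcases ha with h | h <;> simp [h] <;> ring)
      (by
        rw [hexp, hAl 1 h11, hBl, hab]
        rcases ha with h | h <;> simp [h] <;> ring)
    simpa [hl0] using this
  · have hab' : A e = B e := by
      rcases ha with h | h <;> rcases hb with h' | h' <;> simp_all
    obtain ⟨c, c', b, harc⟩ := exists_arc2 hD hz h1 h2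
    obtain ⟨l, hl, hl0, hBl, hAl, hxl, hyl, hrl, hg⟩ := S.move hx hy hr harc hB hA hB1
      (fun e hx hy z hz hr => (hon e hx hy z hz hr).2.2.1)
    refine ⟨l 1, ⟨hxl, hyl, c 1, harc.mem 1, hrl, harc.stop⟩, ?_, hg⟩
    have := log_step (L := fun τ => L (l τ)) (hL.comp hl).continuousOn (c := -I * B e)
      (fun τ hτ => by
        rw [hexp, hBl τ hτ]
        rcases hb with h | h <;> simp [h])
      (by
        rw [hexp, hl0, hab']
        rcases hb with h | h <;> simp [h] <;> ring_nf <;> simp <;> ring)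
      (by
        rw [hexp, hBl 1 h11, hAl, hab']
        rcases hb with h | h <;> simp [h] <;> ring_nf <;> simp <;> ring)
    simpa [hl0] using this

end core

/-- The counterexample, for the universal cover of one connected component. -/
theorem counterexample_comp : ∃ (N : ℕ) (S : Set (MvPolynomial (Fin N) ℂ)),
    (∀ f ∈ S, ∃ d, f.IsHomogeneous d) ∧ (∀ v ∈ cone S, IsSubmanifoldAt (cone S) v) ∧
    ∃ (E : Type) (_ : TopologicalSpace E) (p : E → Pj (cone S)), IsCoveringMap p ∧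
      SimplyConnectedSpace E ∧ ¬ HolConvex p := by
  obtain ⟨N, S, Ψ, hS, hP⟩ := exists_surface
  obtain ⟨z, hz, p₁, p₃, h13, hB, hF, h1, h2⟩ := exists_node
  haveI := locPath_Pj hP.cone hP.retr
  obtain ⟨E, _, p, hp, hE, hr⟩ := exists_univ_cover (semiloc_Pj hP.cone hP.retr)
    (pt (Ψ z) (hP.mem z hz))
  obtain ⟨e₀, he₀⟩ : pt (Ψ z) (hP.mem z hz) ∈ range p := hr ▸ mem_pathComponent_self _
  exact ⟨N, S, hS, fun v hv => submanifold_of_retr hv (hP.retr v hv), E, _, p, hp, hE,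
    not_holConvex hP hp hz h13 hB hF h1 h2 (he₀ ▸ rep_pt _)⟩

end Vale.Agent.P300
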