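import Vale.Agent.P300.OdeDefs

/-! Power series solutions. -/

namespace Vale.Agent.P300

open Topology Filter Set Complex

theorem o1_sum {r : ℝ} (h0 : 0 ≤ r) (h1 : r < 1) :
    Summable fun n : ℕ => (8 * (n : ℝ) + 1) * r ^ n := by
  have h2 := summable_pow_mul_geometric_of_norm_lt_one (R := ℝ) 1 (r := r)
    (by rwa [Real.norm_of_nonneg h0])
  refine ((h2.mul_left 8).add (summable_geometric_of_lt_one h0 h1)).congr fun n => ?_
  ring

theorem o1_le {c : ℕ → ℂ} {m : ℕ → ℕ} (hc : ∀ n, ‖c n‖ ≤ 8 * (n : ℝ) + 1) (hm : ∀ n, n ≤ m n)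
    {r : ℝ} (h1 : r < 1) {w : ℂ} (hw : ‖w‖ ≤ r) (n : ℕ) :
    ‖c n * w ^ m n‖ ≤ (8 * (n : ℝ) + 1) * r ^ n := by
  have h0 : 0 ≤ r := (norm_nonneg w).trans hw
  rw [norm_mul, norm_pow]
  exact mul_le_mul (hc n) ((pow_le_pow_left₀ (norm_nonneg w) hw _).trans
    (pow_le_pow_of_le_one h0 h1.le (hm n))) (by positivity) (by positivity)

theorem o1_der {c : ℕ → ℂ} {m : ℕ → ℕ} (hc : ∀ n, ‖c n‖ ≤ 8 * (n : ℝ) + 1) (hm : ∀ n, n ≤ m n)
    {w : ℂ} (hw : ‖w‖ < 1) :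
    Summable (fun n => c n * w ^ m n) ∧ DifferentiableAt ℂ (fun z => ∑' n, c n * z ^ m n) w ∧
      HasSum (fun n => c n * m n * w ^ (m n - 1)) (deriv (fun z => ∑' n, c n * z ^ m n) w) := by
  obtain ⟨r, h0, h1⟩ := exists_between hw
  have hs := o1_sum ((norm_nonneg w).trans h0.le) h1
  have hd : ∀ n, DifferentiableOn ℂ (fun z : ℂ => c n * z ^ m n) (Metric.ball 0 r) :=
    fun n => by fun_prop
  have hb : ∀ n (z : ℂ), z ∈ Metric.ball (0 : ℂ) r →
      ‖c n * z ^ m n‖ ≤ (8 * (n : ℝ) + 1) * r ^ n := fun n z hz =>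
    o1_le hc hm h1 (mem_ball_zero_iff.1 hz).le n
  have hm' : w ∈ Metric.ball (0 : ℂ) r := mem_ball_zero_iff.2 h0
  refine ⟨Summable.of_norm_bounded hs fun n => hb n w hm',
    (differentiableOn_tsum_of_summable_norm hs hd Metric.isOpen_ball hb).differentiableAt
      (Metric.isOpen_ball.mem_nhds hm'), ?_⟩
  have h2 := hasSum_deriv_of_summable_norm hs hd Metric.isOpen_ball hb hm'
  have h3 : (fun n => deriv (fun z : ℂ => c n * z ^ m n) w) =
      fun n => c n * m n * w ^ (m n - 1) := by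
    funext n
    rw [((hasDerivAt_pow (m n) w).const_mul (c n)).deriv, mul_assoc]
  rwa [h3] at h2

/-- The coefficients of the two solutions. -/
noncomputable def o1c (e : ℕ) : ℕ → ℝ
  | 0 => 1
  | n + 1 => o1c e n * ((8 * n + e + 1) * (8 * n + e + 2) / ((8 * n + e + 7) * (8 * n + e + 8)))

/-- The two solutions. -/
noncomputable def o1y (e : ℕ) (w : ℂ) : ℂ := ∑' n, (o1c e n : ℂ) * w ^ (8 * n + e)

theorem o1c_pos (e n : ℕ) : 0 < o1c e n := by
  induction n with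
  | zero => exact one_pos
  | succ n ih => rw [o1c]; positivity

theorem o1c_anti (e : ℕ) : Antitone (o1c e) := by
  refine antitone_nat_of_succ_le fun n => ?_
  rw [o1c]
  refine mul_le_of_le_one_right (o1c_pos e n).le (div_le_one_of_le₀ ?_ (by positivity))
  gcongr <;> norm_num

theorem o1c_norm (e n : ℕ) : ‖(o1c e n : ℂ)‖ ≤ 1 := by
  rw [norm_real, Real.norm_of_nonneg (o1c_pos e n).le]
  exact o1c_anti e (Nat.zero_le n)

theorem o1c_rec (e n : ℕ) : (o1c e (n + 1) : ℂ) * ((8 * n + e + 7) * (8 * n + e + 8)) =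
    o1c e n * ((8 * n + e + 1) * (8 * n + e + 2)) := by
  have h : o1c e (n + 1) * ((8 * n + e + 7) * (8 * n + e + 8)) =
      o1c e n * ((8 * n + e + 1) * (8 * n + e + 2)) := by
    rw [o1c, mul_assoc, div_mul_cancel₀ _ (by positivity)]
  exact_mod_cast h

theorem o1y_der (e : ℕ) {w : ℂ} (hw : ‖w‖ < 1) :
    Summable (fun n => (o1c e n : ℂ) * w ^ (8 * n + e)) ∧ DifferentiableAt ℂ (o1y e) w ∧
      HasSum (fun n => (o1c e n : ℂ) * (8 * n + e : ℕ) * w ^ (8 * n + e - 1))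
        (deriv (o1y e) w) :=
  o1_der (c := fun n => (o1c e n : ℂ)) (m := fun n => 8 * n + e)
    (fun n => (o1c_norm e n).trans (by have : (0 : ℝ) ≤ n := n.cast_nonneg; linarith))
    (fun n => by omega) hw

theorem o1y_der2 {e : ℕ} (he : e ≤ 1) {w : ℂ} (hw : ‖w‖ < 1) :
    HasSum (fun n => (o1c e n : ℂ) * (8 * n + e : ℕ) * (8 * n + e - 1 : ℕ) *
      w ^ (8 * n + e - 1 - 1)) (deriv (deriv (o1y e)) w) := by
  have h1 : deriv (o1y e) =ᶠ[𝓝 w]
      fun z => ∑' n, (o1c e n : ℂ) * (8 * n + e : ℕ) * z ^ (8 * n + e - 1) := by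
    filter_upwards [Metric.isOpen_ball.mem_nhds (mem_ball_zero_iff.2 hw)] with z hz
    exact (o1y_der e (mem_ball_zero_iff.1 hz)).2.2.tsum_eq.symm
  rw [h1.deriv_eq]
  refine (o1_der (c := fun n => (o1c e n : ℂ) * (8 * n + e : ℕ)) (m := fun n => 8 * n + e - 1)
    (fun n => ?_) (fun n => by omega) hw).2.2
  rw [norm_mul, Complex.norm_natCast]
  refine (mul_le_of_le_one_left (by positivity) (o1c_norm e n)).trans ?_
  exact_mod_cast Nat.add_le_add_left he _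

theorem o1_term (a w : ℂ) (m : ℕ) :
    w ^ 8 * (a * m * (m - 1 : ℕ) * w ^ (m - 1 - 1)) + (4 * w ^ 7 * (a * m * w ^ (m - 1)) +
      2 * w ^ 6 * (a * w ^ m)) = a * ((m + 1) * (m + 2)) * w ^ (m + 6) := by
  rcases m with _ | _ | m
  · simp
    ring
  · simp
    ring
  · simp only [Nat.add_sub_cancel]
    push_cast
    ring

theorem o1y_sol {e : ℕ} (he : e ≤ 1) : Sol (o1y e) := by
  refine ⟨DifferentiableOn.analyticOnNhd (fun w hw =>
    (o1y_der e (mem_ball_zero_iff.1 hw)).2.1.differentiableWithinAt) Metric.isOpen_ball,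
    fun w hw => ?_⟩
  have hw' := mem_ball_zero_iff.1 hw
  obtain ⟨h0, -, h1⟩ := o1y_der e hw'
  have h2 := o1y_der2 he hw'
  have h3 := (h2.mul_left (w ^ 8)).add ((h1.mul_left (4 * w ^ 7)).add
    (h0.hasSum.mul_left (2 * w ^ 6)))
  simp only [o1_term] at h3
  have h4 := (hasSum_nat_add_iff' 1).2 h2
  have h5 : (o1c e 0 : ℂ) * (8 * 0 + e : ℕ) * (8 * 0 + e - 1 : ℕ) * w ^ (8 * 0 + e - 1 - 1) = 0 := by
    rw [show 8 * 0 + e - 1 = 0 by omega, Nat.cast_zero, mul_zero, zero_mul]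
  have h6 : ∀ n, (o1c e (n + 1) : ℂ) * (8 * (n + 1) + e : ℕ) * (8 * (n + 1) + e - 1 : ℕ) *
      w ^ (8 * (n + 1) + e - 1 - 1) = o1c e n * (((8 * n + e : ℕ) + 1) * ((8 * n + e : ℕ) + 2)) *
        w ^ (8 * n + e + 6) := fun n => by
    rw [show 8 * (n + 1) + e - 1 = 8 * n + e + 7 by omega,
      show 8 * n + e + 7 - 1 = 8 * n + e + 6 by omega]
    push_cast
    linear_combination w ^ (8 * n + e + 6) * o1c_rec e n
  rw [Finset.sum_range_one, h5, sub_zero] at h4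
  simp only [h6] at h4
  have h7 := h4.unique h3
  rw [o1y]
  linear_combination h7

theorem o1y_rot (e : ℕ) (ζ w : ℂ) (h : ζ ^ 8 = 1) : o1y e (ζ * w) = ζ ^ e * o1y e w := by
  rw [o1y, o1y, ← tsum_mul_left]
  refine tsum_congr fun n => ?_
  rw [mul_pow, pow_add ζ, pow_mul ζ, h, one_pow]
  ring

theorem o1y_im (e : ℕ) (w : ℝ) : (o1y e w).im = 0 := by
  have h : o1y e w = ((∑' n, o1c e n * w ^ (8 * n + e) : ℝ) : ℂ) := by
    rw [ofReal_tsum, o1y]
    push_cast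
    rfl
  rw [h, ofReal_im]

theorem o1y_bd (e : ℕ) {w : ℂ} (hw : ‖w‖ ^ 2 ≤ 3 / 5) :
    ‖o1y e w - w ^ e‖ ≤ ‖w‖ ^ e * (o1c e 1 * (3 / 20)) := by
  have h0 := norm_nonneg w
  have hw1 : ‖w‖ < 1 := by nlinarith
  have hx : ‖w‖ ^ 8 ≤ 81 / 625 := by
    rw [show ‖w‖ ^ 8 = (‖w‖ ^ 2) ^ 4 by ring]
    exact (pow_le_pow_left₀ (by positivity) hw 4).trans (by norm_num)
  have h1 := (o1y_der e hw1).1.tsum_eq_zero_add
  have h2 := (hasSum_geometric_of_lt_one (r := 81 / 625) (by norm_num) (by norm_num)).mul_left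
    (‖w‖ ^ e * (o1c e 1 * (81 / 625)))
  have hc := o1c_pos e 1
  rw [o1y, h1, o1c, ofReal_one, one_mul, mul_zero, zero_add, add_sub_cancel_left]
  refine (tsum_of_norm_bounded h2 fun n => ?_).trans ?_
  · rw [norm_mul, norm_pow, norm_real, Real.norm_of_nonneg (o1c_pos e _).le, pow_add, pow_mul]
    calc o1c e (n + 1) * ((‖w‖ ^ 8) ^ (n + 1) * ‖w‖ ^ e)
        ≤ o1c e 1 * ((81 / 625) ^ (n + 1) * ‖w‖ ^ e) := by
          gcongr
          exact o1c_anti e (by omega)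
      _ = _ := by ring
  · rw [mul_assoc, mul_assoc]
    gcongr
    norm_num

theorem exists_solBasis : ∃ y₁ y₂ : ℂ → ℂ, SolBasis y₁ y₂ := by
  have h0 : ‖(0 : ℂ)‖ < 1 := by simp
  refine ⟨o1y 0, o1y 1, o1y_sol zero_le_one, o1y_sol le_rfl, ?_, ?_, ?_, ?_,
    fun ζ w h => by rw [o1y_rot 0 ζ w h, pow_zero, one_mul],
    fun ζ w h => by rw [o1y_rot 1 ζ w h, pow_one], o1y_im 0, o1y_im 1, fun w hw => ?_,
    fun w hw => ?_⟩
  · rw [o1y, tsum_eq_single 0 fun n hn => by simp [hn]]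
    simp [o1c]
  · simp [o1y]
  · rw [← (o1y_der 0 h0).2.2.tsum_eq, tsum_eq_single 0 fun n hn => by
      rw [zero_pow (by omega), mul_zero]]
    simp
  · rw [← (o1y_der 1 h0).2.2.tsum_eq, tsum_eq_single 0 fun n hn => by
      rw [zero_pow (by omega), mul_zero]]
    simp [o1c]
  · have h := o1y_bd 0 hw
    rw [pow_zero, pow_zero] at h
    exact h.trans (by norm_num [o1c])
  · have h := o1y_bd 1 hw
    rw [pow_one, pow_one] at h
    refine h.trans ?_
    rw [div_eq_mul_inv ‖w‖]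
    gcongr
    norm_num [o1c]

end Vale.Agent.P300
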