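import Vale.Agent.P300.OdeDefs

/-! The Wronskian and the functional equation. -/

namespace Vale.Agent.P300

open Topology Filter Set Complex

namespace Ode2

/-- The Wronskian. -/
noncomputable def wr (u v : ℂ → ℂ) (w : ℂ) : ℂ := u w * deriv v w - deriv u w * v w

theorem one_sub_ne {w : ℂ} (hw : ‖w‖ < 1) : 1 - w ^ 8 ≠ 0 := by
  intro h
  have h1 : ‖w ^ 8‖ < 1 := by
    rw [norm_pow]
    exact pow_lt_one₀ (norm_nonneg w) hw (by norm_num)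
  rw [← sub_eq_zero.1 h, norm_one] at h1
  exact lt_irrefl _ h1

theorem wr_deriv {u v : ℂ → ℂ} {w : ℂ} (hw : ‖w‖ < 1) (hu : AnalyticAt ℂ u w)
    (hv : AnalyticAt ℂ v w)
    (ou : (1 - w ^ 8) * deriv (deriv u) w = 4 * w ^ 7 * deriv u w + 2 * w ^ 6 * u w)
    (ov : (1 - w ^ 8) * deriv (deriv v) w = 4 * w ^ 7 * deriv v w + 2 * w ^ 6 * v w) :
    HasDerivAt (wr u v) (4 * w ^ 7 / (1 - w ^ 8) * wr u v w) w := by
  have h0 := one_sub_ne hw
  refine ((hu.differentiableAt.hasDerivAt.fun_mul hv.deriv.differentiableAt.hasDerivAt).fun_sub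
    (hu.deriv.differentiableAt.hasDerivAt.fun_mul hv.differentiableAt.hasDerivAt)).congr_deriv ?_
  rw [div_mul_eq_mul_div, eq_div_iff h0, wr]
  linear_combination u w * ov - v w * ou

theorem const {s : Set ℂ} (hs : IsOpen s) (hc : Convex ℝ s) {f : ℂ → ℂ}
    (hf : ∀ w ∈ s, HasDerivAt f 0 w) {x y : ℂ} (hx : x ∈ s) (hy : y ∈ s) : f x = f y :=
  hs.is_const_of_deriv_eq_zero hc.isPreconnected
    (fun w hw => (hf w hw).differentiableAt.differentiableWithinAt)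
    (fun w hw => (hf w hw).deriv) hx hy

theorem sec_open : IsOpen Sec :=
  (isOpen_lt continuous_norm continuous_const).inter
    ((isOpen_lt continuous_const continuous_re).inter
      (isOpen_lt continuous_const (continuous_re.comp (continuous_pow 2))))

theorem sec_convex : Convex ℝ Sec := by
  have e : Sec = Metric.ball 0 1 ∩ ({w | 0 < w.re - w.im} ∩ {w | 0 < w.re + w.im}) := by
    ext w
    simp only [Sec, mem_ofPred_eq, mem_inter_iff, mem_ball_zero_iff, sq, mul_re]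
    refine and_congr_right fun _ => ⟨fun h => ⟨?_, ?_⟩, fun h => ⟨?_, ?_⟩⟩ <;> nlinarith [h.1, h.2]
  rw [e]
  exact (convex_ball 0 1).inter ((convex_halfSpace_gt (reLm - imLm).isLinear 0).inter
    (convex_halfSpace_gt (reLm + imLm).isLinear 0))

theorem mem_ball {w : ℂ} (hw : w ∈ Sec) : w ∈ Metric.ball (0 : ℂ) 1 := mem_ball_zero_iff.2 hw.1

theorem s_re {w : ℂ} (hw : w ∈ Sec) : 0 < (1 + w ^ 2).re := by
  rw [add_re, one_re]
  linarith [hw.2.2]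

theorem ne_of_re {z : ℂ} (h : 0 < z.re) : z ≠ 0 := fun e => by
  rw [e, zero_re] at h
  exact lt_irrefl _ h

theorem inv_re_pos {z : ℂ} (h : 0 < z.re) : 0 < z⁻¹.re := by
  rw [inv_re]
  exact div_pos h (normSq_pos.2 (ne_of_re h))

theorem jm_re {z : ℂ} (h : ‖z‖ < 1) (h1 : 0 < z.re) : 0 < (jm z).re ∧ ‖jm z‖ < 1 := by
  have h0 : 1 + z ≠ 0 := ne_of_re (by rw [add_re, one_re]; linarith)
  have h2 : normSq z < 1 := by
    rw [normSq_eq_norm_sq]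
    exact pow_lt_one₀ (norm_nonneg z) h two_ne_zero
  rw [normSq_apply] at h2
  constructor
  · rw [jm, div_re, ← add_div]
    refine div_pos ?_ (normSq_pos.2 h0)
    simp only [sub_re, add_re, sub_im, add_im, one_re, one_im]
    linarith
  · rw [jm, norm_div, div_lt_one (norm_pos_iff.2 h0), ← sq_lt_sq₀ (norm_nonneg _) (norm_nonneg _),
      ← normSq_eq_norm_sq, ← normSq_eq_norm_sq, normSq_apply, normSq_apply]
    simp only [sub_re, add_re, sub_im, add_im, one_re, one_im]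
    linarith

theorem sqrt_sq (z : ℂ) : sqrt z ^ 2 = z := cpow_ofNat_inv_pow z 2

theorem sqrt_re {z : ℂ} (h : 0 < z.re) : 0 < (sqrt z).re := by
  rw [sqrt, cpow_inv_two_re]
  exact Real.sqrt_pos.2 (by linarith [norm_nonneg z])

theorem sqrt_an {f : ℂ → ℂ} {w : ℂ} (hf : AnalyticAt ℂ f w) (h : 0 < (f w).re) :
    AnalyticAt ℂ (fun v => sqrt (f v)) w :=
  hf.cpow analyticAt_const (Or.inl h)

theorem eq_of_sq {a b : ℂ} (ha : 0 < a.re) (hb : 0 < b.re) (h : a ^ 2 = b ^ 2) : a = b := by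
  refine (sq_eq_sq_iff_eq_or_eq_neg.1 h).resolve_right fun e => ?_
  rw [e, neg_re] at ha
  linarith

theorem sq_deriv (v : ℂ) : HasDerivAt (fun v : ℂ => 1 + v ^ 2) (2 * v) v := by
  simpa using (hasDerivAt_pow 2 v).const_add 1

theorem r_deriv {r : ℂ → ℂ} (hr : AnalyticOnNhd ℂ r Sec) (hrS : MapsTo r Sec Sec)
    (hr2 : ∀ w ∈ Sec, r w ^ 2 = jm (w ^ 2)) {v : ℂ} (hv : v ∈ Sec) :
    HasDerivAt r (-2 * v / (1 + v ^ 2) ^ 2 / r v) v := by
  have h1 := (hr v hv).differentiableAt.hasDerivAt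
  have h2 : ∀ w ∈ Sec, r w ^ 2 * (1 + w ^ 2) = 2 - (1 + w ^ 2) := fun w hw => by
    rw [hr2 w hw, jm, div_mul_cancel₀ _ (ne_of_re (s_re hw))]
    ring
  have h3 := ((h1.fun_pow 2).fun_mul (sq_deriv v)).unique
    (((sq_deriv v).const_sub 2).congr_of_eventuallyEq
      (eventually_of_mem (sec_open.mem_nhds hv) h2))
  refine h1.congr_deriv ?_
  rw [eq_div_iff (ne_of_re (hrS hv).2.1), eq_div_iff (pow_ne_zero 2 (ne_of_re (s_re hv)))]
  norm_num at h3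
  linear_combination (1 + v ^ 2) / 2 * h3 - v * h2 v hv

theorem k_deriv {k : ℂ → ℂ} (hk : AnalyticOnNhd ℂ k Sec)
    (hk2 : ∀ w ∈ Sec, k w ^ 2 * (1 + w ^ 2) = 1) {v : ℂ} (hv : v ∈ Sec) :
    HasDerivAt k (-v / (1 + v ^ 2) * k v) v := by
  have h1 := (hk v hv).differentiableAt.hasDerivAt
  have h3 := ((h1.fun_pow 2).fun_mul (sq_deriv v)).unique
    ((hasDerivAt_const v (1 : ℂ)).congr_of_eventuallyEq
      (eventually_of_mem (sec_open.mem_nhds hv) hk2))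
  have h0 : k v ≠ 0 := fun e => by simpa [e] using hk2 v hv
  refine h1.congr_deriv (mul_left_cancel₀ h0 ?_)
  rw [div_mul_eq_mul_div, ← mul_div_assoc, eq_div_iff (ne_of_re (s_re hv))]
  norm_num at h3
  linear_combination 1 / 2 * h3

end Ode2

open Ode2

theorem SolBasis.wronskian_ne {y₁ y₂ : ℂ → ℂ} (h : SolBasis y₁ y₂) {w : ℂ} (hw : ‖w‖ < 1) :
    y₁ w * deriv y₂ w - deriv y₁ w * y₂ w ≠ 0 := by
  intro h0
  have h1 := const Metric.isOpen_ball (convex_ball (0 : ℂ) 1)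
    (f := fun v => wr y₁ y₂ v ^ 2 * (1 - v ^ 8)) (fun v hv => ?_) (mem_ball_zero_iff.2 hw)
    (Metric.mem_ball_self one_pos)
  · simp [wr, h0, h.v1, h.v2, h.d1, h.d2] at h1
  · have hv' := mem_ball_zero_iff.1 hv
    have h2 := one_sub_ne hv'
    refine (((wr_deriv hv' (h.s1.an v hv) (h.s2.an v hv) (h.s1.ode v hv) (h.s2.ode v hv)).fun_pow
      2).fun_mul ((hasDerivAt_pow 8 v).const_sub 1)).congr_deriv ?_
    norm_num
    field_simp
    ring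

/-- A solution on the sector is a constant combination of the basis. -/
theorem SolBasis.comb {y₁ y₂ : ℂ → ℂ} (h : SolBasis y₁ y₂) {y : ℂ → ℂ}
    (han : AnalyticOnNhd ℂ y Sec) (hode : ∀ w ∈ Sec,
      (1 - w ^ 8) * deriv (deriv y) w = 4 * w ^ 7 * deriv y w + 2 * w ^ 6 * y w) :
    ∃ m n : ℂ, ∀ w ∈ Sec, y w = m * y₁ w + n * y₂ w := by
  have h0 : (1 / 2 : ℂ) ∈ Sec := by
    refine ⟨?_, ?_, ?_⟩ <;> norm_num
  have hW : ∀ w ∈ Sec, wr y₁ y₂ w ≠ 0 := fun w hw => h.wronskian_ne hw.1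
  have d0 := fun w (hw : w ∈ Sec) => wr_deriv hw.1 (h.s1.an w (mem_ball hw))
    (h.s2.an w (mem_ball hw)) (h.s1.ode w (mem_ball hw)) (h.s2.ode w (mem_ball hw))
  have key : ∀ f : ℂ → ℂ, (∀ w ∈ Sec, HasDerivAt f (4 * w ^ 7 / (1 - w ^ 8) * f w) w) →
      ∃ m, ∀ w ∈ Sec, f w = m * wr y₁ y₂ w := fun f hf => by
    refine ⟨f (1 / 2) / wr y₁ y₂ (1 / 2), fun w hw => (div_eq_iff (hW w hw)).1 ?_⟩
    refine const sec_open sec_convex (f := fun v => f v / wr y₁ y₂ v) (fun v hv => ?_) hw h0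
    refine ((hf v hv).fun_div (d0 v hv) (hW v hv)).congr_deriv ?_
    ring
  obtain ⟨m, hm⟩ := key (wr y y₂) fun w hw => wr_deriv hw.1 (han w hw)
    (h.s2.an w (mem_ball hw)) (hode w hw) (h.s2.ode w (mem_ball hw))
  obtain ⟨n, hn⟩ := key (wr y₁ y) fun w hw => wr_deriv hw.1 (h.s1.an w (mem_ball hw))
    (han w hw) (h.s1.ode w (mem_ball hw)) (hode w hw)
  refine ⟨m, n, fun w hw => mul_right_cancel₀ (hW w hw) ?_⟩
  have a1 := hm w hw
  have a2 := hn w hw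
  simp only [wr] at a1 a2 ⊢
  linear_combination y₁ w * a1 + y₂ w * a2

/-- The equation is invariant under `w ↦ sqrt (jm (w ^ 2))`. -/
theorem Sol.transform {y : ℂ → ℂ} (h : Sol y) {r k : ℂ → ℂ} (hr : AnalyticOnNhd ℂ r Sec)
    (hk : AnalyticOnNhd ℂ k Sec) (hrS : MapsTo r Sec Sec)
    (hr2 : ∀ w ∈ Sec, r w ^ 2 = jm (w ^ 2)) (hk2 : ∀ w ∈ Sec, k w ^ 2 * (1 + w ^ 2) = 1)
    {w : ℂ} (hw : w ∈ Sec) :
    (1 - w ^ 8) * deriv (deriv fun v => y (r v) * k v) w =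
      4 * w ^ 7 * deriv (fun v => y (r v) * k v) w + 2 * w ^ 6 * (y (r w) * k w) := by
  have dr := fun v (hv : v ∈ Sec) => r_deriv hr hrS hr2 hv
  have dk := fun v (hv : v ∈ Sec) => k_deriv hk hk2 hv
  have d0 := fun v (hv : v ∈ Sec) =>
    (h.an _ (mem_ball (hrS hv))).differentiableAt.hasDerivAt.comp v (dr v hv)
  have d1 : ∀ v ∈ Sec, deriv (fun v => y (r v) * k v) v =
      deriv y (r v) * (-2 * v / (1 + v ^ 2) ^ 2 / r v) * k v +
        y (r v) * (-v / (1 + v ^ 2) * k v) := fun v hv => ((d0 v hv).fun_mul (dk v hv)).deriv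
  have hs := ne_of_re (s_re hw)
  have hR := ne_of_re (hrS hw).2.1
  have da : HasDerivAt (fun v : ℂ => -2 * v / (1 + v ^ 2) ^ 2)
      ((6 * w ^ 2 - 2) / (1 + w ^ 2) ^ 3) w := by
    refine (((hasDerivAt_id' w).const_mul (-2)).fun_div ((sq_deriv w).fun_pow 2)
      (pow_ne_zero 2 hs)).congr_deriv ?_
    norm_num
    field_simp
    ring
  have dq : HasDerivAt (fun v : ℂ => -v / (1 + v ^ 2)) ((w ^ 2 - 1) / (1 + w ^ 2) ^ 2) w := by
    refine ((hasDerivAt_neg' w).fun_div (sq_deriv w) hs).congr_deriv ?_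
    ring
  have d2 := (((((h.an _ (mem_ball (hrS hw))).deriv.differentiableAt.hasDerivAt.comp w
    (dr w hw)).fun_mul (da.fun_div (dr w hw) hR)).fun_mul (dk w hw)).fun_add
    ((d0 w hw).fun_mul (dq.fun_mul (dk w hw)))).congr_of_eventuallyEq
    (eventually_of_mem (sec_open.mem_nhds hw) d1)
  rw [d2.deriv, d1 w hw]
  have o := h.ode _ (mem_ball (hrS hw))
  have t := hr2 w hw
  simp only [Function.comp_apply]
  rw [jm] at t
  generalize r w = R at *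
  generalize deriv (deriv y) R = Y2 at *
  generalize deriv y R = Y1 at *
  generalize y R = Y0 at *
  generalize k w = K at *
  have A : (1 - w ^ 8) * (-2 * w / (1 + w ^ 2) ^ 2 / R) ^ 2 = (1 + w ^ 2) ^ 2 / 2 * (1 - R ^ 8) := by
    have h1 : 1 - w ^ 2 ≠ 0 := fun e => hR (by
      rw [e, zero_div] at t
      exact pow_eq_zero_iff two_ne_zero |>.1 t)
    rw [div_pow, show R ^ 8 = (R ^ 2) ^ 4 by ring, t]
    field_simp
    ring
  have B : (1 + w ^ 2) ^ 2 / 2 * (4 * R ^ 7) + (1 - w ^ 8) *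
      (((6 * w ^ 2 - 2) / (1 + w ^ 2) ^ 3 * R - -2 * w / (1 + w ^ 2) ^ 2 *
        (-2 * w / (1 + w ^ 2) ^ 2 / R)) / R ^ 2 +
        2 * (-2 * w / (1 + w ^ 2) ^ 2 / R) * (-w / (1 + w ^ 2))) =
      4 * w ^ 7 * (-2 * w / (1 + w ^ 2) ^ 2 / R) := by
    have e1 : ∀ a b q c d e : ℂ, d * (R ^ 2) ^ 5 + c * (b * R ^ 2 - a ^ 2 + 2 * a * q * R ^ 2) =
        e * a * R ^ 2 → d * R ^ 7 + c * ((b * R - a * (a / R)) / R ^ 2 + 2 * (a / R) * q) =
        e * (a / R) := fun a b q c d e h1 => by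
      field_simp
      linear_combination h1
    rw [← mul_assoc]
    refine e1 _ _ _ _ _ _ ?_
    rw [t]
    field_simp
    ring
  have C : (1 + w ^ 2) ^ 2 / 2 * (2 * R ^ 6) + (1 - w ^ 8) *
      ((w ^ 2 - 1) / (1 + w ^ 2) ^ 2 + (-w / (1 + w ^ 2)) ^ 2) =
      4 * w ^ 7 * (-w / (1 + w ^ 2)) + 2 * w ^ 6 := by
    rw [show R ^ 6 = (R ^ 2) ^ 3 by ring, t]
    field_simp
    ring
  linear_combination Y2 * K * A + (1 + w ^ 2) ^ 2 / 2 * K * o + Y1 * K * B + Y0 * K * C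

theorem exists_rk : ∃ r k : ℂ → ℂ, AnalyticOnNhd ℂ r Sec ∧ AnalyticOnNhd ℂ k Sec ∧
    MapsTo r Sec Sec ∧ (∀ w ∈ Sec, r w ^ 2 = jm (w ^ 2)) ∧
    (∀ w ∈ Sec, k w ^ 2 * (1 + w ^ 2) = 1) ∧ ∀ w ∈ Sec, 0 < (k w).re := by
  have hj : ∀ w ∈ Sec, 0 < (jm (w ^ 2)).re ∧ ‖jm (w ^ 2)‖ < 1 := fun w hw =>
    jm_re (by rw [norm_pow]; exact pow_lt_one₀ (norm_nonneg w) hw.1 two_ne_zero) hw.2.2
  refine ⟨fun w => sqrt (jm (w ^ 2)), fun w => sqrt (1 + w ^ 2)⁻¹, fun w hw => ?_, fun w hw => ?_,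
    fun w hw => ⟨?_, sqrt_re (hj w hw).1, ?_⟩, fun w _ => sqrt_sq _, fun w hw => ?_,
    fun w hw => sqrt_re (inv_re_pos (s_re hw))⟩
  · exact sqrt_an ((analyticAt_const.sub (analyticAt_id.pow 2)).div
      (analyticAt_const.add (analyticAt_id.pow 2)) (ne_of_re (s_re hw))) (hj w hw).1
  · exact sqrt_an ((analyticAt_const.add (analyticAt_id.pow 2)).inv (ne_of_re (s_re hw)))
      (inv_re_pos (s_re hw))
  · refine lt_of_pow_lt_pow_left₀ 2 zero_le_one ?_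
    rw [← norm_pow, sqrt_sq, one_pow]
    exact (hj w hw).2
  · rw [sqrt_sq]
    exact (hj w hw).1
  · rw [sqrt_sq, inv_mul_cancel₀ (ne_of_re (s_re hw))]

theorem SolBasis.fe {y₁ y₂ : ℂ → ℂ} (h : SolBasis y₁ y₂) :
    ∃ m₁ m₂ m₃ m₄ : ℂ, ∀ w w' k : ℂ, w ∈ Sec → w' ∈ Sec → w' ^ 2 = jm (w ^ 2) → 0 < k.re →
      k ^ 2 * (1 + w ^ 2) = 1 →
      y₁ w' * k = m₁ * y₁ w + m₂ * y₂ w ∧ y₂ w' * k = m₃ * y₁ w + m₄ * y₂ w := by
  obtain ⟨r, k, hr, hk, hrS, hr2, hk2, hk3⟩ := exists_rk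
  have key : ∀ y, Sol y → ∃ m n : ℂ, ∀ w ∈ Sec, y (r w) * k w = m * y₁ w + n * y₂ w :=
    fun y hy => h.comb (fun w hw => ((hy.an _ (mem_ball (hrS hw))).comp (hr w hw)).mul (hk w hw))
      fun w hw => hy.transform hr hk hrS hr2 hk2 hw
  obtain ⟨m₁, m₂, h1⟩ := key y₁ h.s1
  obtain ⟨m₃, m₄, h2⟩ := key y₂ h.s2
  refine ⟨m₁, m₂, m₃, m₄, fun w w' k' hw hw' e1 e2 e3 => ?_⟩
  rw [eq_of_sq hw'.2.1 (hrS hw).2.1 (e1.trans (hr2 w hw).symm), eq_of_sq e2 (hk3 w hw)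
    (mul_right_cancel₀ (ne_of_re (s_re hw)) (e3.trans (hk2 w hw).symm))]
  exact ⟨h1 w hw, h2 w hw⟩

end Vale.Agent.P300
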