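import Vale.Agent.P300.Ode1
import Vale.Agent.P300.Ode2

/-! The monodromy preserves a disc. -/

namespace Vale.Agent.P300

open Topology Filter Set Complex

theorem o3_sec {w w' : ℂ} (h : ‖w‖ ^ 2 < 3 / 5) (h' : ‖w'‖ ^ 2 < 3 / 5) (h1 : 0 < w.re)
    (h2 : 0 < w'.re) (e : w' ^ 2 = jm (w ^ 2)) : w ∈ Sec ∧ w' ∈ Sec := by
  have k {z z' : ℂ} (hz : ‖z‖ < 1) (e : z' * (1 + z) = 1 - z) : 0 < z'.re := by
    have e1 := congrArg re e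
    have e2 := congrArg im e
    simp only [mul_re, mul_im, add_re, add_im, sub_re, sub_im, one_re, one_im] at e1 e2
    have e3 : z.re ^ 2 + z.im ^ 2 < 1 := by
      have := Complex.sq_norm z
      rw [normSq_apply] at this
      linarith [pow_lt_one₀ (norm_nonneg z) hz two_ne_zero]
    have e4 : z'.re * ((1 + z.re) ^ 2 + z.im ^ 2) = 1 - z.re ^ 2 - z.im ^ 2 := by
      linear_combination (1 + z.re) * e1 + z.im * e2
    by_contra e5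
    linarith [mul_nonneg (neg_nonneg.2 (not_lt.1 e5))
      (add_nonneg (sq_nonneg (1 + z.re)) (sq_nonneg z.im))]
  have a1 : ‖w ^ 2‖ < 1 := by rw [norm_pow]; linarith
  have a2 : ‖w' ^ 2‖ < 1 := by rw [norm_pow]; linarith
  have a3 : 1 + w ^ 2 ≠ 0 := fun e => by
    rw [eq_neg_of_add_eq_zero_right e, norm_neg, norm_one] at a1
    exact a1.false
  have a4 : w' ^ 2 * (1 + w ^ 2) = 1 - w ^ 2 := by rw [e, jm, div_mul_cancel₀ _ a3]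
  exact ⟨⟨lt_of_pow_lt_pow_left₀ 2 zero_le_one (by linarith), h1, k a2 (by linear_combination a4)⟩,
    lt_of_pow_lt_pow_left₀ 2 zero_le_one (by linarith), h2, k a1 a4⟩

theorem o3_real {y₁ y₂ : ℂ → ℂ} (h : SolBasis y₁ y₂) {w : ℝ} (h0 : 0 < w) (hw : w ^ 2 ≤ 3 / 5) :
    (w : ℂ) ∈ Sec ∧ ∃ p q : ℝ, y₁ w = p ∧ y₂ w = q ∧ 99 / 100 ≤ p ∧ p ≤ 101 / 100 ∧
      49 / 50 * w ≤ q ∧ q ≤ 51 / 50 * w := by
  have e : ‖(w : ℂ)‖ = w := by rw [norm_real, Real.norm_of_nonneg h0.le]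
  have e1 : y₁ w = (y₁ w).re := Complex.ext rfl (h.re1 w)
  have e2 : y₂ w = (y₂ w).re := Complex.ext rfl (h.re2 w)
  have b1 := (abs_re_le_norm _).trans (h.b1 w (by rwa [e]))
  have b2 := (abs_re_le_norm _).trans (h.b2 w (by rwa [e]))
  rw [e, sub_re, ofReal_re] at b2
  rw [sub_re, one_re] at b1
  obtain ⟨b3, b4⟩ := abs_le.1 b1
  obtain ⟨b5, b6⟩ := abs_le.1 b2
  exact ⟨⟨e.trans_lt (lt_of_pow_lt_pow_left₀ 2 zero_le_one (by linarith)), h0, by rw [← ofReal_pow]; exact pow_pos h0 2⟩, _, _, e1, e2,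
    by linarith, by linarith, by linarith, by linarith⟩

theorem o3_num {a b c p₁ p₂ q₁ q₂ : ℝ} (ha : 0 < a) (hb : 0 < b) (a2 : a ^ 2 = 5 / 8)
    (b2 : b ^ 2 = 4 / 5) (hc : 0 < c) (c2 : c ^ 2 = 3 / 5) (h1 : 99 / 100 ≤ p₁) (h2 : p₁ ≤ 101 / 100)
    (h3 : 49 / 50 * c ≤ p₂) (h5 : 99 / 100 ≤ q₁) (h6 : q₁ ≤ 101 / 100)
    (h7 : 49 / 50 * (1 / 2) ≤ q₂) (h8 : q₂ ≤ 51 / 50 * (1 / 2)) :
    p₁ * q₂ - q₁ * p₂ < 0 ∧ 0 < b * p₁ ^ 2 - a * q₁ ^ 2 ∧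
      b * p₁ ^ 2 - a * q₁ ^ 2 ≤ b * p₂ ^ 2 - a * q₂ ^ 2 := by
  have a3 : 79 / 100 ≤ a := le_of_pow_le_pow_left₀ two_ne_zero ha.le (by rw [a2]; norm_num)
  have a4 : a ≤ 8 / 10 := le_of_pow_le_pow_left₀ two_ne_zero (by norm_num) (by rw [a2]; norm_num)
  have b3 : 89 / 100 ≤ b := le_of_pow_le_pow_left₀ two_ne_zero hb.le (by rw [b2]; norm_num)
  have b4 : b ≤ 9 / 10 := le_of_pow_le_pow_left₀ two_ne_zero (by norm_num) (by rw [b2]; norm_num)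
  have c3 : 77 / 100 ≤ c := le_of_pow_le_pow_left₀ two_ne_zero hc.le (by rw [c2]; norm_num)
  have h4 : 75 / 100 ≤ p₂ := by linarith
  have d1 := mul_le_mul b3 (pow_le_pow_left₀ (by norm_num) h1 2) (by norm_num) hb.le
  have d2 := mul_le_mul b4 (pow_le_pow_left₀ (by linarith) h2 2) (by positivity) (by norm_num)
  have d3 := mul_le_mul a3 (pow_le_pow_left₀ (by norm_num) h5 2) (by norm_num) ha.le
  have d4 := mul_le_mul a4 (pow_le_pow_left₀ (by linarith) h6 2) (by positivity) (by norm_num)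
  have d5 := mul_le_mul b3 (pow_le_pow_left₀ (by norm_num) h4 2) (by norm_num) hb.le
  have d6 := mul_le_mul a4 (pow_le_pow_left₀ (by linarith) h8 2) (by positivity) (by norm_num)
  have d7 := mul_le_mul h2 h8 (by linarith) (by norm_num)
  have d8 := mul_le_mul h5 h4 (by norm_num) (by linarith)
  exact ⟨by linarith, by linarith, by linarith⟩

theorem exists_tri : ∃ (D : ℂ → ℂ) (a : ℝ), Tri D a := by
  obtain ⟨y₁, y₂, h⟩ := exists_solBasis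
  obtain ⟨m₁, m₂, m₃, m₄, hm⟩ := h.fe
  obtain ⟨-, k, -, -, -, -, hk, hk'⟩ := exists_rk
  have hs {t : ℝ} (ht : 0 < t) : ∃ a : ℝ, 0 < a ∧ a ^ 2 = t := ⟨√t, Real.sqrt_pos.2 ht, Real.sq_sqrt ht.le⟩
  obtain ⟨a, ha, a2⟩ := hs (t := 5 / 8) (by norm_num)
  obtain ⟨b, hb, b2⟩ := hs (t := 4 / 5) (by norm_num)
  obtain ⟨c, hc, c2⟩ := hs (t := 3 / 5) (by norm_num)
  obtain ⟨s1, p₁, p₂, e1, e2, h1, h2, h3, -⟩ := o3_real h hc c2.le
  obtain ⟨s2, q₁, q₂, e3, e4, h5, h6, h7, h8⟩ := o3_real h (w := 1 / 2) (by norm_num) (by norm_num)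
  obtain ⟨n1, n2, n3⟩ := o3_num ha hb a2 b2 hc c2 h1 h2 h3 h5 h6 h7 h8
  have c3 : (c : ℂ) ^ 2 = 3 / 5 := by rw [← ofReal_pow, c2]; norm_num
  obtain ⟨f1, f2⟩ := hm _ _ a s1 s2 (by rw [c3, jm]; norm_num) ha
    (by rw [c3, ← ofReal_pow, a2]; norm_num)
  obtain ⟨f3, f4⟩ := hm _ _ b s2 s1 (by rw [c3, jm]; norm_num) hb
    (by rw [← ofReal_pow, b2]; norm_num)
  rw [e1, e2] at f1 f2
  rw [e3, e4] at f3 f4
  rw [e3] at f1
  rw [e4] at f2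
  rw [e1] at f3
  rw [e2] at f4
  obtain ⟨ρ, hρ, ρ2⟩ := hs (div_pos (n2.trans_le n3) n2)
  rw [eq_div_iff n2.ne'] at ρ2
  have ρ1 : 1 ≤ ρ := le_of_pow_le_pow_left₀ two_ne_zero hρ.le
    (le_of_mul_le_mul_right (by rw [ρ2, one_pow, one_mul]; exact n3) n2)
  have n4 : (ρ * (b * p₁ ^ 2 - a * q₁ ^ 2)) ^ 2 < (a * q₁ * q₂ - b * p₁ * p₂) ^ 2 := by
    have := mul_pos (mul_pos ha hb) (sq_pos_of_neg n1)
    linear_combination this + (b * p₁ ^ 2 - a * q₁ ^ 2) * ρ2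
  have g1 : ((p₁ * q₂ - q₁ * p₂ : ℝ) : ℂ) * m₁ = (a * q₁ * q₂ - b * p₁ * p₂ : ℝ) := by
    push_cast; linear_combination p₂ * f3 - q₂ * f1
  have g2 : ((p₁ * q₂ - q₁ * p₂ : ℝ) : ℂ) * m₂ = (b * p₁ ^ 2 - a * q₁ ^ 2 : ℝ) := by
    push_cast; linear_combination q₁ * f1 - p₁ * f3
  have g3 : ((p₁ * q₂ - q₁ * p₂ : ℝ) : ℂ) * m₃ = -(ρ ^ 2 * (b * p₁ ^ 2 - a * q₁ ^ 2) : ℝ) := by
    rw [ρ2]; push_cast; linear_combination p₂ * f4 - q₂ * f2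
  have g4 : ((p₁ * q₂ - q₁ * p₂ : ℝ) : ℂ) * m₄ = -(a * q₁ * q₂ - b * p₁ * p₂ : ℝ) := by
    push_cast; linear_combination q₁ * f2 - p₁ * f4
  generalize a * q₁ * q₂ - b * p₁ * p₂ = n at n4 g1 g4
  generalize b * p₁ ^ 2 - a * q₁ ^ 2 = u at n4 g2 g3
  have hd := ofReal_ne_zero.2 n1.ne
  generalize ((p₁ * q₂ - q₁ * p₂ : ℝ) : ℂ) = d at g1 g2 g3 g4 hd
  have n0 : n ≠ 0 := fun e => by rw [e, zero_pow two_ne_zero] at n4; exact n4.not_ge (sq_nonneg _)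
  have n5 := ofReal_ne_zero.2 n0
  have r0 := ofReal_ne_zero.2 hρ.ne'
  have l1 (w : ℂ) (hw : ‖w‖ ^ 2 < 3 / 5) : 99 / 100 ≤ ‖y₁ w‖ := by
    have := norm_sub_norm_le 1 (y₁ w)
    rw [norm_one, norm_sub_rev] at this
    linarith [h.b1 w hw.le]
  have l2 (w : ℂ) (hw : ‖w‖ ^ 2 < 3 / 5) : y₁ w ≠ 0 := norm_pos_iff.1 (by linarith [l1 w hw])
  have l3 (w : ℂ) (hw : ‖w‖ ^ 2 < 3 / 5) : ‖w‖ < 4 / 5 :=
    lt_of_pow_lt_pow_left₀ 2 (by norm_num) (hw.trans (by norm_num))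
  have l4 (w : ℂ) (hw : ‖w‖ ^ 2 < 3 / 5) : w ∈ Metric.ball (0 : ℂ) 1 :=
    mem_ball_zero_iff.2 (by linarith [l3 w hw])
  refine ⟨fun w => y₂ w / (ρ * y₁ w), -(ρ * u / n), fun w hw => (h.s2.an w (l4 w hw)).div
    (analyticAt_const.mul (h.s1.an w (l4 w hw))) (mul_ne_zero r0 (l2 w hw)), fun w hw => ?_,
    fun w hw => ?_, by simp [h.v2], fun ζ w hζ => by rw [h.rot1 ζ w hζ, h.rot2 ζ w hζ, mul_div_assoc],
    ?_, fun w w' hw hw' k1 k2 e => ?_⟩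
  · rw [((h.s2.an w (l4 w hw)).differentiableAt.hasDerivAt.fun_div
      ((h.s1.an w (l4 w hw)).differentiableAt.hasDerivAt.const_mul (ρ : ℂ))
      (mul_ne_zero r0 (l2 w hw))).deriv]
    refine div_ne_zero (fun e => mul_ne_zero r0 (h.wronskian_ne (mem_ball_zero_iff.1 (l4 w hw))) ?_)
      (pow_ne_zero _ (mul_ne_zero r0 (l2 w hw)))
    linear_combination e
  · have := l1 w hw
    have := norm_sub_norm_le (y₂ w) w
    rw [norm_div, norm_mul, norm_real, Real.norm_of_nonneg hρ.le, div_lt_one (by positivity)]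
    linarith [h.b2 w hw.le, l3 w hw, le_mul_of_one_le_left (norm_nonneg (y₁ w)) ρ1]
  · rw [abs_neg, abs_div, div_lt_one (abs_pos.2 n0)]
    exact sq_lt_sq.1 n4
  · obtain ⟨t1, t2⟩ := o3_sec hw hw' k1 k2 e
    obtain ⟨t3, t4⟩ := hm w w' _ t1 t2 e (hk' w t1) (hk w t1)
    have k0 : k w ≠ 0 := fun e => (hk' w t1).ne' (by rw [e, zero_re])
    have := l2 w hw
    have := l2 w' hw'
    push_cast at g3 ⊢
    rw [show 1 - -(ρ * u / n : ℂ) * (y₂ w / (ρ * y₁ w)) = d * (y₁ w' * k w) / (n * y₁ w) by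
        rw [t3, mul_add, ← mul_assoc, ← mul_assoc, g1, g2]; field_simp; ring,
      show -(ρ * u / n : ℂ) - y₂ w / (ρ * y₁ w) = d * (y₂ w' * k w) / (n * ρ * y₁ w) by
        rw [t4, mul_add, ← mul_assoc, ← mul_assoc, g3, g4]; field_simp; ring]
    field_simp

end Vale.Agent.P300
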