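import Vale.Agent.P300.Basic

/-! The differential equation that uniformises the sphere with six points of order two. -/

namespace Vale.Agent.P300

open Topology Filter Set Complex

/-- `y` solves `(1 - w ^ 8) y'' = 4 w ^ 7 y' + 2 w ^ 6 y` in the unit disc. -/
structure Sol (y : ℂ → ℂ) : Prop where
  an : AnalyticOnNhd ℂ y (Metric.ball 0 1)
  ode : ∀ w ∈ Metric.ball (0 : ℂ) 1,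
    (1 - w ^ 8) * deriv (deriv y) w = 4 * w ^ 7 * deriv y w + 2 * w ^ 6 * y w

/-- The normalised basis of solutions. -/
structure SolBasis (y₁ y₂ : ℂ → ℂ) : Prop where
  s1 : Sol y₁
  s2 : Sol y₂
  v1 : y₁ 0 = 1
  v2 : y₂ 0 = 0
  d1 : deriv y₁ 0 = 0
  d2 : deriv y₂ 0 = 1
  rot1 : ∀ ζ w : ℂ, ζ ^ 8 = 1 → y₁ (ζ * w) = y₁ w
  rot2 : ∀ ζ w : ℂ, ζ ^ 8 = 1 → y₂ (ζ * w) = ζ * y₂ w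
  re1 : ∀ w : ℝ, (y₁ w).im = 0
  re2 : ∀ w : ℝ, (y₂ w).im = 0
  b1 : ∀ w : ℂ, ‖w‖ ^ 2 ≤ 3 / 5 → ‖y₁ w - 1‖ ≤ 1 / 100
  b2 : ∀ w : ℂ, ‖w‖ ^ 2 ≤ 3 / 5 → ‖y₂ w - w‖ ≤ ‖w‖ / 50

/-- The sector on which the functional equation holds. -/
def Sec : Set ℂ := {w | ‖w‖ < 1 ∧ 0 < w.re ∧ 0 < (w ^ 2).re}

/-- The developing map of one chart. -/
structure Tri (D : ℂ → ℂ) (a : ℝ) : Prop where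
  an : ∀ w : ℂ, ‖w‖ ^ 2 < 3 / 5 → AnalyticAt ℂ D w
  der : ∀ w : ℂ, ‖w‖ ^ 2 < 3 / 5 → deriv D w ≠ 0
  lt : ∀ w : ℂ, ‖w‖ ^ 2 < 3 / 5 → ‖D w‖ < 1
  zero : D 0 = 0
  rot : ∀ ζ w : ℂ, ζ ^ 8 = 1 → D (ζ * w) = ζ * D w
  abs : |a| < 1
  fe : ∀ w w' : ℂ, ‖w‖ ^ 2 < 3 / 5 → ‖w'‖ ^ 2 < 3 / 5 → 0 < w.re → 0 < w'.re →
    w' ^ 2 = jm (w ^ 2) → D w' = (a - D w) / (1 - a * D w)

/-- The atlas of the Fermat quartic by six charts. -/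
structure Atl (U : Fin 6 → Set (Pj CF)) (w : Fin 6 → Pj CF → ℂ) : Prop where
  op : ∀ i, IsOpen (U i)
  cov : ∀ b, ∃ i, b ∈ U i
  lt : ∀ i, ∀ b ∈ U i, ‖w i b‖ ^ 2 < 3 / 5
  base : pt ![1, 0, 1] y0_mem ∈ U 0 ∧ w 0 (pt ![1, 0, 1] y0_mem) = 0
  rel : ∀ i j, i ≠ j → (U i ∩ U j).Nonempty →
    ∃ k l : ℕ, ∀ b ∈ U i ∩ U j, w j b ^ 2 = I ^ l * jm (I ^ k * w i b ^ 2)
  amb : ∀ i, ∀ b ∈ U i, ∀ v, Rep b v → ∃ G : (Fin 3 → ℂ) → ℂ, AnalyticAt ℂ G v ∧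
    ∀ᶠ v' in 𝓝 v, ∀ b', Rep b' v' → w i b' = G v'
  inv : ∀ i, ∀ b ∈ U i, ∃ κ : ℂ → Fin 3 → ℂ, AnalyticAt ℂ κ (w i b) ∧
    (∀ᶠ a in 𝓝 (w i b), ∃ h : κ a ∈ CF, w i (pt (κ a) h) = a) ∧
    ∀ᶠ b' in 𝓝 b, Rep b' (κ (w i b'))

end Vale.Agent.P300
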