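import Vale.Agent.P300.Facts

/-! The Jacobian criterion on the exceptional curves. -/

namespace Vale.Agent.P300

open Topology Filter Set Complex

variable {z : W → ℂ}

namespace Sm1Aux

theorem cancel {a b : ℂ} (ha : a ≠ 0) (h : a * b = 0) : b = 0 := (mul_eq_zero.1 h).resolve_left ha

theorem core_S (hz : z ∈ MM) (h : z .e1 * z .e2 = 0) {δ : W → ℂ} (a1 : δ .eA = 0) (a2 : δ .eB = 0)
    (a3 : δ .s = 0) (a4 : δ .t = 0) (a5 : δ .be = 0) (a6 : δ .ka = 0) (d0 : dEq0 z δ = 0)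
    (d1 : dEq1 z δ = 0) (d3 : dEq3 z δ = 0) (dM : dEqM z δ = 0) (dX : dEqX z δ = 0)
    (D1 : dEw1 z δ = 0) (D2 : dEw2 z δ = 0)
    (h1 : z .eA ^ 8 * z .w1 * δ .w1 = z .e2 * z .be ^ 2 * mC z * δ .e2 → δ .w1 = 0 ∧ δ .e2 = 0)
    (h2 : z .eB ^ 8 * z .w2 * δ .w2 + z .e1 * z .s ^ 4 * z .X * δ .e1 = 0 →
      δ .w2 = 0 ∧ δ .e1 = 0) : δ = 0 := by
  have hsb : sb z = 0 := by rw [sb, h, zero_mul]
  have hbb : bb z = 0 := by rw [bb]; linear_combination z .e2 * z .be * h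
  obtain ⟨-, -, -, n1, n3, nA, nm, nB, -⟩ := facts_sb hz hsb
  obtain ⟨-, -, -, nX⟩ := facts_bb hz hbb
  have b1 : dPP z δ = 0 := by simp [dPP, a4, hsb]
  have b2 : dmC z δ = 0 := by simp [dmC, b1, hsb]
  have b3 : dm0 z δ = 0 := by simp [dm0, b1, hsb]
  have b4 : dkb z δ = 0 := by simp [dkb, a1, a2, a6]
  rw [dEq0, b1, a2] at d0
  rw [dEq1, b2, b3] at d1
  rw [dEq3, b2, b3] at d3
  rw [dEqM, b3, a1] at dM
  rw [dEqX, b4, hbb] at dX
  have c0 : δ .q = 0 := cancel nB (by linear_combination d0)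
  have c1 : δ .p1 = 0 := cancel (a := 4 * z .p1 ^ 3) (by simp [n1]) (by linear_combination d1)
  have c3 : δ .p3 = 0 := cancel (a := 4 * z .p3 ^ 3) (by simp [n3]) (by linear_combination d3)
  have cM : δ .mu = 0 :=
    cancel (a := 2 * z .eA ^ 2 * z .mu) (by simp [nA, nm]) (by linear_combination dM)
  have cX : δ .X = 0 := cancel (a := 4 * z .X ^ 3) (by simp [nX]) (by linear_combination dX)
  have b5 : dnn z δ = 0 := by simp [dnn, a3, c1, c3, b1]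
  rw [dEw1, dA1, dB1, a1, a5, b2, b5, cX] at D1
  rw [dEw2, dA2, dB2, a2, a3, a5, c1, c3, cX] at D2
  obtain ⟨c4, c5⟩ := h1 (by linear_combination D1 / 2)
  obtain ⟨c6, c7⟩ := h2 (by linear_combination D2 / 2)
  funext i
  cases i <;> assumption

theorem core_A (hz : z ∈ MM) (h : z .eA = 0) {δ : W → ℂ} (a1 : δ .eA = 0) (a2 : δ .eB = 0)
    (a3 : δ .s = 0) (a4 : δ .e1 = 0) (a5 : δ .be = 0) (a6 : δ .ka = 0) (a7 : δ .e2 = 0)
    (d0 : dEq0 z δ = 0)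
    (d1 : dEq1 z δ = 0) (d3 : dEq3 z δ = 0) (dM : dEqM z δ = 0) (dX : dEqX z δ = 0)
    (D1 : dEqA z δ = 0) (D2 : dEw2 z δ = 0)
    (h1 : z .w1 * U1 z * δ .w1 = 4 * z .e2 ^ 8 * z .be ^ 8 * z .mu ^ 7 * δ .mu →
      δ .w1 = 0 ∧ δ .mu = 0) : δ = 0 := by
  obtain ⟨hm0, hkb, -, -, -, nw, -⟩ := facts_eA hz h
  obtain ⟨-, nt, nP, -, n1, n3, nB, -⟩ := facts_m0 hz hm0
  obtain ⟨-, -, -, nX⟩ := facts_kb hz hkb
  have b0 : dsb z δ = 0 := by simp [dsb, a3, a4, a7]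
  rw [dEqM, dm0, dPP, b0, h] at dM
  have ct : δ .t = 0 :=
    cancel (a := 4 * PP z ^ 3 * z .t) (by simp [nP, nt]) (by linear_combination -dM)
  have b1 : dPP z δ = 0 := by simp [dPP, ct, b0]
  have b2 : dmC z δ = 0 := by simp [dmC, b1, b0]
  have b3 : dm0 z δ = 0 := by simp [dm0, b1, b0]
  have b4 : dbb z δ = 0 := by simp [dbb, a4, a5, a7]
  rw [dEq0, b1, a2] at d0
  rw [dEq1, b2, b3] at d1
  rw [dEq3, b2, b3] at d3
  rw [dEqX, b4, hkb] at dX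
  have c0 : δ .q = 0 := cancel nB (by linear_combination d0)
  have c1 : δ .p1 = 0 := cancel (a := 4 * z .p1 ^ 3) (by simp [n1]) (by linear_combination d1)
  have c3 : δ .p3 = 0 := cancel (a := 4 * z .p3 ^ 3) (by simp [n3]) (by linear_combination d3)
  have cX : δ .X = 0 := cancel (a := 4 * z .X ^ 3) (by simp [nX]) (by linear_combination dX)
  have b5 : dnn z δ = 0 := by simp [dnn, a3, c1, c3, b1]
  have b6 : dA1 z δ = 0 := by simp [dA1, a5, a7, b2]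
  have b7 : dB1 z δ = 0 := by simp [dB1, b5, cX]
  have b8 : dU1 z δ = 0 := by simp [dU1, b6, b7]
  rw [dEqA, b8, b5, a2, a5, a6, a7] at D1
  rw [dEw2, dA2, dB2, a2, a3, a4, a5, c1, c3, cX] at D2
  have c2 : δ .w2 = 0 :=
    cancel (a := 2 * z .eB ^ 8 * z .w2) (by simp [nB, nw]) (by linear_combination D2)
  obtain ⟨c4, c5⟩ := h1 (by linear_combination D1 / 2)
  funext i
  cases i <;> assumption

theorem core_B (hz : z ∈ MM) (h : z .eB = 0) {δ : W → ℂ} (a1 : δ .eA = 0) (a2 : δ .eB = 0)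
    (a3 : δ .s = 0) (a4 : δ .e1 = 0) (a5 : δ .be = 0) (a6 : δ .ka = 0) (a7 : δ .e2 = 0)
    (d0 : dEq0 z δ = 0)
    (d1 : dEq1 z δ = 0) (d3 : dEq3 z δ = 0) (dM : dEqM z δ = 0) (dX : dEqX z δ = 0)
    (D1 : dEw1 z δ = 0) (D2 : dEqB z δ = 0)
    (h1 : z .w2 * U2 z * δ .w2 = 4 * z .be ^ 8 * z .q ^ 7 * δ .q → δ .w2 = 0 ∧ δ .q = 0) :
    δ = 0 := by
  obtain ⟨hP, hkb, -, -, -, nw, -⟩ := facts_eB hz h
  obtain ⟨-, nt, -, n1, n3, nA, nm⟩ := facts_PP hz hP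
  obtain ⟨-, -, -, nX⟩ := facts_kb hz hkb
  have b0 : dsb z δ = 0 := by simp [dsb, a3, a4, a7]
  rw [dEq0, dPP, b0, h, a2] at d0
  have ct : δ .t = 0 := cancel (a := 2 * z .t) (by simp [nt]) (by linear_combination -d0)
  have b1 : dPP z δ = 0 := by simp [dPP, ct, b0]
  have b2 : dmC z δ = 0 := by simp [dmC, b1, b0]
  have b3 : dm0 z δ = 0 := by simp [dm0, b1, b0]
  have b4 : dbb z δ = 0 := by simp [dbb, a4, a5, a7]
  rw [dEq1, b2, b3] at d1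
  rw [dEq3, b2, b3] at d3
  rw [dEqM, b3, a1] at dM
  rw [dEqX, b4, hkb] at dX
  have c1 : δ .p1 = 0 := cancel (a := 4 * z .p1 ^ 3) (by simp [n1]) (by linear_combination d1)
  have c3 : δ .p3 = 0 := cancel (a := 4 * z .p3 ^ 3) (by simp [n3]) (by linear_combination d3)
  have cM : δ .mu = 0 :=
    cancel (a := 2 * z .eA ^ 2 * z .mu) (by simp [nA, nm]) (by linear_combination dM)
  have cX : δ .X = 0 := cancel (a := 4 * z .X ^ 3) (by simp [nX]) (by linear_combination dX)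
  have b5 : dnn z δ = 0 := by simp [dnn, a3, c1, c3, b1]
  have b6 : dA2 z δ = 0 := by simp [dA2, a5, c1, c3]
  have b7 : dB2 z δ = 0 := by simp [dB2, a3, a4, cX]
  have b8 : dU2 z δ = 0 := by simp [dU2, b6, b7]
  rw [dEw1, dA1, dB1, a1, a5, a7, b2, b5, cX] at D1
  rw [dEqB, b8, a1, a3, a4, a5, a6] at D2
  have c2 : δ .w1 = 0 :=
    cancel (a := 2 * z .eA ^ 8 * z .w1) (by simp [nA, nw]) (by linear_combination D1)
  obtain ⟨c4, c5⟩ := h1 (by linear_combination D2 / 2)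
  funext i
  cases i <;> assumption

end Sm1Aux

open Sm1Aux

theorem inj_S (hz : z ∈ MM) (h : z .e1 * z .e2 = 0) : Inj z (dEw1 z) (dEw2 z) := by
  have hsb : sb z = 0 := by rw [sb, h, zero_mul]
  have hbb : bb z = 0 := by rw [bb]; linear_combination z .e2 * z .be * h
  obtain ⟨-, -, nC, -, -, nA, -, nB, -⟩ := facts_sb hz hsb
  obtain ⟨-, -, -, nX⟩ := facts_bb hz hbb
  obtain ⟨-, f1, f2⟩ := facts_S hz hsb hbb
  have k1 : z .w1 ≠ 0 → ∀ δ : W → ℂ, δ .e2 = 0 →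
      z .eA ^ 8 * z .w1 * δ .w1 = z .e2 * z .be ^ 2 * mC z * δ .e2 → δ .w1 = 0 ∧ δ .e2 = 0 :=
    fun n δ a e => ⟨cancel (a := z .eA ^ 8 * z .w1) (by simp [nA, n]) (by rw [e, a, mul_zero]), a⟩
  have k2 : z .w2 ≠ 0 → ∀ δ : W → ℂ, δ .e1 = 0 →
      z .eB ^ 8 * z .w2 * δ .w2 + z .e1 * z .s ^ 4 * z .X * δ .e1 = 0 → δ .w2 = 0 ∧ δ .e1 = 0 :=
    fun n δ a e => ⟨cancel (a := z .eB ^ 8 * z .w2) (by simp [nB, n])
      (by rwa [a, mul_zero, add_zero] at e), a⟩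
  by_cases h1 : z .w1 = 0
  · have n2 : z .e2 ≠ 0 := fun e => (f2 e).2 h1
    obtain ⟨nb, nw⟩ := f1 ((mul_eq_zero.1 h).resolve_right n2)
    refine ⟨{.q, .p1, .p3, .mu, .X, .e2, .w2}, by decide, fun δ hδ d0 d1 d3 dM dX D1 D2 =>
      core_S hz h (hδ _ (by decide)) (hδ _ (by decide)) (hδ _ (by decide)) (hδ _ (by decide))
        (hδ _ (by decide)) (hδ _ (by decide)) d0 d1 d3 dM dX D1 D2
        (fun e => ⟨hδ _ (by decide), cancel (a := z .e2 * z .be ^ 2 * mC z) (by simp [n2, nb, nC])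
          (by rw [← e, h1, mul_zero, zero_mul])⟩) (k2 nw δ (hδ _ (by decide)))⟩
  by_cases h2 : z .w2 = 0
  · have n1 : z .e1 ≠ 0 := fun e => (f1 e).2 h2
    obtain ⟨ns, -⟩ := f2 ((mul_eq_zero.1 h).resolve_left n1)
    refine ⟨{.q, .p1, .p3, .mu, .X, .w1, .e1}, by decide, fun δ hδ d0 d1 d3 dM dX D1 D2 =>
      core_S hz h (hδ _ (by decide)) (hδ _ (by decide)) (hδ _ (by decide)) (hδ _ (by decide))
        (hδ _ (by decide)) (hδ _ (by decide)) d0 d1 d3 dM dX D1 D2 (k1 h1 δ (hδ _ (by decide)))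
        fun e => ⟨hδ _ (by decide), cancel (a := z .e1 * z .s ^ 4 * z .X) (by simp [n1, ns, nX])
          (by rwa [h2, mul_zero, zero_mul, zero_add] at e)⟩⟩
  · exact ⟨{.q, .p1, .p3, .mu, .X, .w1, .w2}, by decide, fun δ hδ d0 d1 d3 dM dX D1 D2 =>
      core_S hz h (hδ _ (by decide)) (hδ _ (by decide)) (hδ _ (by decide)) (hδ _ (by decide))
        (hδ _ (by decide)) (hδ _ (by decide)) d0 d1 d3 dM dX D1 D2 (k1 h1 δ (hδ _ (by decide)))
        (k2 h2 δ (hδ _ (by decide)))⟩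

theorem inj_A (hz : z ∈ MM) (h : z .eA = 0) : Inj z (dEqA z) (dEw2 z) := by
  obtain ⟨-, hkb, -, -, nU, -, -, f⟩ := facts_eA hz h
  obtain ⟨-, n2, nb, -⟩ := facts_kb hz hkb
  by_cases h1 : z .w1 = 0
  · have nm := (f h1).1
    exact ⟨{.t, .p1, .p3, .q, .X, .w2, .mu}, by decide, fun δ hδ d0 d1 d3 dM dX D1 D2 =>
      core_A hz h (hδ _ (by decide)) (hδ _ (by decide)) (hδ _ (by decide)) (hδ _ (by decide))
        (hδ _ (by decide)) (hδ _ (by decide)) (hδ _ (by decide)) d0 d1 d3 dM dX D1 D2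
        fun e => ⟨hδ _ (by decide), cancel (a := 4 * z .e2 ^ 8 * z .be ^ 8 * z .mu ^ 7)
          (by simp [n2, nb, nm]) (by rw [← e, h1, zero_mul, zero_mul])⟩⟩
  · exact ⟨{.t, .p1, .p3, .q, .X, .w2, .w1}, by decide, fun δ hδ d0 d1 d3 dM dX D1 D2 =>
      core_A hz h (hδ _ (by decide)) (hδ _ (by decide)) (hδ _ (by decide)) (hδ _ (by decide))
        (hδ _ (by decide)) (hδ _ (by decide)) (hδ _ (by decide)) d0 d1 d3 dM dX D1 D2
        fun e => ⟨cancel (mul_ne_zero h1 nU) (by rw [e, hδ .mu (by decide), mul_zero]),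
          hδ _ (by decide)⟩⟩

theorem inj_B (hz : z ∈ MM) (h : z .eB = 0) : Inj z (dEw1 z) (dEqB z) := by
  obtain ⟨-, hkb, -, -, nU, -, -, f⟩ := facts_eB hz h
  obtain ⟨-, -, nb, -⟩ := facts_kb hz hkb
  by_cases h1 : z .w2 = 0
  · have nq := (f h1).1
    exact ⟨{.t, .p1, .p3, .mu, .X, .w1, .q}, by decide, fun δ hδ d0 d1 d3 dM dX D1 D2 =>
      core_B hz h (hδ _ (by decide)) (hδ _ (by decide)) (hδ _ (by decide)) (hδ _ (by decide))
        (hδ _ (by decide)) (hδ _ (by decide)) (hδ _ (by decide)) d0 d1 d3 dM dX D1 D2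
        fun e => ⟨hδ _ (by decide), cancel (a := 4 * z .be ^ 8 * z .q ^ 7)
          (by simp [nb, nq]) (by rw [← e, h1, zero_mul, zero_mul])⟩⟩
  · exact ⟨{.t, .p1, .p3, .mu, .X, .w1, .w2}, by decide, fun δ hδ d0 d1 d3 dM dX D1 D2 =>
      core_B hz h (hδ _ (by decide)) (hδ _ (by decide)) (hδ _ (by decide)) (hδ _ (by decide))
        (hδ _ (by decide)) (hδ _ (by decide)) (hδ _ (by decide)) d0 d1 d3 dM dX D1 D2
        fun e => ⟨cancel (mul_ne_zero h1 nU) (by rw [e, hδ .q (by decide), mul_zero]),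
          hδ _ (by decide)⟩⟩

end Vale.Agent.P300
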